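import Crest.Agent.R176.Sys

/-!
# Row 176: the algebra of a system  (task R176-Alg)

`S.Alg` is the `ZMod 2`-algebra presented by the moves and the zero pairs of `S`; it is the contracted semigroup
algebra: the classes of nonzero words form a basis.  We only expose the universal property `lift`.

Plan.  `gen_rep`: `RingQuot.mkAlgHom_rel`.  `span_ev`: `RingQuot.mkAlgHom_surjective` + `FreeAlgebra.induction`.
`exists_lift`: let `C := Quot S.Step` (classes of words, `Quot.eq` gives `EqvGen`), `V := C →₀ ZMod 2`, and let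
`nf w : V := if S.IsZero w then 0 else single (mk w) 1`.  The letter `a` acts on `V` by the linear map
`single (mk w) 1 ↦ nf (a :: w)` (`Finsupp.lift`/`Finsupp.linearCombination` with `Quot.lift`); these operators
satisfy the relations on the nose (`l a (nf w) = nf (a :: w)`), so `RingQuot.liftAlgHom` gives
`ρ : S.Alg →ₐ Module.End (ZMod 2) V` with `ρ (ev w) (nf v) = nf (w ++ v)`.  Take
`L x := (Finsupp.linearCombination _ (Quot.lift f h1)) (ρ x (nf []))`.
-/

set_option autoImplicit false

namespace Crest.Agent.R176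

namespace Sys

variable {α : Type} [Fintype α] (S : Sys α)

abbrev FA (α : Type) [Fintype α] : Type := FreeAlgebra (ZMod 2) (Fin (Fintype.card α))

noncomputable def fι (a : α) : FA α := FreeAlgebra.ι (ZMod 2) (Fintype.equivFin α a)

open Classical in
noncomputable def relF : Finset (FA α × FA α) :=
  (Finset.univ.filter fun t : α × α × α × α => S.mv t.1 t.2.1 t.2.2.1 t.2.2.2).image
      (fun t => (fι t.1 * fι t.2.1, fι t.2.2.1 * fι t.2.2.2)) ∪
    (Finset.univ.filter fun t : α × α => S.zr t.1 t.2).image (fun t => (fι t.1 * fι t.2, 0))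

/-- the algebra presented by the system -/
def Alg : Type := RingQuot fun x y : FA α => (x, y) ∈ S.relF

noncomputable instance : Ring S.Alg := inferInstanceAs (Ring (RingQuot fun x y : FA α => (x, y) ∈ S.relF))

noncomputable instance : Algebra (ZMod 2) S.Alg :=
  inferInstanceAs (Algebra (ZMod 2) (RingQuot fun x y : FA α => (x, y) ∈ S.relF))

noncomputable def gen (a : α) : S.Alg :=
  RingQuot.mkAlgHom (ZMod 2) (fun x y : FA α => (x, y) ∈ S.relF) (fι a)

noncomputable def ev (w : List α) : S.Alg := (w.map S.gen).prod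

@[simp] theorem ev_nil : S.ev [] = 1 := rfl

theorem ev_cons (a : α) (w : List α) : S.ev (a :: w) = S.gen a * S.ev w := by simp [ev]

theorem ev_append (u v : List α) : S.ev (u ++ v) = S.ev u * S.ev v := by simp [ev]

theorem gen_rep : S.Rep S.gen := by
  classical
  refine ⟨fun y z y' z' h => ?_, fun y z h => ?_⟩
  · refine (map_mul _ _ _).symm.trans ((RingQuot.mkAlgHom_rel (ZMod 2)
      (s := fun x y : FA α => (x, y) ∈ S.relF) ?_).trans (map_mul _ _ _))
    simp only [relF, Finset.mem_union, Finset.mem_image, Finset.mem_filter, Finset.mem_univ, true_and]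
    exact Or.inl ⟨(y, z, y', z'), h, rfl⟩
  · refine (map_mul _ _ _).symm.trans ((RingQuot.mkAlgHom_rel (ZMod 2)
      (s := fun x y : FA α => (x, y) ∈ S.relF) (y := 0) ?_).trans (map_zero _))
    simp only [relF, Finset.mem_union, Finset.mem_image, Finset.mem_filter, Finset.mem_univ, true_and]
    exact Or.inr ⟨(y, z), h, rfl⟩

theorem span_ev : Submodule.span (ZMod 2) (Set.range S.ev) = ⊤ := by
  refine eq_top_iff.2 fun x _ => ?_
  obtain ⟨y, rfl⟩ := RingQuot.mkAlgHom_surjective (ZMod 2) (fun x y : FA α => (x, y) ∈ S.relF) x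
  induction y using FreeAlgebra.induction with
  | grade0 r =>
    rw [AlgHom.commutes, Algebra.algebraMap_eq_smul_one]
    exact Submodule.smul_mem _ _ (Submodule.subset_span ⟨[], rfl⟩)
  | grade1 i =>
    refine Submodule.subset_span ⟨[(Fintype.equivFin α).symm i], ?_⟩
    simp [ev, gen, fι]
  | mul a b ha hb =>
    rw [map_mul]
    have := Submodule.mul_mem_mul (ha trivial) (hb trivial)
    rw [Submodule.span_mul_span] at this
    refine Submodule.span_mono ?_ this
    rintro _ ⟨_, ⟨u, rfl⟩, _, ⟨v, rfl⟩, rfl⟩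
    exact ⟨u ++ v, S.ev_append u v⟩
  | add a b ha hb =>
    rw [map_add]
    exact Submodule.add_mem _ (ha trivial) (hb trivial)

theorem exists_lift {M : Type} [AddCommGroup M] [Module (ZMod 2) M] (f : List α → M)
    (h1 : ∀ w w', S.Step w w' → f w = f w') (h2 : ∀ w, S.HasZ w → f w = 0) :
    ∃ L : S.Alg →ₗ[ZMod 2] M, ∀ w, L (S.ev w) = f w := by
  classical
  let nf : List α → (Quot S.Step →₀ ZMod 2) := fun w =>
    if S.IsZero w then 0 else Finsupp.single (Quot.mk _ w) 1
  have nf_step : ∀ w w', S.Step w w' → nf w = nf w' := fun w w' h => by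
    simp only [nf, h.eqv.isZero_iff, Quot.sound h]
  let l : α → Module.End (ZMod 2) (Quot S.Step →₀ ZMod 2) := fun a =>
    Finsupp.linearCombination (ZMod 2) (Quot.lift (fun w => nf (a :: w)) fun w w' h =>
      nf_step _ _ (by simpa using h.append [a] []))
  have l_single : ∀ a w, l a (Finsupp.single (Quot.mk _ w) 1) = nf (a :: w) := fun a w => by
    simp [l]
  have l_nf : ∀ a w, l a (nf w) = nf (a :: w) := fun a w => by
    by_cases h : S.IsZero w
    · have h' : S.IsZero (a :: w) := h.append_left [a]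
      simp only [nf, if_pos h, if_pos h', map_zero]
    · rw [← l_single]; simp only [nf, if_neg h]
  have ext : ∀ φ ψ : Module.End (ZMod 2) (Quot S.Step →₀ ZMod 2),
      (∀ w, φ (Finsupp.single (Quot.mk _ w) 1) = ψ (Finsupp.single (Quot.mk _ w) 1)) → φ = ψ :=
    fun φ ψ h => Finsupp.lhom_ext' fun c => LinearMap.ext_ring (by
      induction c using Quot.ind with
      | mk w => exact h w)
  let ρ₀ : FA α →ₐ[ZMod 2] Module.End (ZMod 2) (Quot S.Step →₀ ZMod 2) :=
    FreeAlgebra.lift (ZMod 2) fun i => l ((Fintype.equivFin α).symm i)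
  have ρ₀ι : ∀ a, ρ₀ (fι a) = l a := fun a => by simp [ρ₀, fι]
  let ρ : S.Alg →ₐ[ZMod 2] Module.End (ZMod 2) (Quot S.Step →₀ ZMod 2) :=
    RingQuot.liftAlgHom (ZMod 2) ⟨ρ₀, fun x y hxy => by
      simp only [relF, Finset.mem_union, Finset.mem_image, Finset.mem_filter, Finset.mem_univ,
        true_and, Prod.mk.injEq] at hxy
      rcases hxy with ⟨⟨a, b, a', b'⟩, h, rfl, rfl⟩ | ⟨⟨a, b⟩, h, rfl, rfl⟩
      · refine ext _ _ fun w => ?_
        simp only [map_mul, ρ₀ι, Module.End.mul_apply, l_single, l_nf]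
        exact nf_step _ _ (Step.mk [] w h)
      · refine ext _ _ fun w => ?_
        simp only [map_mul, ρ₀ι, Module.End.mul_apply, l_single, l_nf, map_zero,
          LinearMap.zero_apply]
        exact if_pos (HasZ.isZero ⟨[], a, b, w, rfl, h⟩)⟩
  have ρgen : ∀ a, ρ (S.gen a) = l a := fun a =>
    (RingQuot.liftAlgHom_mkAlgHom_apply _ _ _ _).trans (ρ₀ι a)
  have ρev : ∀ w, ρ (S.ev w) (nf []) = nf w := fun w => by
    induction w with
    | nil => simp
    | cons a w ih => rw [ev_cons, map_mul, Module.End.mul_apply, ih, ρgen, l_nf]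
  refine ⟨(Finsupp.linearCombination (ZMod 2) (Quot.lift f h1)) ∘ₗ
    (LinearMap.applyₗ (nf [])) ∘ₗ ρ.toLinearMap, fun w => ?_⟩
  simp only [LinearMap.comp_apply, AlgHom.toLinearMap_apply, LinearMap.applyₗ_apply_apply, ρev]
  by_cases h : S.IsZero w
  · obtain ⟨w', e, hz⟩ := id h
    simp only [nf, if_pos h, map_zero]
    rw [Eqv.apply_eq h1 e, h2 _ hz]
  · simp [nf, h]

variable {S}

theorem ev_eq {w w' : List α} (h : S.Eqv w w') : S.ev w = S.ev w' := S.gen_rep.prod_eq h

theorem ev_zero {w : List α} (h : S.IsZero w) : S.ev w = 0 := S.gen_rep.prod_zero h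

theorem lin_ext {M : Type} [AddCommGroup M] [Module (ZMod 2) M] {L L' : S.Alg →ₗ[ZMod 2] M}
    (h : ∀ w, L (S.ev w) = L' (S.ev w)) : L = L' :=
  LinearMap.ext_on_range S.span_ev h

variable (S)

open Classical in
/-- the linear map with prescribed values on words (junk if there is none) -/
noncomputable def lift {M : Type} [AddCommGroup M] [Module (ZMod 2) M] (f : List α → M) :
    S.Alg →ₗ[ZMod 2] M :=
  if h : ∃ L : S.Alg →ₗ[ZMod 2] M, ∀ w, L (S.ev w) = f w then h.choose else 0

variable {S}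

theorem lift_ev {M : Type} [AddCommGroup M] [Module (ZMod 2) M] {f : List α → M}
    (h1 : ∀ w w', S.Eqv w w' → f w = f w') (h2 : ∀ w, S.IsZero w → f w = 0) (w : List α) :
    S.lift f (S.ev w) = f w := by
  have h := S.exists_lift f (fun w w' h => h1 w w' h.eqv) (fun w h => h2 w h.isZero)
  rw [lift, dif_pos h]
  exact h.choose_spec w

variable (S)

open Classical in
/-- the coefficient of the class of `w₀` -/
noncomputable def coef (w₀ : List α) : S.Alg →ₗ[ZMod 2] ZMod 2 :=
  S.lift fun w => if S.Eqv w w₀ ∧ ¬ S.IsZero w then 1 else 0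

/-- the homogeneous component of degree `d` -/
noncomputable def pr (d : ℕ) : S.Alg →ₗ[ZMod 2] S.Alg :=
  S.lift fun w => if w.length = d then S.ev w else 0

variable {S}

open Classical in
theorem coef_ev (w₀ w : List α) :
    S.coef w₀ (S.ev w) = if S.Eqv w w₀ ∧ ¬ S.IsZero w then 1 else 0 := by
  refine lift_ev (f := fun w => if S.Eqv w w₀ ∧ ¬ S.IsZero w then (1 : ZMod 2) else 0)
    (fun w w' h => ?_) (fun w h => by simp [h]) w
  have : (S.Eqv w w₀ ∧ ¬ S.IsZero w) ↔ (S.Eqv w' w₀ ∧ ¬ S.IsZero w') :=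
    and_congr ⟨fun e => h.symm.trans e, fun e => h.trans e⟩ (not_congr h.isZero_iff)
  simp only [this]

theorem pr_ev (d : ℕ) (w : List α) : S.pr d (S.ev w) = if w.length = d then S.ev w else 0 := by
  refine lift_ev (f := fun w => if w.length = d then S.ev w else 0)
    (fun w w' h => ?_) (fun w h => by simp [ev_zero h]) w
  simp only [h.length_eq, ev_eq h]

theorem ev_ne_zero {w : List α} (h : ¬ S.IsZero w) : S.ev w ≠ 0 := fun h0 => by
  have := coef_ev (S := S) w w
  rw [h0, map_zero, if_pos ⟨Eqv.refl w, h⟩] at this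
  exact zero_ne_one this

/-- every element is a sum of pairwise inequivalent nonzero words -/
theorem exists_sum (x : S.Alg) : ∃ s : Finset (List α), x = ∑ w ∈ s, S.ev w ∧ (∀ w ∈ s, ¬ S.IsZero w) ∧
    ∀ w ∈ s, ∀ w' ∈ s, S.Eqv w w' → w = w' := by
  classical
  let rep : List α → List α := fun w => (Quot.mk S.Step w).out
  have h1 : ∀ w, S.Eqv (rep w) w := fun w => Quot.eqvGen_exact (Quot.out_eq _)
  have h2 : ∀ w w', S.Eqv w w' → rep w = rep w' := fun w w' h =>
    congrArg Quot.out (Quot.eqvGen_sound h)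
  have hx : x ∈ Submodule.span (ZMod 2) (S.ev '' {w | ¬ S.IsZero w ∧ rep w = w}) := by
    refine (Submodule.span_le.2 ?_ : Submodule.span (ZMod 2) (Set.range S.ev) ≤ _)
      (S.span_ev ▸ Submodule.mem_top)
    rintro _ ⟨w, rfl⟩
    by_cases h : S.IsZero w
    · rw [ev_zero h]; exact Submodule.zero_mem _
    · exact Submodule.subset_span ⟨rep w, ⟨fun h' => h ((h1 w).isZero_iff.1 h'), h2 _ _ (h1 w)⟩,
        ev_eq (h1 w)⟩
  obtain ⟨l, hl, rfl⟩ := (Finsupp.mem_span_image_iff_linearCombination _).1 hx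
  have h3 : ∀ c : ZMod 2, c ≠ 0 → c = 1 := by decide
  refine ⟨l.support, ?_, fun w hw => (hl hw).1, fun w hw w' hw' e => ?_⟩
  · rw [Finsupp.linearCombination_apply, Finsupp.sum]
    exact Finset.sum_congr rfl fun w hw => by rw [h3 _ (Finsupp.mem_support_iff.1 hw), one_smul]
  · rw [← (hl hw).2, ← (hl hw').2, h2 _ _ e]

theorem coef_sum {s : Finset (List α)} (h1 : ∀ w ∈ s, ¬ S.IsZero w)
    (h2 : ∀ w ∈ s, ∀ w' ∈ s, S.Eqv w w' → w = w') {w₀ : List α} (h : w₀ ∈ s) :
    S.coef w₀ (∑ w ∈ s, S.ev w) = 1 := by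
  rw [map_sum, Finset.sum_eq_single_of_mem w₀ h fun w hw hne => ?_]
  · rw [coef_ev, if_pos ⟨Eqv.refl _, h1 _ h⟩]
  · rw [coef_ev, if_neg fun hc => hne (h2 _ hw _ h hc.1)]

theorem eq_zero_of_coef {x : S.Alg} (h : ∀ w, S.coef w x = 0) : x = 0 := by
  obtain ⟨s, rfl, h1, h2⟩ := exists_sum x
  rcases s.eq_empty_or_nonempty with rfl | ⟨w, hw⟩
  · simp
  · exact absurd ((coef_sum h1 h2 hw).symm.trans (h w)) one_ne_zero

/-- an element lies in the span of the words of an invariant set iff its other coefficients vanish -/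
theorem mem_span_of_coef {P : List α → Prop} {x : S.Alg} (h : ∀ w, S.coef w x ≠ 0 → P w) :
    x ∈ Submodule.span (ZMod 2) (S.ev '' {w | P w}) := by
  obtain ⟨s, rfl, h1, h2⟩ := exists_sum x
  exact Submodule.sum_mem _ fun w hw => Submodule.subset_span
    ⟨w, h w (by rw [coef_sum h1 h2 hw]; exact one_ne_zero), rfl⟩

end Sys

end Crest.Agent.R176
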