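import Crest.Agent.R176.Alg

/-!
# Row 176: grading of the algebra, nilpotence of matrices  (task R176-AlgGr)

* `grading`: `gr d` is the span of the words of length `d`.  Build the decomposition with
  `GradedAlgebra.ofAlgHom` or `DirectSum.Decomposition.ofLinearMap` from
  `S.lift fun w => DirectSum.of _ w.length ⟨ev w, _⟩` (linear map into `⨁ d, gr d`), plus `SetLike.GradedMonoid`.
* `matrix_nilpotent` (Higman linearisation over `KK = F₂[t]`).  The entries of `A` are sums of nonempty words of
  length `≤ D`: `A = ∑ w, C w • ev w` with `C w : Matrix ι ι (ZMod 2)`, `C w = 0` for `w = []` or `D < |w|`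
  (`exists_sum`, `coef`).  States `Q := ι × {p : List α // |p| ≤ D}` (a `Fintype`, `List.finite_length_le`), base
  states `(i, [])`.  `T := Matrix Q Q KK`, `B := Matrix Q Q (Polynomial S.Alg)`, `j` = entrywise
  `Polynomial.mapRingHom (algebraMap _ _)`, `g a` = scalar matrix `C (gen a)`,
  `μ a (i,p) (i',p') = [i' = i ∧ p' = p ++ [a]] + [p' = []] * X * C (p ++ [a]) i i'`.
  `Nil` gives `N ^ K = 0` for `N = ∑ a, j (μ a) * g a`, so `U = ∑ k < K, N ^ k` satisfies `U = 1 + N * U`.  With
  `u p : Matrix ι ι (Polynomial S.Alg) := fun i i' => U (i,p) (i',[])`, downward induction on `|p|` gives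
  `u p = [p = []] + X * (∑ w ≠ [], C (p ++ w) • ev w) * u []`, so `u [] = 1 + X * A * u []`, hence
  `coeff (u []) r = A ^ r` entrywise, which vanishes for large `r`.  Any other linearisation is fine.
-/

set_option autoImplicit false

namespace Crest.Agent.R176

namespace Sys

variable {α : Type} [Fintype α] (S : Sys α)

/-- the span of the words of length `d` -/
noncomputable def gr (d : ℕ) : Submodule (ZMod 2) S.Alg :=
  Submodule.span (ZMod 2) (S.ev '' {w | w.length = d})

theorem ev_mem_gr (w : List α) : S.ev w ∈ S.gr w.length := Submodule.subset_span ⟨w, rfl, rfl⟩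

theorem exists_grading : ∃ _ : GradedAlgebra S.gr, ∀ (d : ℕ) (x : S.Alg), GradedRing.proj S.gr d x = S.pr d x := by
  let dec : S.Alg →ₗ[ZMod 2] DirectSum ℕ fun d => S.gr d :=
    S.lift fun w => DirectSum.lof (ZMod 2) ℕ (fun d => S.gr d) w.length ⟨S.ev w, S.ev_mem_gr w⟩
  have aux : ∀ d d' x x' (hx : x ∈ S.gr d) (hx' : x' ∈ S.gr d'), d = d' → x = x' →
      DirectSum.lof (ZMod 2) ℕ (fun d => S.gr d) d ⟨x, hx⟩ =
        DirectSum.lof (ZMod 2) ℕ (fun d => S.gr d) d' ⟨x', hx'⟩ := by
    rintro d _ x _ hx hx' rfl rfl; rfl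
  have dec_ev : ∀ w, dec (S.ev w) =
      DirectSum.lof (ZMod 2) ℕ (fun d => S.gr d) w.length ⟨S.ev w, S.ev_mem_gr w⟩ :=
    lift_ev (fun w w' h => aux _ _ _ _ _ _ h.length_eq (ev_eq h)) fun w h =>
      (aux _ _ _ _ _ (Submodule.zero_mem _) rfl (ev_zero h)).trans (map_zero _)
  have dec_mem : ∀ d x (hx : x ∈ S.gr d),
      dec x = DirectSum.lof (ZMod 2) ℕ (fun d => S.gr d) d ⟨x, hx⟩ := fun d x hx => by
    induction hx using Submodule.span_induction with
    | mem x hx =>
      obtain ⟨w, rfl, rfl⟩ := hx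
      exact dec_ev w
    | zero => exact (map_zero _).trans (map_zero _).symm
    | add x y _ _ hx hy => rw [map_add, hx, hy, ← map_add]; rfl
    | smul c x _ hx => rw [map_smul, hx, ← map_smul]; rfl
  let D : DirectSum.Decomposition S.gr := DirectSum.Decomposition.ofLinearMap S.gr dec
    (lin_ext fun w => by simp [dec_ev])
    (DirectSum.linearMap_ext _ fun d => LinearMap.ext fun x => by
      simp only [LinearMap.comp_apply, DirectSum.coeLinearMap_lof, LinearMap.id_apply]
      exact dec_mem d x x.2)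
  let G : SetLike.GradedMonoid S.gr :=
    { one_mem := S.ev_mem_gr []
      mul_mem := fun i j x y hx hy => by
        have := Submodule.mul_mem_mul hx hy
        rw [gr, gr, Submodule.span_mul_span] at this
        refine Submodule.span_mono ?_ this
        rintro _ ⟨_, ⟨u, rfl, rfl⟩, _, ⟨v, rfl, rfl⟩, rfl⟩
        exact ⟨u ++ v, List.length_append, S.ev_append u v⟩ }
  refine ⟨@GradedRing.mk _ _ _ _ _ _ _ _ _ G D, fun d x => ?_⟩
  have : (S.gr d).subtype ∘ₗ DirectSum.component (ZMod 2) ℕ (fun d => S.gr d) d ∘ₗ dec = S.pr d :=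
    lin_ext fun w => by
      rw [pr_ev, LinearMap.comp_apply, LinearMap.comp_apply, dec_ev]
      split_ifs with h
      · subst h
        rw [DirectSum.component.lof_self]; rfl
      · rw [DirectSum.component.of, dif_neg h, map_zero]
  rw [← this]
  rfl

theorem gr_zero : S.gr 0 = 1 := by
  rw [gr, Submodule.one_eq_span]
  congr 1
  ext x
  simp [List.length_eq_zero_iff]

theorem infinite_alg (h : ∀ n, ∃ w : List α, n ≤ w.length ∧ ¬ S.IsZero w) : Infinite S.Alg := by
  have h' : ∀ n, ∃ w : List α, w.length = n ∧ ¬ S.IsZero w := fun n => by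
    obtain ⟨w, h1, h2⟩ := h n
    refine ⟨w.take n, by simp [h1], fun h3 => h2 ?_⟩
    simpa using h3.append_right (w.drop n)
  choose w h1 h2 using h'
  refine Infinite.of_injective (fun n => S.ev (w n)) fun n m e => ?_
  by_contra hne
  have := congrArg (S.pr n) e
  simp only [pr_ev, h1, if_true, if_neg (Ne.symm hne)] at this
  exact ev_ne_zero (h2 n) this

section Lin

variable {T E : Type} [Ring T] [Ring E] (j : T →+* E) (g : α → E)

/-- the noncommutative polynomial without constant term with coefficients `c`, truncated at `n` -/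
noncomputable def linF : ℕ → (List α → T) → E
  | 0, _ => 0
  | n + 1, c => ∑ a, g a * (j (c [a]) + linF n fun w => c (a :: w))

theorem linF_add (n : ℕ) (c c' : List α → T) :
    linF j g n (fun w => c w + c' w) = linF j g n c + linF j g n c' := by
  induction n generalizing c c' with
  | zero => simp [linF]
  | succ n ih =>
    simp only [linF, ih, map_add, ← Finset.sum_add_distrib]
    exact Finset.sum_congr rfl fun a _ => by noncomm_ring

theorem linF_zero (n : ℕ) : linF j g n (fun _ => 0) = 0 := by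
  induction n with
  | zero => simp [linF]
  | succ n ih => simp [linF, ih]

open Classical in
theorem linF_single (t : T) (w : List α) : ∀ n, w.length ≤ n →
    linF j g n (fun v => if v = w then t else 0) = if w = [] then 0 else (w.map g).prod * j t := by
  induction w with
  | nil =>
    intro n _
    cases n with
    | zero => simp [linF]
    | succ n => simp [linF, linF_zero]
  | cons a w ih =>
    intro n hn
    obtain ⟨n, rfl⟩ : ∃ m, n = m + 1 := ⟨n - 1, by simp at hn; omega⟩
    rw [linF, Finset.sum_eq_single a (fun b _ hb => by simp [hb, linF_zero]) (by simp)]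
    simp only [List.cons.injEq, true_and, ih n (by simpa using hn), List.map_cons, List.prod_cons,
      reduceCtorEq, if_false]
    by_cases h : w = []
    · simp [h]
    · simp [h, Ne.symm h, mul_assoc]

theorem commute_scalar {ι R : Type} [Fintype ι] [DecidableEq ι] [Ring R] {r : R}
    {M : Matrix ι ι R} (h : ∀ i k, Commute (M i k) r) : Commute M (Matrix.scalar ι r) := by
  ext i k
  simp [Matrix.scalar_apply, (h i k).eq]

omit [Fintype α] in
variable {S} in
theorem Rep.map {B B' : Type} [Ring B] [Ring B'] {g : α → B} (h : S.Rep g) (φ : B →+* B') :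
    S.Rep fun a => φ (g a) :=
  ⟨fun _ _ _ _ hm => by rw [← map_mul, ← map_mul, h.mv _ _ _ _ hm],
    fun _ _ hz => by rw [← map_mul, h.zr _ _ hz, map_zero]⟩

/-- Higman linearisation -/
theorem linF_unit (h : ∀ ρ, S.Nil ρ) [Algebra KK T] [Module.Finite KK T] (hg : S.Rep g)
    (hc : ∀ t a, Commute (j t) (g a)) (n : ℕ) (c : List α → T) :
    ∃ u : E, u = 1 + linF j g n c * u := by
  classical
  let P := {p : List α // p.length ≤ n}
  let _ : Fintype P := (List.finite_length_le α n).fintype
  let p₀ : P := ⟨[], by simp⟩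
  have : Module.Finite KK (Matrix P P T) := inferInstanceAs (Module.Finite KK (P → P → T))
  obtain ⟨s, hs⟩ := Module.Finite.fg_top (R := KK) (M := Matrix P P T)
  let μ : α → Matrix P P T := fun a p p' => (if p'.1 = p.1 ++ [a] then 1 else 0) +
    if p' = p₀ ∧ p.1.length < n then c (p.1 ++ [a]) else 0
  have hN := h s.card (Matrix P P T) (Matrix P P E) ⟨s, le_rfl, hs⟩ j.mapMatrix
    (fun a => Matrix.scalar P (g a)) (hg.map _)
    (fun t a => commute_scalar fun i k => hc _ _) μ
  obtain ⟨U, hU⟩ := hN.isUnit_one_sub.exists_right_inv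
  rw [sub_mul, one_mul, sub_eq_iff_eq_add] at hU
  have key : ∀ p : P, U p p₀ = (if p = p₀ then 1 else 0) + ∑ a, g a *
      ((∑ p' : P, if p'.1 = p.1 ++ [a] then U p' p₀ else 0) +
        if p.1.length < n then j (c (p.1 ++ [a])) * U p₀ p₀ else 0) := fun p => by
    conv_lhs => rw [hU]
    rw [Matrix.add_apply, Matrix.one_apply, Finset.sum_mul, Matrix.sum_apply]
    congr 1
    refine Finset.sum_congr rfl fun a _ => ?_
    rw [(commute_scalar (r := g a) (M := j.mapMatrix (μ a)) fun i k => hc _ _).eq, mul_assoc,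
      Matrix.scalar_apply, Matrix.diagonal_mul, Matrix.mul_apply]
    congr 1
    simp only [RingHom.mapMatrix_apply, Matrix.map_apply, μ, map_add, add_mul,
      Finset.sum_add_distrib, apply_ite j, map_one, map_zero, ite_mul, one_mul, zero_mul, ite_and]
    congr 1
    rw [Finset.sum_eq_single p₀ (fun b _ hb => if_neg hb) (by simp), if_pos rfl]
  have main : ∀ k (p : P), k + p.1.length = n →
      U p p₀ = (if p = p₀ then 1 else 0) + linF j g k (fun w => c (p.1 ++ w)) * U p₀ p₀ := by
    intro k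
    induction k with
    | zero =>
      intro p hp
      rw [key p, linF, zero_mul]
      congr 1
      refine Finset.sum_eq_zero fun a _ => ?_
      rw [if_neg (by omega), Finset.sum_eq_zero fun p' _ => if_neg fun e => ?_]
      · simp
      · have := p'.2
        rw [e] at this
        simp at this; omega
    | succ k ih =>
      intro p hp
      rw [key p, linF, Finset.sum_mul]
      congr 1
      refine Finset.sum_congr rfl fun a _ => ?_
      let q : P := ⟨p.1 ++ [a], by simp; omega⟩
      rw [if_pos (by omega), Finset.sum_eq_single q (fun p' _ hp' => if_neg fun e =>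
        hp' (Subtype.ext e)) (by simp), if_pos rfl, ih q (by simp [q]; omega),
        if_neg fun e => by simpa [q, p₀] using congrArg Subtype.val e, mul_assoc]
      simp [q, add_mul, add_comm]
  exact ⟨U p₀ p₀, by simpa [p₀] using main n p₀ (by simp [p₀])⟩

theorem exists_linF (ψ : S.Alg →+* E) (t : T) {x : S.Alg} (hx : S.pr 0 x = 0) :
    ∃ n₀, ∀ n, n₀ ≤ n → ∃ c, linF j (fun a => ψ (S.gen a)) n c = ψ x * j t := by
  classical
  have h1 : S.coef [] = S.coef [] ∘ₗ S.pr 0 := lin_ext fun w => by
    rw [LinearMap.comp_apply, pr_ev]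
    split_ifs with h
    · rfl
    · rw [map_zero, coef_ev, if_neg fun hc => h hc.1.length_eq]
  have h2 : x ∈ Submodule.span (ZMod 2) (S.ev '' {w | w ≠ []}) :=
    mem_span_of_coef fun w hw e => hw (by rw [e, h1, LinearMap.comp_apply, hx, map_zero])
  clear hx
  induction h2 using Submodule.span_induction with
  | mem x hx =>
    obtain ⟨w, hw, rfl⟩ := hx
    refine ⟨w.length, fun n hn => ⟨_, (linF_single j _ t w n hn).trans ?_⟩⟩
    rw [if_neg hw, ev, map_list_prod, List.map_map]; rfl
  | zero => exact ⟨0, fun n _ => ⟨_, by rw [linF_zero, map_zero, zero_mul]⟩⟩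
  | add x y _ _ hx hy =>
    obtain ⟨n₁, h₁⟩ := hx
    obtain ⟨n₂, h₂⟩ := hy
    refine ⟨max n₁ n₂, fun n hn => ?_⟩
    obtain ⟨c₁, e₁⟩ := h₁ n (le_of_max_le_left hn)
    obtain ⟨c₂, e₂⟩ := h₂ n (le_of_max_le_right hn)
    exact ⟨_, by rw [linF_add _ _ n c₁ c₂, e₁, e₂, map_add, add_mul]⟩
  | smul r x _ hx =>
    rcases (by decide : ∀ c : ZMod 2, c = 0 ∨ c = 1) r with rfl | rfl
    · exact ⟨0, fun n _ => ⟨_, by rw [linF_zero, zero_smul, map_zero, zero_mul]⟩⟩
    · rwa [one_smul]

end Lin

theorem matrix_nilpotent (h : ∀ ρ, S.Nil ρ) {ι : Type} [Fintype ι] [DecidableEq ι] (A : Matrix ι ι S.Alg)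
    (hA : ∀ i j, S.pr 0 (A i j) = 0) : IsNilpotent A := by
  let φ : Matrix ι ι (ZMod 2) →+* Matrix ι ι S.Alg := (algebraMap (ZMod 2) S.Alg).mapMatrix
  let j : Matrix ι ι KK →+* Polynomial (Matrix ι ι S.Alg) :=
    (Polynomial.mapRingHom φ).comp (matPolyEquiv (R := ZMod 2) (n := ι)).toRingEquiv.toRingHom
  let ψ : S.Alg →+* Polynomial (Matrix ι ι S.Alg) := Polynomial.C.comp (Matrix.scalar ι)
  have hc : ∀ t a, Commute (j t) (ψ (S.gen a)) := fun t a => by
    refine Polynomial.ext fun n => ?_
    simp only [j, ψ, RingHom.comp_apply, Polynomial.coeff_mul_C, Polynomial.coeff_C_mul,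
      Polynomial.coe_mapRingHom, Polynomial.coeff_map]
    exact (commute_scalar fun i k => Algebra.commutes (R := ZMod 2) _ _).eq
  have key : ∀ s : Finset (ι × ι), ∃ n₀, ∀ n, n₀ ≤ n → ∃ c, linF j (fun a => ψ (S.gen a)) n c =
      Polynomial.C (∑ p ∈ s, Matrix.single p.1 p.2 (A p.1 p.2)) * Polynomial.X := fun s => by
    induction s using Finset.induction_on with
    | empty => exact ⟨0, fun n _ => ⟨_, by rw [linF_zero]; simp⟩⟩
    | insert p s hp ih =>
      obtain ⟨n₁, h₁⟩ := ih
      obtain ⟨n₂, h₂⟩ := S.exists_linF j ψ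
        ((Matrix.single p.1 p.2 (1 : ZMod 2)).map Polynomial.C * Matrix.diagonal fun _ => Polynomial.X)
        (hA p.1 p.2)
      refine ⟨max n₁ n₂, fun n hn => ?_⟩
      obtain ⟨c₁, e₁⟩ := h₁ n (le_of_max_le_left hn)
      obtain ⟨c₂, e₂⟩ := h₂ n (le_of_max_le_right hn)
      refine ⟨_, (linF_add _ _ n c₂ c₁).trans ?_⟩
      rw [e₁, e₂, Finset.sum_insert hp, map_add, add_mul]
      congr 1
      have : Matrix.scalar ι (A p.1 p.2) * φ (Matrix.single p.1 p.2 1) =
          Matrix.single p.1 p.2 (A p.1 p.2) := by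
        ext i k
        simp [φ, Matrix.scalar_apply, Matrix.single_apply]
      have e : ∀ M : Matrix ι ι (ZMod 2), j (M.map Polynomial.C * Matrix.diagonal fun _ =>
          Polynomial.X) = Polynomial.C (φ M) * Polynomial.X := fun M => by
        simp [j, matPolyEquiv_map_C, matPolyEquiv_diagonal_X]
      rw [← this, e, map_mul, mul_assoc]
      rfl
  obtain ⟨n, hn⟩ := key Finset.univ
  obtain ⟨c, hc'⟩ := hn n le_rfl
  obtain ⟨u, hu⟩ := S.linF_unit j (fun a => ψ (S.gen a)) h (S.gen_rep.map ψ) hc n c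
  rw [hc', Fintype.sum_prod_type, ← Matrix.matrix_eq_sum_single, mul_assoc] at hu
  have hr : ∀ r, A ^ r = u.coeff r := fun r => by
    induction r with
    | zero => rw [hu]; simp
    | succ r ih =>
      rw [hu, Polynomial.coeff_add, Polynomial.coeff_C_mul, Polynomial.coeff_X_mul, ← ih,
        Polynomial.coeff_one, if_neg (Nat.succ_ne_zero r), zero_add, pow_succ']
  exact ⟨u.natDegree + 1, (hr _).trans (Polynomial.coeff_eq_zero_of_natDegree_lt (by omega))⟩

/-- the statement of S0266 for a system with arbitrarily long nonzero words and nilpotent linear forms -/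
theorem algebra_result (h1 : ∀ n, ∃ w : List α, n ≤ w.length ∧ ¬ S.IsZero w) (h2 : ∀ ρ, S.Nil ρ) :
    ∃ (R : Type) (_ : Ring R) (_ : Algebra (ZMod 2) R) (𝒜 : ℕ → Submodule (ZMod 2) R)
      (_ : GradedAlgebra 𝒜),
      Infinite R ∧ 𝒜 0 = 1 ∧
      (∃ (m : ℕ) (rel : Finset (FreeAlgebra (ZMod 2) (Fin m) × FreeAlgebra (ZMod 2) (Fin m))),
        Nonempty (R ≃ₐ[ZMod 2] RingQuot fun x y : FreeAlgebra (ZMod 2) (Fin m) => (x, y) ∈ rel)) ∧
      ∀ (l : ℕ) (A : Matrix (Fin l) (Fin l) R), (∀ i j, GradedRing.proj 𝒜 0 (A i j) = 0) →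
        IsNilpotent A := by
  obtain ⟨inst, hp⟩ := S.exists_grading
  refine ⟨S.Alg, inferInstance, inferInstance, S.gr, inst, S.infinite_alg h1, S.gr_zero,
    ⟨Fintype.card α, S.relF, ⟨AlgEquiv.refl⟩⟩, fun l A hA => S.matrix_nilpotent h2 A fun i j => ?_⟩
  rw [← hp]; exact hA i j

end Sys

end Crest.Agent.R176
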