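import Crest.Agent.R176.SemW

/-!
# Row 176, machine: clean frames are codes; lifting to the big system; sorting the slots  (task R176-Big)

`clean_eq_encS`: no cell is `Bad1`, no adjacent pair is `BadPSta`.  `up` is constant, `hb i = decide (i < h)` for the
first index `h ≤ 2 ^ s` with `hb h = false`, `raw_zero` gives `x` with `code x` = contents of the registers, the labelled
registers give `x.con.st.me = up` (`code_cbit`, `cbit_injective`), `a`, `d` are `Nat.ofBits` of the bits in the sweeps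
`1`, `2`; all other bits vanish.
`lift_eqv`: induction; a small move is a move of `Sg s` with the big parts fixed.
`clean_swap`: the token walks to a slot `k` (small moves, big parts fixed), where it is `permit`, and exchanges the data
of `k, k + 1` (second kind of move), or `EqD` holds; then it walks back.  General transpositions by induction on the
distance.  `reach_swap`: lift the small equivalence with the clean frame(s) for both big parts.
`val_eqv_enc`: induction on `SVal` (split `BigOK`); in a clean frame the data of the slots are an injective, hence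
bijective, function `Fin (2 ^ s) → Fin (2 ^ s)`, a product of transpositions (`Equiv.Perm.swap_induction_on`, or
induction on the number of slots with `d ≠ a`).
-/

set_option autoImplicit false

namespace Crest.Agent.R176

variable {s : ℕ}

theorem bg_wd_length {α : Type} (n : ℕ) (c : ℕ → α) : (wd n c).length = n := by simp [wd]

theorem bg_wd_get {α : Type} {n : ℕ} (c : ℕ → α) {i : ℕ} (hi : i < n) : (wd n c)[i]? = some (c i) := by
  simp [wd, List.getElem?_range hi]

theorem bg_wd_get' {α : Type} {n : ℕ} {c : ℕ → α} {i : ℕ} {x : α} (h : (wd n c)[i]? = some x) :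
    i < n ∧ x = c i := by
  have hi : i < n := by
    have := (List.getElem?_eq_some_iff.mp h).1
    rwa [bg_wd_length] at this
  rw [bg_wd_get c hi] at h
  exact ⟨hi, (Option.some.inj h).symm⟩

theorem bg_wd_congr {α : Type} {n : ℕ} {c c' : ℕ → α} (h : ∀ i, i < n → c i = c' i) : wd n c = wd n c' :=
  List.map_congr_left fun i hi => h i (List.mem_range.mp hi)

theorem bg_wd_inj {α : Type} {n : ℕ} {c c' : ℕ → α} (h : wd n c = wd n c') {i : ℕ} (hi : i < n) : c i = c' i := by
  have h1 := bg_wd_get c hi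
  rw [h, bg_wd_get c' hi] at h1
  exact (Option.some.inj h1).symm

theorem bg_wd_map {α β : Type} (n : ℕ) (c : ℕ → α) (f : α → β) : (wd n c).map f = wd n fun i => f (c i) := by
  simp [wd, Function.comp_def]

theorem bg_wd_add {α : Type} (a b : ℕ) (c : ℕ → α) : wd (a + b) c = wd a c ++ wd b fun i => c (a + i) := by
  simp [wd, List.range_add, Function.comp_def]

theorem bg_exists_wd {α : Type} [Inhabited α] (u : List α) : ∃ c, u = wd u.length c :=
  ⟨fun i => u.getD i default, List.ext_getElem (by simp [wd]) fun i _ h => by simp [wd, *]⟩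

theorem bg_not_home (hs : PL ≤ s) {σ : ℕ → Sta} (hσ : Std s (FL s) σ) {i : ℕ} (h0 : i ≠ 0) (hi : i < FL s) :
    ¬ (σ i).home := by
  unfold Sta.home
  rw [hσ.kd hs hi, Nat.mod_eq_of_lt hi, lay_home_iff]
  exact h0

theorem bg_sw {σ : ℕ → Sta} (hσ : Std s (FL s) σ) {i : ℕ} (hi : i < FL s) : (σ i).me.sw.val = i / 2 ^ s := by
  rw [hσ i hi, Nat.mod_eq_of_lt hi, meS_sw hi]

theorem bg_div_eq {i k : ℕ} : i / 2 ^ s = k ↔ k * 2 ^ s ≤ i ∧ i < (k + 1) * 2 ^ s := by
  have hp := Nat.two_pow_pos s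
  rw [Nat.div_eq_iff hp]
  constructor
  · rintro ⟨h1, h2⟩
    exact ⟨h1, by rw [add_mul]; omega⟩
  · rintro ⟨h1, h2⟩
    exact ⟨h1, by rw [add_mul] at h2; omega⟩

theorem bg_slot {i : ℕ} (hi : i < FL s) : slot s i ↔ 2 ^ s ≤ i ∧ i < 2 * 2 ^ s := by
  unfold slot
  rw [Nat.mod_eq_of_lt hi, bg_div_eq]
  simp

theorem clean_eq_encS (hs : PL ≤ s) {σ : ℕ → Sta} (hσ : Std s (FL s) σ) {dp₀ : ℕ → Bool}
    (hz : ¬ SS.IsZero (clean (FL s) σ dp₀)) : ∃ X : Lt (2 ^ s), clean (FL s) σ dp₀ = encS X := by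
  have hF := FL_ge s
  have hFL : FL s = 4 * 2 ^ s := rfl
  have hp := Nat.two_pow_pos s
  have hPL := PL_lt_pow hs
  have hPL' : PL = R0 + BL + 1 := rfl
  have hRL := RL_lt_BL
  have hRL8 := RL_ge
  have hnz : ∀ i, i + 1 < FL s → ¬ szr (cell σ dp₀ i) (cell σ dp₀ (i + 1)) := fun i hi h =>
    hz (Sys.hasZ_range (S := SS) hi h).isZero
  have hb1 : ∀ i, i < FL s → ¬ Bad1 (cell σ dp₀ i) := fun i hi h => by
    rcases i with _ | i
    · exact hnz 0 (by omega) (Or.inl h)
    · exact hnz i hi (Or.inr (Or.inl h))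
  have hbp : ∀ i, i + 1 < FL s → (σ (i + 1)).up = (σ i).up ∧ ((σ (i + 1)).hb = true → (σ i).hb = true) := by
    intro i hi
    have h := hnz i hi
    have hh := bg_not_home hs hσ (Nat.succ_ne_zero i) hi
    constructor
    · by_contra h'
      exact h (Or.inr (Or.inr (Or.inl (Or.inr ⟨hh, Or.inl h'⟩))))
    · intro h1
      by_contra h'
      exact h (Or.inr (Or.inr (Or.inl (Or.inr ⟨hh, Or.inr (Or.inl ⟨h1, by simpa [cell] using h'⟩)⟩))))
  have hup : ∀ i, i < FL s → (σ i).up = (σ 0).up := by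
    intro i hi
    induction i with
    | zero => rfl
    | succ i ih => rw [(hbp i hi).1, ih (by omega)]
  have hhb : ∀ i k, i + k < FL s → (σ (i + k)).hb = true → (σ i).hb = true := by
    intro i k
    induction k with
    | zero => exact fun _ h => h
    | succ k ih => exact fun h1 h2 => ih (by omega) ((hbp (i + k) h1).2 h2)
  have hkd : ∀ i, i < FL s → (σ i).kd = Lay i := fun i hi => by rw [hσ.kd hs hi, Nat.mod_eq_of_lt hi]
  have hex : ∃ i, (σ i).hb = false ∧ i ≤ 2 ^ s := by
    refine ⟨2 ^ s, ?_, le_rfl⟩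
    by_contra h
    refine hb1 (2 ^ s) (by omega) (Or.inl (Or.inr (Or.inl ⟨by simpa [cell] using h, fun h' => ?_⟩)))
    have h2 := bg_sw hσ (i := 2 ^ s) (by omega)
    have h3 : (σ (2 ^ s)).me.sw = 0 := h'
    rw [h3, Nat.div_self hp] at h2
    exact absurd h2 (by simp)
  classical
  obtain ⟨x, hx⟩ : ∃ x, (wd BL fun k => rval σ dp₀ (R0 + k)) = code x := by
    by_contra h
    exact hz (raw_zero hs hσ fun x hx => h ⟨x, hx⟩)
  have hxk : ∀ k, k < BL → (code x).getD k false = rval σ dp₀ (R0 + k) := fun k hk => by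
    rw [← hx, List.getD_eq_getElem?_getD, bg_wd_get _ hk]; rfl
  have hme : x.con.st.me = (σ 0).up := by
    refine cbit_injective (funext fun j => ?_)
    have hj := j.2
    have h1 : (σ (R0 + j)).kd = .ro (some j) := by rw [hkd _ (by omega), lay_ro_some_iff]
    rw [← code_cbit, hxk j (by omega), rval, h1, if_pos (by rfl), ← hup (R0 + j) (by omega)]
    by_contra h
    exact hb1 (R0 + j) (by omega) (Or.inl (Or.inr (Or.inr (Or.inr (Or.inl ⟨j, h1, h⟩)))))
  refine ⟨⟨x, ⟨Nat.ofBits fun k : Fin (2 ^ s) => (σ (2 ^ s + k)).sp, Nat.ofBits_lt_two_pow _⟩,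
    ⟨Nat.find hex, Nat.lt_succ_of_le (Nat.find_spec hex).2⟩,
    ⟨Nat.ofBits fun k : Fin (2 ^ s) => dp₀ (2 * 2 ^ s + k), Nat.ofBits_lt_two_pow _⟩⟩, ?_⟩
  refine bg_wd_congr fun i hi => ?_
  have e1 : (σ i).me = meS s i := by rw [hσ i hi, Nat.mod_eq_of_lt hi]
  have e2 : (σ i).hb = decide (i < Nat.find hex) := by
    by_cases h : i < Nat.find hex
    · have h1 := Nat.find_min hex h
      have h2 := (Nat.find_spec hex).2
      rw [decide_eq_true h]
      by_contra h3
      exact h1 ⟨by simpa using h3, by omega⟩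
    · rw [decide_eq_false h]
      by_contra h3
      have h4 := hhb (Nat.find hex) (i - Nat.find hex) (by omega)
        (by rw [show Nat.find hex + (i - Nat.find hex) = i by omega]; simpa using h3)
      rw [(Nat.find_spec hex).1] at h4
      exact absurd h4 (by simp)
  have hsw := bg_sw hσ hi
  simp only [cell, Sm.mk.injEq, Con.mk.injEq, and_true]
  constructor
  · have e3 : (σ i).sp = if i / 2 ^ s = 1 then
        (Nat.ofBits fun k : Fin (2 ^ s) => (σ (2 ^ s + k)).sp).testBit (i - 2 ^ s)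
        else if R0 ≤ i ∧ i < R0 + RL then (code x).getD (i - R0) false else false := by
      split_ifs with h1 h2
      · rw [bg_div_eq] at h1
        rw [Nat.testBit_ofBits_lt _ _ (by omega)]
        simp only
        rw [show 2 ^ s + (i - 2 ^ s) = i by omega]
      · rw [hxk _ (by omega), show R0 + (i - R0) = i by omega, rval, hkd i hi, if_pos (lay_isRO_iff.mpr h2)]
      · by_contra h3
        refine hb1 i hi (Or.inl (Or.inr (Or.inr (Or.inl ⟨by simpa [cell] using h3, ?_, fun h4 => ?_⟩))))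
        · have : ¬ (Lay i).isRO = true := fun h => h2 (lay_isRO_iff.mp h)
          change (σ i).kd.isRO = false
          rw [hkd i hi]; simpa using this
        · have h5 : (σ i).me.sw = 1 := h4
          rw [h5] at hsw
          exact h1 hsw.symm
    have e4 : (σ i).up = x.con.st.me := by rw [hme, hup i hi]
    change σ i = ⟨meS s i, x.con.st.me, decide (i < Nat.find hex), _⟩
    rw [← e1, ← e2, ← e4]
    unfold spX
    simp only
    rw [← e3]
  · unfold dpX
    simp only
    split_ifs with h1 h2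
    · rw [bg_div_eq] at h1
      rw [Nat.testBit_ofBits_lt _ _ (by omega)]
      simp only
      rw [show 2 * 2 ^ s + (i - 2 * 2 ^ s) = i by omega]
    · rw [hxk _ (by omega), show R0 + (i - R0) = i by omega, rval, hkd i hi,
        if_neg (fun h => by have := lay_isRO_iff.mp h; omega)]
    · by_contra h3
      refine hb1 i hi (Or.inr (Or.inl (Or.inl ⟨by simpa [cell] using h3, ?_⟩)))
      change ¬ dpOK (σ i)
      rintro (h4 | h4 | ⟨h4, -⟩)
      · exact h2 (lay_rw_perm_iff.mp (Or.inl (by rw [← hkd i hi, h4])))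
      · exact h2 (lay_rw_perm_iff.mp (Or.inr (by rw [← hkd i hi, h4])))
      · rw [h4] at hsw
        exact h1 hsw.symm

/-- replace the small parts -/
def comb (w : List Sm) (W : List (Lt s)) : List (Lt s) := List.zipWith (fun x Y => Y.setSm x) w W

theorem lift_eqv {w w' : List Sm} (h : SS.Eqv w w') {W : List (Lt s)} (hW : W.length = w.length) :
    (Sg s).Eqv (comb w W) (comb w' W) := by
  induction h with
  | rel a b h =>
    cases h with
    | @mk u v y z y' z' h =>
      obtain ⟨U, V, rfl, hU⟩ : ∃ U V, W = U ++ V ∧ U.length = u.length :=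
        ⟨W.take u.length, W.drop u.length, by simp, by simp at hW ⊢; omega⟩
      rcases V with _ | ⟨Y, _ | ⟨Z, V⟩⟩
      · simp at hW; omega
      · simp at hW; omega
      · unfold comb
        rw [List.zipWith_append hU.symm, List.zipWith_append hU.symm]
        exact (Sys.Step.mk (S := Sg s) _ _ (y := Y.setSm y) (z := Z.setSm z) (Or.inl ⟨y', z', h, rfl, rfl⟩)).eqv
  | refl => exact Sys.Eqv.refl _
  | symm a b e ih => exact (ih (by rw [hW, Sys.Eqv.length_eq (S := SS) e])).symm
  | trans a b c e _ ih ih' => exact (ih hW).trans (ih' (by rw [hW, Sys.Eqv.length_eq (S := SS) e]))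

theorem comb_map_sm (W : List (Lt s)) : comb (W.map Lt.sm) W = W := by
  induction W with
  | nil => rfl
  | cons X W ih => exact congrArg (X :: ·) ih

theorem map_sm_comb {w : List Sm} {W : List (Lt s)} (hW : W.length = w.length) : (comb w W).map Lt.sm = w := by
  induction w generalizing W with
  | nil => simp [comb]
  | cons x w ih =>
    rcases W with _ | ⟨X, W⟩
    · simp at hW
    · exact congrArg (x :: ·) (ih (by simpa using hW))

theorem lift_zero {W : List (Lt s)} (h : SS.IsZero (W.map Lt.sm)) : (Sg s).IsZero W := by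
  obtain ⟨w', e, hz⟩ := h
  have hl : W.length = w'.length := by rw [← e.length_eq]; simp
  have h1 := lift_eqv e (W := W) (by simp)
  rw [comb_map_sm] at h1
  refine ⟨_, h1, ?_⟩
  obtain ⟨i, y, z, hyz, hy, hz⟩ := hz.exists_index
  rw [← map_sm_comb hl, List.getElem?_map, Option.map_eq_some_iff] at hy hz
  obtain ⟨Y, hY, rfl⟩ := hy
  obtain ⟨Z, hZ, rfl⟩ := hz
  exact Sys.hasZ_of_index (S := Sg s) (Or.inl hyz) hY hZ

/-- exchange the data at the positions `i` and `j` -/
def swapD (i j : ℕ) (c : ℕ → Lt s) (k : ℕ) : Lt s := (c k).setD (c (Equiv.swap i j k)).d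

theorem comb_wd (n : ℕ) (x : ℕ → Sm) (c : ℕ → Lt s) :
    comb (wd n x) (wd n c) = wd n fun i => (c i).setSm (x i) := by
  simp [comb, wd]

theorem lift_wd {n : ℕ} {x x' : ℕ → Sm} (h : SS.Eqv (wd n x) (wd n x')) (c : ℕ → Lt s) :
    (Sg s).Eqv (wd n fun i => (c i).setSm (x i)) (wd n fun i => (c i).setSm (x' i)) := by
  rw [← comb_wd, ← comb_wd]
  exact lift_eqv h (by simp [bg_wd_length])

/-- the token has walked to `t` -/
def bgWalk (σ : ℕ → Sta) (dp : ℕ → Bool) (t i : ℕ) : Sm :=
  ⟨⟨σ i, dp i, false, false⟩, false, if i = t then .tok .U .walk else if i < t then .ra else .la⟩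

theorem bg_walk (hs : PL ≤ s) {σ : ℕ → Sta} (hσ : Std s (FL s) σ) (dp : ℕ → Bool) {t : ℕ} (ht : t < FL s) :
    SS.Eqv (wd (FL s) (cell σ dp)) (wd (FL s) (bgWalk σ dp t)) := by
  induction t with
  | zero =>
    rw [bg_wd_congr (c := cell σ dp) (c' := bgWalk σ dp 0) fun i _ => by simp [cell, bgWalk]]
    exact Sys.Eqv.refl _
  | succ t ih =>
    refine (ih (by omega)).trans (Sys.step_range (S := SS) (i := t) ht (Or.inl ?_) fun k _ h1 h2 => ?_).eqv
    · simp only [bgWalk, if_true, Nat.succ_ne_self, if_false, Nat.lt_succ_self, (Nat.succ_ne_self t).symm,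
        Nat.not_succ_lt_self]
      exact Fwd.right (CR.walk _ _) (TR.u false (bg_not_home hs hσ (Nat.succ_ne_zero t) ht))
    · simp only [bgWalk, h1, h2, if_false]
      by_cases h : k < t
      · rw [if_pos h, if_pos (by omega)]
      · rw [if_neg h, if_neg (by omega)]

/-- permute the data -/
def permD (π : ℕ → ℕ) (c : ℕ → Lt s) (k : ℕ) : Lt s := (c k).setD (c (π k)).d

theorem bg_adj (hs : PL ≤ s) {σ : ℕ → Sta} (hσ : Std s (FL s) σ) {dp₀ : ℕ → Bool} {c : ℕ → Lt s}
    (hc : ∀ k, k < FL s → (c k).sm = cell σ dp₀ k) {i : ℕ} (h1 : 2 ^ s ≤ i) (h2 : i + 1 < 2 * 2 ^ s) :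
    (Sg s).Eqv (wd (FL s) c) (wd (FL s) (permD (Equiv.swap i (i + 1)) c)) ∧
      ((c i).d = (c (i + 1)).d → (Sg s).IsZero (wd (FL s) c)) := by
  have hFL : FL s = 4 * 2 ^ s := rfl
  have hw := bg_walk hs hσ dp₀ (t := i) (by omega)
  have key : ∀ c' : ℕ → Lt s, (∀ k, k < FL s → (c' k).sm = cell σ dp₀ k) →
      (Sg s).Eqv (wd (FL s) c') (wd (FL s) fun k => (c' k).setSm (bgWalk σ dp₀ i k)) := fun c' hc' => by
    have := lift_wd hw c'
    rwa [bg_wd_congr (c := fun k => (c' k).setSm (cell σ dp₀ k)) (c' := c') fun k hk => by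
      rw [← hc' k hk]; rfl] at this
  have s1 : (σ i).me.sw = 1 := Fin.ext (by rw [bg_sw hσ (by omega), bg_div_eq]; simp; omega)
  have s2 : (σ (i + 1)).me.sw = 1 := Fin.ext (by rw [bg_sw hσ (by omega), bg_div_eq]; simp; omega)
  have hp : permit (bgWalk σ dp₀ i i) := ⟨by simp [bgWalk], s1⟩
  constructor
  · refine (key c hc).trans (Sys.Eqv.trans ?_ (key (permD (Equiv.swap i (i + 1)) c) hc).symm)
    refine (Sys.step_range (S := Sg s) (i := i) (by omega) (Or.inr ⟨hp, s2, ?_, ?_⟩) fun k _ h1 h2 => ?_).eqv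
    · simp only [permD, Equiv.swap_apply_left]; rfl
    · simp only [permD, Equiv.swap_apply_right]; rfl
    · simp only [permD, Equiv.swap_apply_of_ne_of_ne h1 h2]; rfl
  · intro hd
    refine Sys.IsZero.of_eqv (Sys.hasZ_range (S := Sg s) (i := i) (by omega) ?_).isZero (key c hc)
    exact Or.inr (Or.inr (Or.inr (Or.inr ⟨hp, s2, hd⟩)))

theorem bg_swap (hs : PL ≤ s) {σ : ℕ → Sta} (hσ : Std s (FL s) σ) {dp₀ : ℕ → Bool} {i : ℕ} (h1 : 2 ^ s ≤ i)
    (m : ℕ) (h2 : i + m < 2 * 2 ^ s) : ∀ c : ℕ → Lt s, (∀ k, k < FL s → (c k).sm = cell σ dp₀ k) →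
    (Sg s).Eqv (wd (FL s) c) (wd (FL s) (permD (Equiv.swap i (i + m)) c)) := by
  induction m with
  | zero =>
    intro c _
    rw [add_zero, Equiv.swap_self]
    exact Sys.Eqv.refl _
  | succ m ih =>
    intro c hc
    rcases Nat.eq_zero_or_pos m with rfl | hm
    · exact (bg_adj hs hσ hc h1 h2).1
    · have a1 := (bg_adj hs hσ hc (i := i + m) (by omega) (by omega)).1
      have a2 := ih (by omega) (permD (Equiv.swap (i + m) (i + m + 1)) c) hc
      have a3 := (bg_adj hs hσ (c := permD (Equiv.swap i (i + m)) (permD (Equiv.swap (i + m) (i + m + 1)) c)) hc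
        (i := i + m) (by omega) (by omega)).1
      have e := Equiv.swap_mul_swap_mul_swap (x := i) (y := i + m) (z := i + m + 1) (by omega) (by omega)
      rw [← add_assoc, Equiv.swap_comm i (i + m + 1), ← e]
      exact a1.trans (a2.trans a3)

theorem clean_swap (hs : PL ≤ s) {σ : ℕ → Sta} (hσ : Std s (FL s) σ) {dp₀ : ℕ → Bool} {c : ℕ → Lt s}
    (hc : (wd (FL s) c).map Lt.sm = clean (FL s) σ dp₀) {i j : ℕ} (hi : i < FL s) (hj : j < FL s)
    (si : slot s i) (sj : slot s j) :
    (Sg s).Eqv (wd (FL s) c) (wd (FL s) (swapD i j c)) ∧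
      (i ≠ j → (c i).d = (c j).d → (Sg s).IsZero (wd (FL s) c)) := by
  have hc' : ∀ k, k < FL s → (c k).sm = cell σ dp₀ k := fun k hk => by
    rw [bg_wd_map] at hc
    exact bg_wd_inj hc hk
  rw [bg_slot hi] at si
  rw [bg_slot hj] at sj
  have hz : ∀ i j, 2 ^ s ≤ i → i < j → j < 2 * 2 ^ s → (c i).d = (c j).d → (Sg s).IsZero (wd (FL s) c) := by
    intro i j h1 h2 h3 hd
    obtain ⟨m, rfl⟩ := Nat.exists_eq_add_of_le (Nat.succ_le_of_lt h2)
    refine Sys.IsZero.of_eqv ((bg_adj hs hσ (c := permD (Equiv.swap (i + 1) (i + 1 + m)) c) hc' h1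
      (by omega)).2 ?_) (bg_swap hs hσ (i := i + 1) (by omega) m h3 c hc')
    simp only [permD, Lt.setD, Equiv.swap_apply_left]
    rw [Equiv.swap_apply_of_ne_of_ne (by omega) (by omega)]
    exact hd
  constructor
  · rcases le_total i j with h | h
    · obtain ⟨m, rfl⟩ := Nat.exists_eq_add_of_le h
      exact bg_swap hs hσ si.1 m sj.2 c hc'
    · obtain ⟨m, rfl⟩ := Nat.exists_eq_add_of_le h
      have := bg_swap hs hσ sj.1 m si.2 c hc'
      rw [Equiv.swap_comm] at this
      exact this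
  · intro hij hd
    rcases lt_or_gt_of_ne hij with h | h
    · exact hz i j si.1 h sj.2 hd
    · exact hz j i sj.1 h si.2 hd.symm

theorem bg_std (X : Lt (2 ^ s)) : Std s (FL s) (stX X) := fun i hi => by rw [Nat.mod_eq_of_lt hi]; rfl

theorem bg_transfer {n : ℕ} {x : ℕ → Sm} {c : ℕ → Lt s} (h : SS.Eqv (wd n x) ((wd n c).map Lt.sm)) {i j : ℕ}
    (h' : (Sg s).Eqv (wd n fun k => (c k).setSm (x k)) (wd n (swapD i j fun k => (c k).setSm (x k))) ∧
      (i ≠ j → (c i).d = (c j).d → (Sg s).IsZero (wd n fun k => (c k).setSm (x k)))) :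
    (Sg s).Eqv (wd n c) (wd n (swapD i j c)) ∧ (i ≠ j → (c i).d = (c j).d → (Sg s).IsZero (wd n c)) := by
  rw [bg_wd_map] at h
  have a1 : (Sg s).Eqv (wd n fun k => (c k).setSm (x k)) (wd n c) := lift_wd h c
  have a2 : (Sg s).Eqv (wd n (swapD i j fun k => (c k).setSm (x k))) (wd n (swapD i j c)) :=
    lift_wd h (swapD i j c)
  exact ⟨a1.symm.trans (h'.1.trans a2), fun h1 h2 => (h'.2 h1 h2).of_eqv a1.symm⟩

theorem reach1_swap (hs : PL ≤ s) {X : Lt (2 ^ s)} {c : ℕ → Lt s}
    (hc : Reach1 (encS X) ((wd (FL s) c).map Lt.sm)) {i j : ℕ} (hi : i < FL s) (hj : j < FL s)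
    (si : slot s i) (sj : slot s j) :
    (Sg s).Eqv (wd (FL s) c) (wd (FL s) (swapD i j c)) ∧
      (i ≠ j → (c i).d = (c j).d → (Sg s).IsZero (wd (FL s) c)) := by
  refine bg_transfer (x := cell (stX X) (dpX X)) hc.eqv ?_
  exact clean_swap hs (bg_std X) (dp₀ := dpX X) (by rw [bg_wd_map]; rfl) hi hj si sj

theorem reach2_swap (hs : PL ≤ s) {X Y : Lt (2 ^ s)} {c : ℕ → Lt s}
    (hc : Reach2 (encS X) (encS Y) ((wd (2 * FL s) c).map Lt.sm)) {i j : ℕ} (hi : i < 2 * FL s)
    (hj : j < 2 * FL s) (si : slot s i) (sj : slot s j) (hij : i / FL s = j / FL s) :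
    (Sg s).Eqv (wd (2 * FL s) c) (wd (2 * FL s) (swapD i j c)) ∧
      (i ≠ j → (c i).d = (c j).d → (Sg s).IsZero (wd (2 * FL s) c)) := by
  have hF := FL_ge s
  have e : encS X ++ encS Y = wd (2 * FL s) (pr2 (FL s) (cell (stX X) (dpX X)) (cell (stX Y) (dpX Y))) := by
    rw [two_mul, bg_wd_add]
    congr 1
    · exact bg_wd_congr fun k hk => by simp [pr2, hk]
    · exact bg_wd_congr fun k hk => by simp [pr2]
  have h := hc.eqv
  rw [e] at h
  refine bg_transfer h ?_
  generalize hc₀ : (fun k => (c k).setSm (pr2 (FL s) (cell (stX X) (dpX X)) (cell (stX Y) (dpX Y)) k)) = c₀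
  have hd : ∀ k, (c k).d = (c₀ k).d := fun k => by rw [← hc₀]; rfl
  have hl : (wd (FL s) c₀).map Lt.sm = clean (FL s) (stX X) (dpX X) := by
    rw [bg_wd_map, ← hc₀]
    exact bg_wd_congr fun k hk => by simp [pr2, hk, Lt.setSm]
  have hr : (wd (FL s) fun k => c₀ (FL s + k)).map Lt.sm = clean (FL s) (stX Y) (dpX Y) := by
    rw [bg_wd_map, ← hc₀]
    exact bg_wd_congr fun k hk => by simp [pr2, Lt.setSm]
  rw [hd, hd, two_mul, bg_wd_add, bg_wd_add]
  rcases lt_or_ge i (FL s) with h1 | h1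
  · have h2 : j < FL s := by
      rw [Nat.div_eq_of_lt h1, eq_comm, Nat.div_eq_zero_iff] at hij
      omega
    have a := clean_swap hs (bg_std X) hl h1 h2 si sj
    rw [bg_wd_congr (c := fun k => swapD i j c₀ (FL s + k)) (c' := fun k => c₀ (FL s + k)) fun k _ => by
      simp only [swapD]
      rw [Equiv.swap_apply_of_ne_of_ne (by omega) (by omega)]
      rfl]
    exact ⟨a.1.append_right _, fun h3 h4 => (a.2 h3 h4).append_right _⟩
  · have h2 : FL s ≤ j := by
      by_contra h2
      rw [Nat.div_eq_of_lt (not_le.mp h2), Nat.div_eq_zero_iff] at hij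
      omega
    obtain ⟨i, rfl⟩ := Nat.exists_eq_add_of_le h1
    obtain ⟨j, rfl⟩ := Nat.exists_eq_add_of_le h2
    have a := clean_swap hs (bg_std Y) hr (i := i) (j := j) (by omega) (by omega)
      (by simpa [slot] using si) (by simpa [slot] using sj)
    rw [bg_wd_congr (c := swapD (FL s + i) (FL s + j) c₀) (c' := c₀) fun k _ => by
      simp only [swapD]
      rw [Equiv.swap_apply_of_ne_of_ne (by omega) (by omega)]
      rfl,
      bg_wd_congr (c := fun k => swapD (FL s + i) (FL s + j) c₀ (FL s + k))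
        (c' := swapD i j fun k => c₀ (FL s + k)) fun k _ => by
      simp only [swapD]
      rw [(add_right_injective (FL s)).swap_apply (f := fun k => FL s + k)]]
    exact ⟨a.1.append_left _, fun h3 h4 => (a.2 (by omega) h4).append_left _⟩

theorem encS_length (X : Lt (2 ^ s)) : (encS X).length = FL s := by simp [encS, clean, wd]

theorem enc_length (X : Lt (2 ^ s)) : (enc X).length = FL s := by simp [enc, wd]

theorem enc_map_sm (X : Lt (2 ^ s)) : (enc X).map Lt.sm = encS X := by
  simp [enc, encS, clean, wd, Function.comp_def]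

theorem sval_length {u : List (Lt (2 ^ s))} {w : List Sm} (h : SVal u w) : w.length = u.length * FL s := by
  induction h with
  | nil => simp
  | one h _ ih =>
    rw [List.length_append, ← h.eqv.length_eq, ih, encS_length, List.length_cons]
    ring
  | two h _ ih =>
    rw [List.length_append, ← h.eqv.length_eq, ih, List.length_append, encS_length, encS_length, List.length_cons,
      List.length_cons]
    ring

theorem bigOK_append {W W' : List (Lt s)} {k : ℕ} (hW : W.length = k * FL s) :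
    BigOK (W ++ W') ↔ BigOK W ∧ BigOK W' := by
  have hF := FL_ge s
  have e1 : ∀ i, (k * FL s + i) % FL s = i % FL s := fun i => by simp
  have e2 : ∀ i, (k * FL s + i) % 2 ^ s = i % 2 ^ s := fun i => by
    rw [FL, ← mul_assoc]; simp
  have e3 : ∀ i, (k * FL s + i) / FL s = k + i / FL s := fun i => by
    rw [add_comm, Nat.add_mul_div_right _ _ (by omega), add_comm]
  have e4 : ∀ i, slot s (k * FL s + i) ↔ slot s i := fun i => by simp only [slot, e1]
  have l : ∀ {i : ℕ} {X : Lt s}, W[i]? = some X → (W ++ W')[i]? = some X := fun {i X} h => by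
    rw [List.getElem?_append_left (List.getElem?_eq_some_iff.mp h).1, h]
  have r : ∀ i : ℕ, (W ++ W')[k * FL s + i]? = W'[i]? := fun i => by
    rw [List.getElem?_append_right (by omega), hW, Nat.add_sub_cancel_left]
  constructor
  · rintro ⟨h1, h2⟩
    refine ⟨⟨fun i X h => h1 i X (l h), fun i j X Y hX hY => h2 i j X Y (l hX) (l hY)⟩, fun i X h => ?_,
      fun i j X Y hX hY si sj hij hd => ?_⟩
    · have := h1 _ X ((r i).trans h)
      rwa [e1, e2, e4] at this
    · have := h2 _ _ X Y ((r i).trans hX) ((r j).trans hY) ((e4 i).2 si) ((e4 j).2 sj) (by rw [e3, e3, hij]) hd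
      omega
  · rintro ⟨⟨h1, h2⟩, h3, h4⟩
    have c : ∀ i, (i < W.length ∧ i / FL s < k) ∨ ∃ i', i = k * FL s + i' := fun i => by
      rcases lt_or_ge i (k * FL s) with h | h
      · exact Or.inl ⟨by omega, (Nat.div_lt_iff_lt_mul (by omega)).2 h⟩
      · exact Or.inr (Nat.exists_eq_add_of_le h)
    constructor
    · intro i X h
      rcases c i with ⟨hi, -⟩ | ⟨i, rfl⟩
      · rw [List.getElem?_append_left hi] at h
        exact h1 i X h
      · rw [r] at h
        rw [e1, e2, e4]
        exact h3 i X h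
    · intro i j X Y hX hY si sj hij hd
      rcases c i with ⟨hi, hi'⟩ | ⟨i, rfl⟩ <;> rcases c j with ⟨hj, hj'⟩ | ⟨j, rfl⟩
      · rw [List.getElem?_append_left hi] at hX
        rw [List.getElem?_append_left hj] at hY
        exact h2 i j X Y hX hY si sj hij hd
      · rw [e3] at hij
        exact absurd hi' (by rw [hij]; exact not_lt.mpr (Nat.le_add_right _ _))
      · rw [e3] at hij
        exact absurd hj' (by rw [← hij]; exact not_lt.mpr (Nat.le_add_right _ _))
      · rw [r] at hX hY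
        rw [e3, e3] at hij
        rw [h4 i j X Y hX hY ((e4 i).1 si) ((e4 j).1 sj) (Nat.add_left_cancel hij) hd]

theorem bigOK_enc (X : Lt (2 ^ s)) : BigOK (enc X) := by
  constructor
  · intro i Y h
    obtain ⟨hi, rfl⟩ := bg_wd_get' h
    exact ⟨rfl, by rw [Nat.mod_eq_of_lt hi], fun h => if_neg h⟩
  · intro i j Y Z hY hZ si sj _ hd
    obtain ⟨hi, rfl⟩ := bg_wd_get' hY
    obtain ⟨hj, rfl⟩ := bg_wd_get' hZ
    have h1 := congrArg Fin.val hd
    simp only [si, sj, if_true] at h1
    simp only [slot, Nat.mod_eq_of_lt hi, Nat.mod_eq_of_lt hj] at si sj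
    rw [← Nat.div_add_mod i (2 ^ s), ← Nat.div_add_mod j (2 ^ s), si, sj, h1]

theorem val_enc (u : List (Lt (2 ^ s))) : Val u (u.flatMap enc) := by
  induction u with
  | nil => exact ⟨SVal.nil, fun i X h => by simp at h, fun i j X Y h => by simp at h⟩
  | cons X u ih =>
    rw [List.flatMap_cons]
    refine ⟨?_, (bigOK_append (k := 1) (by rw [enc_length, one_mul])).2 ⟨bigOK_enc X, ih.2⟩⟩
    rw [List.map_append, enc_map_sm]
    exact SVal.one Relation.ReflTransGen.refl ih.1

theorem bigOK_comb {w : List Sm} {W : List (Lt s)} (h : BigOK W) : BigOK (comb w W) := by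
  have key : ∀ {i : ℕ} {X : Lt s}, (comb w W)[i]? = some X → ∃ Y x, W[i]? = some Y ∧ X = Y.setSm x := by
    intro i X h
    rw [comb, List.getElem?_zipWith] at h
    rcases h1 : w[i]? with _ | x <;> rcases h2 : W[i]? with _ | Y <;> simp only [h1, h2] at h
    all_goals first | exact ⟨Y, x, rfl, (Option.some.inj h).symm⟩ | exact absurd h (by simp)
  constructor
  · intro i X hX
    obtain ⟨Y, x, hY, rfl⟩ := key hX
    exact h.1 i Y hY
  · intro i j X X' hX hX'
    obtain ⟨Y, x, hY, rfl⟩ := key hX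
    obtain ⟨Y', x', hY', rfl⟩ := key hX'
    exact h.2 i j Y Y' hY hY'

/-- the conditions on one clean frame -/
def FrOK (X : Lt (2 ^ s)) (c : ℕ → Lt s) : Prop :=
  (wd (FL s) c).map Lt.sm = encS X ∧
  (∀ i, i < FL s → (c i).a.val = i % 2 ^ s ∧ (c i).h.val = min i s ∧ (¬ slot s i → (c i).d.val = 0)) ∧
  ∀ i j, 2 ^ s ≤ i → i < 2 * 2 ^ s → 2 ^ s ≤ j → j < 2 * 2 ^ s → (c i).d = (c j).d → i = j

theorem FrOK.swap {X : Lt (2 ^ s)} {c : ℕ → Lt s} (h : FrOK X c) {i j : ℕ} (h1 : 2 ^ s ≤ i) (h2 : i < 2 * 2 ^ s)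
    (h3 : 2 ^ s ≤ j) (h4 : j < 2 * 2 ^ s) : FrOK X (swapD i j c) := by
  have hr : ∀ k, 2 ^ s ≤ k → k < 2 * 2 ^ s → 2 ^ s ≤ Equiv.swap i j k ∧ Equiv.swap i j k < 2 * 2 ^ s := by
    intro k a b
    rw [Equiv.swap_apply_def]
    split_ifs <;> omega
  refine ⟨?_, fun k hk => ⟨(h.2.1 k hk).1, (h.2.1 k hk).2.1, fun hs => ?_⟩, fun k l a1 a2 a3 a4 hd => ?_⟩
  · rw [← h.1, bg_wd_map, bg_wd_map]; rfl
  · have := (h.2.1 k hk).2.2 hs
    rw [bg_slot hk] at hs
    simp only [swapD, Lt.setD]
    rwa [Equiv.swap_apply_of_ne_of_ne (by omega) (by omega)]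
  · exact (Equiv.swap i j).injective (h.2.2 _ _ (hr k a1 a2).1 (hr k a1 a2).2 (hr l a3 a4).1 (hr l a3 a4).2 hd)

theorem bg_sort (hs : PL ≤ s) {X : Lt (2 ^ s)} {c : ℕ → Lt s} (h : FrOK X c) (n : ℕ) (hn : n ≤ 2 ^ s) :
    ∃ c', FrOK X c' ∧ (Sg s).Eqv (wd (FL s) c) (wd (FL s) c') ∧ ∀ k, k < n → (c' (2 ^ s + k)).d.val = k := by
  have hFL : FL s = 4 * 2 ^ s := rfl
  induction n with
  | zero => exact ⟨c, h, Sys.Eqv.refl _, fun k hk => absurd hk (Nat.not_lt_zero k)⟩
  | succ n ih =>
    obtain ⟨c', h1, h2, h3⟩ := ih (by omega)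
    have hinj : Function.Injective fun k : Fin (2 ^ s) => (c' (2 ^ s + k)).d := fun k l hkl => by
      have a := k.2
      have b := l.2
      have := h1.2.2 _ _ (by omega) (by omega) (by omega) (by omega) hkl
      exact Fin.ext (by omega)
    obtain ⟨⟨m, hm⟩, hm'⟩ := Finite.surjective_of_injective hinj ⟨n, hn⟩
    have hm2 : (c' (2 ^ s + m)).d.val = n := congrArg Fin.val hm'
    have hmn : n ≤ m := by
      by_contra hlt
      have := h3 m (by omega)
      omega
    refine ⟨swapD (2 ^ s + n) (2 ^ s + m) c', h1.swap (by omega) (by omega) (by omega) (by omega),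
      h2.trans (clean_swap hs (bg_std X) h1.1 (by omega) (by omega) ((bg_slot (by omega)).2 (by omega))
        ((bg_slot (by omega)).2 (by omega))).1, fun k hk => ?_⟩
    simp only [swapD, Lt.setD]
    rcases (Nat.lt_succ_iff.mp hk).lt_or_eq with hk | rfl
    · rw [Equiv.swap_apply_of_ne_of_ne (by omega) (by omega)]
      exact h3 k hk
    · rw [Equiv.swap_apply_left]
      exact hm2

theorem bg_frame (hs : PL ≤ s) {X : Lt (2 ^ s)} {W : List (Lt s)} (h1 : W.map Lt.sm = encS X) (h2 : BigOK W) :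
    (Sg s).Eqv W (enc X) := by
  have hFL : FL s = 4 * 2 ^ s := rfl
  have hl : W.length = FL s := by rw [← encS_length X, ← h1, List.length_map]
  obtain ⟨c, hc⟩ := bg_exists_wd W
  rw [hl] at hc
  subst hc
  have h3 : FrOK X c := by
    refine ⟨h1, fun i hi => ?_, fun i j a1 a2 a3 a4 hd => ?_⟩
    · have := h2.1 i _ (bg_wd_get c hi)
      rwa [Nat.mod_eq_of_lt hi] at this
    · exact h2.2 i j _ _ (bg_wd_get c (by omega)) (bg_wd_get c (by omega)) ((bg_slot (by omega)).2 (by omega))
        ((bg_slot (by omega)).2 (by omega))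
        (by rw [Nat.div_eq_of_lt (by omega), Nat.div_eq_of_lt (by omega)]) hd
  obtain ⟨c', a1, a2, a3⟩ := bg_sort hs h3 (2 ^ s) le_rfl
  have e : wd (FL s) c' = enc X := bg_wd_congr fun i hi => by
    have b1 : (c' i).sm = cell (stX X) (dpX X) i := by
      have := a1.1
      rw [bg_wd_map] at this
      exact bg_wd_inj this hi
    obtain ⟨b2, b3, b4⟩ := a1.2.1 i hi
    have b5 : (c' i).d.val = if slot s i then i % 2 ^ s else 0 := by
      split_ifs with h
      · rw [bg_slot hi] at h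
        obtain ⟨k, rfl⟩ := Nat.exists_eq_add_of_le h.1
        rw [a3 k (by omega), Nat.add_mod_left, Nat.mod_eq_of_lt (by omega)]
      · exact b4 h
    rcases hci : c' i with ⟨x, a, h, d⟩
    rw [hci] at b1 b2 b3 b5
    simp only [Lt.mk.injEq]
    exact ⟨b1, Fin.ext b2, Fin.ext b3, Fin.ext b5⟩
  rwa [e] at a2

theorem val_eqv_enc (hs : PL ≤ s) {u : List (Lt (2 ^ s))} {W : List (Lt s)} (h : Val u W) :
    (Sg s).Eqv W (u.flatMap enc) := by
  obtain ⟨h, hb⟩ := h
  generalize hw : W.map Lt.sm = w at h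
  induction h generalizing W with
  | nil =>
    rw [List.map_eq_nil_iff] at hw
    subst hw
    exact Sys.Eqv.refl _
  | @one X w u m h _ ih =>
    obtain ⟨W₁, W₂, rfl, rfl, h2⟩ := List.map_eq_append_iff.mp hw
    have hl : W₁.length = (encS X).length := by rw [h.eqv.length_eq, List.length_map]
    obtain ⟨b1, b2⟩ := (bigOK_append (k := 1) (by rw [hl, encS_length, one_mul])).1 hb
    rw [List.flatMap_cons]
    refine Sys.Eqv.append_both ?_ (ih b2 h2)
    have a := lift_eqv h.eqv hl
    rw [comb_map_sm] at a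
    exact a.symm.trans (bg_frame hs (map_sm_comb hl) (bigOK_comb b1))
  | @two X Y w u m h _ ih =>
    obtain ⟨W₁, W₂, rfl, rfl, h2⟩ := List.map_eq_append_iff.mp hw
    have hl : W₁.length = (encS X ++ encS Y).length := by rw [h.eqv.length_eq, List.length_map]
    obtain ⟨b1, b2⟩ := (bigOK_append (k := 2)
      (by rw [hl, List.length_append, encS_length, encS_length, two_mul])).1 hb
    rw [List.flatMap_cons, List.flatMap_cons, ← List.append_assoc]
    refine Sys.Eqv.append_both ?_ (ih b2 h2)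
    have a := lift_eqv h.eqv hl
    rw [comb_map_sm] at a
    have b3 := bigOK_comb (w := encS X ++ encS Y) b1
    obtain ⟨V₁, V₂, e, e1, e2⟩ := List.map_eq_append_iff.mp (map_sm_comb hl)
    rw [e] at a b3
    obtain ⟨b4, b5⟩ := (bigOK_append (k := 1)
      (by rw [one_mul, ← encS_length X, ← e1, List.length_map])).1 b3
    exact a.symm.trans ((bg_frame hs e1 b4).append_both (bg_frame hs e2 b5))

end Crest.Agent.R176
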