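import Crest.Agent.R176.Sim

/-!
# Row 176, machine: the data sweep of a frame in a valid word  (task R176-Blind)

All by induction on `SVal` (for the head territory use `reach1_iff`/`reach2_iff`, for the tail shift the indices by
`FL s` or `2 * FL s`).  `sval_pat`: `good_shape`; the cell `2 * 2 ^ s + i` of the frame has `hb = sp = false`,
`cap = false`, marks only at the positions `p1, p2`, and `trkf` is constant before and after the token.
`sval_permit`: `wd_safe`.  `sval_blind`: the token of the territory is in a mode with `isD = false`.  For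
`τ.isD = false` a `Run` for `dp₀` gives a `Run` for `ow dp₀` with bits `ow dp`, where `ow` overwrites the bits on a set
of cells of kind `fill` (induction: `Op` for `w1`, `wst` neither reads nor changes the bit `d`, a cell relevant for `w1`
is a register, `wst` takes no bit, `dropOK` does not look at the bit); the bits on these cells are those of `dp₀`
(`w1_safe`, `wst_safe`); `stP` does not depend on the data.
-/

set_option autoImplicit false

namespace Crest.Agent.R176

variable {s : ℕ}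

def Sm.setDp (x : Sm) (d : Bool) : Sm := { x with con := { x.con with dp := d } }

/-- overwrite the data sweep of the frame number `k` by the bits of `d` -/
def owD (s k d : ℕ) (w : List Sm) : List Sm :=
  w.mapIdx fun i x => if k * FL s + 2 * 2 ^ s ≤ i ∧ i < k * FL s + 3 * 2 ^ s
    then x.setDp (d.testBit (i - (k * FL s + 2 * 2 ^ s))) else x

/-- no data task is running in the frames `k - 1, k, k + 1` -/
def NoD (s k : ℕ) (w : List Sm) : Prop :=
  ∀ (i : ℕ) (x : Sm) (p : Pos) (m : Mode), (k - 1) * FL s ≤ i → i < (k + 2) * FL s → w[i]? = some x →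
    x.trk = .tok p m → m.isD = false

/-- the possible shapes of a data sweep, up to the bits -/
noncomputable def pat (s : ℕ) (up : Cst) (t₁ t₂ t₃ : Trk) (t p1 p2 i : ℕ) : Sm :=
  ⟨⟨⟨meS s (2 * 2 ^ s + i), up, false, false⟩, false, decide (i = p1), decide (i = p2)⟩, false,
    if i < t then t₁ else if i = t then t₂ else t₃⟩

namespace Blind

/-! ### generic part -/

section Generic

variable {F : ℕ} {σ : ℕ → Sta} {dp₀ : ℕ → Bool}

/-- overwrite the bits on `S` -/
def ow (S : ℕ → Prop) [DecidablePred S] (e dp : ℕ → Bool) (i : ℕ) : Bool := if S i then e i else dp i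

theorem op_blind {τ : Task} (hτ : τ.isD = false) {q q' : Bool × Bool} {y z : Sta} {d d' β β' : Bool}
    (h : Op τ q y d z β q' d' β') : d' = d ∧ ∀ e, Op τ q y e z β q' e β' := by
  cases τ with
  | w1 side =>
    obtain ⟨b, b', h1, h2, h3, h4⟩ := h
    exact ⟨h3, fun e => ⟨b, b', h1, h2, rfl, h4⟩⟩
  | wst => exact ⟨h.1, fun e => ⟨rfl, h.2⟩⟩
  | w4 side => simp [Task.isD] at hτ
  | w5 => simp [Task.isD] at hτ

theorem drop_blind {τ : Task} (hτ : τ.isD = false) {y z : Sta} {d : Bool} (h : dropOK τ y z d) (e : Bool) :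
    dropOK τ y z e := by
  cases τ with
  | w1 side => exact h
  | wst => exact h
  | w4 side => simp [Task.isD] at hτ
  | w5 => simp [Task.isD] at hτ

theorem rel_blind {τ : Task} (hτ : τ.isD = false) {r : Prop} {y : Sta} (h : rel τ r y) (ht : tk τ = true) :
    y.kd ≠ .fill := by
  cases τ with
  | w1 side =>
    have h1 : y.kd.isReg = true := h
    intro e
    rw [e] at h1
    simp [Kind.isReg] at h1
  | wst => simp [tk] at ht
  | w4 side => simp [Task.isD] at hτ
  | w5 => simp [Task.isD] at hτ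

variable {S : ℕ → Prop} [DecidablePred S] {e : ℕ → Bool}

theorem tk_ow {τ : Task} {t : ℕ} (h : tk τ = true → ¬ S t) (dp : ℕ → Bool) :
    (tk τ && ow S e dp t) = (tk τ && dp t) := by
  cases ht : tk τ
  · rfl
  · simp [ow, h ht]

theorem update_ow {τ : Task} {t : ℕ} (h : tk τ = true → ¬ S t) (dp : ℕ → Bool) (β : Bool) :
    Function.update (ow S e dp) t (if tk τ then β else ow S e dp t) =
      ow S e (Function.update dp t (if tk τ then β else dp t)) := by
  funext i
  by_cases hi : i = t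
  · subst hi
    cases ht : tk τ
    · simp [ow]
    · simp [ow, h ht]
  · simp [ow, Function.update_of_ne hi]

theorem update_on {τ : Task} {t : ℕ} (h : tk τ = true → ¬ S t) (dp : ℕ → Bool) (β : Bool) {i : ℕ} (hi : S i) :
    Function.update dp t (if tk τ then β else dp t) i = dp i := by
  by_cases hit : i = t
  · subst hit
    cases ht : tk τ
    · simp
    · exact absurd hi (h ht)
  · exact Function.update_of_ne hit _ _

theorem run_blind (hS : ∀ i, S i → (σ i).kd = .fill) {τ : Task} (hτ : τ.isD = false) {p t : ℕ} {q : Bool × Bool}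
    {dp : ℕ → Bool} (h : Run F σ dp₀ τ p t q dp) :
    Run F σ (ow S e dp₀) τ p t q (ow S e dp) ∧ ∀ i, S i → dp i = dp₀ i := by
  induction h with
  | base p h1 h2 => exact ⟨Run.base p h1 (drop_blind hτ h2 _), fun _ _ => rfl⟩
  | skip _ h2 ih => exact ⟨ih.1.skip h2, ih.2⟩
  | @round p t q q' dp d' β' _ h2 h3 ih =>
    have hn : tk τ = true → ¬ S t := fun ht hs => rel_blind hτ h2 ht (hS t hs)
    obtain ⟨rfl, h4⟩ := op_blind hτ h3
    have h5 := h4 (ow S e dp p)
    rw [← tk_ow (e := e) hn] at h5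
    have h6 := ih.1.round h2 h5
    rw [Function.update_eq_self, update_ow hn] at h6
    rw [Function.update_eq_self]
    exact ⟨h6, fun i hi => by rw [update_on hn dp β' hi, ih.2 i hi]⟩

theorem rend_ow (dp : ℕ → Bool) (m : Mode) (t : ℕ) (p1 p2 : Option ℕ) (b : Bool) :
    (fun i => if S i then (rend F σ dp m t p1 p2 b i).setDp (e i) else rend F σ dp m t p1 p2 b i) =
      rend F σ (ow S e dp) m t p1 p2 b := by
  funext i
  by_cases hi : S i <;> simp [rend, ow, Sm.setDp, hi]

theorem good_blind (hS : ∀ i, S i → (σ i).kd = .fill) {c : ℕ → Sm} {b : Bool} (h : GoodC F σ dp₀ c b)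
    (hD : ∀ i p m, i < wid F b → (c i).trk = .tok p m → m.isD = false) :
    GoodC F σ (ow S e dp₀) (fun i => if S i then (c i).setDp (e i) else c i) b ∧
      ∀ i, S i → (c i).con.dp = dp₀ i := by
  cases h with
  | walk t ht =>
    rw [rend_ow]
    exact ⟨GoodC.walk t ht, fun _ _ => rfl⟩
  | @main τ p t q dp _ h1 h2 h3 =>
    have hτ : τ.isD = false := hD t _ _ (lt_wid h2 h3 le_rfl) (EngB.trkf_self b t (.main τ q))
    obtain ⟨a1, a2⟩ := run_blind (e := e) hS hτ h1
    rw [rend_ow]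
    exact ⟨GoodC.main a1 h2 h3, a2⟩
  | @gl τ p p2 q dp _ t h1 h2 h3 h4 h5 h6 =>
    have hτ : τ.isD = false :=
      hD t _ _ (lt_wid h2 h3 h6.le) (EngB.trkf_self b t (.goL τ q (σ p2) (tk τ && dp p2)))
    have hn : tk τ = true → ¬ S p2 := fun ht hs => rel_blind hτ h4 ht (hS p2 hs)
    obtain ⟨a1, a2⟩ := run_blind (e := e) hS hτ h1
    have a3 := GoodC.gl t a1 h2 h3 h4 h5 h6
    rw [take, update_ow hn, tk_ow hn] at a3
    rw [rend_ow]
    exact ⟨a3, fun i hi => (update_on hn dp false hi).trans (a2 i hi)⟩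
  | @gr τ p p2 q q' dp _ d' β' t h1 h2 h3 h4 h5 h6 h7 =>
    have hτ : τ.isD = false := hD t _ _ (lt_wid h2 h3 h7) (EngB.trkf_self b t (.goR τ q' (σ p2) β'))
    have hn : tk τ = true → ¬ S p2 := fun ht hs => rel_blind hτ h4 ht (hS p2 hs)
    obtain ⟨a1, a2⟩ := run_blind (e := e) hS hτ h1
    obtain ⟨rfl, a4⟩ := op_blind hτ h5
    have a5 := a4 (ow S e dp p)
    rw [← tk_ow (e := e) hn] at a5
    have a3 := GoodC.gr t a1 h2 h3 h4 a5 h6 h7
    have e1 : ∀ dp : ℕ → Bool, Function.update (take τ dp p2) p (dp p) = take τ dp p2 := fun dp => by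
      have : dp p = take τ dp p2 p := by rw [take, Function.update_of_ne (by omega)]
      rw [this, Function.update_eq_self]
    rw [e1, take, update_ow hn] at a3
    rw [e1, rend_ow]
    exact ⟨a3, fun i hi => (update_on hn dp false hi).trans (a2 i hi)⟩

theorem good_isD {c : ℕ → Sm} {b : Bool} (h : GoodC F σ dp₀ c b) {i : ℕ} {p : Pos} {m : Mode}
    (ht : (c i).trk = .tok p m) (hm : m.isD = true) :
    ∃ τ p t q dp, τ.isD = true ∧ Run F σ dp₀ τ p t q dp ∧ t < 2 * F := by
  have hw : m ≠ .walk := by rintro rfl; simp [Mode.isD] at hm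
  cases h with
  | walk t _ => exact absurd (WAux.trkf_goL ht hw).2.1.symm hw
  | main h1 h2 _ =>
    obtain ⟨-, rfl, -⟩ := WAux.trkf_goL ht hw
    exact ⟨_, _, _, _, _, hm, h1, h2⟩
  | gl t h1 h2 _ _ _ _ =>
    obtain ⟨-, rfl, -⟩ := WAux.trkf_goL ht hw
    exact ⟨_, _, _, _, _, hm, h1, h2⟩
  | gr t h1 h2 _ _ _ _ _ =>
    obtain ⟨-, rfl, -⟩ := WAux.trkf_goL ht hw
    exact ⟨_, _, _, _, _, hm, h1, h2⟩

theorem trkf_congr {b : Bool} {t i j : ℕ} {m : Mode} (h1 : i < t ↔ j < t) (h2 : i = t ↔ j = t) (h3 : i < F ↔ j < F)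
    (h4 : i = F ↔ j = F) : trkf F b t m i = trkf F b t m j := by
  unfold trkf
  simp only [h1, h2, h3, h4]

theorem trkf_pat (b : Bool) (t : ℕ) (m : Mode) {B N : ℕ} (h : B + N ≤ F ∨ F < B) :
    ∃ (t₁ t₂ t₃ : Trk) (t' : Fin (N + 1)), ∀ i, i < N →
      trkf F b t m (B + i) = if i < t'.val then t₁ else if i = t'.val then t₂ else t₃ := by
  refine ⟨trkf F b t m B, trkf F b t m (B + min (t - B) N), trkf F b t m (B + N - 1),
    ⟨min (t - B) N, by omega⟩, fun i hi => ?_⟩
  simp only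
  split_ifs with h1 h2
  · exact trkf_congr (by omega) (by omega) (by omega) (by omega)
  · rw [← h2]
  · exact trkf_congr (by omega) (by omega) (by omega) (by omega)

theorem mark_pat (o : Option ℕ) (B N : ℕ) :
    ∃ p : Fin (N + 1), ∀ i, i < N → decide (o = some (B + i)) = decide (i = p.val) := by
  rcases o with _ | n
  · exact ⟨⟨N, by omega⟩, fun i hi => by simp; omega⟩
  · by_cases h : B ≤ n ∧ n < B + N
    · exact ⟨⟨n - B, by omega⟩, fun i hi => by simp; omega⟩
    · exact ⟨⟨N, by omega⟩, fun i hi => by simp; omega⟩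

end Generic

/-! ### words -/

theorem wd_len {α : Type} (n : ℕ) (c : ℕ → α) : (wd n c).length = n := by simp [wd]

theorem wd_app_lt {α : Type} {n i : ℕ} (c : ℕ → α) (m : List α) (h : i < n) : (wd n c ++ m)[i]? = some (c i) := by
  rw [List.getElem?_append_left (by rwa [wd_len])]
  simp [wd, h]

theorem wd_app_ge {α : Type} {n i : ℕ} (c : ℕ → α) (m : List α) (h : n ≤ i) : (wd n c ++ m)[i]? = m[i - n]? := by
  rw [List.getElem?_append_right (by rwa [wd_len]), wd_len]

theorem div_data {i : ℕ} (hi : i < 2 ^ s) : (2 * 2 ^ s + i) / 2 ^ s = 2 := by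
  rw [mul_comm, Nat.mul_add_div (Nat.two_pow_pos s), Nat.div_eq_of_lt hi]

theorem stX_data (hs : PL ≤ s) (Z : Lt (2 ^ s)) {i : ℕ} (hi : i < 2 ^ s) :
    stX Z (2 * 2 ^ s + i) = ⟨meS s (2 * 2 ^ s + i), Z.me, false, false⟩ := by
  have h1 := Z.h.isLt
  have h2 := PL_lt_pow hs
  have h3 := RL_lt_BL
  unfold PL at h2
  have h4 : ¬ 2 * 2 ^ s + i < Z.h.val := by omega
  have h5 : ¬ 2 * 2 ^ s + i < R0 + RL := by omega
  simp [stX, spX, div_data hi, h4, h5]

theorem head_pat (hs : PL ≤ s) {X Y : Lt (2 ^ s)} {c : ℕ → Sm} {b : Bool} (h : GoodP X Y c b) {k : ℕ} (hk : k < 2) :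
    ∃ (up : Cst) (t₁ t₂ t₃ : Trk) (t p1 p2 : Fin (2 ^ s + 1)), ∀ i, i < 2 ^ s →
      (c (k * FL s + 2 * 2 ^ s + i)).setDp false = pat s up t₁ t₂ t₃ t p1 p2 i := by
  obtain ⟨dp, m, t, p1, p2, -, rfl, -⟩ := good_shape h
  have hp := Nat.two_pow_pos s
  have hF : FL s = 4 * 2 ^ s := rfl
  have hB : k * FL s + 2 * 2 ^ s + 2 ^ s ≤ FL s ∨ FL s < k * FL s + 2 * 2 ^ s := by
    interval_cases k <;> omega
  obtain ⟨t₁, t₂, t₃, t', ht⟩ := trkf_pat (F := FL s) b t m hB
  obtain ⟨q1, hq1⟩ := mark_pat p1 (k * FL s + 2 * 2 ^ s) (2 ^ s)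
  obtain ⟨q2, hq2⟩ := mark_pat p2 (k * FL s + 2 * 2 ^ s) (2 ^ s)
  refine ⟨if k = 0 then X.me else Y.me, t₁, t₂, t₃, t', q1, q2, fun i hi => ?_⟩
  have h1 : stP X Y (k * FL s + 2 * 2 ^ s + i) =
      ⟨meS s (2 * 2 ^ s + i), if k = 0 then X.me else Y.me, false, false⟩ := by
    unfold stP pr2
    interval_cases k
    · rw [if_pos (by omega), zero_mul, zero_add, stX_data hs X hi, if_pos rfl]
    · rw [if_neg (by omega), show 1 * FL s + 2 * 2 ^ s + i - FL s = 2 * 2 ^ s + i by omega, stX_data hs Y hi,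
        if_neg (by omega)]
  have h2 : decide (k * FL s + 2 * 2 ^ s + i = FL s) = false := decide_eq_false (by omega)
  simp only [rend, Sm.setDp, pat, h1, h2, ht i hi, hq1 i hi, hq2 i hi, Bool.and_false]

/-- the cells of the data sweep of the frame number `k` -/
abbrev DS (s k i : ℕ) : Prop := k * FL s + 2 * 2 ^ s ≤ i ∧ i < k * FL s + 3 * 2 ^ s

theorem owD_head {n k : ℕ} (hk : k < n) (d : ℕ) (c : ℕ → Sm) (m : List Sm) :
    owD s k d (wd (n * FL s) c ++ m) = wd (n * FL s) (fun i => if DS s k i then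
      (c i).setDp (d.testBit (i - (k * FL s + 2 * 2 ^ s))) else c i) ++ m := by
  have hF : FL s = 4 * 2 ^ s := rfl
  have h0 : (k + 1) * FL s ≤ n * FL s := Nat.mul_le_mul_right _ hk
  rw [add_mul, one_mul] at h0
  apply List.ext_getElem?
  intro i
  unfold owD
  rw [List.getElem?_mapIdx]
  by_cases hi : i < n * FL s
  · rw [wd_app_lt _ _ hi, wd_app_lt _ _ hi]
    rfl
  · rw [wd_app_ge _ _ (not_lt.mp hi), wd_app_ge _ _ (not_lt.mp hi)]
    simp only [if_neg (show ¬ (k * FL s + 2 * 2 ^ s ≤ i ∧ i < k * FL s + 3 * 2 ^ s) by omega)]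
    simp

theorem owD_tail (n k d : ℕ) (c : ℕ → Sm) (m : List Sm) :
    owD s (k + n) d (wd (n * FL s) c ++ m) = wd (n * FL s) c ++ owD s k d m := by
  apply List.ext_getElem?
  intro i
  unfold owD
  rw [List.getElem?_mapIdx, add_mul]
  by_cases hi : i < n * FL s
  · rw [wd_app_lt _ _ hi, wd_app_lt _ _ hi, Option.map_some, if_neg (by omega)]
  · rw [wd_app_ge _ _ (not_lt.mp hi), wd_app_ge _ _ (not_lt.mp hi), List.getElem?_mapIdx]
    have e1 : (k * FL s + n * FL s + 2 * 2 ^ s ≤ i ∧ i < k * FL s + n * FL s + 3 * 2 ^ s) ↔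
        (k * FL s + 2 * 2 ^ s ≤ i - n * FL s ∧ i - n * FL s < k * FL s + 3 * 2 ^ s) := by omega
    have e2 : i - (k * FL s + n * FL s + 2 * 2 ^ s) = i - n * FL s - (k * FL s + 2 * 2 ^ s) := by omega
    simp only [e1, e2]

theorem noD_tail {n k : ℕ} {c : ℕ → Sm} {m : List Sm} (h : NoD s (k + n) (wd (n * FL s) c ++ m)) : NoD s k m := by
  intro i x p md h1 h2 h3 h4
  refine h (n * FL s + i) x p md ?_ ?_ ?_ h4
  · have : (k + n - 1) * FL s ≤ (k - 1 + n) * FL s := Nat.mul_le_mul_right _ (by omega)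
    rw [add_mul] at this
    omega
  · have : (k + n + 2) * FL s = n * FL s + (k + 2) * FL s := by ring
    omega
  · rw [wd_app_ge _ _ (by omega), Nat.add_sub_cancel_left, h3]

theorem dpX_data (Z : Lt (2 ^ s)) {i : ℕ} (h1 : 2 * 2 ^ s ≤ i) (h2 : i < 3 * 2 ^ s) :
    dpX Z i = Z.d.val.testBit (i - 2 * 2 ^ s) := by
  obtain ⟨j, rfl⟩ := Nat.exists_eq_add_of_le h1
  rw [dpX, if_pos (div_data (by omega))]

theorem dpX_setD (Z : Lt (2 ^ s)) (d : Fin (2 ^ 2 ^ s)) {i : ℕ} (h : ¬ (2 * 2 ^ s ≤ i ∧ i < 3 * 2 ^ s)) :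
    dpX (Z.setD d) i = dpX Z i := by
  have h1 : i / 2 ^ s ≠ 2 := fun e => by
    have h2 := Nat.div_add_mod i (2 ^ s)
    have h3 := Nat.mod_lt i (Nat.two_pow_pos s)
    rw [e] at h2
    omega
  unfold dpX
  rw [if_neg h1, if_neg h1]
  rfl

theorem ow_left (X Y : Lt (2 ^ s)) (d : Fin (2 ^ 2 ^ s)) :
    ow (DS s 0) (fun i => d.val.testBit (i - (0 * FL s + 2 * 2 ^ s))) (dpP X Y) = dpP (X.setD d) Y := by
  have hF : FL s = 4 * 2 ^ s := rfl
  funext i
  unfold ow dpP pr2 DS
  simp only [zero_mul, zero_add]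
  split_ifs with h1 h2 h3
  · rw [dpX_data _ h1.1 h1.2]; rfl
  · omega
  · rw [dpX_setD _ _ h1]
  · rfl

theorem ow_right (X Y : Lt (2 ^ s)) (d : Fin (2 ^ 2 ^ s)) :
    ow (DS s 1) (fun i => d.val.testBit (i - (1 * FL s + 2 * 2 ^ s))) (dpP X Y) = dpP X (Y.setD d) := by
  have hF : FL s = 4 * 2 ^ s := rfl
  funext i
  unfold ow dpP pr2 DS
  simp only [one_mul]
  split_ifs with h1 h2 h3
  · omega
  · rw [dpX_data _ (by omega) (by omega), Nat.sub_sub]; rfl
  · rfl
  · rw [dpX_setD _ _ (by omega)]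

theorem ds_fill (hs : PL ≤ s) (X Y : Lt (2 ^ s)) {k : ℕ} (hk : k < 2) (i : ℕ) (hi : DS s k i) :
    (stP X Y i).kd = .fill := by
  have hF : FL s = 4 * 2 ^ s := rfl
  have h2 := PL_lt_pow hs
  have h3 : i < 2 * FL s := by unfold DS at hi; interval_cases k <;> omega
  rw [(std_stP X Y).kd hs h3, WAux.mod_FL h3]
  apply lay_fill
  unfold DS at hi
  interval_cases k <;> split_ifs <;> omega

theorem head_blind (hs : PL ≤ s) {X Y : Lt (2 ^ s)} {c : ℕ → Sm} {b : Bool} (h : GoodP X Y c b) {n k : ℕ}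
    (hn : wid (FL s) b = n * FL s) (hn2 : n ≤ 2) (hk : k < n) {m : List Sm}
    (hD : NoD s k (wd (n * FL s) c ++ m)) (e : ℕ → Bool) :
    GoodC (FL s) (stP X Y) (ow (DS s k) e (dpP X Y)) (fun i => if DS s k i then (c i).setDp (e i) else c i) b ∧
      ∀ i, DS s k i → (c i).con.dp = dpP X Y i := by
  refine good_blind (ds_fill hs X Y (by omega)) h fun i p md hi ht => ?_
  rw [hn] at hi
  refine hD i (c i) p md ?_ ?_ (wd_app_lt _ _ hi) ht
  · rw [show k - 1 = 0 by omega]; omega
  · exact hi.trans_le (Nat.mul_le_mul_right _ (by omega))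

theorem owD_fix {n k : ℕ} (hk : k < n) {d : ℕ} {c : ℕ → Sm} (m : List Sm)
    (h : ∀ i, DS s k i → (c i).con.dp = d.testBit (i - (k * FL s + 2 * 2 ^ s))) :
    owD s k d (wd (n * FL s) c ++ m) = wd (n * FL s) c ++ m := by
  rw [owD_head hk]
  congr 2
  funext i
  split_ifs with hi
  · rw [← h i hi]; rfl
  · rfl

end Blind

open Blind

theorem sval_pat (hs : PL ≤ s) {u : List (Lt (2 ^ s))} {w : List Sm} (h : SVal u w) {k : ℕ} (hk : k < u.length) :
    ∃ (up : Cst) (t₁ t₂ t₃ : Trk) (t p1 p2 : Fin (2 ^ s + 1)), ∀ i, i < 2 ^ s →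
      ∃ x, w[k * FL s + 2 * 2 ^ s + i]? = some x ∧ x.setDp false = pat s up t₁ t₂ t₃ t p1 p2 i := by
  have hF : FL s = 4 * 2 ^ s := rfl
  induction h generalizing k with
  | nil => simp at hk
  | @one X w u m h1 _ ih =>
    obtain ⟨c, hc, rfl⟩ := (reach1_iff hs X X).mp h1
    rcases k with _ | k
    · obtain ⟨up, t₁, t₂, t₃, t, p1, p2, h⟩ := head_pat hs hc (k := 0) (by omega)
      exact ⟨up, t₁, t₂, t₃, t, p1, p2, fun i hi => ⟨_, wd_app_lt _ _ (by omega), h i hi⟩⟩
    · obtain ⟨up, t₁, t₂, t₃, t, p1, p2, h⟩ := ih (k := k) (by simpa using hk)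
      refine ⟨up, t₁, t₂, t₃, t, p1, p2, fun i hi => ?_⟩
      rw [add_mul, wd_app_ge _ _ (by omega),
        show k * FL s + 1 * FL s + 2 * 2 ^ s + i - FL s = k * FL s + 2 * 2 ^ s + i by omega]
      exact h i hi
  | @two X Y w u m h1 _ ih =>
    obtain ⟨c, hc, rfl⟩ := (reach2_iff hs X Y).mp h1
    by_cases hk2 : k < 2
    · obtain ⟨up, t₁, t₂, t₃, t, p1, p2, h⟩ := head_pat hs hc hk2
      refine ⟨up, t₁, t₂, t₃, t, p1, p2, fun i hi => ⟨_, wd_app_lt _ _ ?_, h i hi⟩⟩
      interval_cases k <;> omega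
    · obtain ⟨k, rfl⟩ : ∃ k', k = k' + 2 := ⟨k - 2, by omega⟩
      obtain ⟨up, t₁, t₂, t₃, t, p1, p2, h⟩ := ih (k := k) (by simpa using hk)
      refine ⟨up, t₁, t₂, t₃, t, p1, p2, fun i hi => ?_⟩
      rw [add_mul, wd_app_ge _ _ (by omega),
        show k * FL s + 2 * FL s + 2 * 2 ^ s + i - 2 * FL s = k * FL s + 2 * 2 ^ s + i by omega]
      exact h i hi

theorem sval_permit (hs : PL ≤ s) {u : List (Lt (2 ^ s))} {w : List Sm} (h : SVal u w) {i : ℕ} {x : Sm} {p : Pos}
    {m : Mode} (hx : w[i]? = some x) (ht : x.trk = .tok p m) (hm : m.isD = true) :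
    ∃ (k : ℕ) (X : Lt (2 ^ s)), u[k]? = some X ∧ permit X.sm ∧ k * FL s ≤ i ∧ i < (k + 2) * FL s := by
  induction h generalizing i with
  | nil => simp at hx
  | @one X w u m' h1 _ ih =>
    obtain ⟨c, hc, rfl⟩ := (reach1_iff hs X X).mp h1
    by_cases hi : i < FL s
    · rw [wd_app_lt _ _ hi, Option.some.injEq] at hx
      subst hx
      obtain ⟨τ, p', t, q, dp, a1, a2, a3⟩ := good_isD hc ht hm
      exact ⟨0, X, rfl, (wd_safe hs a1 a2 a3.le).1, by omega, by omega⟩
    · rw [wd_app_ge _ _ (not_lt.mp hi)] at hx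
      obtain ⟨k, Z, a1, a2, a3, a4⟩ := ih hx
      refine ⟨k + 1, Z, by simpa using a1, a2, ?_, ?_⟩
      · rw [add_mul]; omega
      · rw [show (k + 1 + 2) * FL s = (k + 2) * FL s + FL s by ring]; omega
  | @two X Y w u m' h1 _ ih =>
    obtain ⟨c, hc, rfl⟩ := (reach2_iff hs X Y).mp h1
    by_cases hi : i < 2 * FL s
    · rw [wd_app_lt _ _ hi, Option.some.injEq] at hx
      subst hx
      obtain ⟨τ, p', t, q, dp, a1, a2, a3⟩ := good_isD hc ht hm
      exact ⟨0, X, rfl, (wd_safe hs a1 a2 a3.le).1, by omega, by omega⟩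
    · rw [wd_app_ge _ _ (not_lt.mp hi)] at hx
      obtain ⟨k, Z, a1, a2, a3, a4⟩ := ih hx
      refine ⟨k + 2, Z, by simpa using a1, a2, ?_, ?_⟩
      · rw [add_mul]; omega
      · rw [show (k + 2 + 2) * FL s = (k + 2) * FL s + 2 * FL s by ring]; omega

theorem sval_blind (hs : PL ≤ s) {u : List (Lt (2 ^ s))} {w : List Sm} (h : SVal u w) {k : ℕ} {X : Lt (2 ^ s)}
    (hk : u[k]? = some X) (hD : NoD s k w) :
    owD s k X.d w = w ∧ ∀ d, SVal (u.set k (X.setD d)) (owD s k d w) := by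
  have hF : FL s = 4 * 2 ^ s := rfl
  induction h generalizing k with
  | nil => simp at hk
  | @one X₀ w u m h1 h2 ih =>
    obtain ⟨c, hc, rfl⟩ := (reach1_iff hs X₀ X₀).mp h1
    rw [← one_mul (FL s)] at hD
    rcases k with _ | k
    · obtain rfl : X₀ = X := by simpa using hk
      have key := head_blind hs hc (n := 1) (by simp [wid]) (by omega) (by omega) hD
      constructor
      · have := owD_fix (n := 1) (k := 0) (by omega) (d := X₀.d) (c := c) m fun i hi => by
          rw [(key fun _ => false).2 i hi]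
          unfold DS at hi
          unfold dpP pr2
          rw [if_pos (by omega), dpX_data _ (by omega) (by omega), zero_mul, zero_add]
        rwa [one_mul] at this
      · intro d
        have a1 := (key fun i => d.val.testBit (i - (0 * FL s + 2 * 2 ^ s))).1
        rw [ow_left] at a1
        have a2 := owD_head (s := s) (n := 1) (k := 0) (by omega) d c m
        rw [one_mul] at a2
        rw [a2]
        exact SVal.one ((reach1_iff hs (X₀.setD d) X₀).mpr ⟨_, a1, rfl⟩) h2
    · obtain ⟨a1, a2⟩ := ih (k := k) (by simpa using hk) (noD_tail hD)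
      have a3 := fun d => owD_tail (s := s) 1 k d c m
      simp only [one_mul] at a3
      refine ⟨by rw [a3, a1], fun d => ?_⟩
      rw [a3]
      exact SVal.one h1 (a2 d)
  | @two X₀ Y₀ w u m h1 h2 ih =>
    obtain ⟨c, hc, rfl⟩ := (reach2_iff hs X₀ Y₀).mp h1
    rcases k with _ | _ | k
    · obtain rfl : X₀ = X := by simpa using hk
      have key := head_blind hs hc (n := 2) (by simp [wid]) (by omega) (by omega) hD
      constructor
      · exact owD_fix (n := 2) (k := 0) (by omega) m fun i hi => by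
          rw [(key fun _ => false).2 i hi]
          unfold DS at hi
          unfold dpP pr2
          rw [if_pos (by omega), dpX_data _ (by omega) (by omega), zero_mul, zero_add]
      · intro d
        have a1 := (key fun i => d.val.testBit (i - (0 * FL s + 2 * 2 ^ s))).1
        rw [ow_left] at a1
        rw [owD_head (by omega)]
        exact SVal.two ((reach2_iff hs (X₀.setD d) Y₀).mpr ⟨_, a1, rfl⟩) h2
    · obtain rfl : Y₀ = X := by simpa using hk
      have key := head_blind hs hc (n := 2) (k := 1) (by simp [wid]) (by omega) (by omega) hD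
      constructor
      · exact owD_fix (n := 2) (k := 1) (by omega) m fun i hi => by
          rw [(key fun _ => false).2 i hi]
          unfold DS at hi
          unfold dpP pr2
          rw [if_neg (by omega), dpX_data _ (by omega) (by omega), one_mul, Nat.sub_sub]
      · intro d
        have a1 := (key fun i => d.val.testBit (i - (1 * FL s + 2 * 2 ^ s))).1
        rw [ow_right] at a1
        rw [owD_head (k := 0 + 1) (by omega)]
        exact SVal.two ((reach2_iff hs X₀ (Y₀.setD d)).mpr ⟨_, a1, rfl⟩) h2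
    · obtain ⟨a1, a2⟩ := ih (k := k) (by simpa using hk) (noD_tail (n := 2) hD)
      have a3 := fun d => owD_tail (s := s) 2 k d c m
      refine ⟨by rw [a3, a1], fun d => ?_⟩
      rw [a3]
      exact SVal.two h1 (a2 d)

end Crest.Agent.R176
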