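import Crest.Agent.R176.Sys

/-!
# Row 176: the Capelli argument  (task R176-CapAbs)

Words of length `n` are given by functions `c : ℕ → α` (`(List.range n).map c`).  Suppose that in every fibre of
the letter-to-letter map `er` there are `ρ + 1` disjoint segments of length `ℓ` with the same `er`-image such that in
nonzero words of the fibre any two of the segments can be exchanged and are different.  Then `M ^ n = 0` for every
linear form `M` with coefficients in an algebra spanned by `ρ` elements.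

Plan.  `M ^ n = ∑ w : Fin n → α, j (∏ μ (w i)) * ∏ g (w i)` (ordered products); group by `v = er ∘ w`.  If all words
of the fibre are zero the fibre sum vanishes (`Rep.prod_zero`).  Otherwise take `ℓ, P`.  Write the spanning set as
`t : Fin ρ → T` (or `s → T`) and choose for every list `x` coefficients `κ x b : KK` with
`(x.map μ).prod = ∑ b, κ x b • t b`.  Cutting `w` at the segments gives
`(w.map μ).prod = ∑ bs : Fin (ρ+1) → Fin ρ, (∏ k, κ (seg k w) (bs k)) • Z w bs`, where `Z w bs` is the ordered product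
in which the segment `k` is replaced by `t (bs k)`; it depends only on the letters outside the segments (a convenient
definition: `Z w bs = ∏ i < n, f i` with `f i = t (bs k)` if `i = P k`, `1` if `P k < i < P k + ℓ`, `μ (w i)` outside;
note `1 ≤ ℓ` because two segments differ; prove the expansion by induction on the number of treated segments).
For fixed `bs` pick `k < k'` with `bs k = bs k'` (pigeonhole); `w ↦ w ∘ swp` is an involution of the fibre which
preserves the term (`g`-part: if `w` or its image is nonzero they are equivalent), and the term vanishes at fixed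
points (then `w` is zero).  `B` has characteristic two (`j` and `Algebra KK T`), so `Finset.sum_involution` applies.
-/

set_option autoImplicit false

namespace Crest.Agent.R176

/-- the permutation of indices exchanging the segments `[p, p + ℓ)` and `[p', p' + ℓ)` -/
def swp (p p' ℓ i : ℕ) : ℕ :=
  if p ≤ i ∧ i < p + ℓ then i - p + p' else if p' ≤ i ∧ i < p' + ℓ then i - p' + p else i

namespace Cap

open Finset

theorem swp_swp {p p' ℓ : ℕ} (h : p + ℓ ≤ p') (i : ℕ) : swp p p' ℓ (swp p p' ℓ i) = i := by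
  unfold swp; split_ifs <;> omega

theorem swp_lt {p p' ℓ n i : ℕ} (h : p + ℓ ≤ n) (h' : p' + ℓ ≤ n) (hi : i < n) : swp p p' ℓ i < n := by
  unfold swp; split_ifs <;> omega

section seg

variable {T : Type} [Monoid T]

/-- ordered product over a segment -/
def seg (f : ℕ → T) (p ℓ : ℕ) : T := ((List.range ℓ).map fun i => f (p + i)).prod

theorem seg_add (f : ℕ → T) (p a b : ℕ) : seg f p (a + b) = seg f p a * seg f (p + a) b := by
  simp [seg, List.range_add, Function.comp_def, add_assoc]

theorem seg_congr {f f' : ℕ → T} {p p' ℓ : ℕ} (h : ∀ i < ℓ, f (p + i) = f' (p' + i)) :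
    seg f p ℓ = seg f' p' ℓ :=
  congrArg List.prod (List.map_congr_left fun i hi => h i (List.mem_range.1 hi))

theorem seg_one (f : ℕ → T) (p : ℕ) : seg f p 1 = f p := by simp [seg]

theorem seg_eq_one {f : ℕ → T} {p ℓ : ℕ} (h : ∀ i < ℓ, f (p + i) = 1) : seg f p ℓ = 1 :=
  List.prod_eq_one fun x hx => by
    obtain ⟨i, hi, rfl⟩ := List.mem_map.1 hx
    exact h i (List.mem_range.1 hi)

theorem seg_update (f : ℕ → T) {p n : ℕ} (h : p < n) (y : T) :
    seg (Function.update f p y) 0 n = seg f 0 p * y * seg f (p + 1) (n - (p + 1)) := by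
  conv_lhs => rw [← Nat.add_sub_cancel' (show p + 1 ≤ n from h), seg_add, seg_add, seg_one]
  simp only [zero_add, Function.update_self]
  congr 1
  · congr 1
    exact seg_congr fun i hi => Function.update_of_ne (by omega) _ _
  · exact seg_congr fun i _ => Function.update_of_ne (by omega) _ _

theorem seg_group (f f' : ℕ → T) (ℓ r : ℕ) : ∀ (P : Fin r → ℕ) (n : ℕ),
    (∀ k k', k < k' → P k + ℓ ≤ P k') → (∀ k, P k + ℓ ≤ n) →
    (∀ k, seg f (P k) ℓ = seg f' (P k) ℓ) →
    (∀ i < n, (∀ k, ¬ (P k ≤ i ∧ i < P k + ℓ)) → f i = f' i) → seg f 0 n = seg f' 0 n := by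
  induction r with
  | zero => exact fun P n _ _ _ h => seg_congr fun i hi => h _ (by omega) fun k => k.elim0
  | succ r ih =>
    intro P n h1 h2 h3 h4
    have e := Nat.add_sub_cancel' (h2 (Fin.last r))
    have hl := h2 (Fin.last r)
    rw [← e, seg_add, seg_add, seg_add, seg_add, zero_add, zero_add, h3]
    congr 1
    · congr 1
      refine ih (fun k => P k.castSucc) _ (fun k k' h => h1 _ _ (by simpa using h))
        (fun k => h1 _ _ k.castSucc_lt_last) (fun k => h3 _) fun i hi h => h4 i (by omega) fun k => ?_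
      induction k using Fin.lastCases with
      | last => omega
      | cast k => exact h k
    · refine seg_congr fun i hi => h4 _ (by omega) fun k => ?_
      induction k using Fin.lastCases with
      | last => omega
      | cast k => have := h1 _ _ k.castSucc_lt_last; omega

end seg

theorem extend_update {ι T : Type} [DecidableEq ι] {P : ι → ℕ} (hP : Function.Injective P)
    (x : ι → T) (r : ℕ → T) (k : ι) (y : T) :
    Function.extend P (Function.update x k y) r = Function.update (Function.extend P x r) (P k) y := by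
  funext i
  by_cases h : ∃ k', P k' = i
  · obtain ⟨k', rfl⟩ := h
    rw [hP.extend_apply]
    by_cases h' : k' = k
    · rw [h', Function.update_self, Function.update_self]
    · rw [Function.update_of_ne h', Function.update_of_ne (hP.ne h'), hP.extend_apply]
  · rw [Function.extend_apply' _ _ _ h, Function.update_of_ne fun e => h ⟨k, e.symm⟩,
      Function.extend_apply' _ _ _ h]

theorem expand {R T ι β : Type} [CommRing R] [Ring T] [Algebra R T] [Fintype ι] [DecidableEq ι]
    [Fintype β] {P : ι → ℕ} (hP : Function.Injective P) {n : ℕ} (hn : ∀ k, P k < n) (r : ℕ → T)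
    (κ : ι → β → R) (t : β → T) :
    seg (Function.extend P (fun k => ∑ b, κ k b • t b) r) 0 n =
      ∑ bs : ι → β, (∏ k, κ k (bs k)) • seg (Function.extend P (fun k => t (bs k)) r) 0 n := by
  let m : MultilinearMap R (fun _ : ι => T) T :=
    { toFun := fun x => seg (Function.extend P x r) 0 n
      map_update_add' := fun x k y z => by
        simp only [extend_update hP, seg_update _ (hn k), mul_add, add_mul]
      map_update_smul' := fun x k c y => by
        simp only [extend_update hP, seg_update _ (hn k), mul_smul_comm, smul_mul_assoc] }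
  change m _ = ∑ bs : ι → β, _ • m _
  rw [m.map_sum]
  exact sum_congr rfl fun bs _ => m.map_smul_univ _ _

theorem pow_eq {α T B : Type} [Fintype α] [Ring T] [Ring B] (j : T →+* B) (g : α → B)
    (hc : ∀ t a, Commute (j t) (g a)) (μ : α → T) (n : ℕ) :
    (∑ a, j (μ a) * g a) ^ n =
      ∑ w : Fin n → α, j ((List.ofFn w).map μ).prod * ((List.ofFn w).map g).prod := by
  induction n with
  | zero => simp
  | succ n ih =>
    rw [pow_succ', ih, sum_mul_sum, ← (Fin.consEquiv fun _ => α).sum_comp, Fintype.sum_prod_type]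
    refine sum_congr rfl fun a _ => sum_congr rfl fun w _ => ?_
    simp only [Fin.consEquiv_apply, List.ofFn_succ, Fin.cons_zero, Fin.cons_succ, List.map_cons,
      List.prod_cons, map_mul, mul_assoc]
    rw [← mul_assoc (g a), ← (hc _ a).eq, mul_assoc]

/-- extension of a finite word -/
def ext {α : Type} (a₀ : α) {n : ℕ} (w : Fin n → α) (i : ℕ) : α := if h : i < n then w ⟨i, h⟩ else a₀

theorem ext_lt {α : Type} (a₀ : α) {n : ℕ} (w : Fin n → α) {i : ℕ} (h : i < n) :
    ext a₀ w i = w ⟨i, h⟩ := dif_pos h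

theorem ofFn_eq {α : Type} (a₀ : α) {n : ℕ} (w : Fin n → α) :
    List.ofFn w = (List.range n).map (ext a₀ w) :=
  List.ext_getElem (by simp) fun i h1 h2 => by
    simp [ext_lt a₀ w (show i < n by simpa using h1)]

end Cap

open Cap Finset

namespace Sys

theorem nil_of_alt {α γ : Type} [Fintype α] (S : Sys α) (ρ n : ℕ) (er : α → γ)
    (H : ∀ c₀ : ℕ → α, ¬ S.IsZero ((List.range n).map c₀) → ∃ (ℓ : ℕ) (P : Fin (ρ + 1) → ℕ),
      (∀ k k', k < k' → P k + ℓ ≤ P k') ∧ (∀ k, P k + ℓ ≤ n) ∧
      (∀ k k' i, i < ℓ → er (c₀ (P k + i)) = er (c₀ (P k' + i))) ∧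
      ∀ c : ℕ → α, (∀ i, i < n → er (c i) = er (c₀ i)) → ¬ S.IsZero ((List.range n).map c) →
        ∀ k k', k < k' → S.Eqv ((List.range n).map c) ((List.range n).map fun i => c (swp (P k) (P k') ℓ i)) ∧
          ∃ i, i < ℓ ∧ c (P k + i) ≠ c (P k' + i)) :
    S.Nil ρ := by
  classical
  rintro T B _ _ _ ⟨s, hs, hspan⟩ j g hg hc μ
  have hκ : ∀ x : T, ∃ κ : s → KK, x = ∑ b, κ b • (b : T) := fun x => by
    obtain ⟨f, -, hf⟩ := Submodule.mem_span_finset.1 (hspan ▸ Submodule.mem_top : x ∈ _)
    exact ⟨fun b => f b, by rw [← hf, ← sum_coe_sort]⟩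
  choose κ hκ using hκ
  rcases Nat.eq_zero_or_pos ρ with rfl | hρ
  · obtain rfl : s = ∅ := card_eq_zero.1 (Nat.le_zero.1 hs)
    have : ∀ a, μ a = 0 := fun a => by rw [hκ (μ a)]; simp
    simp [this]
  rcases isEmpty_or_nonempty α with h0 | ⟨⟨a₀⟩⟩
  · simp
  have two : ∀ x : B, x + x = 0 := fun x => by
    have h1 := congrArg (j.comp (algebraMap KK T)) (CharTwo.add_self_eq_zero (1 : KK))
    rw [map_add, map_one, map_zero] at h1
    rw [← one_mul x, ← add_mul, h1, zero_mul]
  refine ⟨n, ?_⟩
  rw [pow_eq j g hc, ← sum_fiberwise_of_maps_to (g := fun w : Fin n → α => er ∘ w)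
    fun w hw => mem_image_of_mem _ hw]
  refine sum_eq_zero fun v _ => ?_
  simp only [ofFn_eq a₀]
  by_cases hz : ∀ w : Fin n → α, er ∘ w = v → S.IsZero ((List.range n).map (ext a₀ w))
  · exact sum_eq_zero fun w hw => by rw [hg.prod_zero (hz w (mem_filter.1 hw).2), mul_zero]
  push Not at hz
  obtain ⟨w₀, rfl, hw₀⟩ := hz
  obtain ⟨ℓ, P, h1, h2, h3, h4⟩ := H _ hw₀
  have hℓ : 0 < ℓ := by
    obtain ⟨i, hi, -⟩ := (h4 _ (fun _ _ => rfl) hw₀ 0 (Fin.last ρ) (Fin.lt_def.2 hρ)).2
    omega
  have hdis : ∀ k k' i, P k ≤ i → i < P k + ℓ → P k' ≤ i → i < P k' + ℓ → k = k' :=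
    fun k k' i a1 a2 a3 a4 => by
      rcases lt_trichotomy k k' with h | h | h
      · have := h1 _ _ h; omega
      · exact h
      · have := h1 _ _ h; omega
  have hP : Function.Injective P := fun k k' h => hdis k k' (P k) le_rfl (by omega) h.ge (by omega)
  let rest : (ℕ → α) → ℕ → T := fun c i => if ∃ k, P k ≤ i ∧ i < P k + ℓ then 1 else μ (c i)
  have hexp : ∀ c : ℕ → α, (((List.range n).map c).map μ).prod =
      ∑ bs : Fin (ρ + 1) → s, (∏ k, κ (seg (μ ∘ c) (P k) ℓ) (bs k)) •
        seg (Function.extend P (fun k => (bs k : T)) (rest c)) 0 n := fun c => by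
    rw [← expand hP (fun k => by have := h2 k; omega) (rest c)
      (fun k => κ (seg (μ ∘ c) (P k) ℓ)) Subtype.val]
    simp only [← hκ]
    refine Eq.trans (by simp [seg, Function.comp_def]) (seg_group (μ ∘ c) _ ℓ _ P n h1 h2 (fun k => ?_) fun i _ hi => ?_)
    · obtain ⟨m, rfl⟩ : ∃ m, ℓ = 1 + m := ⟨ℓ - 1, by omega⟩
      conv_rhs => rw [seg_add, seg_one, hP.extend_apply]
      rw [seg_eq_one (p := P k + 1), mul_one]
      intro i hi
      rw [Function.extend_apply' _ _ _ (by
        rintro ⟨k', hk'⟩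
        have := hdis k k' (P k') (by omega) (by omega) le_rfl (by omega)
        subst this
        omega)]
      exact if_pos ⟨k, by omega, by omega⟩
    · rw [Function.extend_apply' _ _ _ (by
        rintro ⟨k', rfl⟩
        exact hi k' ⟨le_rfl, by omega⟩)]
      exact (if_neg (not_exists.2 hi)).symm
  simp only [hexp, map_sum, sum_mul]
  rw [sum_comm]
  refine sum_eq_zero fun bs _ => ?_
  obtain ⟨k₀, k₁, hk, hb⟩ : ∃ k₀ k₁, k₀ < k₁ ∧ bs k₀ = bs k₁ := by
    obtain ⟨k, k', hne, he⟩ := Fintype.exists_ne_map_eq_of_card_lt bs (by simpa [Nat.lt_succ_iff] using hs)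
    rcases lt_or_gt_of_ne hne with h | h
    exacts [⟨k, k', h, he⟩, ⟨k', k, h, he.symm⟩]
  have hk' := h1 _ _ hk
  let σ : (Fin n → α) → Fin n → α := fun w i => ext a₀ w (swp (P k₀) (P k₁) ℓ i)
  have hσ : ∀ w i, i < n → ext a₀ (σ w) i = ext a₀ w (swp (P k₀) (P k₁) ℓ i) :=
    fun w i hi => ext_lt _ _ hi
  have hlt : ∀ i, i < n → swp (P k₀) (P k₁) ℓ i < n := fun i => swp_lt (h2 _) (h2 _)
  have σσ : ∀ w, σ (σ w) = w := fun w => funext fun i => by
    change ext a₀ (σ w) _ = _
    rw [hσ _ _ (hlt _ i.2), swp_swp hk', ext_lt _ _ i.2]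
  have hfib : ∀ w : Fin n → α, er ∘ w = er ∘ w₀ ↔
      ∀ i, i < n → er (ext a₀ w i) = er (ext a₀ w₀ i) := fun w =>
    ⟨fun h i hi => by rw [ext_lt _ _ hi, ext_lt _ _ hi]; exact congrFun h _,
      fun h => funext fun i => by simpa [ext_lt _ _ i.2] using h i i.2⟩
  have sw : ∀ k i, i < ℓ → swp (P k₀) (P k₁) ℓ (P k + i) = P (Equiv.swap k₀ k₁ k) + i :=
    fun k i hi => by
      by_cases e0 : k = k₀
      · rw [e0, Equiv.swap_apply_left, swp, if_pos ⟨by omega, by omega⟩]; omega
      by_cases e1 : k = k₁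
      · rw [e1, Equiv.swap_apply_right, swp, if_neg (by omega), if_pos ⟨by omega, by omega⟩]; omega
      rw [Equiv.swap_apply_of_ne_of_ne e0 e1, swp,
        if_neg fun h => e0 (hdis k k₀ _ (by omega) (by omega) h.1 h.2),
        if_neg fun h => e1 (hdis k k₁ _ (by omega) (by omega) h.1 h.2)]
  have sw' : ∀ i, (¬ ∃ k, P k ≤ i ∧ i < P k + ℓ) → swp (P k₀) (P k₁) ℓ i = i := fun i hi => by
    rw [swp, if_neg fun h => hi ⟨_, h⟩, if_neg fun h => hi ⟨_, h⟩]
  have σfib : ∀ w, er ∘ w = er ∘ w₀ → er ∘ σ w = er ∘ w₀ := fun w hw =>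
    (hfib _).2 fun i hi => by
      rw [hσ _ _ hi, (hfib w).1 hw _ (hlt i hi)]
      by_cases h : ∃ k, P k ≤ i ∧ i < P k + ℓ
      · obtain ⟨k, a1, a2⟩ := h
        obtain ⟨m, rfl⟩ := Nat.exists_eq_add_of_le a1
        rw [sw k m (by omega)]
        exact h3 _ _ _ (by omega)
      · rw [sw' i h]
  have hlist : ∀ w, (List.range n).map (ext a₀ (σ w)) =
      (List.range n).map fun i => ext a₀ w (swp (P k₀) (P k₁) ℓ i) := fun w =>
    List.map_congr_left fun i hi => hσ w i (List.mem_range.1 hi)
  have heq : ∀ w, er ∘ w = er ∘ w₀ → ¬ S.IsZero ((List.range n).map (ext a₀ w)) →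
      (((List.range n).map (ext a₀ (σ w))).map g).prod =
        (((List.range n).map (ext a₀ w)).map g).prod := fun w hw hz => by
    rw [hlist, hg.prod_eq (h4 _ ((hfib w).1 hw) hz k₀ k₁ hk).1]
  refine sum_involution (fun w _ => σ w) (fun w hw => ?_) (fun w hw hne he => hne ?_)
    (fun w hw => mem_filter.2 ⟨mem_univ _, σfib w (mem_filter.1 hw).2⟩) fun w _ => σσ w
  · replace hw := (mem_filter.1 hw).2
    have e1 : (((List.range n).map (ext a₀ (σ w))).map g).prod =
        (((List.range n).map (ext a₀ w)).map g).prod := by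
      by_cases z1 : S.IsZero ((List.range n).map (ext a₀ w))
      · by_cases z2 : S.IsZero ((List.range n).map (ext a₀ (σ w)))
        · rw [hg.prod_zero z1, hg.prod_zero z2]
        · rw [← heq _ (σfib w hw) z2, σσ]
      · exact heq w hw z1
    have e2 : ∏ k, κ (seg (μ ∘ ext a₀ (σ w)) (P k) ℓ) (bs k) =
        ∏ k, κ (seg (μ ∘ ext a₀ w) (P k) ℓ) (bs k) := by
      rw [← Equiv.prod_comp (Equiv.swap k₀ k₁) fun k => κ (seg (μ ∘ ext a₀ w) (P k) ℓ) (bs k)]
      refine prod_congr rfl fun k _ => ?_
      rw [Equiv.apply_swap_eq_self hb]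
      congr 1
      refine seg_congr fun i hi => congrArg μ ?_
      rw [hσ _ _ (by have := h2 k; omega), sw k i hi]
    have e3 : seg (Function.extend P (fun k => (bs k : T)) (rest (ext a₀ (σ w)))) 0 n =
        seg (Function.extend P (fun k => (bs k : T)) (rest (ext a₀ w))) 0 n := by
      refine seg_congr fun i hi => ?_
      rw [zero_add]
      by_cases h : ∃ k, P k = i
      · obtain ⟨k, rfl⟩ := h
        rw [hP.extend_apply, hP.extend_apply]
      · rw [Function.extend_apply' _ _ _ h, Function.extend_apply' _ _ _ h]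
        simp only [rest]
        split_ifs with h'
        · rfl
        · rw [hσ _ _ hi, sw' i h']
    rw [e1, e2, e3, two]
  · by_cases z1 : S.IsZero ((List.range n).map (ext a₀ w))
    · rw [hg.prod_zero z1, mul_zero]
    obtain ⟨i, hi, hne⟩ := (h4 _ ((hfib w).1 (mem_filter.1 hw).2) z1 k₀ k₁ hk).2
    have := hσ w (P k₀ + i) (by have := h2 k₀; omega)
    rw [he, sw k₀ i hi, Equiv.swap_apply_left] at this
    exact absurd this hne

end Sys

end Crest.Agent.R176
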