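import Crest.Agent.R176.Parse

/-!
# Row 176, machine: phases  (task R176-Phase)

`phases`.  Static letters `SL := Sta × ℕ × ℕ`, `stt X = (X.st, X.a, X.h)` is preserved by all moves.
`phS s x : ℕ := x.1.me.sw * 2 ^ s + x.2.1`; `dec s f : SL := if h : ∃ X : Lt (2 ^ s), ∀ i < FL s, f i = stX X i then
stt h.choose else default` (`stX_inj`).  For `σ : List SL` put `b₀ = 2 * F - phS s (head) % F`,
`K = (|σ| - b₀ - 1) / F - 1`, `U s σ = wd K fun k => dec s fun i => (σ.getD (b₀ + k * F + i) default).1`, and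
`Ψ 0 s σ = phS s (head)`, `Ψ (j+1) s σ = F * Ψ j (2 ^ s) (U s σ) - b₀`, exponents `E 0 s = s + 2`,
`E (j+1) s = s + 2 + E j (2 ^ s)`, thresholds `Λ 0 s = 1`, `Λ (j+1) s = F * (Λ j (2 ^ s) + 5)`.
By induction on `j` (all `s ≥ PL`), for nonzero `a ++ b ++ c` with `Λ j s ≤ |b|`:
`Ψ j s (b.map stt) ≡ Ψ j s ((a ++ b ++ c).map stt) + |a| [ZMOD 2 ^ E j s]`: by `parse`, `val_nz`, `sval_st` the list
`U s (w.map stt)` of the whole word `w` is `u'.map stt` for a nonzero word `u'` of level `2 ^ s` (a factor of `u`), and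
`U s (b.map stt)` is the image of a factor of `u'` at the offset `(|a| + b₀(b) - b₀(w)) / F` (the division is exact by
`ph_add`).  Similarly `Ψ (j+1) ≡ Ψ j [ZMOD 2 ^ E j s]` for `Λ (j+1) s ≤ |w|`, and `Λ (j+1) s + 10 ≤ 20 * 2 ^ E j s`.
Finally `e 0 = 0, lam 0 = 1, Φ 0 = 0`, `e (j+1) = E j s`, `lam (j+1) = Λ j s`, `Φ (j+1) w = Ψ j s (w.map stt)`.
-/

set_option autoImplicit false

namespace Crest.Agent.R176

theorem wd_getD {α : Type} [Inhabited α] (u : List α) : (wd u.length fun i => u.getD i default) = u :=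
  List.ext_getElem (by simp [wd]) fun i _ h => by simp [wd, h]

theorem wd_factor {α : Type} {S : Sys α} {n : ℕ} {c : ℕ → α} (hz : ¬ S.IsZero (wd n c)) {p m : ℕ}
    (h : p + m ≤ n) : ¬ S.IsZero (wd m fun i => c (p + i)) := fun h' => by
  obtain ⟨r, rfl⟩ := Nat.exists_eq_add_of_le h
  have := h'.append (wd p c) (wd r fun i => c (p + m + i))
  refine hz ?_
  simpa [wd, List.range_add, Function.comp_def] using this

/-- the static part of a letter -/
def stt {s : ℕ} (X : Lt s) : Sta × ℕ := (X.st, X.a)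

theorem stt_eqv {s : ℕ} {w w' : List (Lt s)} (h : (Sg s).Eqv w w') : w.map stt = w'.map stt := by
  refine Sys.Eqv.apply_eq (fun _ _ h => ?_) h
  cases h with
  | mk u v h =>
    rcases h with ⟨y', z', h, rfl, rfl⟩ | ⟨-, -, rfl, rfl⟩
    · simp [stt, Lt.setSm, Lt.st, smv_st h]
    · simp [stt, Lt.setD, Lt.st]

def phS (s : ℕ) (x : Sta × ℕ) : ℕ := (x.1.me.sw.val * 2 ^ s + x.2) % FL s

theorem phS_lt (s : ℕ) (x : Sta × ℕ) : phS s x < FL s := Nat.mod_lt _ (by have := FL_ge s; omega)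

theorem phS_cast {s : ℕ} (X : Lt s) : (phS s (stt X) : ZMod (FL s)) = X.ph := ZMod.natCast_mod _ _

theorem phS_step {s n : ℕ} {c : ℕ → Lt s} (hz : ¬ (Sg s).IsZero (wd n c)) (hn : 1 < n) :
    phS s (stt (c 1)) = phS s (stt (c 0)) + 1 ∨ phS s (stt (c 1)) = 0 ∧ phS s (stt (c 0)) + 1 = FL s := by
  have h := ph_add (i := 0) (k := 1) hz (by omega)
  rw [← phS_cast, ← phS_cast, ← Nat.cast_add, ZMod.natCast_eq_natCast_iff', zero_add,
    Nat.mod_eq_of_lt (phS_lt _ _)] at h
  rcases (Nat.succ_le_of_lt (phS_lt s (stt (c 0)))).lt_or_eq with h' | h'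
  · exact .inl (h.trans (Nat.mod_eq_of_lt h'))
  · exact .inr ⟨by rw [h, show _ + 1 = _ from h', Nat.mod_self], h'⟩

open Classical in
/-- static decoding of a frame -/
noncomputable def phDec (s : ℕ) (f : Fin (FL s) → Sta) : Sta × ℕ :=
  if h : ∃ X : Lt (2 ^ s), ∀ i : Fin (FL s), f i = stX X i then stt h.choose else default

noncomputable def phU (s : ℕ) (σ : ℕ → Sta × ℕ) (b k : ℕ) : Sta × ℕ :=
  phDec s fun i => (σ (b + (k * FL s + i))).1

noncomputable def phi : ℕ → ℕ → (ℕ → Sta × ℕ) → ℤ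
  | 0, s, σ => phS s (σ 0)
  | j + 1, s, σ => FL s * phi j (2 ^ s) (phU s σ (2 * FL s - phS s (σ 0))) - (2 * FL s - phS s (σ 0))

def phE : ℕ → ℕ → ℕ
  | 0, s => s + 2
  | j + 1, s => s + 2 + phE j (2 ^ s)

def phL : ℕ → ℕ → ℕ
  | 0, _ => 1
  | j + 1, s => (phL j (2 ^ s) + 4) * FL s

theorem FL_pow (s e : ℕ) : (2 : ℤ) ^ (s + 2 + e) = FL s * 2 ^ e := by simp [FL]; ring

theorem phE_lt (j : ℕ) : ∀ s, phE j s < phE (j + 1) s := by
  induction j with
  | zero => exact fun s => by simp [phE]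
  | succ j ih => exact fun s => Nat.add_lt_add_left (ih _) _

theorem phL_pos (j s : ℕ) : 1 ≤ phL j s := by
  cases j with
  | zero => rfl
  | succ j => exact Nat.mul_pos (Nat.succ_pos _) (by have := FL_ge s; omega)

theorem phL_le (j : ℕ) : ∀ s, phL j s ≤ phL (j + 1) s := by
  induction j with
  | zero => exact phL_pos 1
  | succ j ih => exact fun s => Nat.mul_le_mul_right _ (Nat.add_le_add_right (ih _) _)

theorem phL_bd (j : ℕ) : ∀ s, phL (j + 1) s + 8 ≤ 20 * 2 ^ phE j s := by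
  induction j with
  | zero =>
    intro s
    have := Nat.two_pow_pos s
    simp only [phL, phE, FL, pow_add]; omega
  | succ j ih =>
    intro s
    have h1 := FL_ge s
    have h2 : 2 ^ phE (j + 1) s = FL s * 2 ^ phE j (2 ^ s) := by exact_mod_cast FL_pow s _
    rw [h2, phL]
    nlinarith [Nat.mul_le_mul_left (FL s) (ih (2 ^ s))]

theorem phi_compat (j : ℕ) : ∀ s σ, phi (j + 1) s σ ≡ phi j s σ [ZMOD 2 ^ phE j s] := by
  induction j with
  | zero =>
    intro s σ
    have h := FL_pow s 0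
    rw [add_zero, pow_zero, mul_one] at h
    rw [phE, h, phi.eq_2, phi.eq_1 s]
    exact (Int.modEq_iff_dvd.2 ⟨2 - phi 0 _ _, by rw [mul_sub]; ring⟩)
  | succ j ih =>
    intro s σ
    rw [phE, FL_pow, phi.eq_2 s, phi.eq_2 s σ j]
    exact (ih _ _).mul_left'.sub_right _

theorem phi_local (j : ℕ) : ∀ s {σ σ' : ℕ → Sta × ℕ}, (∀ i, i < phL j s → σ i = σ' i) →
    phi j s σ = phi j s σ' := by
  induction j with
  | zero => exact fun s σ σ' h => by rw [phi, phi, h 0 Nat.one_pos]
  | succ j ih =>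
    intro s σ σ' h
    rw [phi, phi, ← h 0 (phL_pos _ _), ih _ fun k hk => ?_]
    refine congrArg (phDec s) (funext fun i => congrArg _ (h _ ?_))
    have := Nat.mul_le_mul_right (FL s) (Nat.succ_le_of_lt hk)
    have := i.2
    rw [phL, add_mul]
    rw [Nat.succ_mul] at *
    omega

theorem ph_decode {s n K : ℕ} (hs : PL ≤ s) {c : ℕ → Lt s} (hz : ¬ (Sg s).IsZero (wd n c))
    (hn : (K + 3) * FL s < n) : ∃ c' : ℕ → Lt (2 ^ s), ¬ (Sg (2 ^ s)).IsZero (wd K c') ∧
      ∀ k, k < K → phU s (fun i => stt (c i)) (2 * FL s - phS s (stt (c 0))) k = stt (c' k) := by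
  have h1 := phS_lt s (stt (c 0))
  generalize hb : 2 * FL s - phS s (stt (c 0)) = b
  rw [add_mul] at hn
  obtain ⟨e₁, e₂, u, a1, a2, a3, a4⟩ := parse hs hz (b := b) (K := K) (by omega) (by
    rw [← zero_add b, ph_add hz (by omega), ← phS_cast, ← Nat.cast_add,
      show phS s (stt (c 0)) + b = 2 * FL s by omega]
    simp) (by rw [add_mul]; omega)
  have b1 := Nat.mul_le_mul_right (FL s) a1
  have b2 := Nat.mul_le_mul_right (FL s) a2
  have a5 := val_nz hs a4 (wd_factor hz (by simp only [add_mul]; omega))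
  rw [← wd_getD u] at a5
  refine ⟨_, wd_factor a5 (p := e₁) (by omega), fun k hk => ?_⟩
  have a6 : ∃ X : Lt (2 ^ s), u.getD (e₁ + k) default = X ∧
      ∀ i : Fin (FL s), (c (b + (k * FL s + i))).st = stX X i := ⟨_, rfl, fun i => by
    obtain ⟨x, hx, hx'⟩ := sval_st hs a4.1 (k := e₁ + k) (List.getElem?_eq_getElem (by omega)) i.2
    have b3 := Nat.mul_le_mul_right (FL s) (Nat.succ_le_of_lt hk)
    have b4 := i.2
    rw [Nat.succ_mul] at b3
    have b5 : (e₁ + k) * FL s + i < (e₁ + K + e₂) * FL s := by simp only [add_mul]; omega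
    simp only [wd, List.map_map, List.getElem?_map, List.getElem?_range b5, Option.map_some,
      Function.comp_apply, Option.some.injEq] at hx
    rw [List.getD_eq_getElem _ _ (by omega), ← hx', ← hx, add_mul]
    congr 2; omega⟩
  obtain ⟨X, e, hX⟩ := a6
  have h2 : ∃ X : Lt (2 ^ s), ∀ i : Fin (FL s), (stt (c (b + (k * FL s + i)))).1 = stX X i := ⟨X, hX⟩
  have h3 := stX_inj hs (X := h2.choose) (Y := X) fun i hi => (h2.choose_spec ⟨i, hi⟩).symm.trans (hX ⟨i, hi⟩)
  rw [e, phU, phDec, dif_pos h2, stt, h3.1, h3.2.1, stt]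

theorem phi_step (j : ℕ) : ∀ {s n : ℕ} {c : ℕ → Lt s}, PL ≤ s → ¬ (Sg s).IsZero (wd n c) → phL j s < n →
    phi j s (fun i => stt (c (1 + i))) ≡ phi j s (fun i => stt (c i)) + 1 [ZMOD 2 ^ phE j s] := by
  induction j with
  | zero =>
    intro s n c _ hz hn
    have h := FL_pow s 0
    rw [add_zero, pow_zero, mul_one] at h
    rw [phE, h, phi, phi, add_zero]
    rcases phS_step hz hn with h | ⟨h, h'⟩
    · rw [h]; rfl
    · rw [h, ← h']; exact Int.modEq_iff_dvd.2 ⟨1, by simp⟩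
  | succ j ih =>
    intro s n c hs hz hn
    have h1 := phS_lt s (stt (c 0))
    rw [phE, FL_pow, phi, phi, add_zero]
    rcases phS_step hz ((phL_pos _ _).trans_lt hn) with h | ⟨h, h'⟩
    · have : phU s (fun i => stt (c (1 + i))) (2 * FL s - phS s (stt (c 1))) =
          phU s (fun i => stt (c i)) (2 * FL s - phS s (stt (c 0))) := funext fun k =>
        congrArg (phDec s) (funext fun i => congrArg (fun t => (stt (c t)).1) (by omega))
      rw [this, h, Nat.cast_succ]
      exact Int.modEq_iff_dvd.2 ⟨0, by ring⟩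
    · obtain ⟨c', a1, a2⟩ := ph_decode (K := phL j (2 ^ s) + 1) hs hz hn
      have a3 : ∀ k, phU s (fun i => stt (c (1 + i))) (2 * FL s - phS s (stt (c 1))) k =
          phU s (fun i => stt (c i)) (2 * FL s - phS s (stt (c 0))) (1 + k) := fun k =>
        congrArg (phDec s) (funext fun i => congrArg (fun t => (stt (c t)).1) (by rw [add_mul]; omega))
      rw [phi_local j _ fun k hk => (a3 k).trans (a2 _ (by omega)),
        phi_local j _ fun k hk => a2 k (by omega), h]
      refine ((ih (hs.trans Nat.lt_two_pow_self.le) a1 (by omega)).mul_left'.sub_right _).trans ?_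
      rw [← h']
      exact Int.modEq_iff_dvd.2 ⟨0, by push_cast; ring⟩

theorem phi_shift {s n : ℕ} {c : ℕ → Lt s} (hs : PL ≤ s) (j : ℕ) (hz : ¬ (Sg s).IsZero (wd n c)) (p : ℕ)
    (hn : p + phL j s ≤ n) :
    phi j s (fun i => stt (c (p + i))) ≡ phi j s (fun i => stt (c i)) + p [ZMOD 2 ^ phE j s] := by
  induction p with
  | zero => simp
  | succ p ih =>
    simp only [add_assoc p 1]
    refine (phi_step j hs (wd_factor hz (p := p) (m := n - p) (by omega)) (by omega)).trans ?_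
    rw [Nat.cast_succ, ← add_assoc]
    exact (ih (by omega)).add_right _

theorem phases {s : ℕ} (hs : PL ≤ s) : Nonempty (Sg s).Phases := by
  refine ⟨⟨fun j => j.casesOn 0 fun j => phE j s, fun j => j.casesOn 1 fun j => phL j s,
    fun j w => j.casesOn 0 fun j => phi j s fun i => stt (w.getD i default), rfl, ?_, ?_, ?_, ?_, ?_, ?_, ?_⟩⟩
  · rintro (_ | j)
    exacts [Nat.succ_pos _, phE_lt j s]
  · rintro (_ | j)
    exacts [le_rfl, phL_pos j s]
  · rintro (_ | j)
    exacts [le_rfl, phL_le j s]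
  · rintro (_ | j)
    exacts [(by norm_num : 1 ≤ 20 * 2 ^ 0), le_self_add.trans (phL_bd j s)]
  · rintro (_ | j) w w' h
    · rfl
    · refine congrArg (phi j s) (funext fun i => ?_)
      rw [← List.getD_map _ _ stt, stt_eqv h, List.getD_map]
  · rintro (_ | j) a b c hz hl
    · exact Int.modEq_one
    · have hl : phL j s ≤ b.length := hl
      rw [← wd_getD (a ++ b ++ c)] at hz
      have := phi_shift hs j hz a.length (by simp; omega)
      rwa [phi_local j s (σ' := fun i => stt (b.getD i default)) fun i hi => by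
        simp [List.getElem?_append_left (hi.trans_le hl), List.getElem?_append_right]] at this
  · rintro (_ | j) w - -
    exacts [Int.modEq_one, phi_compat j s _]

end Crest.Agent.R176
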