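import Crest.Agent.R176.Parse
import Crest.Agent.R176.Blind
import Crest.Agent.R176.CapAbs
import Crest.Agent.R176.Phase

/-!
# Row 176, machine: the Capelli identity two levels deep  (task R176-Cap)

Let `s₁ = 2 ^ s`, `F = FL s`, `F₁ = FL s₁`, `K = 5 * F₁`, `n = (K + 4) * F`, `er X = X.setSm (X.sm.setDp false)`,
`ρ = 2 ^ (7 * s) = s₁ ^ 7`.  Apply `nil_of_alt` with `ℓ = s₁`.  Given a nonzero `c₀`, put `b₀ = 2 * F - (c₀ 0).ph.val`
(`F < b₀ ≤ 2 * F`, `ph (c b₀) = 0` for every nonzero `c` of the fibre by `ph_add`).  For such `c`, `parse` gives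
`e₁, e₂, u`; `u` is nonzero (`val_nz`, factor of a nonzero word); put `U k = u.getD (e₁ + k) default` for `k < K`.  By
`sval_st` and `stX_inj` the static parts `st, a, h` of `U k` are the same for all `c` of the fibre.  Put
`b₁ = 2 * F₁ - (U 0).ph.val`; the slots of the upper frame are `k = b₁ + i`, `s₁' ≤ i < 2 * s₁'` with `s₁' = 2 ^ s₁`,
the segment of the slot `k` starts at `b₀ + k * F + 2 * s₁`.  A slot is *quiet* if no token with `isD = true` is in the
cells `[b₀ + (k-1) F, b₀ + (k+2) F)` of `c₀` (a property of `er ∘ c₀`).  By `sval_permit`, `frame_struct` and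
`one_token` (at level `s₁`; a `permit` letter near the slots is a token in this upper frame) at most `4` slots are not
quiet.  By `sval_pat` (+ `BigOK` for the big parts: `a = i`, `h = s`, `d = 0`) the `er`-image of a segment is one of at
most `C * (s₁ + 1) ^ 3` patterns, `C = card (Cst × Trk × Trk × Trk)` (keep it as an opaque constant!), so for large `s`
there are `ρ + 1` quiet slots with the same pattern (`Finset.exists_lt_card_fiber_of_mul_lt_card_of_maps_to`), sorted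
by `Finset.orderEmbOfFin`.  For two of them: `sval_blind` (twice) shows that the word with the two segments exchanged
is valid for `u` with the two data exchanged (`swapD`), `slot_perm` at level `s₁`, `sim_eqv`, `val_eqv_enc` give the
equivalence; equal segments give equal data (`Nat.eq_of_testBit_eq`), excluded by `slot_perm`.
-/

set_option autoImplicit false

namespace Crest.Agent.R176

theorem cap_ineq (C : ℕ) : ∃ s₀, ∀ s, s₀ ≤ s → C * (2 ^ s + 1) ^ 3 * 2 ^ (7 * s) + 4 < 2 ^ 2 ^ s := by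
  refine ⟨C + 7, fun s hs => ?_⟩
  have h1 : C ≤ 2 ^ s := (by omega : C ≤ s).trans Nat.lt_two_pow_self.le
  have h2 : 2 ^ s + 1 ≤ 2 ^ (s + 1) := by
    have := Nat.two_pow_pos s
    rw [pow_succ]; omega
  have h3 : ∀ t, 7 ≤ t → 11 * t + 4 ≤ 2 ^ t := by
    intro t ht
    induction t, ht using Nat.le_induction with
    | base => norm_num
    | succ t ht ih => rw [pow_succ]; omega
  have h4 : C * (2 ^ s + 1) ^ 3 * 2 ^ (7 * s) ≤ 2 ^ (11 * s + 3) := by
    calc C * (2 ^ s + 1) ^ 3 * 2 ^ (7 * s) ≤ 2 ^ s * (2 ^ (s + 1)) ^ 3 * 2 ^ (7 * s) := by gcongr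
      _ = 2 ^ (11 * s + 3) := by rw [← pow_mul, ← pow_add, ← pow_add]; congr 1; ring
  have h5 : 2 ^ 3 ≤ 2 ^ (11 * s + 3) := Nat.pow_le_pow_right two_pos (by omega)
  have h6 : 2 ^ (11 * s + 4) ≤ 2 ^ 2 ^ s := Nat.pow_le_pow_right two_pos (h3 s (by omega))
  rw [pow_succ 2 (11 * s + 3)] at h6
  omega

namespace CapA

theorem pigeon {α : Type} [Fintype α] (Q : Finset ℕ) (φ : ℕ → α) (ρ : ℕ)
    (h : Fintype.card α * ρ < Q.card) :
    ∃ I : Fin (ρ + 1) → ℕ, StrictMono I ∧ (∀ k, I k ∈ Q) ∧ ∀ k k', φ (I k) = φ (I k') := by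
  classical
  obtain ⟨y, -, hy⟩ := Finset.exists_lt_card_fiber_of_mul_lt_card_of_maps_to
    (t := Finset.univ) (f := φ) (fun a _ => Finset.mem_univ (φ a)) h
  have hm := fun k => Finset.mem_filter.mp (Finset.orderEmbOfCardLe_mem _ (Nat.succ_le_of_lt hy) k)
  exact ⟨_, (Finset.orderEmbOfCardLe _ (Nat.succ_le_of_lt hy)).strictMono, fun k => (hm k).1,
    fun k k' => (hm k).2.trans (hm k').2.symm⟩

theorem wd_get {α : Type} {n i : ℕ} (c : ℕ → α) (h : i < n) : (wd n c)[i]? = some (c i) := by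
  simp [wd, h]

theorem wd_get_some {α : Type} {n i : ℕ} {c : ℕ → α} {x : α} (h : (wd n c)[i]? = some x) :
    i < n ∧ x = c i := by
  have hi : i < n := by simpa [wd] using (List.getElem?_eq_some_iff.mp h).1
  rw [wd_get c hi] at h
  exact ⟨hi, (Option.some.inj h).symm⟩

theorem wd_length {α : Type} (n : ℕ) (c : ℕ → α) : (wd n c).length = n := by simp [wd]

theorem wd_map {α β : Type} (n : ℕ) (c : ℕ → α) (g : α → β) :
    (wd n c).map g = wd n fun i => g (c i) := by simp [wd, Function.comp_def]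

theorem get_getD {α : Type} [Inhabited α] {u : List α} {k : ℕ} (h : k < u.length) :
    u[k]? = some (u.getD k default) := by simp [h]

variable {s : ℕ}

/-- erase the dynamic bit -/
def er (X : Lt s) : Lt s := X.setSm (X.sm.setDp false)

theorem er_eq {X Y : Lt s} (h : er X = er Y) : X.st = Y.st ∧ X.a = Y.a ∧ X.h = Y.h ∧ X.d = Y.d ∧
    X.sm.trk = Y.sm.trk ∧ ∀ d, X.sm.setDp d = Y.sm.setDp d := by
  obtain ⟨⟨⟨a1, a2, a3, a4⟩, a5, a6⟩, a7, a8, a9⟩ := X
  obtain ⟨⟨⟨b1, b2, b3, b4⟩, b5, b6⟩, b7, b8, b9⟩ := Y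
  simp only [er, Lt.setSm, Sm.setDp, Lt.mk.injEq, Sm.mk.injEq, Con.mk.injEq, true_and] at h
  obtain ⟨⟨⟨rfl, rfl, rfl⟩, rfl, rfl⟩, rfl, rfl, rfl⟩ := h
  exact ⟨rfl, rfl, rfl, rfl, rfl, fun _ => rfl⟩

theorem er_of {X Y : Lt s} (h1 : X.sm.setDp false = Y.sm.setDp false) (h2 : X.a = Y.a) (h3 : X.h = Y.h)
    (h4 : X.d = Y.d) : er X = er Y := by
  simp only [er, Lt.setSm, h1, h2, h3, h4]

theorem ph_eq {X Y : Lt s} (h1 : X.st = Y.st) (h2 : X.a = Y.a) : X.ph = Y.ph := by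
  have h3 : X.me = Y.me := congrArg Sta.me h1
  simp only [Lt.ph, h3, h2]

theorem bigOK_congr {n : ℕ} {f g : ℕ → Lt s} (h : BigOK (wd n f)) (he : ∀ i, i < n → er (g i) = er (f i)) :
    BigOK (wd n g) := by
  refine ⟨fun i X hX => ?_, fun i j X Y hX hY si sj hij hd => ?_⟩
  · obtain ⟨hi, rfl⟩ := wd_get_some hX
    obtain ⟨-, h1, h2, h3, -⟩ := er_eq (he i hi)
    rw [h1, h2, h3]
    exact h.1 i _ (wd_get f hi)
  · obtain ⟨hi, rfl⟩ := wd_get_some hX
    obtain ⟨hj, rfl⟩ := wd_get_some hY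
    obtain ⟨-, -, -, h3, -⟩ := er_eq (he i hi)
    obtain ⟨-, -, -, h4, -⟩ := er_eq (he j hj)
    exact h.2 i j _ _ (wd_get f hi) (wd_get f hj) si sj hij (by rw [← h3, ← h4, hd])

theorem owD_wd (k d n : ℕ) (f : ℕ → Sm) : owD s k d (wd n f) = wd n fun i =>
    if k * FL s + 2 * 2 ^ s ≤ i ∧ i < k * FL s + 3 * 2 ^ s
      then (f i).setDp (d.testBit (i - (k * FL s + 2 * 2 ^ s))) else f i := by
  refine List.ext_getElem (by simp [owD, wd]) fun i h1 h2 => ?_
  simp [owD, wd]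

theorem wd_inj {α : Type} {n i : ℕ} {f g : ℕ → α} (h : wd n f = wd n g) (hi : i < n) : f i = g i := by
  have h1 := wd_get f hi
  rw [h, wd_get g hi] at h1
  exact (Option.some.inj h1).symm

theorem seg_lt {k m t : ℕ} (hk : k < m) (ht : t < 2 ^ s) : k * FL s + 2 * 2 ^ s + t < m * FL s := by
  have := Nat.mul_le_mul_right (FL s) (Nat.succ_le_of_lt hk)
  rw [Nat.succ_mul] at this
  unfold FL at *
  omega

/-- the bits of a quiet data sweep -/
theorem seg_bit (hs : PL ≤ s) {u : List (Lt (2 ^ s))} {f : ℕ → Lt s}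
    (h : Val u (wd (u.length * FL s) f)) {k : ℕ} (hk : k < u.length)
    (hD : NoD s k (wd (u.length * FL s) fun i => (f i).sm)) {t : ℕ} (ht : t < 2 ^ s) :
    (f (k * FL s + 2 * 2 ^ s + t)).sm.setDp ((u.getD k default).d.val.testBit t) =
      (f (k * FL s + 2 * 2 ^ s + t)).sm := by
  have h1 := h.1
  rw [wd_map] at h1
  have h2 := (sval_blind hs h1 (get_getD hk) hD).1
  rw [owD_wd] at h2
  have h3 := wd_inj h2 (seg_lt hk ht)
  rwa [if_pos ⟨by omega, by omega⟩, Nat.add_sub_cancel_left] at h3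

theorem seg_ne (hs : PL ≤ s) {u : List (Lt (2 ^ s))} {f : ℕ → Lt s}
    (h : Val u (wd (u.length * FL s) f)) {k k' : ℕ} (hk : k < u.length) (hk' : k' < u.length)
    (hD : NoD s k (wd (u.length * FL s) fun i => (f i).sm))
    (hD' : NoD s k' (wd (u.length * FL s) fun i => (f i).sm))
    (he : ∀ t, t < 2 ^ s → f (k * FL s + 2 * 2 ^ s + t) = f (k' * FL s + 2 * 2 ^ s + t)) :
    (u.getD k default).d = (u.getD k' default).d := by
  refine Fin.ext (Nat.eq_of_testBit_eq fun t => ?_)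
  by_cases ht : t < 2 ^ s
  · have h1 := seg_bit hs h hk hD ht
    have h2 := seg_bit hs h hk' hD' ht
    rw [he t ht] at h1
    exact (congrArg (fun x : Sm => x.con.dp) h1).trans (congrArg (fun x : Sm => x.con.dp) h2).symm
  · have h1 : 2 ^ 2 ^ s ≤ 2 ^ t := Nat.pow_le_pow_right two_pos (not_lt.mp ht)
    rw [Nat.testBit_lt_two_pow ((u.getD k default).d.2.trans_le h1),
      Nat.testBit_lt_two_pow ((u.getD k' default).d.2.trans_le h1)]

theorem swap_val (hs : PL ≤ s) {u : List (Lt (2 ^ s))} {f : ℕ → Lt s}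
    (h : Val u (wd (u.length * FL s) f)) {k k' : ℕ} (hkk : k < k') (hk' : k' < u.length)
    (hD : NoD s k (wd (u.length * FL s) fun i => (f i).sm))
    (hD' : NoD s k' (wd (u.length * FL s) fun i => (f i).sm))
    (he : ∀ t, t < 2 ^ s → er (f (k * FL s + 2 * 2 ^ s + t)) = er (f (k' * FL s + 2 * 2 ^ s + t))) :
    Val (wd u.length (swapD k k' fun i => u.getD i default)) (wd (u.length * FL s) fun i =>
      f (swp (k * FL s + 2 * 2 ^ s) (k' * FL s + 2 * 2 ^ s) (2 ^ s) i)) := by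
  have hk : k < u.length := hkk.trans hk'
  have hsep : k * FL s + 4 * 2 ^ s ≤ k' * FL s := by
    have := Nat.mul_le_mul_right (FL s) (Nat.succ_le_of_lt hkk)
    rw [Nat.succ_mul] at this
    exact this
  set X := u.getD k default with hX
  set Y := u.getD k' default with hY
  have h1 := h.1
  rw [wd_map] at h1
  have h2 := (sval_blind hs h1 (get_getD hk) hD).2 Y.d
  have h3 : (u.set k (X.setD Y.d))[k']? = some Y := by
    rw [List.getElem?_set_ne hkk.ne, get_getD hk']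
  have h4 : NoD s k' (owD s k Y.d (wd (u.length * FL s) fun i => (f i).sm)) := by
    intro i x p m a1 a2 a3 a4
    rw [owD_wd] at a3
    obtain ⟨hi, rfl⟩ := wd_get_some a3
    refine hD' i _ p m a1 a2 (wd_get _ hi) ?_
    split_ifs at a4
    · exact a4
    · exact a4
  have h5 := (sval_blind hs h2 h3 h4).2 X.d
  refine ⟨?_, bigOK_congr h.2 fun i hi => ?_⟩
  · have e1 : wd u.length (swapD k k' fun i => u.getD i default) =
        (u.set k (X.setD Y.d)).set k' (Y.setD X.d) := by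
      refine List.ext_getElem? fun i => ?_
      by_cases hi : i < u.length
      · rw [wd_get _ hi]
        by_cases h6 : i = k'
        · subst h6
          rw [List.getElem?_set_self (by simpa using hi), swapD, Equiv.swap_apply_right]
        · rw [List.getElem?_set_ne (Ne.symm h6)]
          by_cases h7 : i = k
          · subst h7
            rw [List.getElem?_set_self hi, swapD, Equiv.swap_apply_left]
          · rw [List.getElem?_set_ne (Ne.symm h7), swapD, Equiv.swap_apply_of_ne_of_ne h7 h6,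
              get_getD hi]
            rfl
      · rw [List.getElem?_eq_none (by rw [wd_length]; omega),
          List.getElem?_eq_none (by simpa using hi)]
    rw [e1, wd_map]
    rw [owD_wd, owD_wd] at h5
    convert h5 using 1
    refine NFAux.wd_congr fun i hi => ?_
    unfold swp
    by_cases c1 : k * FL s + 2 * 2 ^ s ≤ i ∧ i < k * FL s + 2 * 2 ^ s + 2 ^ s
    · obtain ⟨t, rfl⟩ := Nat.exists_eq_add_of_le c1.1
      have ht : t < 2 ^ s := by omega
      rw [if_pos c1, if_neg (by omega), if_pos ⟨by omega, by omega⟩, Nat.add_sub_cancel_left,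
        (er_eq (he t ht)).2.2.2.2.2, seg_bit hs h hk' hD' ht, add_comm t]
    · rw [if_neg c1]
      by_cases c2 : k' * FL s + 2 * 2 ^ s ≤ i ∧ i < k' * FL s + 2 * 2 ^ s + 2 ^ s
      · obtain ⟨t, rfl⟩ := Nat.exists_eq_add_of_le c2.1
        have ht : t < 2 ^ s := by omega
        rw [if_pos c2, if_pos ⟨by omega, by omega⟩, if_neg (by omega), Nat.add_sub_cancel_left,
          ← (er_eq (he t ht)).2.2.2.2.2, seg_bit hs h hk hD ht, add_comm t]
      · rw [if_neg c2, if_neg (by omega), if_neg (by omega)]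
  · unfold swp
    split_ifs with c1 c2
    · obtain ⟨t, rfl⟩ := Nat.exists_eq_add_of_le c1.1
      rw [Nat.add_sub_cancel_left, he t (by omega), add_comm t]
    · obtain ⟨t, rfl⟩ := Nat.exists_eq_add_of_le c2.1
      rw [Nat.add_sub_cancel_left, ← he t (by omega), add_comm t]
    · rfl

/-- the result of parsing `K` frames starting at `b` -/
structure Par (s n b K : ℕ) (c : ℕ → Lt s) (p e : ℕ) (u : List (Lt (2 ^ s))) : Prop where
  hb : b = p + e * FL s
  hK : e + K ≤ u.length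
  hn : p + u.length * FL s ≤ n
  val : Val u (wd (u.length * FL s) fun i => c (p + i))
  nz : ¬ (Sg (2 ^ s)).IsZero (wd u.length fun i => u.getD i default)

theorem par_exists (hs : PL ≤ s) {n : ℕ} {c : ℕ → Lt s} (hz : ¬ (Sg s).IsZero (wd n c)) {b K : ℕ}
    (hb : FL s < b) (h0 : (c b).ph = 0) (hn : b + (K + 1) * FL s < n) : ∃ p e u, Par s n b K c p e u := by
  obtain ⟨e₁, e₂, u, h1, h2, h3, h4⟩ := parse hs hz hb h0 hn
  have h5 : e₁ * FL s ≤ FL s := by simpa using Nat.mul_le_mul_right (FL s) h1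
  have h6 : e₂ * FL s ≤ FL s := by simpa using Nat.mul_le_mul_right (FL s) h2
  rw [← h3] at h4
  have h7 : b - e₁ * FL s + u.length * FL s ≤ n := by
    rw [h3, add_mul, add_mul]
    rw [add_mul] at hn
    omega
  refine ⟨b - e₁ * FL s, e₁, u, by omega, by omega, h7, h4, ?_⟩
  rw [wd_getD]
  exact val_nz hs h4 (wd_factor hz h7)

/-- no data task near the frame `k` -/
def Quiet (s b k : ℕ) (c : ℕ → Lt s) : Prop :=
  ∀ (x : ℕ) (p : Pos) (m : Mode), b + (k - 1) * FL s ≤ x → x < b + (k + 2) * FL s →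
    (c x).sm.trk = .tok p m → m.isD = false

/-- the patterns -/
abbrev Pt (s : ℕ) : Type := (Cst × Trk × Trk × Trk) × (Fin 3 → Fin (2 ^ s + 1))

theorem card_Pt (s : ℕ) : Fintype.card (Pt s) = Fintype.card (Cst × Trk × Trk × Trk) * (2 ^ s + 1) ^ 3 := by
  rw [Fintype.card_prod, Fintype.card_fun, Fintype.card_fin, Fintype.card_fin]

namespace Par

variable {n b K p e : ℕ} {c : ℕ → Lt s} {u : List (Lt (2 ^ s))}

theorem sval (h : Par s n b K c p e u) : SVal u (wd (u.length * FL s) fun i => (c (p + i)).sm) := by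
  have := h.val.1
  rwa [wd_map] at this

theorem st (hs : PL ≤ s) (h : Par s n b K c p e u) {k i : ℕ} (hk : k < K) (hi : i < FL s) :
    (c (b + k * FL s + i)).st = stX (u.getD (e + k) default) i := by
  obtain ⟨x, h1, h2⟩ := sval_st hs h.sval (get_getD (k := e + k) (by have := h.hK; omega)) hi
  obtain ⟨-, rfl⟩ := wd_get_some h1
  rw [← h2, h.hb]
  congr 2
  ring

theorem noD (h : Par s n b K c p e u) {k : ℕ} (hk : 1 ≤ k) (hq : Quiet s b k c) :
    NoD s (e + k) (wd (u.length * FL s) fun i => (c (p + i)).sm) := by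
  intro i x q m h1 h2 h3 h4
  obtain ⟨-, rfl⟩ := wd_get_some h3
  obtain ⟨k, rfl⟩ := Nat.exists_eq_add_of_le' hk
  have h5 := h.hb
  refine hq (p + i) q m ?_ ?_ h4
  · rw [← add_assoc, Nat.add_sub_cancel, add_mul] at h1
    rw [Nat.add_sub_cancel]; omega
  · rw [add_assoc, add_mul] at h2
    omega

theorem permit (hs : PL ≤ s) (h : Par s n b K c p e u) {k : ℕ} (hk : 2 ≤ k) (hk' : k + 2 ≤ K)
    (hq : ¬ Quiet s b k c) : ∃ k', k ≤ k' + 2 ∧ k' ≤ k + 1 ∧ permit (u.getD (e + k') default).sm := by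
  simp only [Quiet, not_forall] at hq
  obtain ⟨x, q, m, h1, h2, h3, h4⟩ := hq
  have h5 := h.hb
  obtain ⟨i, rfl⟩ : ∃ i, x = p + i := ⟨x - p, by omega⟩
  have h6 : (e + (k + 2)) * FL s ≤ u.length * FL s := Nat.mul_le_mul_right _ (by have := h.hK; omega)
  have h7 : i < (e + (k + 2)) * FL s := by rw [add_mul]; omega
  have h8 : (e + (k - 1)) * FL s ≤ i := by rw [add_mul]; omega
  obtain ⟨j, X, a1, a2, a3, a4⟩ := sval_permit hs h.sval (wd_get _ (h7.trans_le h6)) h3 (by simpa using h4)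
  have a5 : j < e + (k + 2) := lt_of_mul_lt_mul_right (a3.trans_lt h7) (Nat.zero_le _)
  have a6 : e + (k - 1) < j + 2 := lt_of_mul_lt_mul_right (h8.trans_lt a4) (Nat.zero_le _)
  refine ⟨j - e, by omega, by omega, ?_⟩
  rw [show e + (j - e) = j by omega, List.getD_eq_getElem?_getD, a1]
  exact a2

theorem pattern (hs : PL ≤ s) (h : Par s n b K c p e u) {k : ℕ} (hk : k < K) :
    ∃ π : Pt s, ∀ t, t < 2 ^ s →
      (c (b + k * FL s + 2 * 2 ^ s + t)).sm.setDp false =
          pat s π.1.1 π.1.2.1 π.1.2.2.1 π.1.2.2.2 (π.2 0) (π.2 1) (π.2 2) t ∧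
        (c (b + k * FL s + 2 * 2 ^ s + t)).a.val = t ∧ (c (b + k * FL s + 2 * 2 ^ s + t)).h.val = s ∧
        (c (b + k * FL s + 2 * 2 ^ s + t)).d.val = 0 := by
  have hk' : e + k < u.length := by have := h.hK; omega
  obtain ⟨up, t₁, t₂, t₃, t, p1, p2, hp⟩ := sval_pat hs h.sval hk'
  refine ⟨((up, t₁, t₂, t₃), ![t, p1, p2]), fun i hi => ?_⟩
  obtain ⟨x, h1, h2⟩ := hp i hi
  obtain ⟨h3, rfl⟩ := wd_get_some h1
  have e1 : b + k * FL s + 2 * 2 ^ s + i = p + ((e + k) * FL s + 2 * 2 ^ s + i) := by rw [h.hb]; ring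
  have h4 := h.val.2.1 _ _ (wd_get _ h3)
  have h5 : ((e + k) * FL s + 2 * 2 ^ s + i) % FL s = 2 * 2 ^ s + i := by
    rw [add_assoc, Nat.mul_add_mod']
    exact Nat.mod_eq_of_lt (by unfold FL; omega)
  have h6 : ((e + k) * FL s + 2 * 2 ^ s + i) % 2 ^ s = i := by
    have : (e + k) * FL s + 2 * 2 ^ s + i = ((e + k) * 4 + 2) * 2 ^ s + i := by unfold FL; ring
    rw [this, Nat.mul_add_mod']
    exact Nat.mod_eq_of_lt hi
  have h7 : s < 2 ^ s := Nat.lt_two_pow_self
  have h8 : ¬ slot s ((e + k) * FL s + 2 * 2 ^ s + i) := by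
    unfold slot
    rw [h5, add_comm, Nat.add_mul_div_right _ _ (Nat.two_pow_pos s), Nat.div_eq_of_lt hi]
    omega
  rw [e1]
  refine ⟨h2, h4.1.trans h6, ?_, h4.2.2 h8⟩
  rw [h4.2.1, h5]
  omega

theorem swap (hs : PL ≤ s) (h : Par s n b K c p e u) {k k' : ℕ} (hk : 1 ≤ k) (hkk : k < k') (hk' : k' < K)
    (hq : Quiet s b k c) (hq' : Quiet s b k' c)
    (he : ∀ t, t < 2 ^ s → er (c (b + k * FL s + 2 * 2 ^ s + t)) = er (c (b + k' * FL s + 2 * 2 ^ s + t)))
    (hu : (Sg (2 ^ s)).Eqv (wd u.length fun i => u.getD i default)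
      (wd u.length (swapD (e + k) (e + k') fun i => u.getD i default)))
    (hd : (u.getD (e + k) default).d ≠ (u.getD (e + k') default).d) :
    (Sg s).Eqv (wd n c) (wd n fun i =>
        c (swp (b + k * FL s + 2 * 2 ^ s) (b + k' * FL s + 2 * 2 ^ s) (2 ^ s) i)) ∧
      ∃ t, t < 2 ^ s ∧ c (b + k * FL s + 2 * 2 ^ s + t) ≠ c (b + k' * FL s + 2 * 2 ^ s + t) := by
  have hl : e + k' < u.length := by have := h.hK; omega
  have e1 : ∀ j, b + j * FL s + 2 * 2 ^ s = p + ((e + j) * FL s + 2 * 2 ^ s) := fun j => by rw [h.hb]; ring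
  have hD := h.noD hk hq
  have hD' := h.noD (hk.trans hkk.le) hq'
  simp only [e1, add_assoc p] at he ⊢
  constructor
  · have h1 := swap_val hs h.val (by omega : e + k < e + k') hl hD hD' he
    rw [wd_getD] at hu
    have h2 := ((val_eqv_enc hs h.val).trans (sim_eqv hs hu)).trans (val_eqv_enc hs h1).symm
    obtain ⟨r, rfl⟩ := Nat.exists_eq_add_of_le h.hn
    have h3 := h2.append (wd p c) (wd r fun i => c (p + u.length * FL s + i))
    have h4 := seg_lt (s := s) (t := 2 ^ s - 1) hl (by have := Nat.two_pow_pos s; omega)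
    have h5 : (e + k) * FL s ≤ (e + k') * FL s := Nat.mul_le_mul_right _ (by omega)
    rw [NFAux.wd_add, NFAux.wd_add, NFAux.wd_add, NFAux.wd_add]
    convert h3 using 2
    · congr 1
      · refine NFAux.wd_congr fun i hi => ?_
        unfold swp
        rw [if_neg (by omega), if_neg (by omega)]
      · refine NFAux.wd_congr fun i hi => ?_
        congr 1
        unfold swp
        split_ifs <;> omega
    · refine NFAux.wd_congr fun i hi => ?_
      unfold swp
      rw [if_neg (by omega), if_neg (by omega)]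
  · by_contra hc
    push Not at hc
    exact hd (seg_ne hs h.val (by omega) hl hD hD' hc)

end Par

theorem base_ph {n : ℕ} {c : ℕ → Lt s} (hz : ¬ (Sg s).IsZero (wd n c)) {e : ℕ} (hn : e + 2 * FL s < n) :
    FL s < 2 * FL s - (c e).ph.val ∧ (c (e + (2 * FL s - (c e).ph.val))).ph = 0 := by
  have : NeZero (FL s) := ⟨by have := FL_ge s; omega⟩
  have h1 := ZMod.val_lt (c e).ph
  refine ⟨by omega, ?_⟩
  rw [ph_add hz (by omega), Nat.cast_sub (by omega), ZMod.natCast_zmod_val]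
  simp

end CapA

open CapA

theorem cap : ∃ s₀, ∀ s, s₀ ≤ s → (Sg s).Nil (2 ^ (7 * s)) := by
  classical
  obtain ⟨s₀, hs₀⟩ := cap_ineq (Fintype.card (Cst × Trk × Trk × Trk))
  refine ⟨s₀ + PL, fun s hs' => ?_⟩
  have hs : PL ≤ s := by omega
  have hin := hs₀ s (by omega)
  rw [← card_Pt] at hin
  have hs1 : PL ≤ 2 ^ s := hs.trans Nat.lt_two_pow_self.le
  have hF := FL_ge s
  have hF1 : FL (2 ^ s) = 4 * 2 ^ 2 ^ s := rfl
  have hF0 : FL s = 4 * 2 ^ s := rfl
  set K := 5 * FL (2 ^ s) with hK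
  refine Sys.nil_of_alt _ _ ((K + 4) * FL s) er fun c₀ hz₀ => ?_
  change ¬ (Sg s).IsZero (wd _ c₀) at hz₀
  have hn0 : 0 + 2 * FL s < (K + 4) * FL s := by rw [add_mul]; omega
  obtain ⟨hb1, hb2⟩ := base_ph hz₀ hn0
  rw [zero_add] at hb2
  set b := 2 * FL s - (c₀ 0).ph.val with hb
  have hbn : b + (K + 1) * FL s < (K + 4) * FL s := by rw [add_mul, add_mul]; omega
  obtain ⟨p₀, e₀, u₀, P₀⟩ := par_exists hs hz₀ hb1 hb2 hbn
  have hK₀ := P₀.hK
  obtain ⟨hc1, hc2⟩ := base_ph P₀.nz (e := e₀) (by omega)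
  set b₁ := 2 * FL (2 ^ s) - (u₀.getD e₀ default).ph.val with hb₁
  have hb₁' : b₁ ≤ 2 * FL (2 ^ s) := Nat.sub_le _ _
  -- quiet slots
  set Q := (Finset.Ico (2 ^ 2 ^ s) (2 * 2 ^ 2 ^ s)).filter fun i => Quiet s b (b₁ + i) c₀ with hQ
  have hNQ : ((Finset.Ico (2 ^ 2 ^ s) (2 * 2 ^ 2 ^ s)).filter
      fun i => ¬ Quiet s b (b₁ + i) c₀).card ≤ 4 := by
    have key : ∀ i ∈ (Finset.Ico (2 ^ 2 ^ s) (2 * 2 ^ 2 ^ s)).filter fun i => ¬ Quiet s b (b₁ + i) c₀,
        ∃ r, i ≤ r + 2 ∧ r ≤ i + 1 ∧ r < FL (2 ^ s) ∧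
          (u₀.getD (e₀ + b₁ + r) default).sm.trk = .tok .U .walk := by
      intro i hi
      simp only [Finset.mem_filter, Finset.mem_Ico] at hi
      obtain ⟨k', h1, h2, h3⟩ := P₀.permit hs (k := b₁ + i) (by omega) (by omega) hi.2
      refine ⟨k' - b₁, by omega, by omega, by omega, ?_⟩
      rw [show e₀ + b₁ + (k' - b₁) = e₀ + k' by omega]
      exact h3.1
    rcases Finset.eq_empty_or_nonempty ((Finset.Ico (2 ^ 2 ^ s) (2 * 2 ^ 2 ^ s)).filter
      fun i => ¬ Quiet s b (b₁ + i) c₀) with h | ⟨i₀, hi₀⟩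
    · rw [h]; simp
    · obtain ⟨r₀, -, -, a3, a4⟩ := key i₀ hi₀
      refine (Finset.card_le_card (t := Finset.Ico (r₀ - 1) (r₀ + 3)) fun i hi => ?_).trans
        (by rw [Nat.card_Ico]; omega)
      obtain ⟨r, b1, b2, b3, b4⟩ := key i hi
      have := one_token hs1 P₀.nz (b := e₀ + b₁) (by omega) hc2 (by omega) a3 b3 a4 b4
      rw [Finset.mem_Ico]; omega
  have hQc : Fintype.card (Pt s) * 2 ^ (7 * s) < Q.card := by
    have := Finset.card_filter_add_card_filter_not (s := Finset.Ico (2 ^ 2 ^ s) (2 * 2 ^ 2 ^ s))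
      fun i => Quiet s b (b₁ + i) c₀
    rw [Nat.card_Ico, ← hQ] at this
    omega
  have hpat : ∀ i, ∃ π : Pt s, i < 2 * 2 ^ 2 ^ s → ∀ t, t < 2 ^ s →
      (c₀ (b + (b₁ + i) * FL s + 2 * 2 ^ s + t)).sm.setDp false =
          pat s π.1.1 π.1.2.1 π.1.2.2.1 π.1.2.2.2 (π.2 0) (π.2 1) (π.2 2) t ∧
        (c₀ (b + (b₁ + i) * FL s + 2 * 2 ^ s + t)).a.val = t ∧
        (c₀ (b + (b₁ + i) * FL s + 2 * 2 ^ s + t)).h.val = s ∧
        (c₀ (b + (b₁ + i) * FL s + 2 * 2 ^ s + t)).d.val = 0 := by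
    intro i
    by_cases hi : i < 2 * 2 ^ 2 ^ s
    · obtain ⟨π, hπ⟩ := P₀.pattern hs (k := b₁ + i) (by omega)
      exact ⟨π, fun _ => hπ⟩
    · exact ⟨default, fun h => absurd h hi⟩
  choose φ hφ using hpat
  obtain ⟨I, hI1, hI2, hI3⟩ := pigeon Q φ _ hQc
  simp only [hQ, Finset.mem_filter, Finset.mem_Ico] at hI2
  have hle : ∀ k, b + (b₁ + I k + 2) * FL s ≤ (K + 4) * FL s := fun k => by
    have := Nat.mul_le_mul_right (FL s) (show b₁ + I k + 2 ≤ K + 1 by have := hI2 k; omega)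
    omega
  have hle' : ∀ k, b + (b₁ + I k) * FL s + 2 * 2 ^ s + 2 ^ s ≤ (K + 4) * FL s := fun k => by
    have := hle k
    rw [add_mul (b₁ + I k)] at this
    omega
  have her : ∀ k k' t, t < 2 ^ s → er (c₀ (b + (b₁ + I k) * FL s + 2 * 2 ^ s + t)) =
      er (c₀ (b + (b₁ + I k') * FL s + 2 * 2 ^ s + t)) := by
    intro k k' t ht
    obtain ⟨a1, a2, a3, a4⟩ := hφ (I k) (hI2 k).1.2 t ht
    obtain ⟨b1, b2, b3, b4⟩ := hφ (I k') (hI2 k').1.2 t ht
    exact er_of (by rw [a1, b1, hI3 k k']) (Fin.ext (a2.trans b2.symm)) (Fin.ext (a3.trans b3.symm))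
      (Fin.ext (a4.trans b4.symm))
  refine ⟨2 ^ s, fun k => b + (b₁ + I k) * FL s + 2 * 2 ^ s, fun k k' hkk => ?_, hle', her,
    fun c hc hz k k' hkk => ?_⟩
  · have := Nat.mul_le_mul_right (FL s) (show b₁ + I k + 1 ≤ b₁ + I k' by have := hI1 hkk; omega)
    rw [add_mul (b₁ + I k)] at this
    beta_reduce
    omega
  change ¬ (Sg s).IsZero (wd _ c) at hz
  have hph : ∀ i, i < (K + 4) * FL s → (c i).ph = (c₀ i).ph := fun i hi =>
    ph_eq (er_eq (hc i hi)).1 (er_eq (hc i hi)).2.1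
  obtain ⟨p, e, u, P⟩ := par_exists hs hz hb1 ((hph b (by omega)).trans hb2) hbn
  have hKu := P.hK
  have hup : (u.getD e default).ph = (u₀.getD e₀ default).ph := by
    have := stX_inj hs (X := u.getD (e + 0) default) (Y := u₀.getD (e₀ + 0) default) fun i hi => by
      rw [← P.st hs (by omega) hi, ← P₀.st hs (by omega) hi]
      exact (er_eq (hc _ (by rw [add_mul] at hbn; omega))).1
    exact ph_eq this.1 this.2.1
  obtain ⟨-, hd2⟩ := base_ph P.nz (e := e) (by omega)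
  rw [hup, ← hb₁] at hd2
  have hq : ∀ k, Quiet s b (b₁ + I k) c := fun k x q m h1 h2 h3 =>
    (hI2 k).2 x q m h1 h2 ((er_eq (hc x (h2.trans_le (hle k)))).2.2.2.2.1.symm.trans h3)
  have hlt := hI1 hkk
  obtain ⟨hp1, hp2⟩ := slot_perm hs1 P.nz (b := e + b₁) (by omega) hd2 (by omega) (hI2 k).1.1 (hI2 k).1.2
    (hI2 k').1.1 (hI2 k').1.2
  rw [add_assoc, add_assoc] at hp1 hp2
  refine P.swap hs (by omega) (by omega) (by have := hI2 k'; omega) (hq k) (hq k') (fun t ht => ?_) hp1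
    (hp2 hlt.ne)
  rw [hc _ (by have := hle' k; omega), hc _ (by have := hle' k'; omega), her k k' t ht]

end Crest.Agent.R176
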