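import Crest.Agent.R176.EStepB

/-!
# Row 176, group half: removing the short roots  (task R176-EStep)

`one_class`: `Good'` is `Good` plus the class of `(p₀, w₀)`.  Write `x = xg S Good c`, `X = xl S Good c` and define
`f q v := if Good q v then (if p₀ + |w₀| = q then X p₀ (w₀ ++ v) else if q + |v| = p₀ then X q (v ++ w₀) else 1)
* x q v else 1`.  Then `theta (f q v) = Θ₀ * Th q v * Θ₀⁻¹` with `Θ₀ = Th S Amb Good' p₀ w₀` (`theta_xl`, `Th_val`,
`nu_mul_nu`), and `f q v ∈ Arc a (N - 1)` as soon as `(q - lam - a).val + c + 2 * lam ≤ N - 1`.  Two such windows fit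
into one arc of length `N - 1` because `3 * c < N` (take `a = p - lam` or `a = q - lam`), so every relation of
`SRel S Good c f` follows from `arc_sup` and `Th_rel` conjugated by `Θ₀`.  `φ := stLift S Good c f` satisfies
`φ ∘ φ = id` (on generators, again by `arc_sup`; `φ` maps `X` to the family determined by `SRel.unique`, or avoid this:
`theta ∘ φ = conj Θ₀ ∘ theta` and `φ` preserves suitable arcs).  In the semidirect product
`St S Good c ⋊ Multiplicative (ZMod 2)` (or acting on `St S Good c × Bool`) the family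
`z p w := if Good p w then inl (x p w) else if p = p₀ ∧ Eqv w w₀ then inr t else 1` satisfies `SRel S Good' c`, and
`stLift z ∘ incl = inl`, so `incl` is injective.  The set `range incl ∪ range incl * x' p₀ w₀` is a subgroup containing
the generators, and `theta (incl g * x' p₀ w₀) ≠ 1`: in the component `e = p₀ + |w₀|` applied to `1 = ev []` the
coefficient `coef w₀` is `1` (`theta (incl g)` moves `1` and `ev w₀` only by elements of the span of the `ev w` with
`Good (e - |w|) w`, on which `coef w₀` vanishes).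

`estep`: let `P Good := Injective (incl Good (Thr Amb 1)) ∧ ker theta ⊆ range`.  `P (Thr Amb 1)` holds (`incl = id`),
and `P Good' → P Good` in the situation of `one_class` (`incl_comp`, `theta_incl`).  Go down from `Thr Amb d` to
`Thr Amb (d + 1)` through `Good d Z p w := Amb p w ∧ (d < |w| ∨ (|w| = d ∧ ∃ w', (p, w') ∈ Z ∧ Eqv w w'))` for finite
sets `Z` (induction on `Z`; there are finitely many pairs `(p, w')` with `|w'| = d`).
-/

set_option autoImplicit false

namespace Crest.Agent.R176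

open scoped commutatorElement

variable {α : Type} [Fintype α] {S : Sys α} {N : ℕ} {Amb Good Good' : ZMod N → List α → Prop} {lam c : ℕ}

theorem one_class (hA : AmbOK S Amb lam) (hG : GoodOK S Amb Good lam) (hG' : GoodOK S Amb Good' lam)
    (hc : 8 * lam ≤ c) (hN : 3 * c < N) {p₀ : ZMod N} {w₀ : List α} (h₀ : ¬ Good p₀ w₀)
    (hiff : ∀ p w, Good' p w ↔ Good p w ∨ (p = p₀ ∧ S.Eqv w w₀))
    (hr : ∀ v, Good (p₀ + w₀.length) v → Amb p₀ (w₀ ++ v) → Good p₀ (w₀ ++ v))
    (hl : ∀ q v, Good q v → q + v.length = p₀ → Amb q (v ++ w₀) → Good q (v ++ w₀)) :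
    Function.Injective (incl S Good Good' c c) ∧
      ∀ g, theta S Amb Good' c g = 1 → g ∈ (incl S Good Good' c c).range :=
  have H : EsHyp S Amb Good Good' lam c p₀ w₀ := ⟨hA, hG, hG', hc, hN, h₀, hiff, hr, hl⟩
  ⟨H.injective, H.ker_le⟩

/-- the invariant of the descent -/
def EsP (S : Sys α) (Amb Good : ZMod N → List α → Prop) (c : ℕ) : Prop :=
  Function.Injective (incl S Good (Thr Amb 1) c c) ∧
    ∀ g, theta S Amb (Thr Amb 1) c g = 1 → g ∈ (incl S Good (Thr Amb 1) c c).range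

theorem esP_step (hA : AmbOK S Amb lam) (hG : GoodOK S Amb Good lam) (hG' : GoodOK S Amb Good' lam)
    (hN : c < N) (hle : ∀ p w, Good p w → Good' p w)
    (h : Function.Injective (incl S Good Good' c c) ∧
      ∀ g, theta S Amb Good' c g = 1 → g ∈ (incl S Good Good' c c).range)
    (hP : EsP S Amb Good' c) : EsP S Amb Good c := by
  have h1 := hA.thr le_rfl hA.lam_pos
  have hle' : ∀ p w, Good' p w → Thr Amb 1 p w := fun p w hg =>
    ⟨hG'.amb p w hg, List.length_pos_iff.mpr (hG'.ne p w hg)⟩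
  have e := incl_comp hG hG' h1 hle hle' (le_refl c) (le_refl c)
  refine ⟨?_, fun g hg => ?_⟩
  · rw [← e]
    exact hP.1.comp h.1
  · obtain ⟨g', rfl⟩ := hP.2 g hg
    rw [theta_incl hA hA hG' h1 hle' le_rfl hN] at hg
    obtain ⟨g'', rfl⟩ := h.2 g' hg
    exact ⟨g'', by rw [← e]; rfl⟩

/-- roots of length `> d` together with the classes in `Z` -/
def EsGZ (S : Sys α) (Amb : ZMod N → List α → Prop) (d : ℕ) (Z : Set (ZMod N × List α)) :
    ZMod N → List α → Prop :=
  fun p w => (Amb p w ∧ d + 1 ≤ w.length) ∨ ∃ w', (p, w') ∈ Z ∧ S.Eqv w w'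

omit [Fintype α] in
theorem esGZ_len (hA : AmbOK S Amb lam) {d : ℕ} {Z : Set (ZMod N × List α)}
    (hZ : Z ⊆ {x | x.2.length = d ∧ Amb x.1 x.2}) {p : ZMod N} {w : List α} (h : EsGZ S Amb d Z p w) :
    Amb p w ∧ d ≤ w.length := by
  rcases h with h | ⟨w', h, e⟩
  · exact ⟨h.1, by omega⟩
  · exact ⟨hA.eqv _ _ _ e.symm (hZ h).2, by have := (hZ h).1; have := e.length_eq; simp only at *; omega⟩

omit [Fintype α] in
theorem esGZ_ok (hA : AmbOK S Amb lam) {d : ℕ} (h1 : 1 ≤ d) (h2 : d + 1 ≤ lam) {Z : Set (ZMod N × List α)}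
    (hZ : Z ⊆ {x | x.2.length = d ∧ Amb x.1 x.2}) : GoodOK S Amb (EsGZ S Amb d Z) lam := by
  refine ⟨fun p w h => (esGZ_len hA hZ h).1, fun p w h => ?_, fun p w w' e h => ?_,
    fun p w h hl => Or.inl ⟨h, by omega⟩, fun p u v hu hv h => Or.inl ⟨h, ?_⟩⟩
  · rintro rfl
    have := (esGZ_len hA hZ h).2
    simp at this; omega
  · rcases h with h | ⟨w'', h, e'⟩
    · exact Or.inl ⟨hA.eqv _ _ _ e h.1, e.length_eq ▸ h.2⟩
    · exact Or.inr ⟨w'', h, e.symm.trans e'⟩
  · have := (esGZ_len hA hZ hu).2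
    have := (esGZ_len hA hZ hv).2
    simp; omega

theorem esP_succ (hA : AmbOK S Amb lam) (hc : 8 * lam ≤ c) (hN : 3 * c < N) {d : ℕ} (h1 : 1 ≤ d)
    (h2 : d + 1 ≤ lam) (hP : EsP S Amb (Thr Amb d) c) : EsP S Amb (Thr Amb (d + 1)) c := by
  have : NeZero N := ⟨by omega⟩
  have hfin : ({x | x.2.length = d ∧ Amb x.1 x.2} : Set (ZMod N × List α)).Finite :=
    (Set.finite_univ.prod (List.finite_length_eq α d)).subset fun x hx => ⟨trivial, hx.1⟩
  have key : EsP S Amb (EsGZ S Amb d {x | x.2.length = d ∧ Amb x.1 x.2}) c → EsP S Amb (EsGZ S Amb d ∅) c := by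
    refine Set.Finite.induction_on_subset
      (motive := fun Z _ => EsP S Amb (EsGZ S Amb d Z) c → EsP S Amb (EsGZ S Amb d ∅) c) _ hfin id ?_
    rintro ⟨p₀, w₀⟩ Z ha hZ - ih hP
    apply ih
    have hZ' : insert (p₀, w₀) Z ⊆ {x | x.2.length = d ∧ Amb x.1 x.2} := Set.insert_subset ha hZ
    have hiff : ∀ p w, EsGZ S Amb d (insert (p₀, w₀) Z) p w ↔ EsGZ S Amb d Z p w ∨ (p = p₀ ∧ S.Eqv w w₀) := by
      intro p w
      constructor
      · rintro (h | ⟨w', h | h, e⟩)
        · exact Or.inl (Or.inl h)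
        · obtain ⟨rfl, rfl⟩ := Prod.mk.inj h
          exact Or.inr ⟨rfl, e⟩
        · exact Or.inl (Or.inr ⟨w', h, e⟩)
      · rintro ((h | ⟨w', h, e⟩) | ⟨rfl, e⟩)
        · exact Or.inl h
        · exact Or.inr ⟨w', Or.inr h, e⟩
        · exact Or.inr ⟨w₀, Or.inl rfl, e⟩
    have hG := esGZ_ok hA h1 h2 hZ
    have hG' := esGZ_ok hA h1 h2 hZ'
    by_cases h₀ : EsGZ S Amb d Z p₀ w₀
    · have : EsGZ S Amb d (insert (p₀, w₀) Z) = EsGZ S Amb d Z := by
        funext p w
        rw [hiff, eq_iff_iff, or_iff_left_iff_imp]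
        rintro ⟨rfl, e⟩
        exact hG.eqv _ _ _ e.symm h₀
      rwa [this] at hP
    · have hd : w₀.length = d := ha.1
      refine esP_step hA hG hG' (by omega) (fun p w h => (hiff p w).2 (Or.inl h))
        (one_class hA hG hG' hc hN h₀ hiff (fun v hv h => Or.inl ⟨h, ?_⟩) fun q v hv _ h => Or.inl ⟨h, ?_⟩) hP
      · have := (esGZ_len hA hZ hv).2
        simp; omega
      · have := (esGZ_len hA hZ hv).2
        simp; omega
  have e1 : EsGZ S Amb d {x | x.2.length = d ∧ Amb x.1 x.2} = Thr Amb d := by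
    funext p w
    rw [eq_iff_iff]
    refine ⟨esGZ_len hA subset_rfl, fun h => ?_⟩
    rcases h.2.eq_or_lt with h' | h'
    · exact Or.inr ⟨w, ⟨h'.symm, h.1⟩, Sys.Eqv.refl w⟩
    · exact Or.inl ⟨h.1, h'⟩
  have e2 : EsGZ S Amb d ∅ = Thr Amb (d + 1) := by
    funext p w
    simp [EsGZ, Thr]
  rw [e1, e2] at key
  exact key hP

theorem estep (hA : AmbOK S Amb lam) (hc : 8 * lam ≤ c) (hN : 3 * c < N) {d : ℕ} (h1 : 1 ≤ d) (h2 : d ≤ lam) :
    Function.Injective (incl S (Thr Amb d) (Thr Amb 1) c c) ∧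
      ∀ g, theta S Amb (Thr Amb 1) c g = 1 → g ∈ (incl S (Thr Amb d) (Thr Amb 1) c c).range := by
  change EsP S Amb (Thr Amb d) c
  induction d, h1 using Nat.le_induction with
  | base =>
    have hG := hA.thr le_rfl hA.lam_pos
    have e : incl S (Thr Amb 1) (Thr Amb 1) c c = MonoidHom.id _ :=
      St.hom_ext fun p w hw hg => incl_xg hG hG (fun _ _ h => h) le_rfl hw hg
    unfold EsP
    rw [e]
    exact ⟨Function.injective_id, fun g _ => ⟨g, rfl⟩⟩
  | succ d hd ih => exact esP_succ hA hc hN hd h2 (ih (by omega))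

end Crest.Agent.R176
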