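import Crest.Agent.R176.Tr
import Crest.Agent.R176.EStep

/-!
# Row 176, group half: the transfer is injective on the kernel; cutting a long circle  (task R176-Cut)

`trHom_inj`.  Down map `D : St S (Thr Amb' lam) c →* St S (Thr Amb lam) c`, the `stLift` of
`y p' w := if Thr Amb' lam p' w then xg (cast p') w else 1`.  Relations: for good `(p', u)`, `(q', v)` with
`cast q' = cast p' + |u|` and `Amb (cast p') (u ++ v)`, `Cover.ex/uniq` and `left/right` give `q' = p' + |u|` and
`Amb' p' (u ++ v)`.  So in `comm`, if the images are composable in one order then the commutator is the long root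
`xl (cast p') (u ++ v) = 1` (`xl_spec`, `2 * c < N`; they cannot be composable in both orders).  `D` is surjective
(`closure_xg`, `ex`), and `trHom ∘ incl ∘ D = incl (Thr Amb' lam) (Thr Amb' 1) c c'` on generators (`uniq`: all other
lifts are trivial), which is injective: `incl_comp`, `incl_injective_of_le` (with `lam`) and `estep` (with `lam'`).
An element of the kernel of `theta` is in the range of `incl` by `estep`.

`cut`.  Put `δ = c₀ + 1`, `I k = InArc (k * δ) (N - 1 - 2 * k * δ)`.  Split the `k`-th layer as `(in k) * (out k)`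
according to `I k` (its roots commute).  A root not in `I k` has both end points outside the vertex range
`[(k+1) δ, N - 1 - (k+1) δ]` of `I (k+1)`, hence commutes with `Arc ((k+1) δ) (N - 1 - 2 (k+1) δ)`, and it lies in
`J = InArc (-(L+1) δ) (2 (L+1) δ)`.  Induction on the list (generalising the start index `k`): the product is `A * B`
with `A ∈ Arc (k δ) ..`, `B ∈ Arc J`.  Then `arc_sup` gives `A = B⁻¹`.
-/

set_option autoImplicit false

namespace Crest.Agent.R176

open scoped commutatorElement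

variable {α : Type} [Fintype α] {S : Sys α}

namespace CutAux

section Down

variable {N N' : ℕ} {Amb : ZMod N → List α → Prop} {Amb' : ZMod N' → List α → Prop} {lam c : ℕ}

omit [Fintype α] in
theorem cast_add (hC : Cover Amb Amb' lam) (p : ZMod N') (n : ℕ) :
    (ZMod.cast (p + (n : ZMod N')) : ZMod N) = ZMod.cast p + n := by
  rw [ZMod.cast_add hC.dvd, ZMod.cast_natCast hC.dvd]

omit [Fintype α] in
theorem lift_app (hA' : AmbOK S Amb' lam) (hC : Cover Amb Amb' lam) {p : ZMod N'} {u v : List α}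
    (hu : Thr Amb' lam p u) (h : Amb (ZMod.cast p) (u ++ v)) : Amb' p (u ++ v) := by
  obtain ⟨r, h1, h2⟩ := hC.ex _ _ (hu.2.trans (by simp)) h
  rwa [← hC.uniq r p u hu.2 (hA'.left _ _ _ h2) hu.1 h1]

open Classical in
omit [Fintype α] in
theorem down_rel (hA : AmbOK S Amb lam) (hA' : AmbOK S Amb' lam) (hC : Cover Amb Amb' lam)
    (hc : 8 * lam ≤ c) (hN : 3 * c < N) : SRel S (Thr Amb' lam) c fun p w =>
      if Thr Amb' lam p w then xg S (Thr Amb lam) c (ZMod.cast p) w else 1 := by
  have hG := hA.thr hA.lam_pos le_rfl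
  have hG' := hA'.thr hA.lam_pos le_rfl
  have R := xg_rel S (Thr Amb lam) c
  obtain ⟨X, hX⟩ := xl_spec hA hG hc (by omega)
  have dn : ∀ p w, Thr Amb' lam p w → Thr Amb lam (ZMod.cast p) w := fun p w h => ⟨hC.down p w h.1, h.2⟩
  have key : ∀ (p : ZMod N') (u : List α) (q : ZMod N') (v : List α), u.length ≤ c → v.length ≤ c →
      p + (u.length : ZMod N') ≠ q → Thr Amb' lam p u → Thr Amb' lam q v →
      (ZMod.cast p : ZMod N) + u.length = ZMod.cast q →
      Commute (xg S (Thr Amb lam) c (ZMod.cast p) u) (xg S (Thr Amb lam) c (ZMod.cast q) v) := by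
    intro p u q v h1 h2 h3 hu hv e
    rw [← hX _ _ h1, ← hX _ _ h2, ← commutatorElement_eq_one_iff_commute, ← e,
      X.mul _ u v (by omega) (dn p u hu) (e ▸ dn q v hv)]
    refine X.triv _ _ (by simp; omega) fun h => h3 ?_
    exact hC.uniq _ _ v hv.2 (hA'.right _ _ _ (lift_app hA' hC hu h.1)) hv.1 (by rw [cast_add hC, e])
  refine ⟨fun p w _ h => if_neg h, fun p w w' h e => ?_, fun p w h => ?_, fun p u v h hu hv => ?_,
    fun p u q v h1 h2 h3 h4 => ?_⟩
  · rw [R.eqv _ w w' h e]
    exact if_congr ⟨hG'.eqv p w w' e, hG'.eqv p w' w e.symm⟩ rfl rfl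
  · split_ifs
    · exact R.sq _ w h
    · exact one_mul 1
  · rw [if_pos hu, if_pos hv, cast_add hC, R.mul _ u v h (dn p u hu) (cast_add hC p _ ▸ dn _ v hv)]
    split_ifs with h'
    · rfl
    · exact R.triv _ _ (by simpa using h) fun h'' => h' ⟨lift_app hA' hC hu h''.1, h''.2⟩
  · split_ifs with hu hv
    · by_cases e : (ZMod.cast p : ZMod N) + u.length = ZMod.cast q
      · exact key p u q v h1 h2 h3 hu hv e
      by_cases e' : (ZMod.cast q : ZMod N) + v.length = ZMod.cast p
      · exact (key q v p u h2 h1 h4 hv hu e').symm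
      exact R.comm _ u _ v h1 h2 e e'
    all_goals simp

end Down

theorem val_add {N : ℕ} [NeZero N] (p : ZMod N) {n : ℕ} (hn : n < N) :
    (p + n).val = p.val + n ∨ (p + n).val + N = p.val + n := by
  have e := ZMod.val_natCast_of_lt hn
  rcases lt_or_ge (p.val + (n : ZMod N).val) N with h | h
  · exact .inl (by rw [ZMod.val_add_of_lt h, e])
  · exact .inr (by rw [← ZMod.val_add_val_of_le h, e])

end CutAux

open CutAux in
theorem trHom_inj {N N' : ℕ} [NeZero N'] {Amb : ZMod N → List α → Prop} {Amb' : ZMod N' → List α → Prop}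
    {lam lam' c c' : ℕ} (hA : AmbOK S Amb lam) (hA' : AmbOK S Amb' lam) (hC : Cover Amb Amb' lam)
    (hl : lam ≤ lam') (hc : 8 * lam ≤ c) (hN : 3 * c < N) (hcc : c ≤ c') (hc' : 8 * lam' ≤ c') (hN' : 3 * c' < N')
    {g : St S (Thr Amb 1) c} (hg : theta S Amb (Thr Amb 1) c g = 1) (h : trHom S Amb Amb' c c' g = 1) :
    g = 1 := by
  classical
  have l1 := hA.lam_pos
  have hG := hA.thr l1 le_rfl
  have hG' := hA'.thr l1 le_rfl
  have hG1 := hA.thr le_rfl l1
  have hG1' := hA'.thr le_rfl l1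
  have R := down_rel hA hA' hC hc hN
  obtain ⟨D, hD⟩ := R.exists_hom
  have hs : D.range = ⊤ := by
    rw [eq_top_iff, ← closure_xg, Subgroup.closure_le]
    rintro _ ⟨p, w, h1, h2, rfl⟩
    obtain ⟨p', rfl, h3⟩ := hC.ex p w h2.2 h2.1
    exact ⟨_, (hD p' w h1).trans (if_pos ⟨h3, h2.2⟩)⟩
  have e : ((trHom S Amb Amb' c c').comp (incl S (Thr Amb lam) (Thr Amb 1) c c)).comp D =
      (incl S (Thr Amb' lam) (Thr Amb' 1) c' c').comp (incl S (Thr Amb' lam) (Thr Amb' lam) c c') := by
    rw [incl_comp hG' hG' hG1' (fun _ _ h => h) (fun _ _ h => ⟨h.1, l1.trans h.2⟩) hcc le_rfl]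
    refine St.hom_ext fun p w h1 h2 => ?_
    rw [MonoidHom.comp_apply, MonoidHom.comp_apply, hD p w h1, if_pos h2,
      incl_xg hG hG1 (fun _ _ h => ⟨h.1, l1.trans h.2⟩) le_rfl h1 ⟨hC.down p w h2.1, h2.2⟩,
      incl_xg hG' hG1' (fun _ _ h => ⟨h.1, l1.trans h.2⟩) hcc h1 h2, trHom,
      (tr_rel hA' hC (by omega) hcc).stLift_xg _ h1, tr, List.prod_map_eq_pow_single p,
      List.count_eq_one_of_mem (Finset.nodup_toList _) (by simp), pow_one]
    intro q hq hq'
    refine (xg_rel S _ c').triv q w (h1.trans hcc) fun h => hq ?_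
    exact hC.uniq q p w h2.2 h.1 h2.1 (by simpa using hq')
  obtain ⟨g₁, rfl⟩ := (estep hA hc hN l1 le_rfl).2 g hg
  obtain ⟨g₂, rfl⟩ : g₁ ∈ D.range := hs ▸ Subgroup.mem_top _
  have h1 := (DFunLike.congr_fun e g₂).symm.trans h
  rw [MonoidHom.comp_apply, map_eq_one_iff _ (estep (hA'.mono hl) hc' hN' l1 hl).1,
    map_eq_one_iff _ (incl_injective_of_le hA' hG' hc hcc (by omega))] at h1
  rw [h1, map_one, map_one]

open CutAux in
theorem cut {N : ℕ} {Amb Good : ZMod N → List α → Prop} {lam c : ℕ} (hA : AmbOK S Amb lam)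
    (hG : GoodOK S Amb Good lam) (hc : 8 * lam ≤ c) (hN : c < N) {c₀ L : ℕ} (h₀ : c₀ ≤ c)
    (hL : (2 * L + 4) * (c₀ + 1) < N) (l : List (St S Good c)) (hl : l.length ≤ L)
    (hlay : ∀ g ∈ l, Layer S Good c c₀ g) (h : theta S Amb Good c l.prod = 1) : l.prod = 1 := by
  classical
  haveI : NeZero N := ⟨by omega⟩
  obtain ⟨δ, hδ⟩ : ∃ δ, δ = c₀ + 1 := ⟨_, rfl⟩
  have hL' : 2 * (L * δ) + 4 * δ < N := by rw [← hδ] at hL; nlinarith
  have R := xg_rel S Good c
  let In : ℕ → ZMod N × List α → Prop := fun k r => k * δ ≤ r.1.val ∧ r.1.val + r.2.length + k * δ < N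
  let B : (ZMod N × List α → Prop) → Subgroup (St S Good c) := fun I =>
    Subgroup.closure {g | ∃ r, r.2.length ≤ c₀ ∧ I r ∧ g = xg S Good c r.1 r.2}
  have mono : ∀ I I' : ZMod N × List α → Prop, (∀ r, I r → I' r) → B I ≤ B I' := fun I I' h =>
    Subgroup.closure_mono fun _ ⟨r, h1, h2, h3⟩ => ⟨r, h1, h r h2, h3⟩
  have split : ∀ (I : ZMod N × List α → Prop) g, Layer S Good c c₀ g →
      ∃ a ∈ B I, ∃ b ∈ B fun r => ¬ I r, g = a * b := by
    rintro I _ ⟨rs, h1, h2, rfl⟩
    refine ⟨((rs.filter fun r => I r).map fun r => xg S Good c r.1 r.2).prod, list_prod_mem ?_,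
      ((rs.filter fun r => !decide (I r)).map fun r => xg S Good c r.1 r.2).prod, list_prod_mem ?_, ?_⟩
    · intro x hx
      obtain ⟨r, hr, rfl⟩ := List.mem_map.1 hx
      rw [List.mem_filter] at hr
      exact Subgroup.subset_closure ⟨r, h1 r hr.1, by simpa using hr.2, rfl⟩
    · intro x hx
      obtain ⟨r, hr, rfl⟩ := List.mem_map.1 hx
      rw [List.mem_filter] at hr
      exact Subgroup.subset_closure ⟨r, h1 r hr.1, by simpa using hr.2, rfl⟩
    · rw [← List.prod_append, ← List.map_append]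
      refine ((List.filter_append_perm _ rs).map _).symm.prod_eq' (List.pairwise_map.2 ?_)
      exact h2.imp_of_mem fun {r r'} hr hr' h =>
        R.comm _ _ _ _ ((h1 r hr).trans h₀) ((h1 r' hr').trans h₀) h.1 h.2
  have comm : ∀ k, (B fun r => ¬ In k r) ≤ Subgroup.centralizer (B (In (k + 1))) := fun k => by
    rw [Subgroup.centralizer_closure, Subgroup.closure_le]
    rintro _ ⟨⟨p, u⟩, h1, h2, rfl⟩ _ ⟨⟨q, v⟩, h3, h4, rfl⟩
    simp only [In, add_mul, one_mul] at h1 h2 h3 h4
    refine R.comm q v p u (h3.trans h₀) (h1.trans h₀) (fun e => ?_) fun e => ?_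
    · have := val_add q (n := v.length) (by omega)
      rw [e] at this
      omega
    · have := val_add p (n := u.length) (by omega)
      have := ZMod.val_lt p
      simp only [e] at *
      omega
  have key : ∀ (l : List (St S Good c)) (k : ℕ), k + l.length ≤ L → (∀ g ∈ l, Layer S Good c c₀ g) →
      ∃ a ∈ B (In k), ∃ b ∈ B fun r => ¬ In L r, l.prod = a * b := by
    intro l
    induction l with
    | nil => exact fun k _ _ => ⟨1, one_mem _, 1, one_mem _, by simp⟩
    | cons g l ih =>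
      intro k hk hl
      rw [List.length_cons] at hk
      obtain ⟨a, ha, b, hb, e⟩ := ih (k + 1) (by omega) fun x hx => hl x (List.mem_cons_of_mem _ hx)
      obtain ⟨a', ha', b', hb', rfl⟩ := split (In k) g (hl g List.mem_cons_self)
      have hk' : k * δ ≤ L * δ := Nat.mul_le_mul_right _ (by omega)
      refine ⟨a' * a, mul_mem ha' (mono _ _ (fun r h => ?_) ha), b' * b,
        mul_mem (mono _ _ (fun r => mt fun h' => ?_) hb') hb, ?_⟩
      · simp only [In, add_mul, one_mul] at h ⊢; omega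
      · simp only [In] at h' ⊢; omega
      · rw [List.prod_cons, e, mul_assoc, mul_assoc, ← mul_assoc b', ← comm k hb' a ha, mul_assoc]
  obtain ⟨a, ha, b, hb, e⟩ := key l 0 (by omega) hlay
  have arc : ∀ (I : ZMod N × List α → Prop) (s : ZMod N) (m : ℕ),
      (∀ r, r.2.length ≤ c₀ → I r → InArc s m r.1 r.2.length) → B I ≤ Arc S Good c s m :=
    fun I s m h => Subgroup.closure_mono fun _ ⟨r, h1, h2, h3⟩ =>
      ⟨r.1, r.2, h r h1 h2, h3.trans ((xl_spec hA hG hc hN).2 _ _ (h1.trans h₀)).symm⟩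
  rw [e] at h ⊢
  refine mul_eq_one_iff_eq_inv.2 (arc_sup hA hG hc hN (m := N - 1) (m' := 2 * (L * δ + δ)) (by omega)
    (by omega) (arc _ 0 _ (fun r _ h => ?_) ha)
    (inv_mem (arc _ (-((L * δ + δ : ℕ) : ZMod N)) _ (fun r h1 h => ?_) hb))
    (by rw [map_inv, ← mul_eq_one_iff_eq_inv, ← map_mul, h]))
  · simp only [In, InArc, sub_zero] at h ⊢; omega
  · have := val_add r.1 (n := L * δ + δ) (by omega)
    have := ZMod.val_lt r.1
    have := ZMod.val_lt (r.1 + ((L * δ + δ : ℕ) : ZMod N))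
    simp only [In, InArc, sub_neg_eq_add] at h ⊢
    omega

end Crest.Agent.R176
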