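import Crest.Agent.R176.Sys

/-!
# Row 176: descent of nilpotence along one level of a hierarchy  (task R176-Desc)

`Hier S S'`: the letters of `S` carry an address `ph` modulo `F`; long nonzero words are cut into frames (`Fr`) of
length `F`, of four types `ty`; a frame of type `0` is equivalent to the code of a letter of `S'`, a frame of type `1`
followed by a frame of type `2` is equivalent to the code of two letters.

Plan for `Hier.nil`.  Fix `T, B, j, g, μ`; for a list `w` put `tm w := j (w.map μ).prod * (w.map g).prod`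
(multiplicative in `w` since `j t` commutes with the `g a`), `M := ∑ a, j (μ a) * g a`, so `M ^ n = ∑ over words of
length n` of `tm w` (use `List.Vector α n`, `Fin n → α` or a `Finset (List α)` of words of length `n`).
* `M i :=` part of `M` with `ph = i`, `M i * M k = 0` unless `k = i + 1` (`succ`); `G :=` part of `M` with `start`;
  `M i * M 0 = M i * G` (`st`, `st0`).  Hence `M ^ (F + r * F + ..)` is a sum of terms `X * E ^ r * Y` with
  `E := G * M ^ (F - 1) = ∑ frames, tm w`; it suffices that `E` is nilpotent.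
* `E = E0 + E1 + E2 + E3` by type; `E3 * E = 0` (`bad`), `E1 * (E0 + E1) = 0`, `(E0 + E2) * E2 = 0`.  Put `W 0 = 1`,
  `W 1 = E0`, `W (r+2) = E0 * W (r+1) + E1 * E2 * W r`.  If `W r = 0` for all `r ≥ r₀` then `E` is nilpotent
  (e.g. `A := E0 + E1`, `E ^ (r+1)` is a combination of `W (r+1-k) * (1, E1, E3, E1 * E3)` and the same with `E2`
  in front; prove a recursion such as `(E0+E1+E3) * E ^ r = W (r+1) + W r * (E1 + E3) + W (r-1) * E1 * E3`).
* `g' X := ((enc X).map g).prod` is a representation of `S'` (`sim_mv`, `sim_zr`, `Rep.prod_eq`, `Rep.prod_zero`),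
  `E0 = ∑ X, j (μ' X) * g' X` and `E1 * E2 = ∑ X Y, j (ν X Y) * g' X * g' Y` (group the nonzero words by a chosen
  decoding, `parse0`, `parse12`).
* `T' := Matrix (Option β) (Option β) T` (spanned by `ρ * (1 + card β) ^ 2` elements `single a b t`),
  `B' := Matrix _ _ B`, `j' := RingHom.mapMatrix j`, `g'' X := Matrix.scalar _ (g' X)` (or `diagonal`),
  `μ'' Y none none = μ' Y`, `μ'' Y none (some X) = if X = Y then 1 else 0`, `μ'' Y (some X) none = ν X Y`,
  `μ'' Y (some _) (some _) = 0`.  With `N := ∑ Y, j' (μ'' Y) * g'' Y` one has `(N ^ r) none none = W r`.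
-/

set_option autoImplicit false

namespace Crest.Agent.R176

namespace Sys

structure Hier {α β : Type} (S : Sys α) (S' : Sys β) where
  F : ℕ
  F_pos : 1 ≤ F
  ph : α → ZMod F
  start : α → Prop
  ty : List α → Fin 4
  enc : β → List α
  succ : ∀ y z, ph z ≠ ph y + 1 → S.IsZero [y, z]
  st : ∀ y z, ph z = 0 → ¬ start z → S.IsZero [y, z]
  st0 : ∀ z, start z → ph z = 0
  bad : ∀ a w b, start a → (a :: w).length = F → ty (a :: w) = 3 → start b → S.IsZero (a :: w ++ [b])
  z1 : ∀ a w a' w', start a → (a :: w).length = F → start a' → (a' :: w').length = F →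
    ty (a :: w) = 1 → ty (a' :: w') = 0 ∨ ty (a' :: w') = 1 → S.IsZero (a :: w ++ a' :: w')
  z2 : ∀ a w a' w', start a → (a :: w).length = F → start a' → (a' :: w').length = F →
    ty (a :: w) = 0 ∨ ty (a :: w) = 2 → ty (a' :: w') = 2 → S.IsZero (a :: w ++ a' :: w')
  parse0 : ∀ a w, start a → (a :: w).length = F → ty (a :: w) = 0 → ¬ S.IsZero (a :: w) →
    ∃ X, S.Eqv (a :: w) (enc X)
  parse12 : ∀ a w a' w', start a → (a :: w).length = F → start a' → (a' :: w').length = F →
    ty (a :: w) = 1 → ty (a' :: w') = 2 → ¬ S.IsZero (a :: w ++ a' :: w') →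
    ∃ X Y, S.Eqv (a :: w ++ a' :: w') (enc X ++ enc Y)
  sim_mv : ∀ X Y X' Y', S'.mv X Y X' Y' → S.Eqv (enc X ++ enc Y) (enc X' ++ enc Y')
  sim_zr : ∀ X Y, S'.zr X Y → S.IsZero (enc X ++ enc Y)

theorem Nil.mono {α : Type} [Fintype α] {S : Sys α} {ρ ρ' : ℕ} (h : S.Nil ρ') (hρ : ρ ≤ ρ') : S.Nil ρ := by
  intro T B _ _ _ ⟨s, hs, hsp⟩
  exact h T B ⟨s, hs.trans hρ, hsp⟩

namespace Desc

/-- the abstract ring-theoretic step -/
theorem nil_abs {B β : Type} [Ring B] [Fintype β] [DecidableEq β] (E0 E1 E2 E3 : B)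
    (h3 : E3 * (E0 + E1 + E2 + E3) = 0) (h10 : E1 * E0 = 0) (h11 : E1 * E1 = 0) (h02 : E0 * E2 = 0)
    (h22 : E2 * E2 = 0) (p c : β → B) (hb : E1 * E2 = ∑ X, p X * c X)
    (N : Matrix (Option β) (Option β) B) (hnn : N none none = E0) (hns : ∀ X, N none (some X) = p X)
    (hsn : ∀ X, N (some X) none = c X) (hss : ∀ X Y, N (some X) (some Y) = 0) (hN : IsNilpotent N) :
    IsNilpotent (E0 + E1 + E2 + E3) := by
  set E := E0 + E1 + E2 + E3 with hE
  set A := E0 + E1 + E3 with hA
  have e0 : E0 * E = E0 * A := by rw [hE, hA]; simp only [mul_add, h02, add_zero]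
  have e2 : E2 * E = E2 * A := by rw [hE, hA]; simp only [mul_add, h22, add_zero]
  have e1 : E1 * E = E1 * E2 + E1 * E3 := by rw [hE]; simp only [mul_add, h10, h11, zero_add]
  have hAEE : A * E * E = E0 * (A * E) + E1 * E2 * A := by
    calc A * E * E = (E0 * E + E1 * E + E3 * E) * E := by rw [hA]; simp only [add_mul]
      _ = E0 * (A * E) + E1 * (E2 * E) + E1 * (E3 * E) := by
        rw [e0, e1, h3]; simp only [add_mul, add_zero, mul_assoc, add_assoc, h3, mul_zero]
      _ = E0 * (A * E) + E1 * E2 * A := by rw [h3, e2, mul_zero, add_zero, mul_assoc]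
  have hV : ∀ r : ℕ, A * E ^ (r + 2) = E0 * (A * E ^ (r + 1)) + E1 * E2 * (A * E ^ r) := fun r => by
    calc A * E ^ (r + 2) = A * E * E * E ^ r := by rw [pow_succ', pow_succ']; simp only [mul_assoc]
      _ = _ := by rw [hAEE, pow_succ']; simp only [add_mul, mul_assoc]
  let u : ℕ → Option β → B := fun r o => o.elim (A * E ^ (r + 1)) fun X => c X * (A * E ^ r)
  have hu : ∀ r, N.mulVec (u r) = u (r + 1) := fun r => by
    funext o
    cases o with
    | none =>
      simp only [Matrix.mulVec, dotProduct, Fintype.sum_option, hnn, hns, u, Option.elim]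
      rw [hV, hb, Finset.sum_mul]
      simp only [mul_assoc]
    | some X =>
      simp only [Matrix.mulVec, dotProduct, Fintype.sum_option, hsn, hss, u, Option.elim, zero_mul,
        Finset.sum_const_zero, add_zero]
  have hu' : ∀ r, (N ^ r).mulVec (u 0) = u r := fun r => by
    induction r with
    | zero => simp
    | succ r ih => rw [pow_succ', ← Matrix.mulVec_mulVec, ih, hu]
  obtain ⟨r, hr⟩ := hN
  have h0 : A * E ^ (r + 1) = 0 := by
    have := congrFun (hu' r) none
    rw [hr, Matrix.zero_mulVec] at this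
    exact this.symm
  refine ⟨r + 1 + 1 + 1, ?_⟩
  have hEA : E = A + E2 := by rw [hE, hA]; abel
  calc E ^ (r + 1 + 1 + 1) = (A + E2) * E ^ (r + 1 + 1) := by rw [← hEA, ← pow_succ']
    _ = A * E ^ (r + 1) * E + E2 * E * E ^ (r + 1) := by
      rw [add_mul, mul_assoc, mul_assoc, ← pow_succ, ← pow_succ']
    _ = 0 := by rw [e2, mul_assoc E2, h0]; simp

theorem group {T B ι κ : Type} [Ring T] [Ring B] [Fintype κ] (j : T →+* B) (s : Finset ι) (m : ι → T)
    (q : ι → B) (q' : κ → B) (h : ∀ i ∈ s, q i = 0 ∨ ∃ k, q i = q' k) :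
    ∃ m' : κ → T, ∑ i ∈ s, j (m i) * q i = ∑ k, j (m' k) * q' k := by
  classical
  induction s using Finset.induction_on with
  | empty => exact ⟨0, by simp⟩
  | insert i s hi ih =>
    obtain ⟨m', hm⟩ := ih fun i hi => h i (Finset.mem_insert_of_mem hi)
    rw [Finset.sum_insert hi, hm]
    rcases h i (Finset.mem_insert_self i s) with h0 | ⟨k, hk⟩
    · exact ⟨m', by rw [h0, mul_zero, zero_add]⟩
    · refine ⟨Pi.single k (m i) + m', ?_⟩
      simp only [Pi.add_apply, map_add, add_mul, Finset.sum_add_distrib]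
      congr 1
      rw [Finset.sum_eq_single k, Pi.single_eq_same, hk]
      · intro b _ hb
        rw [Pi.single_eq_of_ne hb, map_zero, zero_mul]
      · simp

/-- words of length `n` -/
noncomputable def wd (α : Type) [Fintype α] (n : ℕ) : Finset (List α) :=
  (List.finite_length_eq α n).toFinset

theorem mem_wd {α : Type} [Fintype α] {n : ℕ} {w : List α} : w ∈ wd α n ↔ w.length = n := by
  simp [wd]

theorem sum_wd_succ {α B : Type} [Fintype α] [AddCommMonoid B] (n : ℕ) (f : List α → B) :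
    ∑ w ∈ wd α (n + 1), f w = ∑ a, ∑ w ∈ wd α n, f (a :: w) := by
  rw [← Finset.sum_product']
  symm
  refine Finset.sum_bij (fun x _ => x.1 :: x.2) ?_ ?_ ?_ ?_
  · intro x hx
    rw [mem_wd, List.length_cons, mem_wd.1 (Finset.mem_product.1 hx).2]
  · intro x _ y _ e
    exact Prod.ext (List.cons.inj e).1 (List.cons.inj e).2
  · intro w hw
    rw [mem_wd] at hw
    cases w with
    | nil => simp at hw
    | cons a w =>
      exact ⟨(a, w), Finset.mem_product.2 ⟨Finset.mem_univ _, mem_wd.2 (by simpa using hw)⟩, rfl⟩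
  · intro _ _
    rfl

theorem pow_eq {α B : Type} [Fintype α] [Ring B] (x : α → B) (n : ℕ) :
    (∑ a, x a) ^ n = ∑ w ∈ wd α n, (w.map x).prod := by
  induction n with
  | zero =>
    have : wd α 0 = {[]} := by ext w; simp [mem_wd]
    simp [this]
  | succ n ih =>
    rw [sum_wd_succ, pow_succ', ih, Finset.sum_mul_sum]
    simp

theorem tm_eq {α T B : Type} [Ring T] [Ring B] (j : T →+* B) (g : α → B)
    (hc : ∀ t a, Commute (j t) (g a)) (μ : α → T) (w : List α) :
    (w.map fun a => j (μ a) * g a).prod = j (w.map μ).prod * (w.map g).prod := by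
  induction w with
  | nil => simp
  | cons a w ih =>
    simp only [List.map_cons, List.prod_cons, ih, map_mul, mul_assoc]
    rw [← mul_assoc (g a), ← (hc _ a).eq, mul_assoc]

/-- from frames to letters -/
theorem nil_of_frames {α B : Type} [Fintype α] [Ring B] (F : ℕ) (hF : 1 ≤ F) (ph : α → ZMod F)
    (start : α → Prop) [DecidablePred start] (x : α → B)
    (h1 : ∀ y z, ph z ≠ ph y + 1 → x y * x z = 0) (h2 : ∀ y z, ph z = 0 → ¬ start z → x y * x z = 0)
    (hE : IsNilpotent ((∑ a, if start a then x a else 0) * (∑ a, x a) ^ (F - 1))) :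
    IsNilpotent (∑ a, x a) := by
  have : NeZero F := ⟨by omega⟩
  set M := ∑ a, x a with hM
  set E := (∑ a, if start a then x a else 0) * M ^ (F - 1) with hE'
  let R : ZMod F → B → Prop := fun i b => ∀ z, (ph z ≠ i + 1 ∨ (ph z = 0 ∧ ¬ start z)) → b * x z = 0
  have r0 : ∀ (c : B) y, R (ph y) (c * x y) := fun c y z hz => by
    rw [mul_assoc]
    rcases hz with hz | hz
    · rw [h1 y z hz, mul_zero]
    · rw [h2 y z hz.1 hz.2, mul_zero]
  have r1 : ∀ i b, R i b → R (i + 1) (b * M) := fun i b hb z hz => by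
    rw [hM, Finset.mul_sum, Finset.sum_mul]
    refine Finset.sum_eq_zero fun y _ => ?_
    by_cases hy : ph y = i + 1
    · exact r0 b y z (by rwa [hy])
    · rw [hb y (Or.inl hy), zero_mul]
  have r2 : ∀ (k : ℕ) i b, R i b → R (i + k) (b * M ^ k) := fun k i b hb => by
    induction k with
    | zero => simpa using hb
    | succ k ih =>
      rw [pow_succ, ← mul_assoc, Nat.cast_succ, ← add_assoc]
      exact r1 _ _ ih
  have r3 : ∀ b, R (-1) b → b * M ^ F = b * E := fun b hb => by
    have : b * M = b * ∑ a, if start a then x a else 0 := by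
      rw [hM, Finset.mul_sum, Finset.mul_sum]
      refine Finset.sum_congr rfl fun z _ => ?_
      split_ifs with hz
      · rfl
      · rw [mul_zero]
        refine hb z ?_
        by_cases h0 : ph z = 0
        · exact Or.inr ⟨h0, hz⟩
        · exact Or.inl (by rwa [neg_add_cancel])
    rw [hE', ← mul_assoc, ← this, mul_assoc, ← pow_succ', Nat.sub_add_cancel hF]
  have r4 : ∀ (r : ℕ) b, R (-1) b → b * M ^ (F * r) = b * E ^ r := fun r => by
    induction r with
    | zero => simp
    | succ r ih =>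
      intro b hb
      have hb' := r2 F _ _ hb
      rw [ZMod.natCast_self, add_zero] at hb'
      rw [Nat.mul_succ, add_comm, pow_add, ← mul_assoc, ih _ hb', r3 b hb, mul_assoc, ← pow_succ']
  obtain ⟨r, hr⟩ := hE
  refine ⟨F + F * r + 1, ?_⟩
  rw [pow_succ', hM, Finset.sum_mul, ← hM]
  refine Finset.sum_eq_zero fun y _ => ?_
  have hy := r2 (-1 - ph y).val _ _ (r0 1 y)
  rw [one_mul, ZMod.natCast_zmod_val, add_sub_cancel] at hy
  have hk : (-1 - ph y).val < F := ZMod.val_lt _
  have e : F + F * r = (-1 - ph y).val + F * r + (F - (-1 - ph y).val) := by omega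
  rw [e, pow_add, pow_add, ← mul_assoc, ← mul_assoc, r4 r _ hy, hr, mul_zero, zero_mul]

theorem span_matrix {T n : Type} [Ring T] [Algebra KK T] [Fintype n] [DecidableEq n] {ρ : ℕ}
    (h : ∃ s : Finset T, s.card ≤ ρ ∧ Submodule.span KK (s : Set T) = ⊤) :
    ∃ s : Finset (Matrix n n T), s.card ≤ ρ * Fintype.card n ^ 2 ∧
      Submodule.span KK (s : Set (Matrix n n T)) = ⊤ := by
  classical
  obtain ⟨s, hs, hsp⟩ := h
  refine ⟨(s ×ˢ (Finset.univ : Finset (n × n))).image fun x => Matrix.single x.2.1 x.2.2 x.1, ?_, ?_⟩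
  · refine Finset.card_image_le.trans ?_
    rw [Finset.card_product, Finset.card_univ, Fintype.card_prod, sq]
    exact Nat.mul_le_mul_right _ hs
  · rw [eq_top_iff]
    intro m _
    rw [Matrix.matrix_eq_sum_single m]
    refine Submodule.sum_mem _ fun a _ => Submodule.sum_mem _ fun b _ => ?_
    have ht : m a b ∈ Submodule.span KK (s : Set T) := by rw [hsp]; trivial
    generalize m a b = t at ht
    induction ht using Submodule.span_induction with
    | mem t ht =>
      exact Submodule.subset_span (Finset.mem_coe.2 (Finset.mem_image.2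
        ⟨(t, a, b), Finset.mem_product.2 ⟨ht, Finset.mem_univ _⟩, rfl⟩))
    | zero => rw [Matrix.single_zero]; exact Submodule.zero_mem _
    | add x y _ _ hx hy => rw [Matrix.single_add]; exact Submodule.add_mem _ hx hy
    | smul c x _ hx => rw [← Matrix.smul_single]; exact Submodule.smul_mem _ c hx

end Desc

open Desc in
theorem Hier.nil {α β : Type} [Fintype α] [Fintype β] {S : Sys α} {S' : Sys β} (H : Hier S S') (ρ : ℕ)
    (h : S'.Nil (ρ * (1 + Fintype.card β) ^ 2)) : S.Nil ρ := by
  classical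
  intro T B _ _ _ hT j g hg hc μ
  set x : α → B := fun a => j (μ a) * g a with hx
  have hz : ∀ w, S.IsZero w → (w.map x).prod = 0 := fun w hw => by
    rw [hx, tm_eq j g hc, hg.prod_zero hw, mul_zero]
  refine nil_of_frames H.F H.F_pos H.ph H.start x
    (fun y z hyz => by simpa using hz _ (H.succ y z hyz))
    (fun y z h1 h2 => by simpa using hz _ (H.st y z h1 h2)) ?_
  let Fr : Fin 4 → Finset (List α) := fun k =>
    (wd α H.F).filter fun w => (∃ a w', w = a :: w' ∧ H.start a) ∧ H.ty w = k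
  have hFr : ∀ {k w}, w ∈ Fr k → ∃ a w', w = a :: w' ∧ H.start a ∧ (a :: w').length = H.F ∧
      H.ty (a :: w') = k := fun {k w} hw => by
    obtain ⟨h1, ⟨a, w', rfl, h2⟩, h3⟩ := Finset.mem_filter.1 hw
    exact ⟨a, w', rfl, h2, mem_wd.1 h1, h3⟩
  let E : Fin 4 → B := fun k => ∑ w ∈ Fr k, (w.map x).prod
  have hE : (∑ a, if H.start a then x a else 0) * (∑ a, x a) ^ (H.F - 1) = E 0 + E 1 + E 2 + E 3 := by
    rw [← Fin.sum_univ_four E]
    simp only [E, Fr, Finset.sum_filter]
    rw [Finset.sum_comm]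
    have e : wd α H.F = wd α (H.F - 1 + 1) := by rw [Nat.sub_add_cancel H.F_pos]
    rw [e, sum_wd_succ, pow_eq, Finset.sum_mul_sum]
    refine Finset.sum_congr rfl fun a _ => Finset.sum_congr rfl fun w _ => ?_
    by_cases ha : H.start a <;> simp [ha]
  have hmul : ∀ k l, E k * E l = ∑ p ∈ Fr k ×ˢ Fr l,
      j ((p.1 ++ p.2).map μ).prod * ((p.1 ++ p.2).map g).prod := fun k l => by
    simp only [E]
    rw [Finset.sum_mul_sum, Finset.sum_product]
    refine Finset.sum_congr rfl fun w _ => Finset.sum_congr rfl fun w' _ => ?_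
    rw [← tm_eq j g hc, List.map_append, List.prod_append]
  have hzero : ∀ k l, (∀ a w a' w', H.start a → (a :: w).length = H.F → H.start a' →
      (a' :: w').length = H.F → H.ty (a :: w) = k → H.ty (a' :: w') = l →
      S.IsZero (a :: w ++ a' :: w')) → E k * E l = 0 := fun k l hkl => by
    rw [hmul]
    refine Finset.sum_eq_zero fun p hp => ?_
    obtain ⟨a, w, e, h1, h2, h3⟩ := hFr (Finset.mem_product.1 hp).1
    obtain ⟨a', w', e', h1', h2', h3'⟩ := hFr (Finset.mem_product.1 hp).2
    rw [e, e', hg.prod_zero (hkl a w a' w' h1 h2 h1' h2' h3 h3'), mul_zero]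
  have h3 : ∀ l, E 3 * E l = 0 := fun l => hzero 3 l fun a w a' w' h1 h2 h1' _ h3 _ => by
    simpa using (H.bad a w a' h1 h2 h3 h1').append_right w'
  let g' : β → B := fun X => ((H.enc X).map g).prod
  have hc' : ∀ t X, Commute (j t) (g' X) := fun t X =>
    Commute.list_prod_right _ _ fun y hy => by
      obtain ⟨a, -, rfl⟩ := List.mem_map.1 hy
      exact hc t a
  have hg2 : ∀ X Y, ((H.enc X ++ H.enc Y).map g).prod = g' X * g' Y := fun X Y => by
    rw [List.map_append, List.prod_append]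
  obtain ⟨μ', hμ'⟩ := group j (Fr 0) (fun w => (w.map μ).prod) (fun w => (w.map g).prod) g'
    fun w hw => by
      obtain ⟨a, w, rfl, h1, h2, h3⟩ := hFr hw
      by_cases h0 : S.IsZero (a :: w)
      · exact Or.inl (hg.prod_zero h0)
      · obtain ⟨X, hX⟩ := H.parse0 a w h1 h2 h3 h0
        exact Or.inr ⟨X, hg.prod_eq hX⟩
  obtain ⟨ν, hν⟩ := group j (Fr 1 ×ˢ Fr 2) (fun p => ((p.1 ++ p.2).map μ).prod)
    (fun p => ((p.1 ++ p.2).map g).prod) (fun p : β × β => g' p.1 * g' p.2) fun p hp => by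
      obtain ⟨a, w, e, h1, h2, h3⟩ := hFr (Finset.mem_product.1 hp).1
      obtain ⟨a', w', e', h1', h2', h3'⟩ := hFr (Finset.mem_product.1 hp).2
      simp only [e, e']
      by_cases h0 : S.IsZero (a :: w ++ a' :: w')
      · exact Or.inl (hg.prod_zero h0)
      · obtain ⟨X, Y, hX⟩ := H.parse12 a w a' w' h1 h2 h1' h2' h3 h3' h0
        exact Or.inr ⟨(X, Y), by rw [hg.prod_eq hX, hg2]⟩
  have hE0 : E 0 = ∑ Y, j (μ' Y) * g' Y := by
    rw [← hμ']
    exact Finset.sum_congr rfl fun w _ => tm_eq j g hc μ w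
  let μ'' : β → Matrix (Option β) (Option β) T := fun Y => Matrix.of fun o o' =>
    match o, o' with
    | none, none => μ' Y
    | none, some X => if X = Y then 1 else 0
    | some X, none => ν (X, Y)
    | some _, some _ => 0
  have hT' := span_matrix (n := Option β) hT
  rw [Fintype.card_option, add_comm] at hT'
  have hN := h _ (Matrix (Option β) (Option β) B) hT' j.mapMatrix
    (fun X => Matrix.scalar (Option β) (g' X))
    ⟨fun X Y X' Y' hm => by
      rw [← map_mul, ← map_mul, ← hg2, ← hg2, hg.prod_eq (H.sim_mv X Y X' Y' hm)],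
    fun X Y hm => by rw [← map_mul, ← hg2, hg.prod_zero (H.sim_zr X Y hm), map_zero]⟩
    (fun t X => by
      ext a b
      simp [(hc' _ X).eq]) μ''
  rw [hE]
  refine nil_abs (E 0) (E 1) (E 2) (E 3) (by simp only [mul_add, h3, add_zero])
    (hzero 1 0 fun a w a' w' h1 h2 h1' h2' h3 h3' => H.z1 a w a' w' h1 h2 h1' h2' h3 (Or.inl h3'))
    (hzero 1 1 fun a w a' w' h1 h2 h1' h2' h3 h3' => H.z1 a w a' w' h1 h2 h1' h2' h3 (Or.inr h3'))
    (hzero 0 2 fun a w a' w' h1 h2 h1' h2' h3 h3' => H.z2 a w a' w' h1 h2 h1' h2' (Or.inl h3) h3')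
    (hzero 2 2 fun a w a' w' h1 h2 h1' h2' h3 h3' => H.z2 a w a' w' h1 h2 h1' h2' (Or.inr h3) h3')
    g' (fun X => ∑ Y, j (ν (X, Y)) * g' Y) ?_ _ ?_ (fun X => ?_) (fun X => ?_) (fun X Y => ?_) hN
  · rw [hmul, hν, Fintype.sum_prod_type]
    refine Finset.sum_congr rfl fun X _ => ?_
    rw [Finset.mul_sum]
    refine Finset.sum_congr rfl fun Y _ => ?_
    rw [← mul_assoc, ← mul_assoc, (hc' _ X).eq]
  · simp [hE0, Matrix.sum_apply, μ'']
  · simp [Matrix.sum_apply, μ'', apply_ite j]
  · simp [Matrix.sum_apply, μ'']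
  · simp [Matrix.sum_apply, μ'']

end Sys

end Crest.Agent.R176
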