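import Crest.Agent.R176.Theta

/-!
# Row 176, group half: auxiliary lemmas for `EStep.lean`
-/

set_option autoImplicit false

namespace Crest.Agent.R176

open scoped commutatorElement

variable {α : Type} {S : Sys α} {N : ℕ} {Amb Good Good' : ZMod N → List α → Prop} {lam c : ℕ}

theorem es_inArc_sub {a q : ZMod N} {m n k n' : ℕ} (h : InArc a m q n) (hk : k + n' ≤ n) :
    InArc a m (q + k) n' := by
  unfold InArc at *
  have e : q + k - a = (q - a) + k := by ring
  have h1 : ((q - a) + (k : ZMod N)).val ≤ (q - a).val + (k : ZMod N).val := ZMod.val_add_le _ _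
  have h2 : (k : ZMod N).val ≤ k := by
    rw [ZMod.val_natCast]; exact Nat.mod_le _ _
  rw [e]; omega

theorem es_inArc_self (a : ZMod N) {m n : ℕ} (h : n ≤ m) : InArc a m a n := by
  unfold InArc; simpa using h

theorem es_two_windows (hN : 0 < N) (p q : ZMod N) {l : ℕ} (hl : 2 * l + 1 < N) :
    ∃ a : ZMod N, InArc a (N - 1) p l ∧ InArc a (N - 1) q l := by
  have : NeZero N := ⟨by omega⟩
  have h1 : (q - p).val + (p - q).val ≤ N := by
    have : p - q = -(q - p) := by ring
    rw [this, ZMod.neg_val]
    split_ifs with h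
    · have := ZMod.val_lt (q - p); omega
    · have := ZMod.val_lt (q - p); omega
  by_cases h : 2 * (q - p).val ≤ N
  · exact ⟨p, es_inArc_self p (by omega), by unfold InArc; omega⟩
  · exact ⟨q, by unfold InArc; omega, es_inArc_self q (by omega)⟩

theorem es_inArc_mono {a q : ZMod N} {m n n' : ℕ} (h : InArc a m q n) (hk : n' ≤ n) : InArc a m q n' := by
  unfold InArc at *; omega

theorem es_xl_mem {a q : ZMod N} {m : ℕ} {w : List α} (h : InArc a m q w.length) :
    xl S Good c q w ∈ Arc S Good c a m :=
  Subgroup.subset_closure ⟨q, w, h, rfl⟩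

theorem es_natCast_ne {n : ℕ} (h0 : 0 < n) (h1 : n < N) : (n : ZMod N) ≠ 0 := by
  rw [Ne, ZMod.natCast_eq_zero_iff]
  intro h
  exact absurd (Nat.le_of_dvd h0 h) (by omega)

open Classical in
/-- restricting a family to fewer roots -/
theorem es_restrict {lam' L : ℕ} (hG : GoodOK S Amb Good lam) (hG' : GoodOK S Amb Good' lam')
    (hle : ∀ p w, Good p w → Good' p w) {G : Type} [Group G] {x : ZMod N → List α → G}
    (h : SRel S Good' L x) : SRel S Good L fun p w => if Good p w then x p w else 1 := by
  refine ⟨fun p w _ h2 => if_neg h2, fun p w w' h1 e => ?_, fun p w h1 => ?_, fun p u v h1 h2 h3 => ?_,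
    fun p u q v h1 h2 h3 h4 => ?_⟩
  · by_cases hg : Good p w
    · rw [if_pos hg, if_pos (hG.eqv p w w' e hg), h.eqv p w w' h1 e]
    · rw [if_neg hg, if_neg fun h' => hg (hG.eqv p w' w e.symm h')]
  · split_ifs
    · exact h.sq p w h1
    · exact one_mul 1
  · rw [if_pos h2, if_pos h3, h.mul p u v h1 (hle _ _ h2) (hle _ _ h3)]
    split_ifs with hg
    · rfl
    · exact h.triv p _ (by simpa using h1) fun h' => hg (hG.mul p u v h2 h3 (hG'.amb _ _ h'))
  · split_ifs
    · exact h.comm p u q v h1 h2 h3 h4
    · exact Commute.one_right _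
    · exact Commute.one_left _
    · exact Commute.one_left _

open Classical in
theorem es_incl_xl (hA : AmbOK S Amb lam) (hG : GoodOK S Amb Good lam) (hG' : GoodOK S Amb Good' lam)
    (hle : ∀ p w, Good p w → Good' p w) (hc : 8 * lam ≤ c) (hN : c < N) (p : ZMod N) {w : List α}
    (hw : w.length ≤ N - 1) :
    incl S Good Good' c c (xl S Good c p w) = if Good p w then xl S Good' c p w else 1 := by
  refine ((xl_spec hA hG hc hN).1.map (incl S Good Good' c c)).unique hA hG hc
    (es_restrict hG hG' hle (xl_spec hA hG' hc hN).1) (fun p w hw => ?_) p w hw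
  rw [(xl_spec hA hG hc hN).2 p w hw]
  split_ifs with hg
  · rw [incl_xg hG hG' hle le_rfl hw hg, (xl_spec hA hG' hc hN).2 p w hw]
  · rw [(xg_rel S Good c).triv p w hw hg, map_one]

variable [Fintype α]

/-- relations can be checked in the representation if the family is local -/
theorem es_rel_of_theta (hA : AmbOK S Amb lam) (hG : GoodOK S Amb Good lam) (hc : 8 * lam ≤ c) (hN : c < N)
    {L r : ℕ} (hL : 2 * (L + 2 * r) + 1 < N) {F : ZMod N → List α → St S Good c}
    (hT : SRel S Good L fun p w => theta S Amb Good c (F p w))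
    (hF : ∀ (a q : ZMod N) (v : List α), InArc a (N - 1) (q - (r : ZMod N)) (v.length + 2 * r) →
      F q v ∈ Arc S Good c a (N - 1)) :
    SRel S Good L F := by
  have hN0 : 0 < N := by omega
  have key : ∀ {a : ZMod N} {g h : St S Good c}, g ∈ Arc S Good c a (N - 1) → h ∈ Arc S Good c a (N - 1) →
      theta S Amb Good c g = theta S Amb Good c h → g = h :=
    fun hg hh e => arc_sup hA hG hc hN (by omega) (by omega) hg hh e
  refine ⟨fun p w h1 h2 => ?_, fun p w w' h1 e => ?_, fun p w h1 => ?_, fun p u v h1 h2 h3 => ?_,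
    fun p u q v h1 h2 h3 h4 => ?_⟩
  · refine key (a := p - r) (hF _ _ _ (es_inArc_self _ (by omega))) (one_mem _) ?_
    rw [map_one]; exact hT.triv p w h1 h2
  · refine key (a := p - r) (hF _ _ _ (es_inArc_self _ (by omega)))
      (hF _ _ _ (es_inArc_self _ (by have := e.length_eq; omega))) (hT.eqv p w w' h1 e)
  · have := hF _ _ _ (es_inArc_self (p - (r : ZMod N)) (m := N - 1) (n := w.length + 2 * r) (by omega))
    refine key (mul_mem this this) (one_mem _) ?_
    rw [map_one, map_mul]; exact hT.sq p w h1
  · have h0 := es_inArc_self (p - (r : ZMod N)) (m := N - 1) (n := u.length + v.length + 2 * r) (by omega)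
    have hu := hF _ _ _ (es_inArc_mono h0 (n' := u.length + 2 * r) (by omega))
    have hv : F (p + u.length) v ∈ Arc S Good c (p - r) (N - 1) := by
      refine hF _ _ _ ?_
      have := es_inArc_sub h0 (k := u.length) (n' := v.length + 2 * r) (by omega)
      rwa [show p - r + u.length = p + u.length - r by ring] at this
    have huv : F p (u ++ v) ∈ Arc S Good c (p - r) (N - 1) := hF _ _ _ (by simpa using h0)
    refine key ?_ huv ?_
    · rw [commutatorElement_def]
      exact mul_mem (mul_mem (mul_mem hu hv) (inv_mem hu)) (inv_mem hv)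
    · rw [map_commutatorElement]; exact hT.mul p u v h1 h2 h3
  · obtain ⟨a, ha, hb⟩ := es_two_windows hN0 (p - r) (q - r) hL
    have hu := hF _ _ _ (es_inArc_mono ha (n' := u.length + 2 * r) (by omega))
    have hv := hF _ _ _ (es_inArc_mono hb (n' := v.length + 2 * r) (by omega))
    refine key (mul_mem hu hv) (mul_mem hv hu) ?_
    rw [map_mul, map_mul]; exact (hT.comm p u q v h1 h2 h3 h4).eq

theorem es_Th_eq (hle : ∀ p w, Good p w → Good' p w) {p : ZMod N} {w : List α}
    (h : Good' p w → Good p w) : Th S Amb Good' p w = Th S Amb Good p w := by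
  unfold Th
  by_cases hg : Good p w
  · rw [if_pos hg, if_pos (hle p w hg)]
  · rw [if_neg hg, if_neg fun h' => hg (h h')]

/-- the image of `theta` does not contain the root element of a missing class -/
theorem es_theta_ne (hA : AmbOK S Amb lam) (hG : GoodOK S Amb Good lam) (hG' : GoodOK S Amb Good' lam)
    (hN : c < N) {p₀ : ZMod N} {w₀ : List α} (h₀ : ¬ Good p₀ w₀) (h₀' : Good' p₀ w₀) (hw₀ : w₀.length < N)
    (r : St S Good c) : theta S Amb Good c r ≠ Th S Amb Good' p₀ w₀ := by
  classical
  intro hr
  set e : ZMod N := p₀ + w₀.length with he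
  let V : Submodule (ZMod 2) S.Alg := Submodule.span (ZMod 2) {y | ∃ w, Good (e - w.length) w ∧ y = S.ev w}
  have hnu : ∀ p u, Good p u → ∀ y, y - 1 ∈ V → nu S Amb p u e y ∈ V := by
    intro p u hu y hy
    have h1 : nu S Amb p u e 1 ∈ V := by
      have := nu_ev hA p u e []
      rw [Sys.ev_nil] at this
      rw [this]
      split_ifs with h
      · refine Submodule.subset_span ⟨u ++ [], ?_, rfl⟩
        have h2 := h.1
        simp only [List.length_nil, Nat.cast_zero, add_zero] at h2
        simpa [← h2] using hu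
      · exact zero_mem _
    have h2 : ∀ v ∈ V, nu S Amb p u e v ∈ V := by
      intro v hv
      refine Submodule.span_induction (p := fun v _ => nu S Amb p u e v ∈ V) ?_ ?_ ?_ ?_ hv
      · rintro _ ⟨w, hw, rfl⟩
        rw [nu_ev hA]
        split_ifs with h
        · refine Submodule.subset_span ⟨u ++ w, ?_, rfl⟩
          have e1 : e - w.length = p + u.length := by rw [← h.1]; ring
          have e2 : e - ((u ++ w).length : ℕ) = p := by
            rw [← h.1, List.length_append, Nat.cast_add]; ring
          rw [e2]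
          exact hG.mul p u w hu (e1 ▸ hw) h.2
        · exact zero_mem _
      · simp
      · intro x y _ _ hx hy
        rw [map_add]; exact add_mem hx hy
      · intro a x _ hx
        rw [map_smul]; exact Submodule.smul_mem _ _ hx
    have : y = 1 + (y - 1) := by abel
    rw [this, map_add]
    exact add_mem h1 (h2 _ hy)
  have hgen : ∀ p u, u.length ≤ c → Good p u → ∀ y, y - 1 ∈ V →
      (theta S Amb Good c (xg S Good c p u) : EE S N) e y - 1 ∈ V := by
    intro p u h1 h2 y hy
    rw [theta_xg hA hG hN p h1, Th_val hA hG (by omega) h2]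
    have : ((1 + nu S Amb p u : EE S N) e) y - 1 = (y - 1) + nu S Amb p u e y := by
      simp only [Pi.add_apply, Pi.one_apply, LinearMap.add_apply, Module.End.one_apply]
      abel
    rw [this]
    exact add_mem hy (hnu p u h2 y hy)
  have key : ∀ g : St S Good c, ∀ y, y - 1 ∈ V → (theta S Amb Good c g : EE S N) e y - 1 ∈ V := by
    intro g
    have hg : g ∈ Subgroup.closure {g | ∃ p w, w.length ≤ c ∧ Good p w ∧ g = xg S Good c p w} := by
      rw [closure_xg]; trivial
    induction hg using Subgroup.closure_induction'' with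
    | mem x hx =>
      obtain ⟨p, u, h1, h2, rfl⟩ := hx
      exact hgen p u h1 h2
    | inv_mem x hx =>
      obtain ⟨p, u, h1, h2, rfl⟩ := hx
      rw [inv_eq_of_mul_eq_one_right ((xg_rel S Good c).sq p u h1)]
      exact hgen p u h1 h2
    | one => intro y hy; simpa using hy
    | mul x y _ _ hx hy =>
      intro z hz
      rw [map_mul, Units.val_mul, Pi.mul_apply, Module.End.mul_apply]
      exact hx _ (hy z hz)
  have h1 := key r 1 (by simp)
  rw [hr, Th_val hA hG' hw₀ h₀'] at h1
  have h2 : ((1 + nu S Amb p₀ w₀ : EE S N) e) 1 - 1 = S.ev w₀ := by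
    have := nu_ev hA p₀ w₀ e []
    rw [Sys.ev_nil, if_pos ⟨by simp [he], by simpa using hG'.amb _ _ h₀'⟩, List.append_nil] at this
    simp only [Pi.add_apply, Pi.one_apply, LinearMap.add_apply, Module.End.one_apply, this]
    abel
  rw [h2] at h1
  have h3 : ∀ v ∈ V, S.coef w₀ v = 0 := by
    intro v hv
    refine Submodule.span_induction (p := fun v _ => S.coef w₀ v = 0) ?_ ?_ ?_ ?_ hv
    · rintro _ ⟨w, hw, rfl⟩
      rw [Sys.coef_ev, if_neg]
      rintro ⟨h, -⟩
      apply h₀
      have e1 : e - w.length = p₀ := by rw [he, h.length_eq]; ring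
      exact hG.eqv _ _ _ h (e1 ▸ hw)
    · simp
    · intro x y _ _ hx hy
      rw [map_add, hx, hy, add_zero]
    · intro a x _ hx
      rw [map_smul, hx, smul_zero]
  have h4 := h3 _ h1
  rw [Sys.coef_ev, if_pos ⟨Sys.Eqv.refl _, hA.nz _ _ (hG'.amb _ _ h₀')⟩] at h4
  exact one_ne_zero h4

end Crest.Agent.R176
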