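import Crest.Agent.R176.EStepA

/-!
# Row 176, group half: conjugation by the root element of a missing class (for `EStep.lean`)
-/

set_option autoImplicit false

namespace Crest.Agent.R176

open scoped commutatorElement

variable {α : Type} {S : Sys α} {N : ℕ} {Amb Good Good' : ZMod N → List α → Prop} {lam c : ℕ}

/-- the hypotheses of `one_class` -/
structure EsHyp (S : Sys α) (Amb Good Good' : ZMod N → List α → Prop) (lam c : ℕ) (p₀ : ZMod N)
    (w₀ : List α) : Prop where
  hA : AmbOK S Amb lam
  hG : GoodOK S Amb Good lam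
  hG' : GoodOK S Amb Good' lam
  hc : 8 * lam ≤ c
  hN : 3 * c < N
  h₀ : ¬ Good p₀ w₀
  hiff : ∀ p w, Good' p w ↔ Good p w ∨ (p = p₀ ∧ S.Eqv w w₀)
  hr : ∀ v, Good (p₀ + w₀.length) v → Amb p₀ (w₀ ++ v) → Good p₀ (w₀ ++ v)
  hl : ∀ q v, Good q v → q + v.length = p₀ → Amb q (v ++ w₀) → Good q (v ++ w₀)

open Classical in
/-- the correction term -/
noncomputable def esC {G : Type} [Group G] (X : ZMod N → List α → G) (p₀ : ZMod N) (w₀ : List α) (q : ZMod N)
    (v : List α) : G :=
  if p₀ + w₀.length = q then X p₀ (w₀ ++ v) else if q + v.length = p₀ then X q (v ++ w₀) else 1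

open Classical in
/-- the conjugates of the roots -/
noncomputable def esF (Good : ZMod N → List α → Prop) {G : Type} [Group G] (X : ZMod N → List α → G) (p₀ : ZMod N)
    (w₀ : List α) (q : ZMod N) (v : List α) : G :=
  if Good q v then esC X p₀ w₀ q v * X q v else 1

theorem esF_map {G H : Type} [Group G] [Group H] (φ : G →* H) (X : ZMod N → List α → G) (p₀ : ZMod N)
    (w₀ : List α) (q : ZMod N) (v : List α) :
    φ (esF Good X p₀ w₀ q v) = esF Good (fun p w => φ (X p w)) p₀ w₀ q v := by
  unfold esF esC
  split_ifs <;> simp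

theorem esF_congr {G : Type} [Group G] {X Y : ZMod N → List α → G} {L : ℕ}
    (h : ∀ p w, w.length ≤ L → X p w = Y p w) (p₀ : ZMod N) (w₀ : List α) (q : ZMod N) {v : List α}
    (hv : v.length + w₀.length ≤ L) : esF Good X p₀ w₀ q v = esF Good Y p₀ w₀ q v := by
  unfold esF esC
  rw [h p₀ (w₀ ++ v) (by simp; omega), h q (v ++ w₀) (by simp; omega), h q v (by omega)]

theorem esF_mem {G : Type} [Group G] {X : ZMod N → List α → G} {K : Subgroup G} {p₀ : ZMod N} {w₀ : List α}
    {q : ZMod N} {v : List α} (h1 : p₀ + w₀.length = q → X p₀ (w₀ ++ v) ∈ K) (h2 : X q (v ++ w₀) ∈ K)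
    (h3 : X q v ∈ K) : esF Good X p₀ w₀ q v ∈ K := by
  unfold esF esC
  split_ifs with ha hb hc
  · exact mul_mem (h1 hb) h3
  · exact mul_mem h2 h3
  · exact mul_mem (one_mem _) h3
  · exact one_mem _

/-- a local family gives a local family of conjugates -/
theorem esF_arc {G : Type} [Group G] {X : ZMod N → List α → G} {K : Subgroup G} {a : ZMod N} {m r : ℕ}
    (hX : ∀ (q : ZMod N) (v : List α), InArc a m (q - (r : ZMod N)) (v.length + 2 * r) → X q v ∈ K)
    (p₀ : ZMod N) (w₀ : List α) (q : ZMod N) (v : List α)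
    (h : InArc a m (q - ((r + w₀.length : ℕ) : ZMod N)) (v.length + 2 * (r + w₀.length))) :
    esF Good X p₀ w₀ q v ∈ K := by
  refine esF_mem (fun e => hX _ _ ?_) (hX _ _ ?_) (hX _ _ ?_)
  · have := es_inArc_mono h (n' := (w₀ ++ v).length + 2 * r) (by simp; omega)
    rwa [← e, show p₀ + w₀.length - ((r + w₀.length : ℕ) : ZMod N) = p₀ - r by push_cast; ring] at this
  · have := es_inArc_sub h (k := w₀.length) (n' := (v ++ w₀).length + 2 * r) (by simp; omega)
    rwa [show q - ((r + w₀.length : ℕ) : ZMod N) + w₀.length = q - r by push_cast; ring] at this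
  · have := es_inArc_sub h (k := w₀.length) (n' := v.length + 2 * r) (by omega)
    rwa [show q - ((r + w₀.length : ℕ) : ZMod N) + w₀.length = q - r by push_cast; ring] at this

namespace EsHyp

variable {p₀ : ZMod N} {w₀ : List α} (H : EsHyp S Amb Good Good' lam c p₀ w₀)
include H

theorem le (p : ZMod N) (w : List α) (h : Good p w) : Good' p w := (H.hiff p w).2 (Or.inl h)

theorem good' : Good' p₀ w₀ := (H.hiff p₀ w₀).2 (Or.inr ⟨rfl, Sys.Eqv.refl _⟩)

theorem amb : Amb p₀ w₀ := H.hG'.amb _ _ H.good'

theorem pos : 0 < w₀.length := List.length_pos_iff.mpr (H.hG'.ne _ _ H.good')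

theorem lt : w₀.length < lam := by
  by_contra h
  exact H.h₀ (H.hG.long _ _ H.amb (by omega))

theorem new {p : ZMod N} {w : List α} (h' : Good' p w) (h : ¬ Good p w) : p = p₀ ∧ S.Eqv w w₀ :=
  ((H.hiff p w).1 h').resolve_left h

open Classical in
/-- conjugation by the new root element in any group with the relations for `Good'` -/
theorem conj_eq {G : Type} [Group G] {L : ℕ} {Y : ZMod N → List α → G} (hY : SRel S Good' L Y)
    (q : ZMod N) {v : List α} (hv : v.length + w₀.length ≤ L) :
    esF Good (fun p w => if Good p w then Y p w else 1) p₀ w₀ q v =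
      Y p₀ w₀ * (if Good q v then Y q v else 1) * (Y p₀ w₀)⁻¹ := by
  have key : ∀ p w, w.length ≤ L → (Amb p w → Good p w) → (if Good p w then Y p w else 1) = Y p w := by
    intro p w h1 h2
    split_ifs with h
    · rfl
    · exact (hY.triv p w h1 fun h' => h (h2 (H.hG'.amb _ _ h'))).symm
  unfold esF esC
  by_cases hg : Good q v
  · simp only [if_pos hg]
    by_cases h1 : p₀ + w₀.length = q
    · subst h1
      rw [if_pos rfl, key p₀ (w₀ ++ v) (by simp; omega) (H.hr v hg),
        ← hY.mul p₀ w₀ v (by omega) H.good' (H.le _ _ hg), commutatorElement_def]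
      group
    · rw [if_neg h1]
      by_cases h2 : q + v.length = p₀
      · rw [if_pos h2, key q (v ++ w₀) (by simp; omega) (H.hl q v hg h2)]
        have e := hY.mul q v w₀ (by omega) (H.le _ _ hg) (h2 ▸ H.good')
        rw [h2] at e
        have e2 := inv_eq_of_mul_eq_one_right (hY.sq q (v ++ w₀) (by simp; omega))
        rw [← e2, ← e, commutatorElement_def]
        group
      · rw [if_neg h2, one_mul, (hY.comm p₀ w₀ q v (by omega) (by omega) h1 h2).eq]
        group
  · simp only [if_neg hg]; simp

theorem cN : c < N := by have := H.hN; omega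

open Classical in
theorem incl_F (q : ZMod N) {v : List α} (hv : v.length + w₀.length ≤ N - 1) :
    incl S Good Good' c c (esF Good (xl S Good c) p₀ w₀ q v) =
      xl S Good' c p₀ w₀ * incl S Good Good' c c (xl S Good c q v) * (xl S Good' c p₀ w₀)⁻¹ := by
  rw [esF_map, esF_congr (fun p w hw => es_incl_xl H.hA H.hG H.hG' H.le H.hc H.cN p hw) p₀ w₀ q hv,
    H.conj_eq (xl_spec H.hA H.hG' H.hc H.cN).1 q hv, es_incl_xl H.hA H.hG H.hG' H.le H.hc H.cN q (by omega)]

variable [Fintype α]

theorem theta_F (q : ZMod N) {v : List α} (hv : v.length + w₀.length ≤ N - 1) :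
    theta S Amb Good c (esF Good (xl S Good c) p₀ w₀ q v) =
      Th S Amb Good' p₀ w₀ * Th S Amb Good q v * (Th S Amb Good' p₀ w₀)⁻¹ := by
  classical
  have hN := H.cN
  have e : ∀ p w, Th S Amb Good p w = if Good p w then Th S Amb Good' p w else 1 := by
    intro p w
    split_ifs with h
    · exact (es_Th_eq H.le fun _ => h).symm
    · rw [Th, if_neg h]
  rw [esF_map, esF_congr (Y := fun p w => if Good p w then Th S Amb Good' p w else 1) (L := N - 1)
    (fun p w hw => by rw [theta_xl H.hA H.hG H.hc hN p (by omega), e]) p₀ w₀ q hv,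
    H.conj_eq (Th_rel H.hA H.hG' (by omega)) q hv, e]

omit H [Fintype α] in
theorem xl_arc (a : ZMod N) (m : ℕ) (q : ZMod N) (v : List α)
    (h : InArc a m (q - ((0 : ℕ) : ZMod N)) (v.length + 2 * 0)) : xl S Good c q v ∈ Arc S Good c a m :=
  es_xl_mem (by simpa using h)

theorem F_rel : SRel S Good (c + lam) (esF Good (xl S Good c) p₀ w₀) := by
  have h1 := H.lt
  have h2 := H.hc
  have h3 := H.hN
  refine es_rel_of_theta H.hA H.hG H.hc H.cN (r := 0 + w₀.length) (by omega) ?_
    fun a q v h => esF_arc (xl_arc a (N - 1)) p₀ w₀ q v h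
  have h := ((Th_rel H.hA H.hG (by omega)).mono (show c + lam ≤ N - 1 by omega)).map
    (MulAut.conj (Th S Amb Good' p₀ w₀)).toMonoidHom
  have e : ∀ p w, w.length ≤ c + lam → theta S Amb Good c (esF Good (xl S Good c) p₀ w₀ p w) =
      (MulAut.conj (Th S Amb Good' p₀ w₀)).toMonoidHom (Th S Amb Good p w) :=
    fun p w hw => H.theta_F p (by omega)
  refine ⟨fun p w h1 h2 => ?_, fun p w w' h1 h2 => ?_, fun p w h1 => ?_, fun p u v h1 h2 h3 => ?_,
    fun p u q v h1 h2 h3 h4 => ?_⟩
  · rw [e p w h1]; exact h.triv p w h1 h2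
  · rw [e p w h1, e p w' (h2.length_eq ▸ h1)]; exact h.eqv p w w' h1 h2
  · rw [e p w h1]; exact h.sq p w h1
  · rw [e p u (by omega), e _ v (by omega), e p (u ++ v) (by simpa using h1)]; exact h.mul p u v h1 h2 h3
  · rw [e p u h1, e q v h2]; exact h.comm p u q v h1 h2 h3 h4

theorem phi_xg (p : ZMod N) {w : List α} (hw : w.length ≤ c) :
    stLift S Good c (esF Good (xl S Good c) p₀ w₀) (xg S Good c p w) = esF Good (xl S Good c) p₀ w₀ p w :=
  (H.F_rel.mono (by omega)).stLift_xg p hw

theorem phi_xl (p : ZMod N) (w : List α) (hw : w.length ≤ c + lam) :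
    stLift S Good c (esF Good (xl S Good c) p₀ w₀) (xl S Good c p w) = esF Good (xl S Good c) p₀ w₀ p w := by
  have h2 := H.hc
  have h3 := H.hN
  refine (((xl_spec H.hA H.hG H.hc H.cN).1.mono (show c + lam ≤ N - 1 by omega)).map
    (stLift S Good c (esF Good (xl S Good c) p₀ w₀))).unique H.hA H.hG H.hc H.F_rel (fun p w hw => ?_) p w hw
  rw [(xl_spec H.hA H.hG H.hc H.cN).2 p w hw, H.phi_xg p hw]

theorem theta_phi (g : St S Good c) :
    theta S Amb Good c (stLift S Good c (esF Good (xl S Good c) p₀ w₀) g) =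
      Th S Amb Good' p₀ w₀ * theta S Amb Good c g * (Th S Amb Good' p₀ w₀)⁻¹ := by
  have h1 := H.lt
  have h2 := H.hc
  have h3 := H.hN
  have : (theta S Amb Good c).comp (stLift S Good c (esF Good (xl S Good c) p₀ w₀)) =
      (MulAut.conj (Th S Amb Good' p₀ w₀)).toMonoidHom.comp (theta S Amb Good c) :=
    St.hom_ext fun p w hw _ => by
      rw [MonoidHom.comp_apply, MonoidHom.comp_apply, H.phi_xg p hw, H.theta_F p (by omega),
        theta_xg H.hA H.hG H.cN p hw]
      rfl
  exact DFunLike.congr_fun this g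

theorem phi_phi (g : St S Good c) :
    stLift S Good c (esF Good (xl S Good c) p₀ w₀) (stLift S Good c (esF Good (xl S Good c) p₀ w₀) g) = g := by
  have h1 := H.lt
  have h2 := H.hc
  have h3 := H.hN
  have : (stLift S Good c (esF Good (xl S Good c) p₀ w₀)).comp (stLift S Good c (esF Good (xl S Good c) p₀ w₀)) =
      MonoidHom.id _ :=
    St.hom_ext fun p w hw _ => by
      rw [MonoidHom.comp_apply, MonoidHom.id_apply]
      have ha := es_inArc_self (p - ((0 + w₀.length + w₀.length : ℕ) : ZMod N)) (m := N - 1)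
        (n := w.length + 2 * (0 + w₀.length + w₀.length)) (by omega)
      refine arc_sup H.hA H.hG H.hc H.cN (a := p - ((0 + w₀.length + w₀.length : ℕ) : ZMod N)) (b := p)
        (m := N - 1) (m' := N - 1) (by omega) (by omega) ?_ ?_ ?_
      · rw [H.phi_xg p hw, esF_map, esF_congr H.phi_xl p₀ w₀ p (by omega)]
        exact esF_arc (fun q v h => esF_arc (xl_arc _ (N - 1)) p₀ w₀ q v h) p₀ w₀ p w ha
      · rw [← (xl_spec H.hA H.hG H.hc H.cN).2 p w hw]
        exact es_xl_mem (es_inArc_self p (by omega))
      · have e := (Th_rel H.hA H.hG' (by omega)).sq p₀ w₀ (by omega)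
        rw [H.theta_phi, H.theta_phi, inv_eq_of_mul_eq_one_right e]
        calc _ = (Th S Amb Good' p₀ w₀ * Th S Amb Good' p₀ w₀) * theta S Amb Good c (xg S Good c p w) *
            (Th S Amb Good' p₀ w₀ * Th S Amb Good' p₀ w₀) := by simp only [mul_assoc]
          _ = _ := by rw [e, one_mul, mul_one]
  exact DFunLike.congr_fun this g

open Classical in
/-- a group containing `St S Good c` and an involution inducing `φ` receives `St S Good' c` -/
theorem ext_rel {G : Type} [Group G] (i : St S Good c →* G) (t : G) (ht : t * t = 1)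
    (hi : ∀ g, t * i g * t⁻¹ = i (stLift S Good c (esF Good (xl S Good c) p₀ w₀) g)) :
    SRel S Good' c fun p w => if Good p w then i (xg S Good c p w) else if Good' p w then t else 1 := by
  have h1 := H.lt
  have h2 := H.hc
  have h3 := H.hN
  have h4 := H.pos
  have hx := xg_rel S Good c
  have hX := (xl_spec H.hA H.hG H.hc H.cN).2
  have key : ∀ p w, w.length ≤ c → (Amb p w → Good p w) →
      (if Good p w then i (xg S Good c p w) else if Good' p w then t else 1) = i (xg S Good c p w) := by
    intro p w hw h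
    by_cases hg : Good p w
    · rw [if_pos hg]
    · rw [if_neg hg, if_neg fun h' => hg (h (H.hG'.amb _ _ h')), hx.triv p w hw hg, map_one]
  have hcomm : ∀ (q : ZMod N) (v : List α), v.length ≤ c → Good q v → p₀ + w₀.length ≠ q → q + v.length ≠ p₀ →
      Commute t (i (xg S Good c q v)) := by
    intro q v hv hg e1 e2
    have := hi (xg S Good c q v)
    rw [H.phi_xg q hv, esF, if_pos hg, esC, if_neg e1, if_neg e2, one_mul, hX q v hv,
      mul_inv_eq_iff_eq_mul] at this
    exact this
  refine ⟨fun p w _ h => ?_, fun p w w' hw e => ?_, fun p w hw => ?_, fun p u v huv hu hv => ?_,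
    fun p u q v hu hv e1 e2 => ?_⟩
  · rw [if_neg fun h' => h (H.le _ _ h'), if_neg h]
  · have a1 : Good p w ↔ Good p w' := ⟨H.hG.eqv _ _ _ e, H.hG.eqv _ _ _ e.symm⟩
    have a2 : Good' p w ↔ Good' p w' := ⟨H.hG'.eqv _ _ _ e, H.hG'.eqv _ _ _ e.symm⟩
    simp only [a1, a2, hx.eqv p w w' hw e]
  · split_ifs
    · rw [← map_mul, hx.sq p w hw, map_one]
    · exact ht
    · exact one_mul 1
  · have hu0 : 0 < u.length := List.length_pos_iff.mpr (H.hG'.ne _ _ hu)
    by_cases gu : Good p u
    · by_cases gv : Good (p + u.length) v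
      · rw [if_pos gu, if_pos gv, key p (u ++ v) (by simpa using huv) (H.hG.mul p u v gu gv),
          ← map_commutatorElement, hx.mul p u v huv gu gv]
      · obtain ⟨e1, e2⟩ := H.new hv gv
        have hl := e2.length_eq
        have e3 : S.Eqv (u ++ v) (u ++ w₀) := e2.append_left u
        have hne : p₀ + w₀.length ≠ p := by
          intro h
          refine es_natCast_ne (N := N) (n := u.length + w₀.length) (by omega) (by omega) ?_
          rw [← e1] at h
          push_cast
          linear_combination h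
        have := hi (xg S Good c p u)⁻¹
        rw [map_inv (stLift S Good c (esF Good (xl S Good c) p₀ w₀)), H.phi_xg p (by omega), esF, if_pos gu, esC, if_neg hne, if_pos e1,
          hX p u (by omega), hX p (u ++ w₀) (by simp; omega), mul_inv_rev,
          inv_eq_of_mul_eq_one_right (hx.sq p (u ++ w₀) (by simp; omega)), map_mul, map_inv] at this
        rw [if_pos gu, if_neg gv, if_pos hv, key p (u ++ v) (by simpa using huv)
          (fun h => H.hG.eqv _ _ _ e3.symm (H.hl p u gu e1 (H.hA.eqv _ _ _ e3 h))),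
          hx.eqv p _ _ (by simpa using huv) e3, commutatorElement_def, mul_assoc, mul_assoc, ← mul_assoc t, this]
        group
    · obtain ⟨e1, e2⟩ := H.new hu gu
      have hl := e2.length_eq
      subst e1
      by_cases gv : Good (p + u.length) v
      · have e3 : S.Eqv (u ++ v) (w₀ ++ v) := e2.append_right v
        have gv' := gv
        rw [hl] at gv'
        have := hi (xg S Good c (p + w₀.length) v)
        rw [H.phi_xg _ (by omega), esF, if_pos gv', esC, if_pos rfl, hX _ v (by omega),
          hX p (w₀ ++ v) (by simp; omega), map_mul] at this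
        rw [if_neg gu, if_pos hu, if_pos gv, key p (u ++ v) (by simpa using huv)
          (fun h => H.hG.eqv _ _ _ e3.symm (H.hr v gv' (H.hA.eqv _ _ _ e3 h))),
          hx.eqv p _ _ (by simpa using huv) e3, commutatorElement_def, hl, this]
        group
      · exfalso
        obtain ⟨e3, -⟩ := H.new hv gv
        exact es_natCast_ne (N := N) (n := u.length) hu0 (by omega) (by linear_combination e3)
  · by_cases gu : Good p u
    · by_cases gv : Good q v
      · rw [if_pos gu, if_pos gv]
        exact (hx.comm p u q v hu hv e1 e2).map i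
      · rw [if_pos gu, if_neg gv]
        split_ifs with gv'
        · obtain ⟨rfl, e4⟩ := H.new gv' gv
          exact (hcomm p u hu gu (e4.length_eq ▸ e2) e1).symm
        · exact Commute.one_right _
    · rw [if_neg gu]
      split_ifs with gu' gv gv' gv gv'
      · obtain ⟨rfl, e4⟩ := H.new gu' gu
        exact hcomm q v hv gv (e4.length_eq ▸ e1) e2
      · exact Commute.refl t
      · exact Commute.one_right _
      · exact Commute.one_left _
      · exact Commute.one_left _
      · exact Commute.one_left _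

theorem injective : Function.Injective (incl S Good Good' c c) := by
  classical
  let φ : MulAut (St S Good c) :=
    { toFun := stLift S Good c (esF Good (xl S Good c) p₀ w₀)
      invFun := stLift S Good c (esF Good (xl S Good c) p₀ w₀)
      left_inv := H.phi_phi
      right_inv := H.phi_phi
      map_mul' := map_mul _ }
  have hφ : φ * φ = 1 := MulEquiv.ext H.phi_phi
  let G := St S Good c ⋊[MonoidHom.id _] MulAut (St S Good c)
  have h := H.ext_rel (G := G) SemidirectProduct.inl (SemidirectProduct.inr φ)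
    (by rw [← map_mul, hφ, map_one])
    (fun g => by
      rw [← map_inv]
      exact (SemidirectProduct.inl_aut (φ := MonoidHom.id _) φ g).symm)
  have e : (stLift S Good' c fun p w => if Good p w then (SemidirectProduct.inl (xg S Good c p w) : G) else
      if Good' p w then SemidirectProduct.inr φ else 1).comp (incl S Good Good' c c) = SemidirectProduct.inl :=
    St.hom_ext fun p w hw hg => by
      rw [MonoidHom.comp_apply, incl_xg H.hG H.hG' H.le le_rfl hw hg, h.stLift_xg p hw, if_pos hg]
  intro a b hab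
  apply SemidirectProduct.inl_injective (φ := MonoidHom.id (MulAut (St S Good c)))
  rw [← e, MonoidHom.comp_apply, MonoidHom.comp_apply, hab]

theorem conj_incl (g : St S Good c) :
    xg S Good' c p₀ w₀ * incl S Good Good' c c g * (xg S Good' c p₀ w₀)⁻¹ =
      incl S Good Good' c c (stLift S Good c (esF Good (xl S Good c) p₀ w₀) g) := by
  have h1 := H.lt
  have h2 := H.hc
  have h3 := H.hN
  have : (MulAut.conj (xg S Good' c p₀ w₀)).toMonoidHom.comp (incl S Good Good' c c) =
      (incl S Good Good' c c).comp (stLift S Good c (esF Good (xl S Good c) p₀ w₀)) :=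
    St.hom_ext fun p w hw _ => by
      rw [MonoidHom.comp_apply, MonoidHom.comp_apply, H.phi_xg p hw, H.incl_F p (by omega),
        (xl_spec H.hA H.hG H.hc H.cN).2 p w hw, (xl_spec H.hA H.hG' H.hc H.cN).2 p₀ w₀ (by omega)]
      rfl
  exact DFunLike.congr_fun this g

theorem mem_or (g : St S Good' c) :
    g ∈ (incl S Good Good' c c).range ∨ g * xg S Good' c p₀ w₀ ∈ (incl S Good Good' c c).range := by
  have h1 := H.lt
  have h2 := H.hc
  have ht := (xg_rel S Good' c).sq p₀ w₀ (by omega)
  have hti := inv_eq_of_mul_eq_one_right ht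
  have hn : ∀ r ∈ (incl S Good Good' c c).range,
      xg S Good' c p₀ w₀ * r * xg S Good' c p₀ w₀ ∈ (incl S Good Good' c c).range := by
    rintro _ ⟨r, rfl⟩
    have := H.conj_incl r
    rw [hti] at this
    exact ⟨_, this.symm⟩
  generalize hT : xg S Good' c p₀ w₀ = t at ht hti hn ⊢
  have ht2 : ∀ x, t * (t * x) = x := fun x => by rw [← mul_assoc, ht, one_mul]
  have hg : g ∈ Subgroup.closure {g | ∃ p w, w.length ≤ c ∧ Good' p w ∧ g = xg S Good' c p w} := by
    rw [closure_xg]; trivial
  induction hg using Subgroup.closure_induction with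
  | mem x hx =>
    obtain ⟨p, w, hw, hg', rfl⟩ := hx
    by_cases hg : Good p w
    · exact Or.inl ⟨_, incl_xg H.hG H.hG' H.le le_rfl hw hg⟩
    · obtain ⟨rfl, e⟩ := H.new hg' hg
      right
      rw [(xg_rel S Good' c).eqv p w w₀ hw e, hT, ht]
      exact one_mem _
  | one => exact Or.inl (one_mem _)
  | mul x y _ _ hx hy =>
    rcases hx with hx | hx <;> rcases hy with hy | hy
    · exact Or.inl (mul_mem hx hy)
    · exact Or.inr (by simpa only [mul_assoc] using mul_mem hx hy)
    · exact Or.inr (by simpa only [mul_assoc, ht2] using mul_mem hx (hn _ hy))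
    · exact Or.inl (by simpa only [mul_assoc, ht2, ht, mul_one] using mul_mem hx (hn _ hy))
  | inv x _ hx =>
    rcases hx with hx | hx
    · exact Or.inl (inv_mem hx)
    · exact Or.inr (by simpa only [mul_inv_rev, hti, mul_assoc, ht2] using hn _ (inv_mem hx))

theorem ker_le (g : St S Good' c) (hg : theta S Amb Good' c g = 1) : g ∈ (incl S Good Good' c c).range := by
  have h1 := H.lt
  have h2 := H.hc
  have h3 := H.hN
  refine (H.mem_or g).resolve_right ?_
  rintro ⟨r, hr⟩
  refine es_theta_ne H.hA H.hG H.hG' H.cN H.h₀ H.good' (by omega) r ?_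
  rw [← theta_incl H.hA H.hA H.hG H.hG' H.le le_rfl H.cN, hr, map_mul, hg, one_mul,
    theta_xg H.hA H.hG' H.cN p₀ (by omega)]

end EsHyp

end Crest.Agent.R176
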