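import Crest.Agent.R176.Loc

/-!
# Row 176, machine: reachable configurations are good  (task R176-Eng)

Generic in `F, σ, dp₀`; the only hypotheses are `2 ≤ F` and that the home cells are `0` and `F`.
`good_fwd` is the main case analysis: a forward move at the window `(i, i + 1)` of a good configuration has the token
at `t = i` (right) or `t = i + 1` (left) (for `b = false` the cell `F` carries the idle token, which has no move to the
left; a move to the right onto it is the capture), and its result is again a `rend`.  Check equality of functions by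
`funext k` and the cases `k = i`, `k = i + 1`, other (`rend`, `trkf`, `posf`, `Function.update`).  `posf F b t = .R ↔
F ≤ t` when `b ↔ F ≤ t`; transport `rel` along this equivalence with `propext`.
`reach1_good`, `reach2_good`: induction, `Sys.Step.exists_index` and `List.ext_getElem?`; at the capture the right
half of a configuration with `b = false` is the clean frame (`good_right`).
-/

set_option autoImplicit false

namespace Crest.Agent.R176

variable {F : ℕ} {σ : ℕ → Sta} {dp₀ : ℕ → Bool}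

theorem Run.le {τ : Task} {p t : ℕ} {q : Bool × Bool} {dp : ℕ → Bool} (h : Run F σ dp₀ τ p t q dp) :
    1 ≤ p ∧ p ≤ t ∧ (p = t → ¬ rel τ (F ≤ t) (σ t)) ∧ ∀ i, t ≤ i → dp i = dp₀ i := by
  induction h with
  | base p h1 h2 =>
    refine ⟨by omega, le_rfl, fun _ hr => ?_, fun _ _ => rfl⟩
    cases τ with
    | w1 side =>
      have h3 := h2.2
      have h4 : (σ (p + 1)).kd.isReg = true := hr
      cases hk : (σ (p + 1)).kd <;> simp_all [Kind.isProg, Kind.isReg]
    | wst => exact absurd hr.1 (by omega)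
    | w4 side => exact absurd hr.1 (by omega)
    | w5 => exact absurd hr.1 (by omega)
  | skip _ _ ih => exact ⟨ih.1, by omega, fun h => by omega, fun i hi => ih.2.2.2 i (by omega)⟩
  | round _ h2 _ ih =>
    refine ⟨by omega, by omega, fun h => absurd h2 (ih.2.2.1 (by omega)), fun i hi => ?_⟩
    rw [Function.update_of_ne (by omega), Function.update_of_ne (by omega), ih.2.2.2 i (by omega)]

theorem good_st {c : ℕ → Sm} {b : Bool} (h : GoodC F σ dp₀ c b) (i : ℕ) : (c i).con.st = σ i := by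
  cases h <;> rfl

/-- shape of a good configuration -/
theorem good_shape {c : ℕ → Sm} {b : Bool} (h : GoodC F σ dp₀ c b) :
    ∃ dp m t p1 p2, t < wid F b ∧ c = rend F σ dp m t p1 p2 b ∧ (t = 0 → m = .walk) ∧
      (m = .walk → b = false ∧ p1 = none ∧ p2 = none ∧ dp = dp₀) ∧ (m.isGoL = true → t + 1 < wid F b) := by
  have lw : ∀ {b : Bool} {t u : ℕ}, u < 2 * F → (b = true ↔ F ≤ u) → t ≤ u → t < wid F b := by
    intro b t u h1 h2 h3
    unfold wid
    cases b <;> simp_all <;> omega
  cases h with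
  | walk t ht => exact ⟨_, _, t, _, _, ht, rfl, fun _ => rfl, fun _ => ⟨rfl, rfl, rfl, rfl⟩, by simp [Mode.isGoL]⟩
  | main h1 h2 h3 =>
    have := h1.le
    exact ⟨_, _, _, _, _, lw h2 h3 le_rfl, rfl, fun _ => by omega, by simp, by simp [Mode.isGoL]⟩
  | gl t h1 h2 h3 h4 h5 h6 =>
    have := h1.le
    exact ⟨_, _, _, _, _, lw h2 h3 h6.le, rfl, fun _ => by omega, by simp, fun _ => lw h2 h3 h6⟩
  | gr t h1 h2 h3 h4 h5 h6 h7 =>
    exact ⟨_, _, _, _, _, lw h2 h3 h7, rfl, fun _ => by omega, by simp, by simp [Mode.isGoL]⟩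

theorem good_right {c : ℕ → Sm} (h : GoodC F σ dp₀ c false) (i : ℕ) :
    c (F + i) = cell (fun k => σ (F + k)) (fun k => dp₀ (F + k)) i := by
  have key : ∀ (dp : ℕ → Bool) (m : Mode) (t : ℕ) (p1 p2 : Option ℕ), t < F → dp (F + i) = dp₀ (F + i) →
      p1 ≠ some (F + i) → p2 ≠ some (F + i) → rend F σ dp m t p1 p2 false (F + i) =
        cell (fun k => σ (F + k)) (fun k => dp₀ (F + k)) i := by
    intro dp m t p1 p2 h1 h2 h3 h4
    have h5 : F + i ≠ t := by omega
    have h6 : ¬ F + i < t := by omega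
    simp [rend, cell, trkf, h2, h3, h4, h5, h6]
  generalize hb : false = b at h
  cases h with
  | walk t ht => exact key _ _ _ _ _ ht rfl (by simp) (by simp)
  | main h1 h2 h3 =>
    subst hb
    have := h1.le
    simp only [Bool.false_eq_true, false_iff, not_le] at h3
    exact key _ _ _ _ _ h3 (this.2.2.2 _ (by omega)) (by simp; omega) (by simp)
  | gl t h1 h2 h3 h4 h5 h6 =>
    subst hb
    have := h1.le
    simp only [Bool.false_eq_true, false_iff, not_le] at h3
    refine key _ _ _ _ _ (by omega) ?_ (by simp; omega) (by simp; omega)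
    rw [take, Function.update_of_ne (by omega), this.2.2.2 _ (by omega)]
  | gr t h1 h2 h3 h4 h5 h6 h7 =>
    subst hb
    have := h1.le
    simp only [Bool.false_eq_true, false_iff, not_le] at h3
    refine key _ _ _ _ _ (by omega) ?_ (by simp; omega) (by simp; omega)
    rw [take, Function.update_of_ne (by omega), Function.update_of_ne (by omega), this.2.2.2 _ (by omega)]

theorem posf_eq_R {b : Bool} {t : ℕ} (h : b = true ↔ F ≤ t) : (posf F b t = .R) = (F ≤ t) := by
  apply propext
  unfold posf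
  cases b <;> simp_all

theorem trkf_tok {b : Bool} {t i : ℕ} {m m₀ : Mode} {p : Pos} (h : trkf F b t m i = .tok p m₀) :
    (i = t ∧ p = posf F b t ∧ m₀ = m) ∨ (b = false ∧ i = F ∧ m₀ = .walk) := by
  unfold trkf at h
  split_ifs at h <;> simp_all

theorem track_right (hh : ∀ i, i < 2 * F → ((σ i).home ↔ i = 0 ∨ i = F)) {b : Bool} {t : ℕ} {m m' : Mode}
    (ht : t < wid F b) (ht' : t + 1 < 2 * F) {a : Trk} {p' : Pos} {c' : Bool}
    (h : TR (σ (t + 1)) m' (posf F b t) (trkf F b t m (t + 1)) (b && decide (t + 1 = F)) a p' c') :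
    a = trkf F (b || decide (t + 1 = F)) (t + 1) m' t ∧ p' = posf F (b || decide (t + 1 = F)) (t + 1) ∧
      c' = ((b || decide (t + 1 = F)) && decide (t + 1 = F)) ∧ (b = false → t + 1 = F → m'.isMain = true) ∧
      ∀ k, k ≠ t → k ≠ t + 1 → trkf F (b || decide (t + 1 = F)) (t + 1) m' k = trkf F b t m k := by
  have hz := hh (t + 1) ht'
  refine ⟨?_, ?_, ?_, ?_, fun k h1 h2 => ?_⟩
  rotate_right
  · unfold wid at ht
    unfold trkf
    cases b <;> by_cases h3 : t + 1 = F <;> simp only [h3, h1, h2, decide_true, decide_false, Bool.or_true,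
      Bool.or_false, Bool.false_eq_true, if_true, if_false] at ht ⊢ <;> split_ifs <;> first | rfl | omega
  all_goals
    generalize hp : posf F b t = p at h
    generalize ha : trkf F b t m (t + 1) = a₀ at h
    generalize hc : (b && decide (t + 1 = F)) = c₀ at h
    unfold posf at hp
    unfold trkf at ha
    unfold wid at ht
    cases h <;> cases b <;> (try simp only [trkf, posf]) <;> grind

theorem track_left (hh : ∀ i, i < 2 * F → ((σ i).home ↔ i = 0 ∨ i = F)) {b : Bool} {i : ℕ} {m m' : Mode}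
    (ht' : i + 1 < 2 * F) {a : Trk} {p' : Pos} {c : Bool}
    (h : TL (σ (i + 1)) (posf F b (i + 1)) (trkf F b (i + 1) m i) c p' a) :
    p' = posf F b i ∧ a = trkf F b i m' (i + 1) ∧
      ∀ k, k ≠ i → k ≠ i + 1 → trkf F b i m' k = trkf F b (i + 1) m k := by
  have hz := hh (i + 1) ht'
  refine ⟨?_, ?_, fun k h1 h2 => ?_⟩
  rotate_right
  · unfold trkf
    cases b <;> simp only [h1, h2, Bool.false_eq_true, if_true, if_false] <;> split_ifs <;> first | rfl | omega
  all_goals
    generalize hp : posf F b (i + 1) = p at h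
    generalize ha : trkf F b (i + 1) m i = a₀ at h
    unfold posf at hp
    unfold trkf at ha
    cases h <;> cases b <;> (try simp only [trkf, posf]) <;> grind

theorem upd_eq {c c' : ℕ → Sm} {i : ℕ} {y' z' : Sm} (h1 : y' = c' i) (h2 : z' = c' (i + 1))
    (h3 : ∀ k, k ≠ i → k ≠ i + 1 → c k = c' k) :
    Function.update (Function.update c i y') (i + 1) z' = c' := by
  funext k
  by_cases e1 : k = i + 1
  · rw [e1, Function.update_self, h2]
  rw [Function.update_of_ne e1]
  by_cases e2 : k = i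
  · rw [e2, Function.update_self, h1]
  rw [Function.update_of_ne e2, h3 k e2 e1]

theorem upd_right (hh : ∀ i, i < 2 * F → ((σ i).home ↔ i = 0 ∨ i = F)) {b : Bool} {t : ℕ} {m m' : Mode}
    {dp dp' : ℕ → Bool} {p1 p2 p1' p2' : Option ℕ} (ht : t < wid F b) (ht' : t + 1 < 2 * F) {y' z' : Sm} {p' : Pos}
    (h : TR (σ (t + 1)) m' (posf F b t) (trkf F b t m (t + 1)) (b && decide (t + 1 = F)) y'.trk p' z'.cap)
    (hz : z'.trk = .tok p' m') (hy : y'.cap = (b && decide (t = F)))
    (h1 : y'.con = ⟨σ t, dp' t, decide (p1' = some t), decide (p2' = some t)⟩)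
    (h2 : z'.con = ⟨σ (t + 1), dp' (t + 1), decide (p1' = some (t + 1)), decide (p2' = some (t + 1))⟩)
    (h3 : ∀ k, k ≠ t → k ≠ t + 1 → dp' k = dp k ∧ (p1' = some k ↔ p1 = some k) ∧ (p2' = some k ↔ p2 = some k)) :
    Function.update (Function.update (rend F σ dp m t p1 p2 b) t y') (t + 1) z' =
      rend F σ dp' m' (t + 1) p1' p2' (b || decide (t + 1 = F)) := by
  obtain ⟨a1, a2, a3, -, a5⟩ := track_right hh ht ht' h
  refine upd_eq (Sm.ext' h1 ?_ a1) (Sm.ext' h2 a3 ?_) fun k e1 e2 => ?_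
  · rw [hy]
    by_cases e : t = F <;> simp [rend, e]
  · rw [hz, a2]
    simp [rend, trkf]
  · obtain ⟨b1, b2, b3⟩ := h3 k e1 e2
    refine Sm.ext' ?_ ?_ (a5 k e1 e2).symm
    · simp only [rend, b1, b2, b3]
    · by_cases e : k = F
      · subst e
        simp [rend, e2.symm]
      · simp [rend, e]

theorem upd_left (hh : ∀ i, i < 2 * F → ((σ i).home ↔ i = 0 ∨ i = F)) {b : Bool} {i : ℕ} {m m' : Mode}
    {dp dp' : ℕ → Bool} {p1 p2 p2' : Option ℕ} (ht' : i + 1 < 2 * F) {y' z' : Sm} {p' : Pos} {c : Bool}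
    (h : TL (σ (i + 1)) (posf F b (i + 1)) (trkf F b (i + 1) m i) c p' z'.trk)
    (hy : y'.trk = .tok p' m') (hc : y'.cap = (b && decide (i = F))) (hc' : z'.cap = (b && decide (i + 1 = F)))
    (h1 : y'.con = ⟨σ i, dp i, decide (p1 = some i), decide (p2 = some i)⟩)
    (h2 : z'.con = ⟨σ (i + 1), dp' (i + 1), decide (p1 = some (i + 1)), decide (p2' = some (i + 1))⟩)
    (h3 : ∀ k, k ≠ i + 1 → dp' k = dp k ∧ (p2' = some k ↔ p2 = some k)) :
    Function.update (Function.update (rend F σ dp m (i + 1) p1 p2 b) i y') (i + 1) z' =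
      rend F σ dp' m' i p1 p2' b := by
  obtain ⟨a1, a2, a3⟩ := track_left (m' := m') hh ht' h
  refine upd_eq (Sm.ext' ?_ hc ?_) (Sm.ext' h2 hc' a2) fun k e1 e2 => ?_
  · obtain ⟨b1, b2⟩ := h3 i (by omega)
    simp only [h1, rend, b1, b2]
  · rw [hy, a1]
    simp [rend, trkf]
  · obtain ⟨b1, b2⟩ := h3 k e2
    refine Sm.ext' ?_ rfl (a3 k e1 e2).symm
    simp only [rend, b1, b2]

theorem lt_wid {b : Bool} {t u : ℕ} (h1 : u < 2 * F) (h2 : b = true ↔ F ≤ u) (h3 : t ≤ u) : t < wid F b := by
  unfold wid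
  cases b <;> simp_all <;> omega

theorem good_fwd (hF : 2 ≤ F) (hh : ∀ i, i < 2 * F → ((σ i).home ↔ i = 0 ∨ i = F)) {c : ℕ → Sm} {b : Bool}
    (h : GoodC F σ dp₀ c b) {i : ℕ} (hi : i + 1 < 2 * F) (hi' : b = false → i < F) {y' z' : Sm}
    (hf : Fwd (c i) (c (i + 1)) y' z') :
    GoodC F σ dp₀ (Function.update (Function.update c i y') (i + 1) z') (b || decide (i + 1 = F)) := by
  have hb : ∀ {u : ℕ}, (b = true ↔ F ≤ u) → i + 1 ≤ u → (b || decide (i + 1 = F)) = b := by
    intro u h1 h2
    cases b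
    · simp only [Bool.false_eq_true, false_iff, not_le] at h1
      simp; omega
    · rfl
  have hb' : (b = true ↔ F ≤ i) → ((b || decide (i + 1 = F)) = true ↔ F ≤ i + 1) := by
    intro h1
    cases b <;> simp_all <;> omega
  rcases fwd_inv hf with ⟨p, p', m, m', a1, a2, a3, a4, a5⟩ | ⟨p, p', m, m', a1, a2, a3, a4, a5, a6, a7⟩
  · cases h with
    | walk t ht =>
      rcases trkf_tok a1 with ⟨rfl, rfl, rfl⟩ | ⟨-, h, -⟩
      swap
      · exact absurd (hi' rfl) (by omega)
      have hw : i < wid F false := ht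
      have a6 := (track_right hh hw hi a5).2.2.2.1 rfl
      rcases CR_inv a4 with ⟨-, rfl, e1, e2⟩ | ⟨τ, b1, b2, -, rfl, e1, e2⟩ | ⟨τ, q, -, -, e, -⟩ |
        ⟨τ, q, β, -, -, -, -, -, e, -⟩ | ⟨τ, q, σ', β, q', d', β', -, -, -, e, -⟩ | ⟨τ, q, σ', β, -, -, e, -⟩
      · have hne : i + 1 ≠ F := fun e => by simpa [Mode.isMain] using a6 e
        rw [upd_right hh hw hi a5 a2 a3 e1 e2 fun k _ _ => ⟨rfl, Iff.rfl, Iff.rfl⟩, decide_eq_false hne]
        exact GoodC.walk (i + 1) (by omega)
      · have b3 : dropOK τ (σ i) (σ (i + 1)) (dp₀ (i + 1)) := b1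
        have hne : i + 1 ≠ F := fun e => by
          have h0 : (σ (i + 1)).kd = .home := (hh _ hi).2 (Or.inr e)
          cases τ with
          | w1 side =>
            have := b3.2
            rw [h0] at this
            simp [Kind.isProg] at this
          | wst =>
            have := (hh i (by omega)).1 b3
            omega
          | w4 side =>
            have := b3.1
            rw [h0] at this
            simp at this
          | w5 =>
            have := b3.1
            rw [h0] at this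
            simp at this
        rw [upd_right (dp' := dp₀) (p1' := some (i + 1)) (p2' := none) hh hw hi a5 a2 a3
          (by rw [e1]; simp [rend]) (by rw [e2]; simp [rend]) fun k _ h => ⟨rfl, by simp [h.symm], Iff.rfl⟩,
          decide_eq_false hne]
        exact GoodC.main (Run.base i (by omega) b3) hi (by simp; omega)
      all_goals simp at e
    | @main τ p₀ t q dp _ h1 h2 h3 =>
      rcases trkf_tok a1 with ⟨rfl, rfl, rfl⟩ | ⟨hb0, h, -⟩
      swap
      · exact absurd (hi' hb0) (by omega)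
      rcases CR_inv a4 with ⟨e, -⟩ | ⟨τ, -, -, e, -⟩ | ⟨τ', q', b1, b2, e, rfl, e1, e2⟩ |
        ⟨τ, q, β, -, -, -, -, -, e, -⟩ | ⟨τ, q, σ', β, q', d', β', -, -, -, e, -⟩ | ⟨τ, q, σ', β, -, -, e, -⟩
      rotate_left 2
      · obtain ⟨rfl, rfl⟩ := Mode.main.inj e
        rw [posf_eq_R h3] at b1
        rw [upd_right hh (lt_wid h2 h3 le_rfl) hi a5 a2 a3 e1 e2 fun k _ _ => ⟨rfl, Iff.rfl, Iff.rfl⟩]
        exact GoodC.main (h1.skip b1) hi (hb' h3)
      all_goals simp at e
    | @gl τ p₀ p2 q dp _ t h1 h2 h3 h4 h5 h6 =>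
      rcases trkf_tok a1 with ⟨rfl, rfl, rfl⟩ | ⟨hb0, h, -⟩
      swap
      · exact absurd (hi' hb0) (by omega)
      rcases CR_inv a4 with ⟨e, -⟩ | ⟨τ, -, -, e, -⟩ | ⟨τ', q', b1, b2, e, -⟩ |
        ⟨τ, q, β, -, -, -, -, -, e, -⟩ | ⟨τ', q₀, σ', β, q', d', β', b1, b2, b3, e, rfl, e1, e2⟩ |
        ⟨τ, q, σ', β, -, -, e, -⟩
      rotate_left 4
      · obtain ⟨rfl, rfl, rfl, rfl⟩ := Mode.goL.inj e
        obtain rfl : p₀ = i := by simpa [rend] using b1
        have b4 : Op τ q (σ p₀) (take τ dp p2 p₀) (σ p2) (tk τ && dp p2) q' d' β' := b3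
        rw [take, Function.update_of_ne (by omega)] at b4
        rw [upd_right (dp' := Function.update (take τ dp p2) p₀ d') (p1' := some (p₀ + 1)) (p2' := some p2) hh
          (lt_wid h2 h3 h6.le) hi a5 a2 a3 (by rw [e1]; simp [rend]) (by rw [e2]; simp [rend])
          fun k h h' => ⟨Function.update_of_ne h _ _, by simp [h.symm, h'.symm], Iff.rfl⟩, hb h3 h6]
        exact GoodC.gr (p₀ + 1) h1 h2 h3 h4 b4 (by omega) h6
      all_goals simp at e
    | @gr τ p₀ p2 q q' dp _ d' β' t h1 h2 h3 h4 h5 h6 h7 =>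
      rcases trkf_tok a1 with ⟨rfl, rfl, rfl⟩ | ⟨hb0, h, -⟩
      swap
      · exact absurd (hi' hb0) (by omega)
      rcases CR_inv a4 with ⟨e, -⟩ | ⟨τ, -, -, e, -⟩ | ⟨τ', q', b1, b2, e, -⟩ |
        ⟨τ', q₀, β, b1, b2, b3, b4, b5, e, rfl, e1, e2⟩ | ⟨τ', q₀, σ', β, q', d', β', b1, b2, b3, e, -⟩ |
        ⟨τ', q₀, σ', β, b1, b2, e, rfl, e1, e2⟩
      rotate_left 3
      · obtain ⟨rfl, rfl, -, rfl⟩ := Mode.goR.inj e
        obtain rfl : p2 = i := by simpa [rend] using b2
        rw [upd_right (dp' := Function.update (Function.update dp p₀ d') p2 (if tk τ then β' else dp p2))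
          (p1' := some (p₀ + 1)) (p2' := none) hh (lt_wid h2 h3 le_rfl) hi a5 a2 a3 ?_ ?_ ?_]
        · exact GoodC.main (h1.round h4 h5) hi (hb' h3)
        · rw [e1]
          cases ht : tk τ <;> simp [rend, take, ht, Function.update_of_ne h6.ne']
        · rw [e2]
          simp [rend, take, Function.update_of_ne (show p2 + 1 ≠ p₀ by omega)]
        · intro k hk _
          refine ⟨?_, Iff.rfl, by simp [hk.symm]⟩
          rw [Function.update_of_ne hk, take]
          by_cases e : k = p₀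
          · rw [e, Function.update_self, Function.update_self]
          · rw [Function.update_of_ne e, Function.update_of_ne e, Function.update_of_ne hk]
      rotate_left 1
      · obtain ⟨rfl, rfl, rfl, rfl⟩ := Mode.goR.inj e
        have hne : p2 ≠ i := by simpa [rend] using b1
        rw [upd_right hh (lt_wid h2 h3 h7) hi a5 a2 a3 e1 e2 fun k _ _ => ⟨rfl, Iff.rfl, Iff.rfl⟩,
          hb h3 (by omega)]
        exact GoodC.gr (i + 1) h1 h2 h3 h4 h5 (by omega) (by omega)
      all_goals simp at e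
  · have hm : m ≠ .walk := by
      rcases CL_inv a6 with ⟨τ, q, -, -, rfl, -⟩ | ⟨τ, q, σ', β, -, -, rfl, -⟩ <;> simp
    cases h with
    | walk t ht =>
      rcases trkf_tok a1 with ⟨-, -, h⟩ | ⟨-, -, h⟩ <;> exact absurd h hm
    | @main τ p₀ t q dp _ h1 h2 h3 =>
      rcases trkf_tok a1 with ⟨rfl, rfl, rfl⟩ | ⟨-, -, h⟩
      swap
      · exact absurd h hm
      rcases CL_inv a6 with ⟨τ', q', b1, b2, e, rfl, e1⟩ | ⟨τ', q', σ', β, -, -, e, -⟩
      · obtain ⟨rfl, rfl⟩ := Mode.main.inj e
        rw [posf_eq_R h3] at b1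
        have hle := h1.le
        have hne : p₀ ≠ i + 1 := fun e => hle.2.2.1 e b1
        rw [upd_left (dp' := take τ dp (i + 1)) (p2' := some (i + 1)) hh hi a7 a2 a4 a5 a3
          (by rw [e1]; simp [rend, take]) fun k hk => ⟨Function.update_of_ne hk _ _, by simp [hk.symm]⟩,
          hb h3 le_rfl]
        exact GoodC.gl i h1 h2 h3 b1 (by omega) (by omega)
      · simp at e
    | @gl τ p₀ p2 q dp _ t h1 h2 h3 h4 h5 h6 =>
      rcases trkf_tok a1 with ⟨rfl, rfl, rfl⟩ | ⟨-, -, h⟩
      swap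
      · exact absurd h hm
      rcases CL_inv a6 with ⟨τ', q', b1, b2, e, -⟩ | ⟨τ', q', σ', β, b1, b2, e, rfl, e1⟩
      · simp at e
      · obtain ⟨rfl, rfl, rfl, rfl⟩ := Mode.goL.inj e
        have hne : p₀ ≠ i + 1 := by simpa [rend] using b1
        rw [upd_left hh hi a7 a2 a4 a5 a3 e1 fun k _ => ⟨rfl, Iff.rfl⟩, hb h3 h6.le]
        exact GoodC.gl i h1 h2 h3 h4 (by omega) (by omega)
    | @gr τ p₀ p2 q q' dp _ d' β' t h1 h2 h3 h4 h5 h6 h7 =>
      rcases trkf_tok a1 with ⟨rfl, rfl, rfl⟩ | ⟨-, -, h⟩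
      swap
      · exact absurd h hm
      rcases CL_inv a6 with ⟨τ', q', b1, b2, e, -⟩ | ⟨τ', q', σ', β, b1, b2, e, -⟩ <;> simp at e

theorem wd_getElem? {α : Type} (n : ℕ) (c : ℕ → α) (k : ℕ) : (wd n c)[k]? = if k < n then some (c k) else none := by
  unfold wd
  split_ifs with h
  · simp [h]
  · simp [List.getElem?_eq_none_iff.2 (show (List.range n).length ≤ k by simpa using h)]

theorem wd_split {u v : List Sm} {y z : Sm} {n : ℕ} {c : ℕ → Sm} (h : u ++ y :: z :: v = wd n c) :
    u.length + 1 < n ∧ y = c u.length ∧ z = c (u.length + 1) ∧ ∀ y' z', u ++ y' :: z' :: v =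
      wd n (Function.update (Function.update c u.length y') (u.length + 1) z') := by
  have hl : u.length + 1 < n := by
    have := congrArg List.length h
    simp [wd] at this
    omega
  have h1 := congrArg (·[u.length]?) h
  have h2 := congrArg (·[u.length + 1]?) h
  simp only [wd_getElem?, if_pos hl, if_pos (show u.length < n by omega)] at h1 h2
  refine ⟨hl, by simpa using h1, by simpa using h2, fun y' z' => List.ext_getElem? fun k => ?_⟩
  by_cases e1 : k = u.length + 1
  · rw [e1, wd_getElem?, if_pos hl]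
    simp
  by_cases e2 : k = u.length
  · rw [e2, wd_getElem?, if_pos (by omega)]
    simp
  rw [wd_getElem?, Function.update_of_ne e1, Function.update_of_ne e2, ← wd_getElem?, ← h]
  rcases lt_or_ge k u.length with hk | hk
  · simp [List.getElem?_append_left hk]
  · obtain ⟨m, rfl⟩ : ∃ m, k = u.length + (m + 2) := ⟨k - u.length - 2, by omega⟩
    simp [List.getElem?_append_right]

theorem step_wd {n : ℕ} {c : ℕ → Sm} {w' : List Sm} (h : FS.Step (wd n c) w') :
    ∃ i y' z', i + 1 < n ∧ Fwd (c i) (c (i + 1)) y' z' ∧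
      w' = wd n (Function.update (Function.update c i y') (i + 1) z') := by
  generalize hw : wd n c = w at h
  cases h with
  | @mk u v y z y' z' h =>
    obtain ⟨h1, rfl, rfl, h2⟩ := wd_split hw.symm
    exact ⟨u.length, y', z', h1, h, h2 y' z'⟩

theorem reach1_good (hF : 2 ≤ F) (hh : ∀ i, i < 2 * F → ((σ i).home ↔ i = 0 ∨ i = F)) {w : List Sm}
    (h : Reach1 (clean F σ dp₀) w) : ∃ c, GoodC F σ dp₀ c false ∧ w = wd F c := by
  induction h with
  | refl =>
    refine ⟨_, GoodC.walk 0 (by omega), List.map_congr_left fun i hi => ?_⟩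
    have := List.mem_range.1 hi
    simp [cell, rend, trkf, posf, this.ne]
  | tail _ h ih =>
    obtain ⟨c, hc, rfl⟩ := ih
    obtain ⟨i, y', z', h1, h2, rfl⟩ := step_wd h
    have := good_fwd hF hh hc (by omega) (fun _ => by omega) h2
    rw [decide_eq_false h1.ne] at this
    exact ⟨_, this, rfl⟩

theorem reach2_good (hF : 2 ≤ F) (hh : ∀ i, i < 2 * F → ((σ i).home ↔ i = 0 ∨ i = F)) {w : List Sm}
    (h : Reach2 (clean F σ dp₀) (clean F (fun k => σ (F + k)) fun k => dp₀ (F + k)) w) :
    ∃ c, GoodC F σ dp₀ c true ∧ w = wd (2 * F) c := by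
  induction h with
  | @cap a r y z y' z' h1 h2 h3 =>
    obtain ⟨c, hc, e⟩ := reach1_good hF hh h1
    have hl : a.length + 1 = F := by simpa [wd] using congrArg List.length e
    have e2 : a ++ y :: z :: r = wd (2 * F) c := by
      have : a ++ y :: z :: r = (a ++ [y]) ++ z :: r := by simp
      rw [this, e, ← h2, two_mul, clean, wd, wd, wd, List.range_add, List.map_append, List.map_map]
      congr 1
      exact List.map_congr_left fun i _ => (good_right hc i).symm
    obtain ⟨-, rfl, rfl, e3⟩ := wd_split e2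
    have := good_fwd hF hh hc (by omega) (fun _ => by omega) h3
    rw [decide_eq_true hl] at this
    exact ⟨_, this, e3 y' z'⟩
  | step _ h ih =>
    obtain ⟨c, hc, rfl⟩ := ih
    obtain ⟨i, y', z', h1, h2, rfl⟩ := step_wd h
    exact ⟨_, good_fwd hF hh hc h1 (by simp) h2, rfl⟩

end Crest.Agent.R176
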