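import Crest.Agent.R176.Eng

/-!
# Row 176, machine: good configurations are reachable  (task R176-EngB)

Define `RR c b := if b then Reach2 .. (wd (2 * F) c) else Reach1 .. (wd F c)` and prove the one-step lemma: `RR c b`, a
forward move at the window `(i, i + 1)` from `c` to `c'` (equal elsewhere; `i + 1 < wid F b`, or the capture
`b = false`, `i + 1 = F` where the right half of `c` is clean) give `RR c' b'` (`Sys.step_range`).  Then: walking
(induction on `t`), and by induction on `Run` (with `t < 2 * F`) the `main` configurations: `base` = walk + drop,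
`skip`, `round` = leave, `gol` sweep (downward induction on `t`), op, `gor` sweep, ret.
`good_pred`: the window is determined by the mode.
-/

set_option autoImplicit false

namespace Crest.Agent.R176

variable {F : ℕ} {σ : ℕ → Sta} {dp₀ : ℕ → Bool}

namespace EngB

/-- the content of the cell `i` -/
def con (σ : ℕ → Sta) (dp : ℕ → Bool) (p1 p2 : Option ℕ) (i : ℕ) : Con :=
  ⟨σ i, dp i, decide (p1 = some i), decide (p2 = some i)⟩

theorem rend_eq (dp : ℕ → Bool) (m : Mode) (t : ℕ) (p1 p2 : Option ℕ) (b : Bool) (i : ℕ) :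
    rend F σ dp m t p1 p2 b i = ⟨con σ dp p1 p2 i, b && decide (i = F), trkf F b t m i⟩ := rfl

theorem trkf_self (b : Bool) (t : ℕ) (m : Mode) : trkf F b t m t = .tok (posf F b t) m := by
  simp [trkf]

/-- a forward move at the window `(i, i + 1)` -/
def Mv (F : ℕ) (c : ℕ → Sm) (b : Bool) (c' : ℕ → Sm) (b' : Bool) (i : ℕ) : Prop :=
  Fwd (c i) (c (i + 1)) (c' i) (c' (i + 1)) ∧ (∀ k, k ≠ i → k ≠ i + 1 → c' k = c k) ∧
    ((b' = b ∧ i + 1 < wid F b) ∨ (b = false ∧ b' = true ∧ i + 1 = F))

theorem con_congr {dp dp' : ℕ → Bool} {p1 p2 p1' p2' : Option ℕ} {k : ℕ}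
    (h : dp' k = dp k ∧ (p1' = some k ↔ p1 = some k) ∧ (p2' = some k ↔ p2 = some k)) :
    con σ dp' p1' p2' k = con σ dp p1 p2 k := by
  simp only [con, h.1, h.2.1, h.2.2]

theorem mv_right (hh : ∀ i, i < 2 * F → ((σ i).home ↔ i = 0 ∨ i = F)) {dp dp' : ℕ → Bool} {m m' : Mode}
    {t : ℕ} {p1 p2 p1' p2' : Option ℕ} {b b' : Bool}
    (ht : (b' = b ∧ t + 1 < wid F b ∧ (t + 1 = F → m'.isGoR = true)) ∨
      (b = false ∧ b' = true ∧ t + 1 = F ∧ m'.isMain = true))
    (hc : CR (posf F b t) m (con σ dp p1 p2 t) (con σ dp p1 p2 (t + 1)) m' (con σ dp' p1' p2' t)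
      (con σ dp' p1' p2' (t + 1)))
    (ho : ∀ k, k ≠ t → k ≠ t + 1 →
      dp' k = dp k ∧ (p1' = some k ↔ p1 = some k) ∧ (p2' = some k ↔ p2 = some k)) :
    Mv F (rend F σ dp m t p1 p2 b) b (rend F σ dp' m' (t + 1) p1' p2' b') b' t := by
  refine ⟨?_, fun k h1 h2 => ?_, ?_⟩
  · rw [rend_eq, rend_eq, rend_eq, rend_eq, trkf_self, trkf_self]
    have hcap : (b' && decide (t = F)) = (b && decide (t = F)) := by
      rcases ht with ⟨rfl, -⟩ | ⟨rfl, rfl, h, -⟩
      · rfl
      · have : t ≠ F := by omega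
        simp [this]
    rw [hcap]
    refine Fwd.right hc ?_
    change TR (σ (t + 1)) _ _ _ _ _ _ _
    rcases ht with ⟨rfl, hw, hg⟩ | ⟨rfl, rfl, h, hm⟩
    · cases b' with
      | false =>
        simp only [wid, Bool.false_eq_true, if_false] at hw
        have hn : ¬ (σ (t + 1)).home := by rw [hh _ (by omega)]; omega
        have e1 : trkf F false t m (t + 1) = .la := by
          simp [trkf, hw.ne]
        have e2 : trkf F false (t + 1) m' t = .ra := by simp [trkf]
        rw [e1, e2]
        exact TR.u _ hn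
      | true =>
        simp only [wid, if_true] at hw
        rcases lt_trichotomy (t + 1) F with h | h | h
        · have hn : ¬ (σ (t + 1)).home := by rw [hh _ (by omega)]; omega
          have h' : t < F := by omega
          have e1 : trkf F true t m (t + 1) = .lb := by simp [trkf, h, h']
          have e2 : trkf F true (t + 1) m' t = .ra := by simp [trkf, h]
          have e3 : posf F true t = .L := by simp [posf, h']
          have e4 : posf F true (t + 1) = .L := by simp [posf, h]
          rw [e1, e2, e3, e4]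
          exact TR.l _ hn
        · have hn : (σ (t + 1)).home := by rw [hh _ (by omega)]; omega
          have h' : t < F := by omega
          have h'' : ¬ t + 1 < F := by omega
          have e1 : trkf F true t m (t + 1) = .la := by simp [trkf, h', h'']
          have e2 : trkf F true (t + 1) m' t = .ra := by simp [trkf, h', h'']
          have e3 : posf F true t = .L := by simp [posf, h']
          have e4 : posf F true (t + 1) = .R := by simp [posf, h'']
          have e5 : (true && decide (t + 1 = F)) = true := by simp [h]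
          rw [e1, e2, e3, e4, e5]
          exact TR.cross hn (hg h)
        · have hn : ¬ (σ (t + 1)).home := by rw [hh _ (by omega)]; omega
          have h' : ¬ t < F := by omega
          have h'' : ¬ t + 1 < F := by omega
          have e1 : trkf F true t m (t + 1) = .la := by simp [trkf, h', h'']
          have e2 : trkf F true (t + 1) m' t = .rb := by simp [trkf, h', h'']
          have e3 : posf F true t = .R := by simp [posf, h']
          have e4 : posf F true (t + 1) = .R := by simp [posf, h'']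
          rw [e1, e2, e3, e4]
          exact TR.r _ hn
    · have hn : (σ (t + 1)).home := by rw [hh _ (by omega)]; omega
      have h' : t < F := by omega
      have h'' : ¬ t + 1 < F := by omega
      have e1 : trkf F false t m (t + 1) = .tok .U .walk := by simp [trkf, ← h]
      have e2 : trkf F true (t + 1) m' t = .ra := by simp [trkf, h', h'']
      have e3 : posf F false t = .U := rfl
      have e4 : posf F true (t + 1) = .R := by simp [posf, h'']
      have e5 : (true && decide (t + 1 = F)) = true := by simp [h]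
      rw [e1, e2, e3, e4, e5, Bool.false_and]
      exact TR.capture hn hm
  · rw [rend_eq, rend_eq, con_congr (ho k h1 h2)]
    have hlt : k < t + 1 ↔ k < t := by omega
    rcases ht with ⟨rfl, hw, hg⟩ | ⟨rfl, rfl, h, hm⟩
    · congr 1
      cases b' with
      | false => simp only [trkf, h1, h2, hlt, if_false, Bool.false_eq_true]
      | true =>
        simp only [trkf, h1, h2, hlt, if_false, if_true]
        split_ifs <;> first | rfl | omega
    · have hk : k ≠ F := by omega
      congr 1
      · simp [hk]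
      · simp only [trkf, h1, h2, hlt, hk, if_false, if_true, Bool.false_eq_true]
        split_ifs <;> first | rfl | omega
  · rcases ht with ⟨h1, h2, -⟩ | ⟨h1, h2, h3, -⟩
    · exact Or.inl ⟨h1, h2⟩
    · exact Or.inr ⟨h1, h2, h3⟩

theorem mv_left (hh : ∀ i, i < 2 * F → ((σ i).home ↔ i = 0 ∨ i = F)) {dp dp' : ℕ → Bool} {m m' : Mode}
    {t : ℕ} {p1 p2 p1' p2' : Option ℕ} {b : Bool} (hw : t + 1 < wid F b)
    (hc : CL (posf F b (t + 1)) m (con σ dp p1 p2 (t + 1)) m' (con σ dp' p1' p2' (t + 1)))
    (ho : ∀ k, k ≠ t + 1 →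
      dp' k = dp k ∧ (p1' = some k ↔ p1 = some k) ∧ (p2' = some k ↔ p2 = some k)) :
    Mv F (rend F σ dp m (t + 1) p1 p2 b) b (rend F σ dp' m' t p1' p2' b) b t := by
  refine ⟨?_, fun k h1 h2 => ?_, Or.inl ⟨rfl, hw⟩⟩
  · rw [rend_eq, rend_eq, rend_eq, rend_eq, trkf_self, trkf_self, con_congr (ho t (by omega))]
    refine Fwd.left hc ?_
    change TL (σ (t + 1)) _ _ _ _ _
    cases b with
    | false =>
      simp only [wid, Bool.false_eq_true, if_false] at hw
      have hn : ¬ (σ (t + 1)).home := by rw [hh _ (by omega)]; omega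
      have e1 : trkf F false t m' (t + 1) = .la := by
        simp [trkf, hw.ne]
      have e2 : trkf F false (t + 1) m t = .ra := by simp [trkf]
      rw [e1, e2]
      exact TL.u _ hn
    | true =>
      simp only [wid, if_true] at hw
      rcases lt_trichotomy (t + 1) F with h | h | h
      · have hn : ¬ (σ (t + 1)).home := by rw [hh _ (by omega)]; omega
        have h' : t < F := by omega
        have e1 : trkf F true t m' (t + 1) = .lb := by simp [trkf, h, h']
        have e2 : trkf F true (t + 1) m t = .ra := by simp [trkf, h]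
        have e3 : posf F true t = .L := by simp [posf, h']
        have e4 : posf F true (t + 1) = .L := by simp [posf, h]
        rw [e1, e2, e3, e4]
        exact TL.l _ hn
      · have hn : (σ (t + 1)).home := by rw [hh _ (by omega)]; omega
        have h' : t < F := by omega
        have h'' : ¬ t + 1 < F := by omega
        have e1 : trkf F true t m' (t + 1) = .la := by simp [trkf, h', h'']
        have e2 : trkf F true (t + 1) m t = .ra := by simp [trkf, h', h'']
        have e3 : posf F true t = .L := by simp [posf, h']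
        have e4 : posf F true (t + 1) = .R := by simp [posf, h'']
        have e5 : (true && decide (t + 1 = F)) = true := by simp [h]
        rw [e1, e2, e3, e4, e5]
        exact TL.cross hn
      · have hn : ¬ (σ (t + 1)).home := by rw [hh _ (by omega)]; omega
        have h' : ¬ t < F := by omega
        have h'' : ¬ t + 1 < F := by omega
        have e1 : trkf F true t m' (t + 1) = .la := by simp [trkf, h', h'']
        have e2 : trkf F true (t + 1) m t = .rb := by simp [trkf, h', h'']
        have e3 : posf F true t = .R := by simp [posf, h']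
        have e4 : posf F true (t + 1) = .R := by simp [posf, h'']
        rw [e1, e2, e3, e4]
        exact TL.r _ hn
  · rw [rend_eq, rend_eq, con_congr (ho k h2)]
    have hlt : k < t + 1 ↔ k < t := by omega
    congr 1
    cases b with
    | false => simp only [trkf, h1, h2, hlt, if_false, Bool.false_eq_true]
    | true =>
      simp only [trkf, h1, h2, hlt, if_false, if_true]
      split_ifs <;> first | rfl | omega

theorem CR.of_eq {p : Pos} {m m' : Mode} {y z y' z' y'' z'' : Con} (h : CR p m y z m' y' z')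
    (h1 : y'' = y') (h2 : z'' = z') : CR p m y z m' y'' z'' := h1 ▸ h2 ▸ h

theorem CL.of_eq {p : Pos} {m m' : Mode} {z z' z'' : Con} (h : CL p m z m' z')
    (h2 : z'' = z') : CL p m z m' z'' := h2 ▸ h

theorem posf_R {b : Bool} {t : ℕ} (hb : b = true ↔ F ≤ t) : (posf F b t = .R) = (F ≤ t) := by
  apply propext
  cases b with
  | false =>
    have : ¬ F ≤ t := fun h => by simpa using hb.2 h
    simp [posf, this]
  | true =>
    have h : F ≤ t := hb.1 rfl
    simp [posf, h, not_lt.2 h]

theorem lt_wid {b : Bool} {t : ℕ} (ht : t < 2 * F) (hb : b = true ↔ F ≤ t) : t < wid F b := by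
  cases b with
  | false =>
    have : ¬ F ≤ t := fun h => by simpa using hb.2 h
    simp only [wid, Bool.false_eq_true, if_false]; omega
  | true => simpa [wid] using ht

theorem main_case {b b' : Bool} {t : ℕ} {τ : Task} {q : Bool × Bool} (ht : t + 1 < 2 * F)
    (hb : b = true ↔ F ≤ t) (hb' : b' = true ↔ F ≤ t + 1) :
    (b' = b ∧ t + 1 < wid F b ∧ (t + 1 = F → (Mode.main τ q).isGoR = true)) ∨
      (b = false ∧ b' = true ∧ t + 1 = F ∧ (Mode.main τ q).isMain = true) := by
  by_cases h : t + 1 = F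
  · refine Or.inr ⟨?_, hb'.2 h.ge, h, rfl⟩
    cases b with
    | false => rfl
    | true => have := hb.1 rfl; omega
  · have e : b' = b := by
      rw [Bool.eq_iff_iff, hb, hb']; omega
    exact Or.inl ⟨e, e ▸ lt_wid ht hb', fun h' => absurd h' h⟩

section moves

variable (hh : ∀ i, i < 2 * F → ((σ i).home ↔ i = 0 ∨ i = F))
include hh

theorem mv_walk {dp : ℕ → Bool} {t : ℕ} (ht : t + 1 < F) :
    Mv F (rend F σ dp .walk t none none false) false (rend F σ dp .walk (t + 1) none none false) false t :=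
  mv_right hh (Or.inl ⟨rfl, ht, fun h => absurd h ht.ne⟩) (CR.walk _ _) fun _ _ _ => ⟨rfl, Iff.rfl, Iff.rfl⟩

theorem mv_drop {dp : ℕ → Bool} {τ : Task} {p : ℕ} (hp : p + 1 < F)
    (hd : dropOK τ (σ p) (σ (p + 1)) (dp (p + 1))) :
    Mv F (rend F σ dp .walk p none none false) false
      (rend F σ dp (.main τ (true, (σ p).hb)) (p + 1) (some (p + 1)) none false) false p := by
  refine mv_right hh (Or.inl ⟨rfl, hp, fun h => absurd h hp.ne⟩)
    (CR.of_eq (CR.drop τ (con σ dp none none p) (con σ dp none none (p + 1)) hd (by simp [con]))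
      (by simp [con]) (by simp [con])) fun k _ h2 => ⟨rfl, ?_, Iff.rfl⟩
  simp [h2.symm]

theorem mv_skip {dp : ℕ → Bool} {τ : Task} {q : Bool × Bool} {p t : ℕ} {b b' : Bool} (hp : p ≤ t)
    (hr : ¬ rel τ (F ≤ t) (σ t)) (ht : t + 1 < 2 * F) (hb : b = true ↔ F ≤ t)
    (hb' : b' = true ↔ F ≤ t + 1) :
    Mv F (rend F σ dp (.main τ q) t (some p) none b) b
      (rend F σ dp (.main τ q) (t + 1) (some p) none b') b' t := by
  refine mv_right hh (main_case ht hb hb') (CR.skip τ q _ _ ?_ ?_) fun _ _ _ => ⟨rfl, Iff.rfl, Iff.rfl⟩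
  · rw [posf_R hb]; exact hr
  · have : p ≠ t + 1 := by omega
    simp [con, this]

theorem mv_leave {dp : ℕ → Bool} {τ : Task} {q : Bool × Bool} {p t : ℕ} {b : Bool}
    (hr : rel τ (F ≤ t + 1) (σ (t + 1))) (ht : t + 1 < 2 * F) (hb : b = true ↔ F ≤ t + 1) :
    Mv F (rend F σ dp (.main τ q) (t + 1) (some p) none b) b
      (rend F σ (take τ dp (t + 1)) (.goL τ q (σ (t + 1)) (tk τ && dp (t + 1))) t (some p)
        (some (t + 1)) b) b t := by
  refine mv_left hh (lt_wid ht hb)
    (CL.of_eq (CL.leave τ q (con σ dp (some p) none (t + 1)) ?_ (by simp [con])) (by simp [con, take]))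
    fun k hk => ⟨?_, Iff.rfl, ?_⟩
  · rw [posf_R hb]; exact hr
  · simp [take, hk]
  · simp [hk.symm]

theorem mv_gol {dp : ℕ → Bool} {τ : Task} {q : Bool × Bool} {σ' : Sta} {β : Bool} {p p2 t : ℕ} {b : Bool}
    (hp : p ≤ t) (ht : t + 1 < p2) (hw : p2 < wid F b) :
    Mv F (rend F σ dp (.goL τ q σ' β) (t + 1) (some p) (some p2) b) b
      (rend F σ dp (.goL τ q σ' β) t (some p) (some p2) b) b t := by
  refine mv_left hh (by omega) (CL.gol τ q σ' β _ ?_ ?_) fun _ _ => ⟨rfl, Iff.rfl, Iff.rfl⟩
  · have : p ≠ t + 1 := by omega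
    simp [con, this]
  · simp [con, ht.ne']

theorem mv_op {dp : ℕ → Bool} {τ : Task} {q q' : Bool × Bool} {σ' : Sta} {β d' β' : Bool} {p p2 : ℕ} {b : Bool}
    (hp : p < p2) (hw : p2 < wid F b) (ho : Op τ q (σ p) (dp p) σ' β q' d' β') :
    Mv F (rend F σ dp (.goL τ q σ' β) p (some p) (some p2) b) b
      (rend F σ (Function.update dp p d') (.goR τ q' σ' β') (p + 1) (some (p + 1)) (some p2) b) b p := by
  refine mv_right hh (Or.inl ⟨rfl, by omega, fun _ => rfl⟩)
    (CR.of_eq (CR.op τ q σ' β (con σ dp (some p) (some p2) p) (con σ dp (some p) (some p2) (p + 1)) q' d' β'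
      (by simp [con]) (by simp [con]) ho) (by simp [con]) (by simp [con])) fun k h1 h2 => ⟨?_, ?_, Iff.rfl⟩
  · simp [h1]
  · simp [h1.symm, h2.symm]

theorem mv_gor {dp : ℕ → Bool} {τ : Task} {q : Bool × Bool} {σ' : Sta} {β : Bool} {p p2 t : ℕ} {b : Bool}
    (hp : p ≤ t) (ht : t < p2) (hw : p2 < wid F b) :
    Mv F (rend F σ dp (.goR τ q σ' β) t (some p) (some p2) b) b
      (rend F σ dp (.goR τ q σ' β) (t + 1) (some p) (some p2) b) b t := by
  refine mv_right hh (Or.inl ⟨rfl, by omega, fun _ => rfl⟩) (CR.gor τ q σ' β _ _ ?_ ?_)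
    fun _ _ _ => ⟨rfl, Iff.rfl, Iff.rfl⟩
  · simp [con, ht.ne']
  · have : p ≠ t + 1 := by omega
    simp [con, this]

theorem mv_ret {dp : ℕ → Bool} {τ : Task} {q q' : Bool × Bool} {d' β' : Bool} {p t : ℕ} {b b' : Bool}
    (hp : p < t) (hr : rel τ (F ≤ t) (σ t)) (ho : Op τ q (σ p) (dp p) (σ t) (tk τ && dp t) q' d' β')
    (ht : t + 1 < 2 * F) (hb : b = true ↔ F ≤ t) (hb' : b' = true ↔ F ≤ t + 1) :
    Mv F (rend F σ (Function.update (take τ dp t) p d') (.goR τ q' (σ t) β') t (some (p + 1)) (some t) b) b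
      (rend F σ (Function.update (Function.update dp p d') t (if tk τ then β' else dp t)) (.main τ q')
        (t + 1) (some (p + 1)) none b') b' t := by
  have h1 : t ≠ p := hp.ne'
  have h2 : t + 1 ≠ p := by omega
  refine mv_right hh (main_case ht hb hb')
    (CR.of_eq (CR.ret τ q' β' (con σ (Function.update (take τ dp t) p d') (some (p + 1)) (some t) t)
      (con σ (Function.update (take τ dp t) p d') (some (p + 1)) (some t) (t + 1)) ?_ (by simp [con])
      (by simp [con, hp.ne]) ?_ ?_) ?_ ?_) fun k h3 h4 => ⟨?_, Iff.rfl, ?_⟩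
  · rw [posf_R hb]; exact hr
  · intro h
    simp [con, take, h1, h]
  · intro h
    cases τ with
    | wst =>
      have := ho.2.1
      simpa [tk] using this
    | _ => simp [tk] at h
  · cases h : tk τ <;> simp [con, take, h1, h]
  · simp [con, take, h2]
  · by_cases h5 : k = p
    · subst h5; simp [h3]
    · simp [take, h3, h5]
  · simp [h3.symm]

end moves

/-- reachability of a configuration -/
def RR (F : ℕ) (σ : ℕ → Sta) (dp₀ : ℕ → Bool) (c : ℕ → Sm) (b : Bool) : Prop :=
  if b then Reach2 (clean F σ dp₀) (clean F (fun k => σ (F + k)) fun k => dp₀ (F + k)) (wd (2 * F) c)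
  else Reach1 (clean F σ dp₀) (wd F c)

theorem wd_succ {α : Type} (n : ℕ) (c : ℕ → α) : wd (n + 1) c = wd n c ++ [c n] := by
  simp [wd, List.range_succ]

theorem wd_succ' {α : Type} (n : ℕ) (c : ℕ → α) : wd (n + 1) c = c 0 :: wd n fun k => c (k + 1) := by
  simp [wd, List.range_succ_eq_map, Function.comp_def]

theorem wd_add {α : Type} (n m : ℕ) (c : ℕ → α) : wd (n + m) c = wd n c ++ wd m fun k => c (n + k) := by
  simp [wd, List.range_add, Function.comp_def]

theorem wd_congr {α : Type} {n : ℕ} {c c' : ℕ → α} (h : ∀ k, k < n → c k = c' k) : wd n c = wd n c' :=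
  List.map_congr_left fun k hk => h k (List.mem_range.mp hk)

theorem RR.step {c c' : ℕ → Sm} {b b' : Bool} {i : ℕ} (hr : RR F σ dp₀ c b) (hg : GoodC F σ dp₀ c b)
    (hm : Mv F c b c' b' i) : RR F σ dp₀ c' b' := by
  obtain ⟨hf, ho, ⟨rfl, hw⟩ | ⟨rfl, rfl, hi⟩⟩ := hm
  · have hs : FS.Step (wd (wid F b') c) (wd (wid F b') c') :=
      Sys.step_range (S := FS) hw hf fun k _ => ho k
    cases b' with
    | false => exact Relation.ReflTransGen.tail hr hs
    | true => exact Reach2.step hr hs
  · subst hi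
    simp only [RR, Bool.false_eq_true, if_false, if_true] at hr ⊢
    rw [wd_succ] at hr
    have h1 : clean (i + 1) (fun k => σ (i + 1 + k)) (fun k => dp₀ (i + 1 + k)) =
        c (i + 1) :: wd i fun k => c (i + 1 + (k + 1)) := by
      rw [clean, wd_succ', ← good_right hg 0]
      congr 1
      exact wd_congr fun k _ => (good_right hg (k + 1)).symm
    have h2 : wd (2 * (i + 1)) c' =
        wd i c ++ c' i :: c' (i + 1) :: wd i fun k => c (i + 1 + (k + 1)) := by
      rw [two_mul, wd_add, wd_succ, wd_succ' i fun k => c' (i + 1 + k), List.append_assoc,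
        wd_congr (c := c') (c' := c) fun k hk => ho k (by omega) (by omega),
        wd_congr (c := fun k => c' (i + 1 + (k + 1))) (c' := fun k => c (i + 1 + (k + 1)))
          fun k hk => ho _ (by omega) (by omega)]
      rfl
    rw [h2]
    exact Reach2.cap hr h1 hf

section reach

variable (hh : ∀ i, i < 2 * F → ((σ i).home ↔ i = 0 ∨ i = F))
include hh

theorem rr_walk {t : ℕ} (ht : t < F) : RR F σ dp₀ (rend F σ dp₀ .walk t none none false) false := by
  induction t with
  | zero =>
    have : wd F (rend F σ dp₀ .walk 0 none none false) = clean F σ dp₀ :=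
      wd_congr fun k hk => by
        by_cases h : k = 0
        · subst h; simp [rend, cell, trkf, posf]
        · simp [rend, cell, trkf, h, hk.ne]
    simp only [RR, Bool.false_eq_true, if_false, this]
    exact Relation.ReflTransGen.refl
  | succ t ih => exact (ih (by omega)).step (GoodC.walk t (by omega)) (mv_walk hh ht)

theorem rr_gl {τ : Task} {p p2 : ℕ} {q : Bool × Bool} {dp : ℕ → Bool} {b : Bool}
    (h : Run F σ dp₀ τ p p2 q dp) (h2 : p2 < 2 * F) (hb : b = true ↔ F ≤ p2) (hr : rel τ (F ≤ p2) (σ p2))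
    (hm : RR F σ dp₀ (rend F σ dp (.main τ q) p2 (some p) none b) b) (j : ℕ) {t : ℕ} (hp : p ≤ t)
    (ht : t + 1 + j = p2) :
    RR F σ dp₀ (rend F σ (take τ dp p2) (.goL τ q (σ p2) (tk τ && dp p2)) t (some p) (some p2) b) b := by
  induction j generalizing t with
  | zero =>
    obtain rfl : t + 1 = p2 := ht
    exact hm.step (GoodC.main h h2 hb) (mv_leave hh hr h2 hb)
  | succ j ih =>
    exact (ih (t := t + 1) (by omega) (by omega)).step
      (GoodC.gl (t + 1) h h2 hb hr (by omega) (by omega)) (mv_gol hh hp (by omega) (lt_wid h2 hb))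

omit hh in
theorem take_ne {τ : Task} {dp : ℕ → Bool} {t p : ℕ} (h : p ≠ t) : take τ dp t p = dp p := by
  simp [take, h]

theorem rr_gr {τ : Task} {p p2 : ℕ} {q q' : Bool × Bool} {dp : ℕ → Bool} {b d' β' : Bool}
    (h : Run F σ dp₀ τ p p2 q dp) (h2 : p2 < 2 * F) (hb : b = true ↔ F ≤ p2) (hr : rel τ (F ≤ p2) (σ p2))
    (ho : Op τ q (σ p) (dp p) (σ p2) (tk τ && dp p2) q' d' β')
    (hm : RR F σ dp₀ (rend F σ dp (.main τ q) p2 (some p) none b) b) (j : ℕ) (ht : p + 1 + j ≤ p2) :
    RR F σ dp₀ (rend F σ (Function.update (take τ dp p2) p d') (.goR τ q' (σ p2) β') (p + 1 + j)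
      (some (p + 1)) (some p2) b) b := by
  induction j with
  | zero =>
    have hp : p < p2 := by omega
    exact (rr_gl hh h h2 hb hr hm (p2 - (p + 1)) le_rfl (by omega)).step
      (GoodC.gl p h h2 hb hr le_rfl hp) (mv_op hh hp (lt_wid h2 hb) (by rw [take_ne hp.ne]; exact ho))
  | succ j ih =>
    exact (ih (by omega)).step (GoodC.gr (p + 1 + j) h h2 hb hr ho (by omega) (by omega))
      (mv_gor hh (by omega) (by omega) (lt_wid h2 hb))

omit hh in
theorem run_lt {τ : Task} {p t : ℕ} {q : Bool × Bool} {dp : ℕ → Bool} (h : Run F σ dp₀ τ p t q dp)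
    (hr : rel τ (F ≤ t) (σ t)) : p < t :=
  lt_of_le_of_ne h.le.2.1 fun e => h.le.2.2.1 e hr

theorem rr_main {τ : Task} {p t : ℕ} {q : Bool × Bool} {dp : ℕ → Bool} (h : Run F σ dp₀ τ p t q dp)
    {b : Bool} (ht : t < 2 * F) (hb : b = true ↔ F ≤ t) :
    RR F σ dp₀ (rend F σ dp (.main τ q) t (some p) none b) b := by
  induction h generalizing b with
  | base p hp hd =>
    obtain rfl : b = false := by
      cases b with
      | false => rfl
      | true => have := hb.1 rfl; omega
    exact (rr_walk hh (by omega)).step (GoodC.walk p (by omega)) (mv_drop hh hp hd)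
  | @skip p t q dp h hr ih =>
    have hb0 : decide (F ≤ t) = true ↔ F ≤ t := decide_eq_true_iff
    exact (ih (by omega) hb0).step (GoodC.main h (by omega) hb0) (mv_skip hh h.le.2.1 hr ht hb0 hb)
  | @round p t q q' dp d' β' h hr ho ih =>
    have hb0 : decide (F ≤ t) = true ↔ F ≤ t := decide_eq_true_iff
    have hp := run_lt h hr
    have h1 := rr_gr hh h (by omega) hb0 hr ho (ih (by omega) hb0) (t - (p + 1)) (by omega)
    rw [show p + 1 + (t - (p + 1)) = t by omega] at h1
    exact h1.step (GoodC.gr t h (by omega) hb0 hr ho hp le_rfl) (mv_ret hh hp hr ho ht hb0 hb)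

theorem rr_good {c : ℕ → Sm} {b : Bool} (h : GoodC F σ dp₀ c b) : RR F σ dp₀ c b := by
  cases h with
  | walk t ht => exact rr_walk hh ht
  | main h ht hb => exact rr_main hh h ht hb
  | @gl τ p p2 q dp b t h h2 hb hr hp ht =>
    exact rr_gl hh h h2 hb hr (rr_main hh h h2 hb) (p2 - (t + 1)) hp (by omega)
  | @gr τ p p2 q q' dp b d' β' t h h2 hb hr ho hp ht =>
    have h1 := rr_gr hh h h2 hb hr ho (rr_main hh h h2 hb) (t - (p + 1)) (by omega)
    rwa [show p + 1 + (t - (p + 1)) = t by omega] at h1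

/-- the token of a good configuration has a predecessor -/
theorem good_pred {c : ℕ → Sm} {b : Bool} (h : GoodC F σ dp₀ c b) :
    ∃ dp m t p1 p2, c = rend F σ dp m t p1 p2 b ∧
      (m.isGoL = true → ∃ c₀ b₀, Mv F c₀ b₀ c b t) ∧
      (m.isGoL = false → ∀ i, t = i + 1 → ∃ c₀ b₀, Mv F c₀ b₀ c b i) := by
  cases h with
  | walk t ht =>
    refine ⟨_, _, _, _, _, rfl, fun h => by simp [Mode.isGoL] at h, fun _ i hi => ?_⟩
    subst hi
    exact ⟨_, _, mv_walk hh ht⟩
  | @main τ p t q dp b h ht hb =>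
    refine ⟨_, _, _, _, _, rfl, fun h => by simp [Mode.isGoL] at h, fun _ i hi => ?_⟩
    cases h with
    | base p hp hd =>
      obtain rfl : b = false := by
        cases b with
        | false => rfl
        | true => have := hb.1 rfl; omega
      obtain rfl : p = i := by omega
      exact ⟨_, _, mv_drop hh hp hd⟩
    | @skip p t q dp h hr =>
      obtain rfl : t = i := by omega
      exact ⟨_, _, mv_skip hh h.le.2.1 hr ht decide_eq_true_iff hb⟩
    | @round p t q q' dp d' β' h hr ho =>
      obtain rfl : t = i := by omega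
      exact ⟨_, _, mv_ret hh (run_lt h hr) hr ho ht decide_eq_true_iff hb⟩
  | @gl τ p p2 q dp b t h h2 hb hr hp ht =>
    refine ⟨_, _, _, _, _, rfl, fun _ => ?_, fun h => by simp [Mode.isGoL] at h⟩
    rcases (Nat.succ_le_of_lt ht).eq_or_lt with e | e
    · subst e
      exact ⟨_, _, mv_leave hh hr h2 hb⟩
    · exact ⟨_, _, mv_gol hh hp e (lt_wid h2 hb)⟩
  | @gr τ p p2 q q' dp b d' β' t h h2 hb hr ho hp ht =>
    refine ⟨_, _, _, _, _, rfl, fun h => by simp [Mode.isGoL] at h, fun _ i hi => ?_⟩
    subst hi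
    rcases (Nat.le_of_lt_succ hp).eq_or_lt with e | e
    · subst e
      have hp2 : p < p2 := by omega
      exact ⟨_, _, mv_op hh hp2 (lt_wid h2 hb) (by rw [take_ne hp2.ne]; exact ho)⟩
    · exact ⟨_, _, mv_gor hh e (by omega) (lt_wid h2 hb)⟩

end reach

theorem trkf_tok {b : Bool} {t i : ℕ} {m m' : Mode} {p : Pos} (h : trkf F b t m i = .tok p m') :
    (i = t ∧ m' = m) ∨ (b = false ∧ i = F ∧ m' = .walk) := by
  unfold trkf at h
  split_ifs at h with h1 h2 h3 h4 h5 h6 h7 h8 h9
  · exact Or.inl ⟨h1, (Trk.tok.inj h).2.symm⟩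
  · exact Or.inr ⟨by simpa using h2, h9, (Trk.tok.inj h).2.symm⟩

end EngB

open EngB

theorem good_reach1 (hF : 2 ≤ F) (hh : ∀ i, i < 2 * F → ((σ i).home ↔ i = 0 ∨ i = F)) {c : ℕ → Sm}
    (h : GoodC F σ dp₀ c false) : Reach1 (clean F σ dp₀) (wd F c) := by
  have _ := hF
  exact rr_good hh h

theorem good_reach2 (hF : 2 ≤ F) (hh : ∀ i, i < 2 * F → ((σ i).home ↔ i = 0 ∨ i = F)) {c : ℕ → Sm}
    (h : GoodC F σ dp₀ c true) :
    Reach2 (clean F σ dp₀) (clean F (fun k => σ (F + k)) fun k => dp₀ (F + k)) (wd (2 * F) c) := by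
  have _ := hF
  exact rr_good hh h

/-- no token of a good configuration lacks its predecessor -/
theorem good_not_noPred (hF : 2 ≤ F) (hh : ∀ i, i < 2 * F → ((σ i).home ↔ i = 0 ∨ i = F)) {c : ℕ → Sm} {b : Bool}
    (h : GoodC F σ dp₀ c b) {i : ℕ} (hi : i + 1 < wid F b) : ¬ NoPred (c i) (c (i + 1)) := by
  have _ := hF
  obtain ⟨dp, m, t, p1, p2, hc, h1, h2⟩ := good_pred hh h
  rintro ⟨⟨p, m', e, hm⟩ | ⟨p, m', e, hm⟩, hn⟩
  · rw [hc] at e
    rcases EngB.trkf_tok e with ⟨e1, rfl⟩ | ⟨rfl, e1, -⟩
    · have hg : m'.isGoL = false := by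
        cases m' with
        | goL => simp [Mode.isMain, Mode.isGoR] at hm
        | _ => rfl
      obtain ⟨c₀, b₀, hm⟩ := h2 hg i e1.symm
      exact hn ⟨_, _, hm.1⟩
    · simp only [wid, Bool.false_eq_true, if_false] at hi
      omega
  · rw [hc] at e
    rcases EngB.trkf_tok e with ⟨rfl, rfl⟩ | ⟨-, -, rfl⟩
    · obtain ⟨c₀, b₀, hm⟩ := h1 hm
      exact hn ⟨_, _, hm.1⟩
    · simp [Mode.isGoL] at hm

variable {s : ℕ}

theorem FL_ge (s : ℕ) : 4 ≤ FL s := by
  have := Nat.two_pow_pos s
  unfold FL; omega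

theorem clean_stP_left (X Y : Lt (2 ^ s)) : clean (FL s) (stP X Y) (dpP X Y) = encS X :=
  List.map_congr_left fun i hi => by
    have := List.mem_range.mp hi
    simp [cell, stP, dpP, pr2, this]

theorem clean_stP_right (X Y : Lt (2 ^ s)) :
    clean (FL s) (fun k => stP X Y (FL s + k)) (fun k => dpP X Y (FL s + k)) = encS Y :=
  List.map_congr_left fun i _ => by simp [cell, stP, dpP, pr2]

theorem reach1_iff (hs : PL ≤ s) (X Y : Lt (2 ^ s)) {w : List Sm} :
    Reach1 (encS X) w ↔ ∃ c, GoodP X Y c false ∧ w = wd (FL s) c := by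
  have hF : 2 ≤ FL s := (by norm_num : 2 ≤ 4).trans (FL_ge s)
  have hh := fun i hi => (std_stP X Y).home_iff hs (i := i) hi
  rw [← clean_stP_left X Y]
  exact ⟨reach1_good hF hh, fun ⟨c, hc, e⟩ => e ▸ good_reach1 hF hh hc⟩

theorem reach2_iff (hs : PL ≤ s) (X Y : Lt (2 ^ s)) {w : List Sm} :
    Reach2 (encS X) (encS Y) w ↔ ∃ c, GoodP X Y c true ∧ w = wd (2 * FL s) c := by
  have hF : 2 ≤ FL s := (by norm_num : 2 ≤ 4).trans (FL_ge s)
  have hh := fun i hi => (std_stP X Y).home_iff hs (i := i) hi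
  rw [← clean_stP_left X Y, ← clean_stP_right X Y]
  exact ⟨reach2_good hF hh, fun ⟨c, hc, e⟩ => e ▸ good_reach2 hF hh hc⟩

end Crest.Agent.R176
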