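import Crest.Agent.R176.Alg

/-!
# Row 176, group half: Steinberg groups on a circle (definitions and universal property; complete)

The vertices are the points of the circle `ZMod N`.  A pair `(p, w)` is a path from `p` to `p + |w|`.  `Amb` says which
paths are nonzero in the ambient category algebra, `Good` which of them are used as roots.  `St S Good c` is the
group presented by the Steinberg relations between roots of length at most `c`.
-/

set_option autoImplicit false

namespace Crest.Agent.R176

open scoped commutatorElement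

variable {α : Type} (S : Sys α) {N : ℕ}

structure AmbOK (Amb : ZMod N → List α → Prop) (lam : ℕ) : Prop where
  lam_pos : 1 ≤ lam
  nz : ∀ p w, Amb p w → ¬ S.IsZero w
  eqv : ∀ p w w', S.Eqv w w' → Amb p w → Amb p w'
  left : ∀ p u v, Amb p (u ++ v) → Amb p u
  right : ∀ p u v, Amb p (u ++ v) → Amb (p + u.length) v
  loc : ∀ p a b d, ¬ S.IsZero (a ++ b ++ d) → Amb p (a ++ b) → Amb (p + a.length) (b ++ d) →
    lam ≤ b.length → Amb p (a ++ b ++ d)

structure GoodOK (Amb Good : ZMod N → List α → Prop) (lam : ℕ) : Prop where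
  amb : ∀ p w, Good p w → Amb p w
  ne : ∀ p w, Good p w → w ≠ []
  eqv : ∀ p w w', S.Eqv w w' → Good p w → Good p w'
  long : ∀ p w, Amb p w → lam ≤ w.length → Good p w
  mul : ∀ p u v, Good p u → Good (p + u.length) v → Amb p (u ++ v) → Good p (u ++ v)

/-- the roots of length at least `d` -/
def Thr (Amb : ZMod N → List α → Prop) (d : ℕ) : ZMod N → List α → Prop :=
  fun p w => Amb p w ∧ d ≤ w.length

/-- the Steinberg relations up to length `c` -/
structure SRel (Good : ZMod N → List α → Prop) (c : ℕ) {G : Type} [Group G]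
    (x : ZMod N → List α → G) : Prop where
  triv : ∀ p w, w.length ≤ c → ¬ Good p w → x p w = 1
  eqv : ∀ p w w', w.length ≤ c → S.Eqv w w' → x p w = x p w'
  sq : ∀ p w, w.length ≤ c → x p w * x p w = 1
  mul : ∀ p u v, u.length + v.length ≤ c → Good p u → Good (p + u.length) v →
    ⁅x p u, x (p + u.length) v⁆ = x p (u ++ v)
  comm : ∀ (p : ZMod N) (u : List α) (q : ZMod N) (v : List α), u.length ≤ c → v.length ≤ c → p + (u.length : ZMod N) ≠ q → q + (v.length : ZMod N) ≠ p →
    Commute (x p u) (x q v)

abbrev Gen (α : Type) (N c : ℕ) : Type := ZMod N × {w : List α // w.length ≤ c}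

def fg (c : ℕ) (p : ZMod N) (w : List α) : FreeGroup (Gen α N c) :=
  if h : w.length ≤ c then FreeGroup.of (p, ⟨w, h⟩) else 1

inductive Rels (Good : ZMod N → List α → Prop) (c : ℕ) : FreeGroup (Gen α N c) → Prop
  | triv (p : ZMod N) (w : List α) : w.length ≤ c → ¬ Good p w → Rels Good c (fg c p w)
  | eqv (p : ZMod N) (w w' : List α) : w.length ≤ c → S.Eqv w w' → Rels Good c (fg c p w * (fg c p w')⁻¹)
  | sq (p : ZMod N) (w : List α) : w.length ≤ c → Rels Good c (fg c p w * fg c p w)
  | mul (p : ZMod N) (u v : List α) : u.length + v.length ≤ c → Good p u → Good (p + u.length) v →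
      Rels Good c (⁅fg c p u, fg c (p + (u.length : ZMod N)) v⁆ * (fg c p (u ++ v))⁻¹)
  | comm (p : ZMod N) (u : List α) (q : ZMod N) (v : List α) : u.length ≤ c → v.length ≤ c → p + (u.length : ZMod N) ≠ q → q + (v.length : ZMod N) ≠ p →
      Rels Good c ⁅fg c p u, fg c q v⁆

def St (Good : ZMod N → List α → Prop) (c : ℕ) : Type := PresentedGroup {r | Rels S Good c r}

instance (Good : ZMod N → List α → Prop) (c : ℕ) : Group (St S Good c) :=
  inferInstanceAs (Group (PresentedGroup {r | Rels S Good c r}))

/-- the generators -/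
def xg (Good : ZMod N → List α → Prop) (c : ℕ) (p : ZMod N) (w : List α) : St S Good c :=
  PresentedGroup.mk {r | Rels S Good c r} (fg c p w)

theorem xg_rel (Good : ZMod N → List α → Prop) (c : ℕ) : SRel S Good c (xg S Good c) := by
  have key : ∀ r, Rels S Good c r → PresentedGroup.mk {r | Rels S Good c r} r = 1 :=
    fun r h => PresentedGroup.one_of_mem h
  refine ⟨fun p w h1 h2 => key _ (.triv p w h1 h2), fun p w w' h1 h2 => ?_, fun p w h => ?_,
    fun p u v h1 h2 h3 => ?_, fun p u q v h1 h2 h3 h4 => ?_⟩
  · have := key _ (.eqv p w w' h1 h2)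
    rw [map_mul, map_inv, mul_inv_eq_one] at this
    exact this
  · have := key _ (.sq p w h)
    rw [map_mul] at this
    exact this
  · have := key _ (.mul p u v h1 h2 h3)
    rw [map_mul, map_inv, mul_inv_eq_one, map_commutatorElement] at this
    exact this
  · have := key _ (.comm p u q v h1 h2 h3 h4)
    rw [map_commutatorElement] at this
    exact commutatorElement_eq_one_iff_commute.mp this

theorem xg_of_lt (Good : ZMod N → List α → Prop) {c : ℕ} (p : ZMod N) {w : List α} (h : c < w.length) :
    xg S Good c p w = 1 := by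
  rw [xg, fg, dif_neg (by omega), map_one]; rfl

variable {S}

theorem SRel.exists_hom {Good : ZMod N → List α → Prop} {c : ℕ} {G : Type} [Group G]
    {x : ZMod N → List α → G} (h : SRel S Good c x) :
    ∃ φ : St S Good c →* G, ∀ p w, w.length ≤ c → φ (xg S Good c p w) = x p w := by
  have e : ∀ p w, w.length ≤ c →
      FreeGroup.lift (fun g : Gen α N c => x g.1 g.2.1) (fg c p w) = x p w := by
    intro p w hw
    rw [fg, dif_pos hw, FreeGroup.lift_apply_of]
  have hr : ∀ r ∈ {r | Rels S Good c r}, FreeGroup.lift (fun g : Gen α N c => x g.1 g.2.1) r = 1 := by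
    intro r hr
    cases hr with
    | triv p w h1 h2 => rw [e p w h1, h.triv p w h1 h2]
    | eqv p w w' h1 h2 =>
      rw [map_mul, map_inv, e p w h1, e p w' (h2.length_eq ▸ h1), h.eqv p w w' h1 h2, mul_inv_cancel]
    | sq p w h1 => rw [map_mul, e p w h1, h.sq p w h1]
    | mul p u v h1 h2 h3 =>
      rw [map_mul, map_inv, map_commutatorElement, e p u (by omega), e _ v (by omega),
        e p (u ++ v) (by simpa using h1), h.mul p u v h1 h2 h3, mul_inv_cancel]
    | comm p u q v h1 h2 h3 h4 =>
      rw [map_commutatorElement, e p u h1, e q v h2]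
      exact commutatorElement_eq_one_iff_commute.mpr (h.comm p u q v h1 h2 h3 h4)
  refine ⟨PresentedGroup.toGroup hr, fun p w hw => ?_⟩
  rw [← e p w hw]
  rfl

variable (S)

open Classical in
/-- the homomorphism defined by a family satisfying the relations (junk otherwise) -/
noncomputable def stLift (Good : ZMod N → List α → Prop) (c : ℕ) {G : Type} [Group G]
    (x : ZMod N → List α → G) : St S Good c →* G :=
  if h : SRel S Good c x then h.exists_hom.choose else 1

variable {S}

theorem SRel.stLift_xg {Good : ZMod N → List α → Prop} {c : ℕ} {G : Type} [Group G]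
    {x : ZMod N → List α → G} (h : SRel S Good c x) (p : ZMod N) {w : List α} (hw : w.length ≤ c) :
    stLift S Good c x (xg S Good c p w) = x p w := by
  rw [stLift, dif_pos h]
  exact h.exists_hom.choose_spec p w hw

theorem closure_xg (Good : ZMod N → List α → Prop) (c : ℕ) :
    Subgroup.closure {g | ∃ p w, w.length ≤ c ∧ Good p w ∧ g = xg S Good c p w} = ⊤ := by
  rw [eq_top_iff]
  refine (PresentedGroup.closure_range_of {r | Rels S Good c r}).ge.trans ((Subgroup.closure_le _).mpr ?_)
  rintro _ ⟨⟨p, w, hw⟩, rfl⟩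
  have e : (PresentedGroup.of (p, ⟨w, hw⟩) : PresentedGroup {r | Rels S Good c r}) = xg S Good c p w := by
    rw [xg, fg, dif_pos hw]; rfl
  by_cases hg : Good p w
  · exact Subgroup.subset_closure ⟨p, w, hw, hg, e⟩
  · rw [e, (xg_rel S Good c).triv p w hw hg]
    exact Subgroup.one_mem _

theorem St.hom_ext {Good : ZMod N → List α → Prop} {c : ℕ} {G : Type} [Group G]
    {φ ψ : St S Good c →* G}
    (h : ∀ p w, w.length ≤ c → Good p w → φ (xg S Good c p w) = ψ (xg S Good c p w)) : φ = ψ :=
  MonoidHom.eq_of_eqOn_dense (closure_xg Good c) (by rintro _ ⟨p, w, h1, h2, rfl⟩; exact h p w h1 h2)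

theorem SRel.map {Good : ZMod N → List α → Prop} {c : ℕ} {G H : Type} [Group G] [Group H]
    {x : ZMod N → List α → G} (h : SRel S Good c x) (φ : G →* H) : SRel S Good c fun p w => φ (x p w) :=
  ⟨fun p w h1 h2 => by rw [h.triv p w h1 h2, map_one], fun p w w' h1 h2 => by rw [h.eqv p w w' h1 h2],
    fun p w h1 => by rw [← map_mul, h.sq p w h1, map_one],
    fun p u v h1 h2 h3 => by rw [← map_commutatorElement, h.mul p u v h1 h2 h3],
    fun p u q v h1 h2 h3 h4 => (h.comm p u q v h1 h2 h3 h4).map φ⟩

theorem SRel.mono {Good : ZMod N → List α → Prop} {c c' : ℕ} {G : Type} [Group G]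
    {x : ZMod N → List α → G} (h : SRel S Good c' x) (hc : c ≤ c') : SRel S Good c x :=
  ⟨fun p w h1 => h.triv p w (h1.trans hc), fun p w w' h1 => h.eqv p w w' (h1.trans hc),
    fun p w h1 => h.sq p w (h1.trans hc), fun p u v h1 => h.mul p u v (h1.trans hc),
    fun p u q v h1 h2 => h.comm p u q v (h1.trans hc) (h2.trans hc)⟩

theorem AmbOK.mono {Amb : ZMod N → List α → Prop} {lam lam' : ℕ} (h : AmbOK S Amb lam) (hl : lam ≤ lam') :
    AmbOK S Amb lam' :=
  ⟨h.lam_pos.trans hl, h.nz, h.eqv, h.left, h.right, fun p a b d h1 h2 h3 h4 => h.loc p a b d h1 h2 h3 (hl.trans h4)⟩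

theorem AmbOK.thr {Amb : ZMod N → List α → Prop} {lam d : ℕ} (h : AmbOK S Amb lam) (h1 : 1 ≤ d) (h2 : d ≤ lam) :
    GoodOK S Amb (Thr Amb d) lam :=
  ⟨fun _ _ hg => hg.1, fun _ w hg => by rintro rfl; have := hg.2; simp at this; omega,
    fun p w w' e hg => ⟨h.eqv p w w' e hg.1, e.length_eq ▸ hg.2⟩, fun _ _ ha hl => ⟨ha, h2.trans hl⟩,
    fun _ u v hu _ ha => ⟨ha, by have := hu.2; simp; omega⟩⟩

variable (S)

open Classical in
/-- the long roots (lengths up to `N - 1`), see `LR.lean` -/
noncomputable def xl (Good : ZMod N → List α → Prop) (c : ℕ) : ZMod N → List α → St S Good c :=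
  if h : ∃ X : ZMod N → List α → St S Good c, SRel S Good (N - 1) X ∧
      ∀ p w, w.length ≤ c → X p w = xg S Good c p w then h.choose else xg S Good c

/-- the path of length `l` from `p` lies in the arc `[a, a + m]` -/
def InArc (a : ZMod N) (m : ℕ) (p : ZMod N) (l : ℕ) : Prop := (p - a).val + l ≤ m

/-- the subgroup generated by the roots in an arc -/
def Arc (Good : ZMod N → List α → Prop) (c : ℕ) (a : ZMod N) (m : ℕ) : Subgroup (St S Good c) :=
  Subgroup.closure {g | ∃ p w, InArc a m p w.length ∧ g = xl S Good c p w}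

open Classical in
/-- the natural map for more roots and a larger length bound -/
noncomputable def incl (Good Good' : ZMod N → List α → Prop) (c c' : ℕ) : St S Good c →* St S Good' c' :=
  stLift S Good c fun p w => if Good p w then xg S Good' c' p w else 1

/-! ### the representation on the algebra -/

variable [Fintype α]

/-- for every end point `e`, the algebra is viewed as the space of paths ending at `e` -/
abbrev EE (N : ℕ) : Type := ZMod N → Module.End (ZMod 2) S.Alg

open Classical in
/-- left multiplication by the path `(p, u)` -/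
noncomputable def nu (Amb : ZMod N → List α → Prop) (p : ZMod N) (u : List α) : EE S N :=
  fun e => S.lift fun w => if p + u.length + w.length = e ∧ Amb p (u ++ w) then S.ev (u ++ w) else 0

open Classical in
noncomputable def unit1 {R : Type} [Ring R] (n : R) : Rˣ := if h : IsUnit (1 + n) then h.unit else 1

open Classical in
noncomputable def Th (Amb Good : ZMod N → List α → Prop) (p : ZMod N) (u : List α) : (EE S N)ˣ :=
  if Good p u then unit1 (nu S Amb p u) else 1

noncomputable def theta (Amb Good : ZMod N → List α → Prop) (c : ℕ) : St S Good c →* (EE S N)ˣ :=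
  stLift S Good c (Th S Amb Good)

end Crest.Agent.R176
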