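import Crest.Agent.R176.Cut
import Crest.Agent.R176.AlgGr

/-!
# Row 176, group half: the group  (task R176-GFinal)

`exists_theta_injective`.  `NN j = 501 * 2 ^ e j`, `c j = 8 * lam (j+1)` (`3 * c j ≤ 480 * 2 ^ e j`),
`AmbP j p w`.  `AmbOK S (AmbP j) (lam j)` (`ext`), `Cover (AmbP j) (AmbP (j+1)) (lam (j+1))` (Chinese remainder theorem,
`compat`; `501` is odd).  An element `g` of the kernel at level `0` is a product of `L` generators (they are
involutions), each a `Layer`; by induction on `j` there is a list of `L` layers at level `j` with product in the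
kernel of `theta` and such that `prod = 1 → g = 1` (`layer_trHom`, `theta_trHom`, `trHom_inj`).  `cut` for large `j`
(`j ≤ e j`).  At level `0` the phase condition is void (`e 0 = 0`), so `AmbP 0 = Amb0` by `funext/propext`.

`group_result`, with `G = St S (Thr Amb0 1) c`:
* finitely presented: `Gen α N c` is finite and the relators form a finite set (all words have length `≤ c`).
* `2`-group: for `g : G` there is `A : Matrix (ZMod N) (ZMod N) S.Alg` with `pr 0 (A i j) = 0` and
  `ι e (theta g e x) = (1 + A).mulVec (ι e x)` for all `e, x`, where the injective linear map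
  `ι e : S.Alg → ZMod N → S.Alg` sends `ev w` to `Pi.single (e - |w|) (ev w)` (induction on `g`; a generator gives
  `A = single p (p + |w|) (ev w)`; elements with `pr 0 = 0` form an ideal).  `matrix_nilpotent` and characteristic two
  give `(1 + A) ^ 2 ^ k = 1`.
* residually finite: if `theta g e (ev w) ≠ ev w`, some `pr d` detects it; all `theta g e` preserve the subspace
  `K` spanned by the words longer than `d`, and `S.Alg ⧸ K` is finite; let `G` act on it
  (`residuallyFinite_of_forall_exists_finite_monoidHom`, or the stabiliser of a coset has finite index).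
* infinite: for a nonzero word `w = a₁ ⋯ a_L`, `g = x p [a₁] * x (p+1) [a₂] * ⋯`, `e = p + L`: `theta g e 1` is `ev w`
  plus words of length `< L`; if `G` were finite these vectors would have bounded degree.
-/

set_option autoImplicit false

namespace Crest.Agent.R176

variable {α : Type} [Fintype α] {S : Sys α}

def Amb0 (S : Sys α) (N : ℕ) : ZMod N → List α → Prop := fun _ w => ¬ S.IsZero w

def AmbP (P : S.Phases) (j : ℕ) : ZMod (501 * 2 ^ P.e j) → List α → Prop :=
  fun p w => ¬ S.IsZero w ∧ ∀ i, i ≤ j → P.lam i ≤ w.length → (p.val : ℤ) ≡ P.Φ i w [ZMOD 2 ^ P.e i]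

theorem amb0_ok (N : ℕ) : AmbOK S (Amb0 S N) 1 :=
  ⟨le_rfl, fun _ _ h => h, fun _ _ _ e h h' => h (h'.of_eqv e),
    fun _ _ v h h' => h (h'.append_right v), fun _ u _ h h' => h (h'.append_left u), fun _ _ _ _ h _ _ _ => h⟩

namespace GF

open Sys
open scoped commutatorElement

theorem ind {N : ℕ} {Good : ZMod N → List α → Prop} {c : ℕ} {Q : St S Good c → Prop} (h1 : Q 1)
    (h2 : ∀ p w g, w.length ≤ c → Good p w → Q g → Q (xg S Good c p w * g)) (g : St S Good c) : Q g := by
  have hg : g ∈ Subgroup.closure {g | ∃ p w, w.length ≤ c ∧ Good p w ∧ g = xg S Good c p w} :=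
    (closure_xg Good c).symm ▸ Subgroup.mem_top g
  induction hg using Subgroup.closure_induction_left with
  | one => exact h1
  | mul_left x hx y _ ih => obtain ⟨p, w, a, b, rfl⟩ := hx; exact h2 p w y a b ih
  | inv_mul_cancel x hx y _ ih =>
    obtain ⟨p, w, a, b, rfl⟩ := hx
    rw [inv_eq_of_mul_eq_one_right ((xg_rel S Good c).sq p w a)]
    exact h2 p w y a b ih

theorem e_mono (P : S.Phases) : StrictMono P.e := strictMono_nat_of_lt_succ P.e_lt

theorem lam_mono (P : S.Phases) : Monotone P.lam := monotone_nat_of_le_succ P.lam_le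

theorem pow_dvd (P : S.Phases) {i j : ℕ} (h : i ≤ j) :
    (2 : ℤ) ^ P.e i ∣ ((501 * 2 ^ P.e j : ℕ) : ℤ) := by
  push_cast
  exact (pow_dvd_pow 2 ((e_mono P).monotone h)).mul_left _

theorem val_eq {n : ℕ} [NeZero n] {p : ZMod n} {x : ℤ} : (p.val : ℤ) ≡ x [ZMOD n] ↔ p = x := by
  rw [← ZMod.intCast_eq_intCast_iff]; simp

theorem ambP_ok (P : S.Phases) (j : ℕ) : AmbOK S (AmbP P j) (P.lam j) := by
  refine ⟨P.lam_pos j, fun _ _ h => h.1, fun p w w' e h => ⟨fun h' => h.1 (h'.of_eqv e), fun i hi hl => ?_⟩,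
    fun p u v h => ⟨fun h' => h.1 (h'.append_right v), fun i hi hl => ?_⟩,
    fun p u v h => ⟨fun h' => h.1 (h'.append_left u), fun i hi hl => ?_⟩,
    fun p a b d h h1 _ hl => ⟨h, fun i hi _ => ?_⟩⟩
  · rw [← P.eqv i w w' e]; exact h.2 i hi (e.length_eq ▸ hl)
  · have := P.ext i [] u v h.1 hl
    simp only [List.nil_append, List.length_nil, Nat.cast_zero, add_zero] at this
    exact (h.2 i hi (by simp; omega)).trans this.symm
  · have := P.ext i u v [] (by simpa using h.1) hl
    rw [List.append_nil] at this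
    refine Int.ModEq.trans (b := p.val + u.length) ((val_eq.2 (by simp)).of_dvd (pow_dvd P hi)) ?_
    exact ((h.2 i hi (by simp; omega)).add_right _).trans this.symm
  · have hl' : P.lam i ≤ (a ++ b).length := by have := lam_mono P hi; simp; omega
    have := P.ext i [] (a ++ b) d h hl'
    simp only [List.nil_append, List.length_nil, Nat.cast_zero, add_zero] at this
    exact (h1.2 i hi hl').trans this

theorem ambP_cover (P : S.Phases) (j : ℕ) : Cover (AmbP P j) (AmbP P (j + 1)) (P.lam (j + 1)) := by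
  have hd : 501 * 2 ^ P.e j ∣ 501 * 2 ^ P.e (j + 1) :=
    Nat.mul_dvd_mul_left _ (pow_dvd_pow 2 (P.e_lt j).le)
  have hc : ∀ k, (501 : ℤ).natAbs.Coprime ((2 : ℤ) ^ k).natAbs := fun k => by
    rw [Int.natAbs_pow]; exact Nat.Coprime.pow_right _ (by norm_num)
  have hv : ∀ p' : ZMod (501 * 2 ^ P.e (j + 1)), ((ZMod.cast p' : ZMod (501 * 2 ^ P.e j)).val : ℤ) ≡ p'.val
      [ZMOD (501 * 2 ^ P.e j : ℕ)] := fun p' => val_eq.2 (by simp)
  refine ⟨hd, fun p' w h => ⟨h.1, fun i hi hl => ((hv p').of_dvd (pow_dvd P hi)).trans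
    (h.2 i (by omega) hl)⟩, fun p w hl h => ?_, fun p' q' w hl h1 h2 h => ?_⟩
  · obtain ⟨u, v, huv⟩ : IsCoprime (501 : ℤ) (2 ^ P.e (j + 1)) := Int.isCoprime_iff_gcd_eq_one.2 (hc _)
    obtain ⟨x, x1, x2⟩ : ∃ x : ℤ, x ≡ p.val [ZMOD 501] ∧ x ≡ P.Φ (j + 1) w [ZMOD 2 ^ P.e (j + 1)] :=
      ⟨p.val * (v * 2 ^ P.e (j + 1)) + P.Φ (j + 1) w * (u * 501),
        Int.modEq_iff_dvd.2 ⟨(p.val - P.Φ (j + 1) w) * u, by linear_combination -(p.val : ℤ) * huv⟩,
        Int.modEq_iff_dvd.2 ⟨(P.Φ (j + 1) w - p.val) * v, by linear_combination -P.Φ (j + 1) w * huv⟩⟩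
    have x3 : x ≡ p.val [ZMOD (501 * 2 ^ P.e j : ℕ)] := by
      push_cast
      exact (Int.modEq_and_modEq_iff_modEq_mul (hc _)).1 ⟨x1,
        ((x2.of_dvd (pow_dvd_pow 2 (P.e_lt j).le)).trans (P.compat j w h.1 hl)).trans
          (h.2 j le_rfl ((P.lam_le j).trans hl)).symm⟩
    have x4 : (((x : ZMod (501 * 2 ^ P.e (j + 1))).val : ℕ) : ℤ) ≡ x [ZMOD (501 * 2 ^ P.e (j + 1) : ℕ)] :=
      val_eq.2 rfl
    refine ⟨x, by rw [ZMod.cast_intCast hd]; exact (val_eq.1 x3.symm).symm, h.1, fun i hi hl' => ?_⟩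
    refine (x4.of_dvd (pow_dvd P hi)).trans ?_
    rcases hi.eq_or_lt with rfl | hi
    · exact x2
    · exact (x3.of_dvd (pow_dvd P (by omega))).trans (h.2 i (by omega) hl')
  · have a1 := (hv p').symm.trans (h ▸ hv q')
    have a2 : (p'.val : ℤ) ≡ q'.val [ZMOD (501 * 2 ^ P.e (j + 1) : ℕ)] := by
      push_cast at a1 ⊢
      exact (Int.modEq_and_modEq_iff_modEq_mul (hc _)).1 ⟨a1.of_mul_right _,
        (h1.2 _ le_rfl hl).trans (h2.2 _ le_rfl hl).symm⟩
    simpa using val_eq.1 a2

theorem ambP_inj (P : S.Phases) :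
    Function.Injective (theta S (AmbP P 0) (Thr (AmbP P 0) 1) (8 * P.lam 1)) := by
  refine (injective_iff_map_eq_one _).2 fun g hg => ?_
  have hb : ∀ j, 3 * (8 * P.lam (j + 1)) < 501 * 2 ^ P.e j := fun j => by
    have := P.lam_bd j
    have : 0 < 2 ^ P.e j := by positivity
    omega
  have hA : ∀ j, AmbOK S (AmbP P j) (P.lam (j + 1)) := fun j => (ambP_ok P j).mono (P.lam_le j)
  have hc : ∀ j, 8 * P.lam 1 ≤ 8 * P.lam (j + 1) := fun j =>
    Nat.mul_le_mul_left _ (lam_mono P (by omega))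
  obtain ⟨l₀, h1, h2⟩ : ∃ l : List (St S (Thr (AmbP P 0) 1) (8 * P.lam 1)),
      (∀ x ∈ l, Layer S _ _ (8 * P.lam 1) x) ∧ l.prod = g := by
    clear hg
    induction g using ind with
    | h1 => exact ⟨[], by simp, rfl⟩
    | h2 p w g a b ih =>
      obtain ⟨l, h1, rfl⟩ := ih
      exact ⟨xg S _ _ p w :: l, List.forall_mem_cons.2 ⟨⟨[(p, w)], by simpa using a, by simp, by simp⟩, h1⟩,
        List.prod_cons⟩
  have key : ∀ j, ∃ l : List (St S (Thr (AmbP P j) 1) (8 * P.lam (j + 1))), l.length ≤ l₀.length ∧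
      (∀ x ∈ l, Layer S _ _ (8 * P.lam 1) x) ∧ theta S (AmbP P j) _ _ l.prod = 1 ∧ (l.prod = 1 → g = 1) := by
    intro j
    induction j with
    | zero => exact ⟨l₀, le_rfl, h1, h2 ▸ hg, fun h => h2 ▸ h⟩
    | succ j ih =>
      obtain ⟨l, a1, a2, a3, a4⟩ := ih
      have b1 := hb j
      have b2 := hb (j + 1)
      have b3 := Nat.mul_le_mul_left 8 (P.lam_le (j + 1))
      refine ⟨l.map (trHom S (AmbP P j) (AmbP P (j + 1)) _ _), by simpa using a1, ?_, ?_, fun h => a4 ?_⟩
      · intro x hx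
        obtain ⟨y, hy, rfl⟩ := List.mem_map.1 hx
        exact layer_trHom (ambP_ok P (j + 1)) (ambP_cover P j) (by omega) b3 (hc j) (a2 y hy)
      · rw [← map_list_prod]
        exact theta_trHom (hA j) (ambP_ok P (j + 1)) (ambP_cover P j) (by omega) b3 (by omega) a3
      · rw [← map_list_prod] at h
        exact trHom_inj (hA j) (ambP_ok P (j + 1)) (ambP_cover P j) (P.lam_le (j + 1)) le_rfl b1 b3
          le_rfl b2 a3 h
  obtain ⟨j, hj⟩ : ∃ j, j = (2 * l₀.length + 4) * (8 * P.lam 1 + 1) := ⟨_, rfl⟩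
  obtain ⟨l, a1, a2, a3, a4⟩ := key j
  have b1 := hb j
  have b2 : j < 2 ^ P.e j := (e_mono P).le_apply.trans_lt Nat.lt_two_pow_self
  exact a4 (cut (hA j) ((hA j).thr le_rfl (P.lam_pos _)) le_rfl (by omega) (hc j) (by omega) l a1 a2 a3)

variable {N c : ℕ}

/-- the action of a group element in one component -/
noncomputable abbrev th (e : ZMod N) (g : St S (Thr (Amb0 S N) 1) c) : S.Alg →ₗ[ZMod 2] S.Alg :=
  (theta S (Amb0 S N) (Thr (Amb0 S N) 1) c g : EE S N) e

theorem th_one (e : ZMod N) (x : S.Alg) : th (c := c) e 1 x = x := by simp [th]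

theorem th_mul (e : ZMod N) (g h : St S (Thr (Amb0 S N) 1) c) (x : S.Alg) :
    th e (g * h) x = th e g (th e h x) := by simp [th]

theorem th_xg (hN : c < N) (e p : ZMod N) {u : List α} (hu : u.length ≤ c) (hg : Thr (Amb0 S N) 1 p u)
    (w : List α) : th e (xg S (Thr (Amb0 S N) 1) c p u) (S.ev w) =
      S.ev w + if p + u.length + w.length = e then S.ev (u ++ w) else 0 := by
  have hG := (amb0_ok (S := S) N).thr le_rfl le_rfl
  rw [th, theta_xg (amb0_ok N) hG hN p hu, Th_val (amb0_ok N) hG (by omega) hg, Pi.add_apply,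
    LinearMap.add_apply, nu_ev (amb0_ok N)]
  congr 1
  by_cases h : S.IsZero (u ++ w)
  · simp [ev_zero h]
  · simp [Amb0, h]

theorem fp [NeZero N] (Good : ZMod N → List α → Prop) : Group.IsFinitelyPresented (St S Good c) := by
  haveI : Finite {w : List α // w.length ≤ c} := (List.finite_length_le α c).to_subtype
  let F : Set (FreeGroup (Gen α N c)) := Set.range FreeGroup.of
  have hF : F.Finite := Set.finite_range _
  have hm : ∀ p w, w.length ≤ c → fg c p w ∈ F := fun p w h => ⟨(p, ⟨w, h⟩), by rw [fg, dif_pos h]⟩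
  haveI : Finite {r | Rels S Good c r} := by
    refine (((hF.union (hF.image2 (fun a b => a * b⁻¹) hF)).union (hF.image fun a => a * a)).union
      (((hF.image2 (fun a b => ⁅a, b⁆) hF).image2 (fun a b => a * b⁻¹) hF).union
        (hF.image2 (fun a b => ⁅a, b⁆) hF))).subset fun r hr => ?_
    cases hr with
    | triv p w h _ => exact .inl (.inl (.inl (hm p w h)))
    | eqv p w w' h e => exact .inl (.inl (.inr ⟨_, hm p w h, _, hm p w' (e.length_eq ▸ h), rfl⟩))
    | sq p w h => exact .inl (.inr ⟨_, hm p w h, rfl⟩)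
    | mul p u v h =>
      exact .inr (.inl ⟨_, ⟨_, hm p u (by omega), _, hm _ v (by omega), rfl⟩, _,
        hm p (u ++ v) (by simpa using h), rfl⟩)
    | comm p u q v h h' => exact .inr (.inr ⟨_, hm p u h, _, hm q v h', rfl⟩)
  exact inferInstanceAs (Group.IsFinitelyPresented (PresentedGroup {r | Rels S Good c r}))

/-- the paths ending at `e`, sorted by their starting point -/
noncomputable def io (S : Sys α) (e : ZMod N) : S.Alg →ₗ[ZMod 2] ZMod N → S.Alg :=
  S.lift fun w => Pi.single (e - w.length) (S.ev w)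

theorem io_ev (e : ZMod N) (w : List α) : io S e (S.ev w) = Pi.single (e - w.length) (S.ev w) :=
  lift_ev (f := fun w => (Pi.single (e - w.length) (S.ev w) : ZMod N → S.Alg))
    (fun w w' h => by rw [h.length_eq, ev_eq h]) (fun w h => by simp [ev_zero h]) w

theorem io_inj [NeZero N] (e : ZMod N) : Function.Injective (io S e) := by
  have : (∑ i, LinearMap.proj i ∘ₗ io S e) = LinearMap.id := lin_ext fun w => by simp [io_ev]
  intro x y h
  have hx := LinearMap.congr_fun this x
  have hy := LinearMap.congr_fun this y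
  simp only [LinearMap.sum_apply, LinearMap.comp_apply, h, LinearMap.id_apply] at hx hy
  exact hx.symm.trans hy

theorem exists_mat [NeZero N] (hN : c < N) (g : St S (Thr (Amb0 S N) 1) c) :
    ∃ A : Matrix (ZMod N) (ZMod N) S.Alg, (∀ i j, S.pr 0 (A i j) = 0) ∧
      ∀ e x, io S e (th e g x) = (1 + A).mulVec (io S e x) := by
  induction g using ind with
  | h1 => exact ⟨0, by simp, fun e x => by simp [th_one]⟩
  | h2 p u g a b ih =>
    obtain ⟨A, h1, h2⟩ := ih
    have h3 : ∀ y, S.pr 0 (S.ev u * y) = 0 := fun y =>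
      LinearMap.congr_fun (lin_ext (L := S.pr 0 ∘ₗ LinearMap.mulLeft (ZMod 2) (S.ev u)) (L' := 0)
        fun w => by
          have := b.2
          simp only [LinearMap.comp_apply, LinearMap.mulLeft_apply, ← ev_append, pr_ev,
            List.length_append, LinearMap.zero_apply]
          exact if_neg (by omega)) y
    refine ⟨A + Matrix.single p (p + u.length) (S.ev u) * (1 + A), fun i j => ?_, fun e x => ?_⟩
    · rw [Matrix.add_apply, map_add, h1, zero_add]
      by_cases hi : i = p
      · rw [hi, Matrix.single_mul_apply_same, h3]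
      · rw [Matrix.single_mul_apply_of_ne _ _ _ _ _ hi, map_zero]
    · have h4 : io S e ∘ₗ th e (xg S (Thr (Amb0 S N) 1) c p u) = io S e +
          (LinearMap.single (ZMod 2) (fun _ => S.Alg) p ∘ₗ LinearMap.mulLeft (ZMod 2) (S.ev u) ∘ₗ
            LinearMap.proj (p + u.length) ∘ₗ io S e) := lin_ext fun w => by
        simp only [LinearMap.comp_apply, th_xg hN e p a b, map_add, LinearMap.add_apply, io_ev,
          LinearMap.proj_apply, LinearMap.mulLeft_apply, LinearMap.single_apply]
        congr 1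
        split_ifs with h
        · subst h
          rw [io_ev, add_sub_cancel_right, Pi.single_eq_same]
          simp [ev_append, add_assoc]
        · rw [Pi.single_eq_of_ne fun h' => h (by rw [h']; ring)]
          simp
      have h5 := LinearMap.congr_fun h4 (th e g x)
      simp only [LinearMap.comp_apply, LinearMap.add_apply, LinearMap.proj_apply,
        LinearMap.mulLeft_apply, LinearMap.single_apply] at h5
      rw [th_mul, h5, h2, ← add_assoc, Matrix.add_mulVec (1 + A), ← Matrix.mulVec_mulVec,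
        Matrix.single_mulVec]
      rfl

theorem eq_one (hi : Function.Injective (theta S (Amb0 S N) (Thr (Amb0 S N) 1) c))
    {g : St S (Thr (Amb0 S N) 1) c} (h : ∀ e w, th e g (S.ev w) = S.ev w) : g = 1 :=
  hi (by rw [map_one]; exact Units.ext (funext fun e => lin_ext (h e)))

theorem pgroup [NeZero N] (hN : c < N) (h2 : ∀ ρ, S.Nil ρ)
    (hi : Function.Injective (theta S (Amb0 S N) (Thr (Amb0 S N) 1) c)) :
    IsPGroup 2 (St S (Thr (Amb0 S N) 1) c) := by
  intro g
  obtain ⟨A, a1, a2⟩ := exists_mat hN g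
  obtain ⟨k, hk⟩ := S.matrix_nilpotent h2 A a1
  have a3 : ∀ (n : ℕ) e x, io S e (th e (g ^ n) x) = ((1 + A) ^ n).mulVec (io S e x) := fun n e => by
    induction n with
    | zero => intro x; simp [th_one]
    | succ n ih => intro x; rw [pow_succ, th_mul, ih, a2, Matrix.mulVec_mulVec, pow_succ]
  have a4 : ∀ n : ℕ, (1 + A) ^ 2 ^ n = 1 + A ^ 2 ^ n := fun n => by
    induction n with
    | zero => simp
    | succ n ih =>
      have : A ^ 2 ^ n + A ^ 2 ^ n = 0 := by
        rw [← two_smul (ZMod 2), show (2 : ZMod 2) = 0 from rfl, zero_smul]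
      rw [pow_succ, pow_mul, pow_mul, ih, sq, sq, add_mul, mul_add, mul_add, one_mul, one_mul, mul_one,
        add_assoc, ← add_assoc (A ^ 2 ^ n), this, zero_add]
  refine ⟨k, eq_one hi fun e w => io_inj e ?_⟩
  rw [a3, a4, pow_eq_zero_of_le Nat.lt_two_pow_self.le hk, add_zero, Matrix.one_mulVec]

theorem resfin (hN : c < N) (hi : Function.Injective (theta S (Amb0 S N) (Thr (Amb0 S N) 1) c)) :
    Group.ResiduallyFinite (St S (Thr (Amb0 S N) 1) c) := by
  refine Group.residuallyFinite_of_forall_exists_finite_monoidHom.{0} fun g hg => ?_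
  obtain ⟨e, w, hw⟩ : ∃ e w, th e g (S.ev w) - S.ev w ≠ 0 := by
    by_contra! h
    exact hg (eq_one hi fun e w => sub_eq_zero.1 (h e w))
  obtain ⟨w', hw'⟩ : ∃ w', S.coef w' (th e g (S.ev w) - S.ev w) ≠ 0 := by
    by_contra! h
    exact hw (eq_zero_of_coef h)
  let K := Submodule.span (ZMod 2) (S.ev '' {v | w'.length < v.length})
  have k1 : K ≤ LinearMap.ker (S.coef w') := Submodule.span_le.2 (by
    rintro _ ⟨v, hv, rfl⟩
    exact (coef_ev w' v).trans (if_neg fun h => (ne_of_lt hv) h.1.length_eq.symm))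
  have k2 : ∀ g : St S (Thr (Amb0 S N) 1) c, K ≤ K.comap (th e g) := fun g => by
    induction g using ind with
    | h1 => intro x hx; simpa [th_one] using hx
    | h2 p u g a b ih =>
      intro x hx
      rw [Submodule.mem_comap, th_mul]
      refine (?_ : K ≤ K.comap _) (ih hx)
      refine Submodule.span_le.2 ?_
      rintro _ ⟨v, hv, rfl⟩
      rw [SetLike.mem_coe, Submodule.mem_comap, th_xg hN e p a b]
      refine add_mem (Submodule.subset_span ⟨v, hv, rfl⟩) ?_
      split_ifs
      · exact Submodule.subset_span ⟨u ++ v, lt_of_lt_of_le (b := v.length) hv (by simp), rfl⟩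
      · exact zero_mem _
  haveI : Module.Finite (ZMod 2) (S.Alg ⧸ K) := by
    refine ⟨Submodule.fg_def.2 ⟨_, (List.finite_length_le α w'.length).image (K.mkQ ∘ S.ev), ?_⟩⟩
    rw [eq_top_iff, ← K.range_mkQ, LinearMap.range_eq_map, ← S.span_ev, Submodule.map_span_le]
    rintro _ ⟨v, rfl⟩
    rcases le_or_gt v.length w'.length with h | h
    · exact Submodule.subset_span ⟨v, h, rfl⟩
    · rw [Submodule.mkQ_apply, (Submodule.Quotient.mk_eq_zero K).2 (Submodule.subset_span ⟨v, h, rfl⟩)]
      exact zero_mem _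
  haveI : Finite (S.Alg ⧸ K) := Module.finite_of_finite (ZMod 2)
  haveI : Finite (Module.End (ZMod 2) (S.Alg ⧸ K)) := Finite.of_injective _ DFunLike.coe_injective
  let φ : St S (Thr (Amb0 S N) 1) c →* Module.End (ZMod 2) (S.Alg ⧸ K) :=
    { toFun := fun g => K.mapQ K (th e g) (k2 g)
      map_one' := Submodule.linearMap_qext _ (LinearMap.ext fun x => by simp [th_one])
      map_mul' := fun g h => Submodule.linearMap_qext _ (LinearMap.ext fun x => by simp [th_mul]) }
  refine ⟨_, inferInstance, inferInstance, φ.toHomUnits, fun h => hw' (k1 ?_)⟩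
  have := LinearMap.congr_fun (congrArg Units.val h) (K.mkQ (S.ev w))
  exact (Submodule.Quotient.eq K).1 this

theorem exists_top (hN : c < N) (hc : 1 ≤ c) (w : List α) (p : ZMod N) :
    ∃ g : St S (Thr (Amb0 S N) 1) c, S.pr w.length (th (p + (w.length : ZMod N)) g 1) = S.ev w ∧
      ∀ d, w.length < d → S.pr d (th (p + (w.length : ZMod N)) g 1) = 0 := by
  induction w generalizing p with
  | nil =>
    refine ⟨1, ?_, fun d hd => ?_⟩ <;> rw [th_one, ← ev_nil, pr_ev]
    · exact if_pos rfl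
    · exact if_neg hd.ne
  | cons a w ih =>
    obtain ⟨g, h1, h2⟩ := ih (p + 1)
    have hg : Thr (Amb0 S N) 1 p [a] := ⟨not_isZero_of_length_le_one le_rfl, le_rfl⟩
    have e1 : p + ((a :: w).length : ZMod N) = p + 1 + w.length := by simp; ring
    rw [e1]
    generalize he : p + 1 + (w.length : ZMod N) = e at *
    have k : ∀ d y, S.pr (d + 1) (th e (xg S (Thr (Amb0 S N) 1) c p [a]) y) = S.pr (d + 1) y +
        (th e (xg S (Thr (Amb0 S N) 1) c p [a]) (S.pr d y) - S.pr d y) := fun d y =>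
      LinearMap.congr_fun (lin_ext (L := S.pr (d + 1) ∘ₗ th e (xg S (Thr (Amb0 S N) 1) c p [a]))
        (L' := S.pr (d + 1) + (th e (xg S (Thr (Amb0 S N) 1) c p [a]) ∘ₗ S.pr d - S.pr d)) fun v => by
          simp only [LinearMap.comp_apply, LinearMap.add_apply, LinearMap.sub_apply, pr_ev,
            th_xg hN e p (u := [a]) hc hg, map_add, apply_ite (S.pr (d + 1)), map_zero,
            apply_ite (th e (xg S (Thr (Amb0 S N) 1) c p [a])), List.singleton_append, List.length_cons,
            Nat.add_right_cancel_iff]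
          split_ifs <;> simp) y
    refine ⟨xg S _ c p [a] * g, ?_, fun d hd => ?_⟩
    · rw [th_mul, List.length_cons, k, h1, h2 _ (by omega), th_xg hN e p (u := [a]) hc hg,
        if_pos (by simpa using he)]
      simp
    · obtain ⟨d, rfl⟩ : ∃ d', d = d' + 1 := ⟨d - 1, by simp at hd; omega⟩
      simp only [List.length_cons] at hd
      rw [th_mul, k, h2 _ (by omega), h2 _ (by omega)]
      simp

theorem infin [NeZero N] (hN : c < N) (hc : 1 ≤ c)
    (h1 : ∀ n, ∃ w : List α, n ≤ w.length ∧ ¬ S.IsZero w) : Infinite (St S (Thr (Amb0 S N) 1) c) := by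
  by_contra h
  rw [not_infinite_iff_finite] at h
  have hb : ∀ y : S.Alg, ∃ D, ∀ d, D < d → S.pr d y = 0 := fun y => by
    obtain ⟨s, rfl, -⟩ := exists_sum y
    refine ⟨s.sup List.length, fun d hd => ?_⟩
    rw [map_sum]
    exact Finset.sum_eq_zero fun w hw => (pr_ev d w).trans
      (if_neg ((Finset.le_sup (f := List.length) hw).trans_lt hd).ne)
  choose D hD using hb
  obtain ⟨M, hM⟩ := (Set.finite_range
    fun t : St S (Thr (Amb0 S N) 1) c × ZMod N => D (th t.2 t.1 1)).bddAbove
  obtain ⟨w, a1, a2⟩ := h1 (M + 1)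
  obtain ⟨g, a3, -⟩ := exists_top (S := S) hN hc w 0
  exact ev_ne_zero a2 (a3 ▸ hD _ _ (lt_of_le_of_lt (hM ⟨(g, _), rfl⟩) a1))

end GF

theorem exists_theta_injective (P : S.Phases) : ∃ N c : ℕ, 8 ≤ c ∧ c < N ∧
    Function.Injective (theta S (Amb0 S N) (Thr (Amb0 S N) 1) c) := by
  have h0 : AmbP P 0 = Amb0 S _ := funext fun p => funext fun w => propext (and_iff_left fun i hi _ => by
    rw [Nat.le_zero.1 hi]
    simp only [P.e_zero, pow_zero]
    exact Int.modEq_one)
  have h1 := P.lam_bd 0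
  have h2 := P.lam_pos 1
  have h3 : 0 < 2 ^ P.e 0 := by positivity
  exact ⟨501 * 2 ^ P.e 0, 8 * P.lam 1, by omega, by simp only [zero_add] at h1; omega, h0 ▸ GF.ambP_inj P⟩

theorem group_result (h1 : ∀ n, ∃ w : List α, n ≤ w.length ∧ ¬ S.IsZero w) (h2 : ∀ ρ, S.Nil ρ) (P : S.Phases) :
    ∃ (G : Type) (_ : Group G),
      Infinite G ∧ Group.IsFinitelyPresented G ∧ Group.ResiduallyFinite G ∧ IsPGroup 2 G := by
  obtain ⟨N, c, hc, hN, hi⟩ := exists_theta_injective P
  haveI : NeZero N := ⟨by omega⟩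
  exact ⟨St S (Thr (Amb0 S N) 1) c, inferInstance, GF.infin hN (by omega) h1, GF.fp _, GF.resfin hN hi,
    GF.pgroup hN h2 hi⟩

end Crest.Agent.R176
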