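import Crest.Agent.R176.GDefs

/-!
# Row 176, group half: long roots  (task R176-LR)

Plan for `exists_long`: induction on the bound `L` (from `c` up to `N - 1`): from `SRel S Good L X` with
`8 * lam ≤ L`, `L + 1 < N` get `SRel S Good (L + 1) X'` for
`X' p w := if |w| = L + 1 then ⁅X p (w.take k₀), X (p + k₀) (w.drop k₀)⁆ else X p w`, `k₀ := 3 * lam`.
Call `(p, w)` *decided* if `w ≠ []` and (`Good p w` or `¬ Amb p w`); words of length `≥ lam` are decided.
* (`mul'`) for decided composable `u, v` with `|u| + |v| ≤ L`: `⁅X u, X v⁆ = X (u ++ v)` (if one of them is not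
  `Amb` both sides are `1`, by `left`/`right`, `amb`, `triv`).
* (Hall–Witt) `w = a ++ b ++ d` of length `L + 1`, `a`, `d` decided, `lam ≤ |b|`:
  `⁅X a, X (b ++ d)⁆ = ⁅X (a ++ b), X d⁆`.  Pure group lemma: if `A` commutes with `D`, `⁅B, D⁆` commutes with `D` and
  with `⁅A, B⁆`, then `⁅A, ⁅B, D⁆⁆ = ⁅⁅A, B⁆, D⁆` (conjugate `⁅B, D⁆` by `A`).  The commutations are `comm`
  (non-composable since all the lengths are nonzero modulo `N`).
* So every split `w = u ++ v` into decided parts gives the same commutator: compare the split point `k` with `k₀`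
  directly if `|k - k₀| ≥ lam`, otherwise via `5 * lam`.  This is `mul` at length `L + 1`.
* `eqv`: enough for `Step` (`Eqv.apply_eq`-style induction with the length fixed); choose the split `lam` or
  `lam + 1` not cutting the moved pair (`Step.of_append`).  `triv`: `¬ Good → ¬ Amb`; if `w` is zero use `eqv` to assume
  `HasZ w` and choose a split not cutting the zero pair; otherwise `loc` with `|a| = |b| = lam` shows that a part of
  the split `lam` or `2 * lam` is not `Amb`.
* `comm` for `|u| = L + 1`: split `u` at one of `lam, lam + 1, lam + 2` avoiding both end points of `v`; first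
  `|v| ≤ L`, then `|v| = L + 1`.  `sq`: `X' w = ⁅A, D⁆`, `A * A = 1`, `A` commutes with `X' w`.
-/

set_option autoImplicit false

namespace Crest.Agent.R176

open scoped commutatorElement

variable {α : Type} {S : Sys α} {N : ℕ} {Amb Good : ZMod N → List α → Prop} {lam c : ℕ}

namespace LR

theorem hall_witt {G : Type} [Group G] {A B D : G} (h1 : Commute A D) (h2 : Commute ⁅B, D⁆ D)
    (h3 : Commute ⁅B, D⁆ ⁅A, B⁆) : ⁅A, ⁅B, D⁆⁆ = ⁅⁅A, B⁆, D⁆ := by
  have e1 : A * ⁅B, D⁆ * A⁻¹ = ⁅A, B⁆ * ⁅B, D⁆ * ⁅A, B⁆⁻¹ * ⁅⁅A, B⁆, D⁆ := by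
    have hD : D = A * D * A⁻¹ := by rw [h1.eq, mul_inv_cancel_right]
    have : A * ⁅B, D⁆ * A⁻¹ = ⁅A * B * A⁻¹, A * D * A⁻¹⁆ := by
      simp only [commutatorElement_def]; group
    rw [this, ← hD]
    simp only [commutatorElement_def]; group
  have h4 : Commute ⁅B, D⁆ ⁅⁅A, B⁆, D⁆ := by
    rw [commutatorElement_def ⁅A, B⁆ D]
    exact ((h3.mul_right h2).mul_right h3.inv_right).mul_right h2.inv_right
  rw [commutatorElement_def A, e1, ← h3.eq, mul_inv_cancel_right, h4.eq, mul_inv_cancel_right]

theorem comm_sq {G : Type} [Group G] {A D : G} (h1 : A * A = 1) (h2 : Commute A ⁅A, D⁆) :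
    ⁅A, D⁆ * ⁅A, D⁆ = 1 := by
  have e : ⁅A * A, D⁆ = A * ⁅A, D⁆ * A⁻¹ * ⁅A, D⁆ := by
    simp only [commutatorElement_def]; group
  rw [h2.eq, mul_inv_cancel_right, h1, commutatorElement_one_left] at e
  exact e.symm

theorem commute_comm {G : Type} [Group G] {A D Y : G} (h1 : Commute A Y) (h2 : Commute D Y) :
    Commute ⁅A, D⁆ Y := by
  rw [commutatorElement_def]
  exact ((h1.mul_left h2).mul_left h1.inv_left).mul_left h2.inv_left

theorem add_ne (p : ZMod N) {i j : ℕ} (hi : i < N) (hj : j < N) (h : i ≠ j) :
    p + (i : ZMod N) ≠ p + (j : ZMod N) := fun e => by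
  have := (ZMod.natCast_eq_natCast_iff' i j N).1 (add_left_cancel e)
  rw [Nat.mod_eq_of_lt hi, Nat.mod_eq_of_lt hj] at this
  exact h this

/-- decided paths -/
def Dec (Amb Good : ZMod N → List α → Prop) (p : ZMod N) (w : List α) : Prop :=
  w ≠ [] ∧ (Good p w ∨ ¬ Amb p w)

theorem dec_long (hA : AmbOK S Amb lam) (hG : GoodOK S Amb Good lam) (p : ZMod N) {w : List α}
    (h : lam ≤ w.length) : Dec Amb Good p w := by
  refine ⟨?_, ?_⟩
  · rintro rfl
    have := hA.lam_pos
    simp at h
    omega
  · by_cases ha : Amb p w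
    · exact Or.inl (hG.long p w ha h)
    · exact Or.inr ha

variable {G : Type} [Group G] {X : ZMod N → List α → G} {L : ℕ}

theorem triv' (hG : GoodOK S Amb Good lam) (h : SRel S Good L X) {p : ZMod N} {w : List α}
    (hw : w.length ≤ L) (ha : ¬ Amb p w) : X p w = 1 := h.triv p w hw fun hg => ha (hG.amb p w hg)

theorem mul' (hA : AmbOK S Amb lam) (hG : GoodOK S Amb Good lam) (h : SRel S Good L X) {p : ZMod N}
    {u v : List α} (hl : u.length + v.length ≤ L) (hu : Dec Amb Good p u)
    (hv : Dec Amb Good (p + u.length) v) : ⁅X p u, X (p + u.length) v⁆ = X p (u ++ v) := by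
  rcases hu.2 with hu | hu
  · rcases hv.2 with hv | hv
    · exact h.mul p u v hl hu hv
    · rw [triv' hG h (by omega) hv, commutatorElement_one_right,
        triv' hG h (by simpa using hl) fun ha => hv (hA.right p u v ha)]
  · rw [triv' hG h (by omega) hu, commutatorElement_one_left,
      triv' hG h (by simpa using hl) fun ha => hu (hA.left p u v ha)]

theorem comm' (h : SRel S Good L X) (p : ZMod N) (i j : ℕ) (u v : List α) (hu : u.length ≤ L)
    (hv : v.length ≤ L) (h1 : i + u.length < N) (h2 : j + v.length < N) (h3 : i + u.length ≠ j)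
    (h4 : j + v.length ≠ i) : Commute (X (p + i) u) (X (p + j) v) := by
  refine h.comm _ _ _ _ hu hv ?_ ?_
  · rw [add_assoc, ← Nat.cast_add]
    exact add_ne p h1 (by omega) h3
  · rw [add_assoc, ← Nat.cast_add]
    exact add_ne p h2 (by omega) h4

theorem hw (hA : AmbOK S Amb lam) (hG : GoodOK S Amb Good lam) (h : SRel S Good L X) (hN : L + 1 < N)
    (p : ZMod N) (a b d : List α) (hl : a.length + b.length + d.length = L + 1) (ha : Dec Amb Good p a)
    (hb : lam ≤ b.length) (hd : Dec Amb Good (p + (a.length + b.length : ℕ)) d) :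
    ⁅X p a, X (p + a.length) (b ++ d)⁆ = ⁅X p (a ++ b), X (p + (a.length + b.length : ℕ)) d⁆ := by
  have la : 0 < a.length := List.length_pos_iff.2 ha.1
  have ld : 0 < d.length := List.length_pos_iff.2 hd.1
  have := hA.lam_pos
  have e1 := mul' hA hG h (p := p) (u := a) (v := b) (by omega) ha (dec_long hA hG _ hb)
  have e2 := mul' hA hG h (p := p + a.length) (u := b) (v := d) (by omega) (dec_long hA hG _ hb)
    (by rwa [add_assoc, ← Nat.cast_add])
  rw [add_assoc, ← Nat.cast_add] at e2
  have c1 := comm' h p 0 (a.length + b.length) a d (by omega) (by omega) (by omega) (by omega)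
    (by omega) (by omega)
  have l1 : (b ++ d).length = b.length + d.length := List.length_append
  have l2 : (a ++ b).length = a.length + b.length := List.length_append
  have c2 := comm' h p a.length (a.length + b.length) (b ++ d) d (by omega) (by omega)
    (by omega) (by omega) (by omega) (by omega)
  have c3 := comm' h p a.length 0 (b ++ d) (a ++ b) (by omega) (by omega)
    (by omega) (by omega) (by omega) (by omega)
  rw [Nat.cast_zero, add_zero] at c1 c3
  rw [← e2] at c2 c3
  rw [← e1] at c3
  rw [← e1, ← e2]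
  exact hall_witt c1 c2 c3

/-- the commutator of the split at `k` -/
def Cm (X : ZMod N → List α → G) (p : ZMod N) (w : List α) (k : ℕ) : G :=
  ⁅X p (w.take k), X (p + k) (w.drop k)⁆

theorem hwk (hA : AmbOK S Amb lam) (hG : GoodOK S Amb Good lam) (h : SRel S Good L X) (hN : L + 1 < N)
    (p : ZMod N) {w : List α} (hl : w.length = L + 1) {k k' : ℕ} (hk : k + lam ≤ k') (hk' : k' ≤ L + 1)
    (ha : Dec Amb Good p (w.take k)) (hd : Dec Amb Good (p + k') (w.drop k')) :
    Cm X p w k = Cm X p w k' := by
  have l1 : (w.take k).length = k := by simp; omega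
  have l2 : ((w.drop k).take (k' - k)).length = k' - k := by simp; omega
  have l3 : (w.take k).length + ((w.drop k).take (k' - k)).length = k' := by omega
  have := hw hA hG h hN p (w.take k) ((w.drop k).take (k' - k)) (w.drop k')
    (by rw [l3]; simp; omega) ha (by omega) (by rwa [l3])
  have e1 : (w.drop k).take (k' - k) ++ w.drop k' = w.drop k := by
    conv_rhs => rw [← List.take_append_drop (k' - k) (w.drop k), List.drop_drop]
    rw [show k + (k' - k) = k' by omega]
  have e2 : w.take k ++ (w.drop k).take (k' - k) = w.take k' := by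
    rw [← List.take_add, show k + (k' - k) = k' by omega]
  rw [l3, l1, e1, e2] at this
  exact this

theorem sp (hA : AmbOK S Amb lam) (hG : GoodOK S Amb Good lam) (h : SRel S Good L X) (hc : 8 * lam ≤ L)
    (hN : L + 1 < N) {p : ZMod N} {u v : List α} (hl : u.length + v.length = L + 1)
    (hu : Dec Amb Good p u) (hv : Dec Amb Good (p + u.length) v) :
    Cm X p (u ++ v) (3 * lam) = ⁅X p u, X (p + u.length) v⁆ := by
  have e : ⁅X p u, X (p + u.length) v⁆ = Cm X p (u ++ v) u.length := by simp [Cm]
  have hl' : (u ++ v).length = L + 1 := by simpa using hl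
  have hu' : Dec Amb Good p ((u ++ v).take u.length) := by simpa using hu
  have hv' : Dec Amb Good (p + u.length) ((u ++ v).drop u.length) := by simpa using hv
  have ht : ∀ k, lam ≤ k → Dec Amb Good p ((u ++ v).take k) := fun k hk =>
    dec_long hA hG _ (by rw [List.length_take, hl']; omega)
  have hd : ∀ k : ℕ, k ≤ 7 * lam → Dec Amb Good (p + k) ((u ++ v).drop k) := fun k hk =>
    dec_long hA hG _ (by rw [List.length_drop, hl']; omega)
  rw [e]
  rcases le_or_gt u.length (2 * lam) with h1 | h1
  · exact (hwk hA hG h hN p hl' (by omega) (by omega) hu' (hd _ (by omega))).symm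
  rcases le_or_gt (4 * lam) u.length with h2 | h2
  · exact hwk hA hG h hN p hl' (by omega) (by omega) (ht _ (by omega)) hv'
  · rw [hwk hA hG h hN p hl' (k := 3 * lam) (k' := 5 * lam) (by omega) (by omega) (ht _ (by omega))
      (hd _ (by omega)), hwk hA hG h hN p hl' (k := u.length) (k' := 5 * lam) (by omega) (by omega) hu'
      (hd _ (by omega))]

theorem sp' (hA : AmbOK S Amb lam) (hG : GoodOK S Amb Good lam) (h : SRel S Good L X) (hc : 8 * lam ≤ L)
    (hN : L + 1 < N) (p : ZMod N) {u v : List α} (hl : u.length + v.length = L + 1)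
    (hu : lam ≤ u.length) (hv : lam ≤ v.length) :
    Cm X p (u ++ v) (3 * lam) = ⁅X p u, X (p + u.length) v⁆ :=
  sp hA hG h hc hN hl (dec_long hA hG _ hu) (dec_long hA hG _ hv)

/-- a split which does not cut a given pair -/
theorem exists_split (hlam : 1 ≤ lam) (hc : 8 * lam ≤ L) (u v : List α) (hl : u.length + 2 + v.length = L + 1) :
    (∃ u₁ u₂, u = u₁ ++ u₂ ∧ u₁.length = lam) ∨
      ∃ v₁ v₂, v = v₁ ++ v₂ ∧ v₁.length = lam ∧ lam ≤ v₂.length := by
  rcases le_or_gt lam u.length with h | h
  · exact Or.inl ⟨u.take lam, u.drop lam, by simp, by simp [h]⟩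
  · exact Or.inr ⟨v.take lam, v.drop lam, by simp, by simp; omega, by simp; omega⟩

theorem step_long (hA : AmbOK S Amb lam) (hG : GoodOK S Amb Good lam) (h : SRel S Good L X)
    (hc : 8 * lam ≤ L) (hN : L + 1 < N) (p : ZMod N) {w w' : List α} (hs : S.Step w w')
    (hl : w.length = L + 1) : Cm X p w (3 * lam) = Cm X p w' (3 * lam) := by
  have := hA.lam_pos
  cases hs with
  | @mk u v y z y' z' hm =>
    simp only [List.length_append, List.length_cons] at hl
    rcases exists_split hA.lam_pos hc u v (by omega) with ⟨u₁, u₂, rfl, h1⟩ | ⟨v₁, v₂, rfl, h1, h2⟩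
    · simp only [List.length_append] at hl
      rw [List.append_assoc, List.append_assoc,
        sp' hA hG h hc hN p (by simp; omega) (by omega) (by simp; omega),
        sp' hA hG h hc hN p (by simp; omega) (by omega) (by simp; omega),
        h.eqv _ _ _ (by simp; omega) (Sys.Step.mk u₂ v hm).eqv]
    · simp only [List.length_append] at hl
      have e : ∀ y z : α, u ++ y :: z :: (v₁ ++ v₂) = (u ++ y :: z :: v₁) ++ v₂ := by simp
      rw [e, e, sp' hA hG h hc hN p (by simp; omega) (by simp; omega) h2,
        sp' hA hG h hc hN p (by simp; omega) (by simp; omega) h2,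
        h.eqv _ _ _ (by simp; omega) (Sys.Step.mk u v₁ hm).eqv]
      simp

theorem eqv_long (hA : AmbOK S Amb lam) (hG : GoodOK S Amb Good lam) (h : SRel S Good L X)
    (hc : 8 * lam ≤ L) (hN : L + 1 < N) (p : ZMod N) {w w' : List α} (hs : S.Eqv w w')
    (hl : w.length = L + 1) : Cm X p w (3 * lam) = Cm X p w' (3 * lam) := by
  induction hs with
  | rel _ _ hs => exact step_long hA hG h hc hN p hs hl
  | refl => rfl
  | symm a b e ih => exact (ih (by rw [Sys.Eqv.length_eq (S := S) e]; exact hl)).symm
  | trans a b c e _ ih ih' =>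
    exact (ih hl).trans (ih' (by rw [← Sys.Eqv.length_eq (S := S) e]; exact hl))

theorem triv_long (hA : AmbOK S Amb lam) (hG : GoodOK S Amb Good lam) (h : SRel S Good L X)
    (hc : 8 * lam ≤ L) (hN : L + 1 < N) (p : ZMod N) {w : List α} (hl : w.length = L + 1)
    (hw : ¬ Amb p w) : Cm X p w (3 * lam) = 1 := by
  have := hA.lam_pos
  by_cases hz : S.IsZero w
  · obtain ⟨w', e, u, y, z, v, rfl, hz⟩ := hz
    rw [eqv_long hA hG h hc hN p e hl]
    rw [e.length_eq] at hl
    simp only [List.length_append, List.length_cons] at hl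
    rcases exists_split hA.lam_pos hc u v (by omega) with ⟨u₁, u₂, rfl, h1⟩ | ⟨v₁, v₂, rfl, h1, h2⟩
    · simp only [List.length_append] at hl
      rw [List.append_assoc, sp' hA hG h hc hN p (by simp; omega) (by omega) (by simp; omega),
        triv' hG h (w := u₂ ++ y :: z :: v) (by simp; omega)
          (fun ha => hA.nz _ _ ha (Sys.HasZ.isZero ⟨u₂, y, z, v, rfl, hz⟩)),
        commutatorElement_one_right]
    · simp only [List.length_append] at hl
      have e : u ++ y :: z :: (v₁ ++ v₂) = (u ++ y :: z :: v₁) ++ v₂ := by simp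
      rw [e, sp' hA hG h hc hN p (by simp; omega) (by simp; omega) h2,
        triv' hG h (w := u ++ y :: z :: v₁) (by simp; omega)
          (fun ha => hA.nz _ _ ha (Sys.HasZ.isZero ⟨u, y, z, v₁, rfl, hz⟩)),
        commutatorElement_one_left]
  · obtain ⟨a, b, d, rfl, h1, h2⟩ : ∃ a b d, w = a ++ b ++ d ∧ a.length = lam ∧ b.length = lam :=
      ⟨w.take lam, (w.drop lam).take lam, (w.drop lam).drop lam, by
        rw [List.append_assoc, List.take_append_drop, List.take_append_drop],
        by simp; omega, by simp; omega⟩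
    simp only [List.length_append] at hl
    by_cases h3 : Amb p (a ++ b)
    · have h4 : ¬ Amb (p + a.length) (b ++ d) := fun h4 => hw (hA.loc p a b d hz h3 h4 h2.ge)
      rw [List.append_assoc, sp' hA hG h hc hN p (by simp; omega) (by omega) (by simp; omega),
        triv' hG h (w := b ++ d) (by simp; omega) h4, commutatorElement_one_right]
    · rw [sp' hA hG h hc hN p (by simp; omega) (by simp; omega) (by omega),
        triv' hG h (w := a ++ b) (by simp; omega) h3, commutatorElement_one_left]

theorem comm_long (hA : AmbOK S Amb lam) (hG : GoodOK S Amb Good lam) (h : SRel S Good L X)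
    (hc : 8 * lam ≤ L) (hN : L + 1 < N) {Y : G} {q e : ZMod N}
    (hY : ∀ p u, u.length ≤ L → p + (u.length : ZMod N) ≠ q → e ≠ p → Commute (X p u) Y)
    {p : ZMod N} {u : List α} (hl : u.length = L + 1) (h1 : p + (u.length : ZMod N) ≠ q) (h2 : e ≠ p) :
    Commute (Cm X p u (3 * lam)) Y := by
  have := hA.lam_pos
  obtain ⟨k, k1, k2, k3, k4⟩ : ∃ k : ℕ, lam ≤ k ∧ k ≤ lam + 2 ∧ p + k ≠ q ∧ e ≠ p + k := by
    have n1 := add_ne p (i := lam) (j := lam + 1) (by omega) (by omega) (by omega)
    have n2 := add_ne p (i := lam) (j := lam + 2) (by omega) (by omega) (by omega)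
    have n3 := add_ne p (i := lam + 1) (j := lam + 2) (by omega) (by omega) (by omega)
    by_contra hcon
    push Not at hcon
    have a1 := hcon lam (by omega) (by omega)
    have a2 := hcon (lam + 1) (by omega) (by omega)
    have a3 := hcon (lam + 2) (by omega) (by omega)
    by_cases b1 : p + (lam : ZMod N) = q
    · exact n3 ((a2 (b1 ▸ n1.symm)).symm.trans (a3 (b1 ▸ n2.symm)))
    by_cases b2 : p + ((lam + 1 : ℕ) : ZMod N) = q
    · exact n2 ((a1 b1).symm.trans (a3 (b2 ▸ n3.symm)))
    · exact n1 ((a1 b1).symm.trans (a2 b2))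
  have lk : (u.take k).length = k := by simp; omega
  rw [← List.take_append_drop k u, sp' hA hG h hc hN p (by simp; omega) (by omega) (by simp; omega)]
  refine commute_comm (hY _ _ (by omega) (by rwa [lk]) h2) (hY _ _ (by simp; omega) ?_ (by rwa [lk]))
  rwa [add_assoc, ← Nat.cast_add, ← List.length_append, List.take_append_drop]

theorem step (hA : AmbOK S Amb lam) (hG : GoodOK S Amb Good lam) (h : SRel S Good L X)
    (hc : 8 * lam ≤ L) (hN : L + 1 < N) :
    SRel S Good (L + 1) fun p w => if w.length = L + 1 then Cm X p w (3 * lam) else X p w := by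
  have := hA.lam_pos
  have hcm : ∀ (p : ZMod N) (u : List α) (q : ZMod N) (v : List α), u.length ≤ L + 1 → v.length ≤ L + 1 →
      p + (u.length : ZMod N) ≠ q → q + (v.length : ZMod N) ≠ p →
      Commute (if u.length = L + 1 then Cm X p u (3 * lam) else X p u)
        (if v.length = L + 1 then Cm X q v (3 * lam) else X q v) := by
    have c1 : ∀ (p : ZMod N) (u : List α) (q : ZMod N) (v : List α), u.length = L + 1 → v.length ≤ L →
        p + (u.length : ZMod N) ≠ q → q + (v.length : ZMod N) ≠ p →
        Commute (Cm X p u (3 * lam)) (X q v) := fun p u q v hu hv h1 h2 =>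
      comm_long hA hG h hc hN (fun p' u' hu' h1' h2' => h.comm p' u' q v hu' hv h1' h2') hu h1 h2
    intro p u q v hu hv h1 h2
    split_ifs with h3 h4 h4
    · exact comm_long hA hG h hc hN (fun p' u' hu' h1' h2' => (c1 q v p' u' h4 hu' h2' h1').symm) h3 h1 h2
    · exact c1 p u q v h3 (by omega) h1 h2
    · exact (c1 q v p u h4 (by omega) h2 h1).symm
    · exact h.comm p u q v (by omega) (by omega) h1 h2
  refine ⟨fun p w hw hg => ?_, fun p w w' hw e => ?_, fun p w hw => ?_, fun p u v hl hu hv => ?_, hcm⟩
  · split_ifs with h1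
    · exact triv_long hA hG h hc hN p h1 fun ha => hg (hG.long p w ha (by omega))
    · exact h.triv p w (by omega) hg
  · rw [← e.length_eq]
    split_ifs with h1
    · exact eqv_long hA hG h hc hN p e h1
    · exact h.eqv p w w' (by omega) e
  · split_ifs with h1
    · have lk : (w.take (3 * lam)).length = 3 * lam := by simp; omega
      have c := hcm p (w.take (3 * lam)) p w (by omega) hw
        (by simpa using add_ne p (i := (w.take (3 * lam)).length) (j := 0) (by omega) (by omega) (by omega))
        (by simpa using add_ne p (i := w.length) (j := 0) (by omega) (by omega) (by omega))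
      rw [if_neg (by omega), if_pos h1] at c
      exact comm_sq (h.sq _ _ (by omega)) c
    · exact h.sq p w (by omega)
  · have lu : 0 < u.length := List.length_pos_iff.2 (hG.ne _ _ hu)
    have lv : 0 < v.length := List.length_pos_iff.2 (hG.ne _ _ hv)
    rw [if_neg (by omega), if_neg (by omega), List.length_append]
    split_ifs with h1
    · exact (sp hA hG h hc hN h1 ⟨hG.ne _ _ hu, Or.inl hu⟩ ⟨hG.ne _ _ hv, Or.inl hv⟩).symm
    · exact h.mul p u v (by omega) hu hv

end LR

theorem SRel.exists_long (hA : AmbOK S Amb lam) (hG : GoodOK S Amb Good lam) (hc : 8 * lam ≤ c) (hN : c < N)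
    {G : Type} [Group G] {x : ZMod N → List α → G} (h : SRel S Good c x) :
    ∃ X : ZMod N → List α → G, SRel S Good (N - 1) X ∧ ∀ p w, w.length ≤ c → X p w = x p w := by
  have key : ∀ L, c ≤ L → L < N → ∃ X : ZMod N → List α → G, SRel S Good L X ∧
      ∀ p w, w.length ≤ c → X p w = x p w := by
    intro L hL
    induction L, hL using Nat.le_induction with
    | base => exact fun _ => ⟨x, h, fun _ _ _ => rfl⟩
    | succ L hL ih =>
      intro hN'
      obtain ⟨X, h1, h2⟩ := ih (by omega)
      exact ⟨_, LR.step hA hG h1 (by omega) hN', fun p w hw => by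
        rw [if_neg (by omega), h2 p w hw]⟩
  exact key (N - 1) (by omega) (by omega)

/-- long roots are determined by the short ones (split a long good word at `lam`) -/
theorem SRel.unique (hA : AmbOK S Amb lam) (hG : GoodOK S Amb Good lam) (hc : 8 * lam ≤ c) {L : ℕ}
    {G : Type} [Group G] {X X' : ZMod N → List α → G} (h : SRel S Good L X) (h' : SRel S Good L X')
    (e : ∀ p w, w.length ≤ c → X p w = X' p w) (p : ZMod N) (w : List α) (hw : w.length ≤ L) :
    X p w = X' p w := by
  have := hA.lam_pos
  induction hn : w.length using Nat.strong_induction_on generalizing p w with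
  | _ n ih =>
    rcases le_or_gt w.length c with h1 | h1
    · exact e p w h1
    by_cases hg : Good p w
    · have lk : (w.take lam).length = lam := by simp; omega
      have ld : (w.drop lam).length = w.length - lam := by simp
      have ha := hG.amb p w hg
      rw [← List.take_append_drop lam w] at ha ⊢
      have g1 := hG.long _ _ (hA.left _ _ _ ha) (by omega)
      have g2 := hG.long _ _ (hA.right _ _ _ ha) (by omega)
      rw [← h.mul _ _ _ (by omega) g1 g2, ← h'.mul _ _ _ (by omega) g1 g2,
        ih _ (by omega) p (w.take lam) (by omega) rfl, ih _ (by omega) _ (w.drop lam) (by omega) rfl]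
    · rw [h.triv p w hw hg, h'.triv p w hw hg]

theorem xl_spec (hA : AmbOK S Amb lam) (hG : GoodOK S Amb Good lam) (hc : 8 * lam ≤ c) (hN : c < N) :
    SRel S Good (N - 1) (xl S Good c) ∧ ∀ p w, w.length ≤ c → xl S Good c p w = xg S Good c p w := by
  have h := (xg_rel S Good c).exists_long hA hG hc hN
  rw [xl, dif_pos h]
  exact h.choose_spec

open Classical in
theorem incl_rel {Good' : ZMod N → List α → Prop} {lam' c' : ℕ} (hG : GoodOK S Amb Good lam)
    (hG' : GoodOK S Amb Good' lam') (hle : ∀ p w, Good p w → Good' p w) (hc : c ≤ c') :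
    SRel S Good c fun p w => if Good p w then xg S Good' c' p w else 1 := by
  have h := xg_rel S Good' c'
  refine ⟨fun p w _ hg => if_neg hg, fun p w w' hw e => ?_, fun p w hw => ?_, fun p u v hl hu hv => ?_,
    fun p u q v hu hv h1 h2 => ?_⟩
  · by_cases hg : Good p w
    · rw [if_pos hg, if_pos (hG.eqv p w w' e hg), h.eqv p w w' (by omega) e]
    · rw [if_neg hg, if_neg fun hg' => hg (hG.eqv p w' w e.symm hg')]
  · split_ifs
    · exact h.sq p w (by omega)
    · exact one_mul 1
  · rw [if_pos hu, if_pos hv, h.mul p u v (by omega) (hle _ _ hu) (hle _ _ hv)]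
    split_ifs with hg
    · rfl
    · exact h.triv _ _ (by simp; omega) fun hg' => hg (hG.mul p u v hu hv (hG'.amb _ _ hg'))
  · split_ifs
    · exact h.comm p u q v (by omega) (by omega) h1 h2
    · exact Commute.one_right _
    · exact Commute.one_left _
    · exact Commute.one_left _

theorem incl_xg {Good' : ZMod N → List α → Prop} {lam' c' : ℕ} (hG : GoodOK S Amb Good lam)
    (hG' : GoodOK S Amb Good' lam') (hle : ∀ p w, Good p w → Good' p w) (hc : c ≤ c')
    {p : ZMod N} {w : List α} (hw : w.length ≤ c) (hg : Good p w) :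
    incl S Good Good' c c' (xg S Good c p w) = xg S Good' c' p w := by
  rw [incl, (incl_rel hG hG' hle hc).stLift_xg p hw, if_pos hg]

theorem incl_comp {Good' Good'' : ZMod N → List α → Prop} {lam' lam'' c' c'' : ℕ} (hG : GoodOK S Amb Good lam)
    (hG' : GoodOK S Amb Good' lam') (hG'' : GoodOK S Amb Good'' lam'')
    (hle : ∀ p w, Good p w → Good' p w) (hle' : ∀ p w, Good' p w → Good'' p w) (hc : c ≤ c') (hc' : c' ≤ c'') :
    (incl S Good' Good'' c' c'').comp (incl S Good Good' c c') = incl S Good Good'' c c'' :=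
  St.hom_ext fun p w hw hg => by
    rw [MonoidHom.comp_apply, incl_xg hG hG' hle hc hw hg, incl_xg hG' hG'' hle' hc' (hw.trans hc) (hle p w hg),
      incl_xg hG hG'' (fun p w h => hle' p w (hle p w h)) (hc.trans hc') hw hg]

/-- raising the length bound does not change the group (left inverse: `stLift S Good c' (xl S Good c)`) -/
theorem incl_injective_of_le (hA : AmbOK S Amb lam) (hG : GoodOK S Amb Good lam) (hc : 8 * lam ≤ c) {c' : ℕ}
    (hcc : c ≤ c') (hN : c' < N) : Function.Injective (incl S Good Good c c') := by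
  obtain ⟨h1, h2⟩ := xl_spec hA hG hc (show c < N by omega)
  have h3 : (stLift S Good c' (xl S Good c)).comp (incl S Good Good c c') = MonoidHom.id _ :=
    St.hom_ext fun p w hw hg => by
      rw [MonoidHom.comp_apply, incl_xg hG hG (fun _ _ h => h) hcc hw hg,
        (h1.mono (by omega)).stLift_xg p (hw.trans hcc), h2 p w hw, MonoidHom.id_apply]
  exact Function.LeftInverse.injective (g := stLift S Good c' (xl S Good c)) fun g => DFunLike.congr_fun h3 g

end Crest.Agent.R176
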