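import Crest.Agent.R176.Mach

/-!
# Row 176, machine: local facts and the layout  (task R176-Loc)

First part: case analyses on `Fwd`, `CR`, `CL`, `TR`, `TL`, `Op` (for `fwd_pred_unique`: the track part determines the
old position; `Op` is injective in `(q, d, β)`; destructure the cells).  Second part: lists.  `mem_segs`: all segments
have length `≤ 2 * BL + 1` (`List.finite_length_le`).  `seg_exists`, `seg_of_start`, `lay_prog`: prove the statements
for an arbitrary list of segments in place of `segs` (`List.flatMap`, induction, or `List.append_of_mem`).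
-/

set_option autoImplicit false
set_option linter.unusedSimpArgs false

namespace Crest.Agent.R176

theorem fwd_inv {y z y' z' : Sm} (h : Fwd y z y' z') :
    (∃ p p' m m', y.trk = .tok p m ∧ z'.trk = .tok p' m' ∧ y'.cap = y.cap ∧
      CR p m y.con z.con m' y'.con z'.con ∧ TR z.con.st m' p z.trk z.cap y'.trk p' z'.cap) ∨
    (∃ p p' m m', z.trk = .tok p m ∧ y'.trk = .tok p' m' ∧ y'.con = y.con ∧ y'.cap = y.cap ∧ z'.cap = z.cap ∧
      CL p m z.con m' z'.con ∧ TL z.con.st p y.trk z.cap p' z'.trk) := by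
  cases h with
  | right h1 h2 => exact Or.inl ⟨_, _, _, _, rfl, rfl, rfl, h1, h2⟩
  | left h1 h2 => exact Or.inr ⟨_, _, _, _, rfl, rfl, rfl, rfl, rfl, h1, h2⟩

theorem CR_inv {p : Pos} {m m' : Mode} {y z y' z' : Con} (h : CR p m y z m' y' z') :
    (m = .walk ∧ m' = .walk ∧ y' = y ∧ z' = z) ∨
    (∃ τ, dropOK τ y.st z.st z.dp ∧ z.m1 = false ∧ m = .walk ∧ m' = .main τ (true, y.st.hb) ∧ y' = y ∧
      z' = { z with m1 := true }) ∨
    (∃ τ q, ¬ rel τ (p = .R) y.st ∧ z.m1 = false ∧ m = .main τ q ∧ m' = .main τ q ∧ y' = y ∧ z' = z) ∨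
    (∃ τ q β, rel τ (p = .R) y.st ∧ y.m2 = true ∧ z.m1 = false ∧ (tk τ = true → y.dp = false) ∧
      (tk τ = false → β = false) ∧ m = .goR τ q y.st β ∧ m' = .main τ q ∧
      y' = { y with m2 := false, dp := if tk τ then β else y.dp } ∧ z' = z) ∨
    (∃ τ q σ β q' d' β', y.m1 = true ∧ z.m1 = false ∧ Op τ q y.st y.dp σ β q' d' β' ∧ m = .goL τ q σ β ∧
      m' = .goR τ q' σ β' ∧ y' = { y with m1 := false, dp := d' } ∧ z' = { z with m1 := true }) ∨
    (∃ τ q σ β, y.m2 = false ∧ z.m1 = false ∧ m = .goR τ q σ β ∧ m' = .goR τ q σ β ∧ y' = y ∧ z' = z) := by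
  cases h with
  | walk => exact Or.inl ⟨rfl, rfl, rfl, rfl⟩
  | drop τ _ _ h1 h2 => exact Or.inr (Or.inl ⟨τ, h1, h2, rfl, rfl, rfl, rfl⟩)
  | skip τ q _ _ h1 h2 => exact Or.inr (Or.inr (Or.inl ⟨τ, q, h1, h2, rfl, rfl, rfl, rfl⟩))
  | ret τ q β _ _ h1 h2 h3 h4 h5 =>
    exact Or.inr (Or.inr (Or.inr (Or.inl ⟨τ, q, β, h1, h2, h3, h4, h5, rfl, rfl, rfl, rfl⟩)))
  | op τ q σ β _ _ q' d' β' h1 h2 h3 =>
    exact Or.inr (Or.inr (Or.inr (Or.inr (Or.inl ⟨τ, q, σ, β, q', d', β', h1, h2, h3, rfl, rfl, rfl, rfl⟩))))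
  | gor τ q σ β _ _ h1 h2 =>
    exact Or.inr (Or.inr (Or.inr (Or.inr (Or.inr ⟨τ, q, σ, β, h1, h2, rfl, rfl, rfl, rfl⟩))))

theorem CL_inv {p : Pos} {m m' : Mode} {z z' : Con} (h : CL p m z m' z') :
    (∃ τ q, rel τ (p = .R) z.st ∧ z.m2 = false ∧ m = .main τ q ∧ m' = .goL τ q z.st (tk τ && z.dp) ∧
      z' = { z with m2 := true, dp := if tk τ then false else z.dp }) ∨
    (∃ τ q σ β, z.m1 = false ∧ z.m2 = false ∧ m = .goL τ q σ β ∧ m' = .goL τ q σ β ∧ z' = z) := by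
  cases h with
  | leave τ q _ h1 h2 => exact Or.inl ⟨τ, q, h1, h2, rfl, rfl, rfl⟩
  | gol τ q σ β _ h1 h2 => exact Or.inr ⟨τ, q, σ, β, h1, h2, rfl, rfl, rfl⟩

theorem CR_st {p : Pos} {m m' : Mode} {y z y' z' : Con} (h : CR p m y z m' y' z') :
    y'.st = y.st ∧ z'.st = z.st := by
  cases h <;> exact ⟨rfl, rfl⟩

theorem CL_st {p : Pos} {m m' : Mode} {z z' : Con} (h : CL p m z m' z') : z'.st = z.st := by
  cases h <;> rfl

theorem Op_inj {τ : Task} {q₁ q₂ q' : Bool × Bool} {y σ : Sta} {d₁ d₂ d' β₁ β₂ β' : Bool}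
    (h₁ : Op τ q₁ y d₁ σ β₁ q' d' β') (h₂ : Op τ q₂ y d₂ σ β₂ q' d' β') : q₁ = q₂ ∧ d₁ = d₂ ∧ β₁ = β₂ := by
  cases τ with
  | w1 side =>
    obtain ⟨b, b', e, rfl, rfl, h1, h2⟩ := h₁
    obtain ⟨c, c', e', rfl, rfl, h1', h2'⟩ := h₂
    rw [e] at e'
    obtain ⟨rfl, rfl⟩ := Kind.prog.inj e'
    refine ⟨rfl, rfl, ?_⟩
    cases hr : σ.kd.isRO
    · rw [(h2 hr).1, (h2' hr).1]
    · rw [← (h1 hr).2, ← (h1' hr).2]
  | wst =>
    obtain ⟨rfl, rfl, h1⟩ := h₁
    obtain ⟨rfl, rfl, h2⟩ := h₂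
    refine ⟨?_, rfl, rfl⟩
    obtain ⟨a, b⟩ := q₁
    obtain ⟨a', b'⟩ := q₂
    rcases h1 with ⟨e1, e2, rfl⟩ | ⟨e1, e2, e3, rfl⟩ | ⟨e1, e2, rfl⟩ <;>
      rcases h2 with ⟨f1, f2, f3⟩ | ⟨f1, f2, f3, f4⟩ | ⟨f1, f2, f3⟩
    · exact f3
    · exact absurd e2 f2
    · rw [e1] at f1; exact absurd f1 (by decide)
    · exact absurd f2 e2
    · rw [e3] at f3
      exact Prod.ext (Prod.mk.inj f4).1 f3
    · rw [e1] at f1; exact absurd f1 (by decide)
    · rw [e1] at f1; exact absurd f1 (by decide)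
    · rw [e1] at f1; exact absurd f1 (by decide)
    · rw [e2] at f2
      exact Prod.ext (Bool.xor_right_inj.1 f2) (Prod.mk.inj f3).2
  | w4 side =>
    obtain ⟨-, -, rfl, h1⟩ := h₁
    obtain ⟨-, -, rfl, h2⟩ := h₂
    split_ifs at h1 h2
    · exact ⟨rfl, h1.2.symm.trans h2.2, h1.1.symm.trans h2.1⟩
    · exact ⟨rfl, h1.1.symm.trans h2.1, h1.2.symm.trans h2.2⟩
  | w5 =>
    obtain ⟨-, -, rfl, rfl, rfl, -⟩ := h₁
    obtain ⟨-, -, rfl, rfl, rfl, -⟩ := h₂
    exact ⟨rfl, rfl, rfl⟩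

theorem CR_unique {p : Pos} {m₁ m₂ m' : Mode} {y₁ z₁ y₂ z₂ y' z' : Con} (h₁ : CR p m₁ y₁ z₁ m' y' z')
    (h₂ : CR p m₂ y₂ z₂ m' y' z') : m₁ = m₂ ∧ y₁ = y₂ ∧ z₁ = z₂ := by
  obtain ⟨ys₁, yd₁, ya₁, yb₁⟩ := y₁
  obtain ⟨ys₂, yd₂, ya₂, yb₂⟩ := y₂
  obtain ⟨zs₁, zd₁, za₁, zb₁⟩ := z₁
  obtain ⟨zs₂, zd₂, za₂, zb₂⟩ := z₂
  rcases CR_inv h₁ with ⟨rfl, rfl, rfl, rfl⟩ | ⟨τ, a1, a2, rfl, rfl, rfl, rfl⟩ |
    ⟨τ, q, a1, a2, rfl, rfl, rfl, rfl⟩ | ⟨τ, q, β, a1, a2, a3, a4, a5, rfl, rfl, rfl, rfl⟩ |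
    ⟨τ, q, σ, β, q', d', β', a1, a2, a3, rfl, rfl, rfl, rfl⟩ | ⟨τ, q, σ, β, a1, a2, rfl, rfl, rfl, rfl⟩ <;>
  rcases CR_inv h₂ with ⟨rfl, e1, e2, e3⟩ | ⟨τ₂, b1, b2, rfl, e1, e2, e3⟩ |
    ⟨τ₂, q₂, b1, b2, rfl, e1, e2, e3⟩ | ⟨τ₂, q₂, β₂, b1, b2, b3, b4, b5, rfl, e1, e2, e3⟩ |
    ⟨τ₂, q₂, σ₂, β₂, q₂', d₂', β₂', b1, b2, b3, rfl, e1, e2, e3⟩ |
    ⟨τ₂, q₂, σ₂, β₂, b1, b2, rfl, e1, e2, e3⟩ <;>
  simp only [reduceCtorEq, Mode.main.injEq, Mode.goR.injEq, Con.mk.injEq] at e1 e2 e3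
  all_goals first
    | (simp_all; done)
    | skip
  · obtain ⟨rfl, rfl⟩ := e1
    obtain ⟨rfl, e, rfl, -⟩ := e2
    obtain ⟨rfl, rfl, rfl, rfl⟩ := e3
    cases ht : tk τ <;> simp_all
  · obtain ⟨rfl, rfl, rfl, rfl⟩ := e1
    obtain ⟨rfl, rfl, -, rfl⟩ := e2
    obtain ⟨rfl, rfl, -, rfl⟩ := e3
    obtain ⟨rfl, e, rfl⟩ := Op_inj a3 b3
    simp_all

theorem CL_unique {p : Pos} {m₁ m₂ m' : Mode} {z₁ z₂ z' : Con} (h₁ : CL p m₁ z₁ m' z')
    (h₂ : CL p m₂ z₂ m' z') : m₁ = m₂ ∧ z₁ = z₂ := by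
  obtain ⟨zs₁, zd₁, za₁, zb₁⟩ := z₁
  obtain ⟨zs₂, zd₂, za₂, zb₂⟩ := z₂
  rcases CL_inv h₁ with ⟨τ, q, a1, a2, rfl, rfl, rfl⟩ | ⟨τ, q, σ, β, a1, a2, rfl, rfl, rfl⟩ <;>
  rcases CL_inv h₂ with ⟨τ₂, q₂, b1, b2, rfl, e1, e2⟩ | ⟨τ₂, q₂, σ₂, β₂, b1, b2, rfl, e1, e2⟩ <;>
  simp only [Mode.goL.injEq, Con.mk.injEq] at e1 e2
  · obtain ⟨rfl, rfl, rfl, e⟩ := e1
    cases ht : tk τ <;> simp_all
  all_goals simp_all

theorem TR_unique {z : Sta} {m' : Mode} {p₁ p₂ p' : Pos} {a₁ a₂ b : Trk} {c₁ c₂ c' : Bool}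
    (h₁ : TR z m' p₁ a₁ c₁ b p' c') (h₂ : TR z m' p₂ a₂ c₂ b p' c') : p₁ = p₂ ∧ a₁ = a₂ ∧ c₁ = c₂ := by
  cases h₁ <;> cases h₂ <;> first | exact ⟨rfl, rfl, rfl⟩ | (cases m' <;> simp_all [Mode.isMain, Mode.isGoR])

theorem TL_unique {z : Sta} {p₁ p₂ p' : Pos} {a₁ a₂ b : Trk} {c : Bool}
    (h₁ : TL z p₁ a₁ c p' b) (h₂ : TL z p₂ a₂ c p' b) : p₁ = p₂ ∧ a₁ = a₂ := by
  cases h₁ <;> cases h₂ <;> exact ⟨rfl, rfl⟩

theorem TR_trk {z : Sta} {m' : Mode} {p p' : Pos} {a b : Trk} {c c' : Bool} (h : TR z m' p a c b p' c') :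
    (b = .ra ∨ b = .rb) ∧ (z.home → c' = true) := by
  cases h <;> simp_all

theorem TL_trk {z : Sta} {p p' : Pos} {a b : Trk} {c : Bool} (h : TL z p a c p' b) : b = .la ∨ b = .lb := by
  cases h <;> simp

theorem Sm.ext' {x y : Sm} (h1 : x.con = y.con) (h2 : x.cap = y.cap) (h3 : x.trk = y.trk) : x = y := by
  cases x; cases y; simp_all

theorem fwd_pred_unique {y₁ z₁ y₂ z₂ y z : Sm} (h₁ : Fwd y₁ z₁ y z) (h₂ : Fwd y₂ z₂ y z) : y₁ = y₂ ∧ z₁ = z₂ := by
  rcases fwd_inv h₁ with ⟨p, p', m, m', a1, a2, a3, a4, a5⟩ | ⟨p, p', m, m', a1, a2, a3, a4, a5, a6, a7⟩ <;>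
    rcases fwd_inv h₂ with ⟨q, q', n, n', b1, b2, b3, b4, b5⟩ | ⟨q, q', n, n', b1, b2, b3, b4, b5, b6, b7⟩
  · rw [a2] at b2
    obtain ⟨rfl, rfl⟩ := Trk.tok.inj b2
    rw [← (CR_st a4).2] at a5
    rw [← (CR_st b4).2] at b5
    obtain ⟨rfl, e1, e2⟩ := TR_unique a5 b5
    obtain ⟨rfl, e3, e4⟩ := CR_unique a4 b4
    exact ⟨Sm.ext' e3 (a3.symm.trans b3) (a1.trans b1.symm), Sm.ext' e4 e2 e1⟩
  · have := (TR_trk a5).1
    rw [b2] at this
    simp at this
  · have := (TR_trk b5).1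
    rw [a2] at this
    simp at this
  · rw [a2] at b2
    obtain ⟨rfl, rfl⟩ := Trk.tok.inj b2
    rw [← CL_st a6, ← a5] at a7
    rw [← CL_st b6, ← b5] at b7
    obtain ⟨rfl, e1⟩ := TL_unique a7 b7
    obtain ⟨rfl, e2⟩ := CL_unique a6 b6
    exact ⟨Sm.ext' (a3.symm.trans b3) (a4.symm.trans b4) e1, Sm.ext' e2 (a5.symm.trans b5) (a1.trans b1.symm)⟩

theorem fwd_st {y z y' z' : Sm} (h : Fwd y z y' z') : y'.con.st = y.con.st ∧ z'.con.st = z.con.st := by
  rcases fwd_inv h with ⟨p, p', m, m', -, -, -, a4, -⟩ | ⟨p, p', m, m', -, -, a3, -, -, a6, -⟩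
  · exact CR_st a4
  · exact ⟨by rw [a3], CL_st a6⟩

theorem smv_st {y z y' z' : Sm} (h : smv y z y' z') : y'.con.st = y.con.st ∧ z'.con.st = z.con.st := by
  rcases h with h | ⟨h, rfl⟩
  · exact fwd_st h
  · cases h <;> exact ⟨rfl, rfl⟩

/-- the result of a forward move: the token went to the right or to the left -/
theorem fwd_cases {y z y' z' : Sm} (h : Fwd y z y' z') :
    ((∃ p m, y.trk = .tok p m) ∧ (y'.trk = .ra ∨ y'.trk = .rb) ∧ (∃ p m, z'.trk = .tok p m ∧ m.isGoL = false) ∧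
        (z.con.st.home → z'.cap = true)) ∨
      ((∃ p m, z.trk = .tok p m ∧ m ≠ .walk) ∧ (z'.trk = .la ∨ z'.trk = .lb) ∧
        (∃ p m, y'.trk = .tok p m ∧ m.isGoL = true)) := by
  rcases fwd_inv h with ⟨p, p', m, m', a1, a2, a3, a4, a5⟩ | ⟨p, p', m, m', a1, a2, a3, a4, a5, a6, a7⟩
  · refine Or.inl ⟨⟨p, m, a1⟩, (TR_trk a5).1, ⟨p', m', a2, ?_⟩, (TR_trk a5).2⟩
    generalize y.con = a at a4
    generalize z.con = b at a4
    generalize y'.con = c at a4
    generalize z'.con = d at a4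
    cases a4 <;> rfl
  · generalize z.con = b at a6
    generalize z'.con = d at a6
    refine Or.inr ⟨⟨p, m, a1, ?_⟩, TL_trk a7, ⟨p', m', a2, ?_⟩⟩
    · cases a6 <;> simp
    · cases a6 <;> rfl

/-- a word with exactly one token has at most one predecessor -/
theorem step_pred_unique {w₁ w₂ w : List Sm} (h₁ : FS.Step w₁ w) (h₂ : FS.Step w₂ w)
    (hu : ∀ (i j : ℕ) (x y : Sm) (p q : Pos) (m m' : Mode), w[i]? = some x → w[j]? = some y → x.trk = .tok p m →
      y.trk = .tok q m' → i = j) : w₁ = w₂ := by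
  obtain ⟨i, y, z, y', z', hm, a1, a2, a3, a4, a5⟩ := h₁.exists_index
  obtain ⟨j, u, v, u', v', hn, b1, b2, b3, b4, b5⟩ := h₂.exists_index
  have hij : i = j := by
    rcases fwd_cases hm with ⟨-, -, ⟨p, m, e, f⟩, -⟩ | ⟨-, -, p, m, e, f⟩ <;>
      rcases fwd_cases hn with ⟨-, -, ⟨p', m', e', f'⟩, -⟩ | ⟨-, -, p', m', e', f'⟩
    · have := hu _ _ _ _ _ _ _ _ a4 b4 e e'
      omega
    · have h := hu _ _ _ _ _ _ _ _ a4 b3 e e'
      rw [h, b3] at a4
      obtain rfl := Option.some.inj a4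
      rw [e] at e'
      obtain ⟨-, rfl⟩ := Trk.tok.inj e'
      rw [f] at f'
      exact absurd f' (by decide)
    · have h := hu _ _ _ _ _ _ _ _ a3 b4 e e'
      rw [h, b4] at a3
      obtain rfl := Option.some.inj a3
      rw [e] at e'
      obtain ⟨-, rfl⟩ := Trk.tok.inj e'
      rw [f] at f'
      exact absurd f' (by decide)
    · exact hu _ _ _ _ _ _ _ _ a3 b3 e e'
  subst hij
  rw [a3] at b3
  rw [a4] at b4
  obtain rfl := Option.some.inj b3
  obtain rfl := Option.some.inj b4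
  obtain ⟨rfl, rfl⟩ := fwd_pred_unique hm hn
  refine List.ext_getElem? fun k => ?_
  by_cases h1 : k = i
  · rw [h1, a1, b1]
  by_cases h2 : k = i + 1
  · rw [h2, a2, b2]
  rw [← a5 k h1 h2, ← b5 k h1 h2]

theorem fs_step_ss {w w' : List Sm} (h : FS.Step w w') : SS.Step w w' := by
  cases h with
  | mk u v h => exact Sys.Step.mk (S := SS) u v (Or.inl h)

theorem Reach1.eqv {w₀ w : List Sm} (h : Reach1 w₀ w) : SS.Eqv w₀ w := by
  induction h with
  | refl => exact Sys.Eqv.refl _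
  | tail _ h ih => exact ih.trans (fs_step_ss h).eqv

theorem Reach2.eqv {w₀ w₁ w : List Sm} (h : Reach2 w₀ w₁ w) : SS.Eqv (w₀ ++ w₁) w := by
  induction h with
  | @cap a r y z y' z' h1 h2 h3 =>
    subst h2
    refine (h1.eqv.append_right _).trans ?_
    simpa using (Sys.Step.mk (S := SS) a r (Or.inl h3 : smv y z y' z')).eqv
  | step _ h ih => exact ih.trans (fs_step_ss h).eqv

theorem Sg_mv_badB {s : ℕ} {Y Z Y' Z' : Lt s} (h : (Sg s).mv Y Z Y' Z') :
    (BadB Y ↔ BadB Y') ∧ (BadB Z ↔ BadB Z') := by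
  rcases h with ⟨y', z', h, rfl, rfl⟩ | ⟨h1, h2, rfl, rfl⟩
  · obtain ⟨e1, e2⟩ := smv_st h
    simp only [BadB, Lt.setSm, Lt.me, e1, e2, and_self]
  · have h3 : Y.me.sw = 1 := h1.2
    simp only [BadB, Lt.setD, Lt.me] at h2 h3 ⊢
    simp [h2, h3]

theorem Sg_eqv_badB {s : ℕ} {u u' : List (Lt s)} (h : (Sg s).Eqv u u') :
    (∀ X ∈ u, ¬ BadB X) ↔ ∀ X ∈ u', ¬ BadB X := by
  induction h with
  | rel _ _ h =>
    cases h with
    | mk u v h =>
      obtain ⟨e1, e2⟩ := Sg_mv_badB h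
      simp only [List.mem_append, List.mem_cons, or_imp, forall_and, forall_eq, e1, e2]
  | refl => rfl
  | symm _ _ _ ih => exact ih.symm
  | trans _ _ _ _ _ ih ih' => exact ih.trans ih'

/-! ### codes -/

theorem mem_univ_toList {α : Type} [Fintype α] (x : α) : x ∈ (Finset.univ : Finset α).toList :=
  Finset.mem_toList.2 (Finset.mem_univ x)

theorem mem_allSm (x : Sm) : x ∈ allSm := by unfold allSm; exact mem_univ_toList x

theorem mem_allSta (x : Sta) : x ∈ allSta := by unfold allSta; exact mem_univ_toList x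

theorem code_length (x : Sm) : (code x).length = BL := by
  simp only [code, BL, RL, List.length_append, List.length_ofFn, List.length_map, List.length_singleton]

theorem code_injective : Function.Injective code := by
  intro x y h
  have h1 := (List.append_inj' h rfl).1
  have h2 := (List.append_inj' h1 (by simp only [List.length_map])).2
  have h3 : x ∈ allSm := mem_allSm x
  have h4 := List.map_inj_left.1 h2 x h3
  simpa using h4

theorem code_cbit (x : Sm) (j : Fin 8) : (code x).getD j false = cbit x.con.st.me j := by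
  have := j.2
  rw [code, List.append_assoc, List.append_assoc, List.getD_eq_getElem?_getD,
    List.getElem?_append_left (by rw [List.length_ofFn]; exact j.2), List.getElem?_ofFn, dif_pos j.2]
  rfl

theorem code_perm (x : Sm) : (code x).getD (BL - 1) false = decide (permit x) := by
  have h := code_length x
  rw [code, List.length_append, List.length_singleton] at h
  rw [code, List.getD_eq_getElem?_getD, List.getElem?_append_right (by omega), ← h]
  simp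

theorem code_ro_eq {x y : Sm} (h : x.con.st = y.con.st) {k : ℕ} (hk : k < RL) :
    (code x).getD k false = (code y).getD k false := by
  have e : ∀ x : Sm, (code x).getD k false =
      (List.ofFn (cbit x.con.st.me) ++ allSta.map (fun σ => decide (σ = x.con.st))).getD k false := fun x => by
    rw [code, List.append_assoc, List.getD_eq_getElem?_getD, List.getD_eq_getElem?_getD,
      List.getElem?_append_left (by simpa only [List.length_append, List.length_ofFn, List.length_map, RL] using hk)]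
  rw [e, e, h]

theorem st_eq_of_code_ro {x y : Sm} (h : ∀ k, k < RL → (code x).getD k false = (code y).getD k false) :
    x.con.st = y.con.st := by
  obtain ⟨k, hk, e⟩ := List.getElem_of_mem (mem_allSta x.con.st)
  have e' : ∀ z : Sm, (code z).getD (8 + k) false = decide (x.con.st = z.con.st) := fun z => by
    rw [code, List.append_assoc, List.append_assoc, List.getD_eq_getElem?_getD,
      List.getElem?_append_right (by rw [List.length_ofFn]; omega), List.length_ofFn, Nat.add_sub_cancel_left,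
      List.getElem?_append_left (by rwa [List.length_map]), List.getElem?_map, List.getElem?_eq_getElem hk, e]
    rfl
  have := h (8 + k) (by unfold RL; omega)
  rw [e', e'] at this
  simpa using this

theorem RL_ge : 8 ≤ RL := Nat.le_add_right _ _

theorem RL_lt_BL : RL < BL := by unfold BL; omega

/-! ### the layout -/

theorem mem_segs {g : Seg} : g ∈ segs ↔ IsSeg g := by
  have hf : {g | IsSeg g}.Finite := by
    refine ((List.finite_length_le (Bool × Bool) (2 * BL + 1)).prod Set.finite_univ).subset fun g hg => ?_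
    refine ⟨?_, Set.mem_univ _⟩
    rcases hg with ⟨x, y, x', y', -, rfl⟩ | ⟨x, y, -, rfl⟩ | ⟨r, hr, -, rfl⟩ <;>
      simp [code2, code_length, *] <;> omega
  rw [segs, dif_pos hf, Finset.mem_toList, Set.Finite.mem_toFinset]
  rfl

theorem IsSeg.length {g : Seg} (h : IsSeg g) : g.1.length = BL ∨ g.1.length = 2 * BL + 1 := by
  rcases h with ⟨x, y, x', y', -, rfl⟩ | ⟨x, y, -, rfl⟩ | ⟨r, hr, -, rfl⟩ <;>
    simp [code2, code_length, *] <;> omega

/-- the program of a list of segments -/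
def progOf (L : List Seg) : List Kind := L.flatMap fun g => g.1.map (fun bb => Kind.prog bb.1 bb.2) ++ [endK g.2]

theorem progL_eq : progL = progOf segs := rfl

theorem progOf_split (A B : List Seg) (g : Seg) : progOf (A ++ g :: B) =
    progOf A ++ (g.1.map (fun bb => Kind.prog bb.1 bb.2) ++ endK g.2 :: progOf B) := by
  simp [progOf]

theorem progOf_index (L : List Seg) {n : ℕ} (h : n < (progOf L).length) :
    ∃ A g B k, L = A ++ g :: B ∧ n = (progOf A).length + k ∧ k ≤ g.1.length := by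
  induction L generalizing n with
  | nil => simp [progOf] at h
  | cons g L ih =>
    rcases le_or_gt n g.1.length with h1 | h1
    · exact ⟨[], g, L, n, rfl, by simp [progOf], h1⟩
    · have e := progOf_split [] L g
      rw [List.nil_append] at e
      rw [e] at h
      simp only [List.length_append, List.length_map, List.length_cons] at h
      have h0 : (progOf []).length = 0 := rfl
      obtain ⟨A, g', B, k, rfl, h2, h3⟩ := ih (n := n - (g.1.length + 1)) (by omega)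
      refine ⟨g :: A, g', B, k, rfl, ?_, h3⟩
      have e' := progOf_split [] A g
      rw [List.nil_append] at e'
      rw [e']
      simp only [List.length_append, List.length_map, List.length_cons]
      omega

theorem endK_isSep (e : Bool) : (endK e).isSep = true := by cases e <;> rfl

theorem lay_of_lt {n : ℕ} (h : n < progL.length) : Lay (1 + n) = progL.getD n .fill := by
  rw [Lay, if_neg (by omega), if_pos (by unfold R0; omega), Nat.add_sub_cancel_left]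

theorem segAt_of_split {A B : List Seg} {g : Seg} (h : segs = A ++ g :: B) :
    SegAt (1 + (progOf A).length) g := by
  have e : progL = progOf A ++ (g.1.map (fun bb => Kind.prog bb.1 bb.2) ++ endK g.2 :: progOf B) := by
    rw [progL_eq, h, progOf_split]
  have hl : progL.length = (progOf A).length + (g.1.length + ((progOf B).length + 1)) := by
    rw [e]; simp
  refine ⟨by omega, by unfold R0; omega, ?_, fun k hk => ?_, ?_⟩
  · rw [Nat.add_sub_cancel_left]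
    rcases List.eq_nil_or_concat A with rfl | ⟨A', g', rfl⟩
    · simp [progOf, Lay, Kind.isSep]
    · rw [List.concat_eq_append, progOf_split] at e hl ⊢
      have h0 : progOf [] = [] := rfl
      rw [h0] at e hl ⊢
      simp only [List.length_append, List.length_map, List.length_cons, List.length_nil] at hl ⊢
      rw [show (progOf A').length + (g'.1.length + (0 + 1)) = 1 + ((progOf A').length + g'.1.length) by omega,
        lay_of_lt (by omega), e]
      simp [List.getElem?_append_right, endK_isSep]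
  · rw [add_assoc, lay_of_lt (by omega), e]
    simp [List.getElem?_append_right, List.getElem?_append_left, hk]
  · rw [add_assoc, lay_of_lt (by omega), e]
    simp [List.getElem?_append_right]

theorem seg_exists {g : Seg} (h : IsSeg g) : ∃ p, SegAt p g := by
  obtain ⟨A, B, e⟩ := List.append_of_mem (mem_segs.2 h)
  exact ⟨_, segAt_of_split e⟩

theorem seg_of_start {p : ℕ} (h1 : (Lay p).isSep = true) (h2 : (Lay (p + 1)).isProg = true) :
    ∃ g, IsSeg g ∧ SegAt (p + 1) g := by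
  have hp : p < progL.length := by
    by_contra hp
    have hR : ¬ p + 1 < R0 := by unfold R0; omega
    rw [Lay, if_neg (by omega), if_neg hR] at h2
    split_ifs at h2
    · unfold regKind at h2
      split_ifs at h2 <;> simp [Kind.isProg] at h2
    all_goals simp [Kind.isProg] at h2
  obtain ⟨A, g, B, k, e, hk, hk'⟩ := progOf_index segs hp
  have hs := segAt_of_split e
  refine ⟨g, mem_segs.1 (by simp [e]), ?_⟩
  rcases k with _ | k
  · rwa [hk, add_zero, add_comm]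
  · have := hs.2.2.2.1 k (by omega)
    rw [show 1 + (progOf A).length + k = p by omega] at this
    rw [this] at h1
    simp [Kind.isSep] at h1

theorem R0_pos : 1 ≤ R0 := Nat.le_add_right _ _

theorem lay_prog {i : ℕ} (h1 : 1 ≤ i) (h2 : i < R0) : (Lay i).isProg = true ∨ Lay i = .endZ ∨ Lay i = .endB := by
  obtain ⟨A, g, B, k, e, hk, hk'⟩ := progOf_index segs (n := i - 1) (by unfold R0 at h2; rw [← progL_eq]; omega)
  have hs := segAt_of_split e
  have hi : i = 1 + (progOf A).length + k := by omega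
  rcases hk'.lt_or_eq with h | rfl
  · rw [hi, hs.2.2.2.1 k h]
    exact Or.inl rfl
  · rw [hi, hs.2.2.2.2]
    cases g.2
    · exact Or.inr (Or.inl rfl)
    · exact Or.inr (Or.inr rfl)

theorem lay_zero : Lay 0 = .home := by simp [Lay]

theorem lay_reg {k : ℕ} (h : k < BL) : Lay (R0 + k) = regKind k := by
  have := R0_pos
  rw [Lay, if_neg (by omega), if_neg (by omega), if_pos (by omega), Nat.add_sub_cancel_left]

theorem lay_dummy : Lay (R0 + BL) = .dummy := by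
  have := R0_pos
  rw [Lay, if_neg (by omega), if_neg (by omega), if_neg (by omega), if_pos rfl]

theorem lay_fill {i : ℕ} (h : PL ≤ i) : Lay i = .fill := by
  have := R0_pos
  unfold PL at h
  rw [Lay, if_neg (by omega), if_neg (by omega), if_neg (by omega), if_neg (by omega)]

theorem lay_cases (i : ℕ) : (i = 0 ∧ Lay i = .home) ∨
    (1 ≤ i ∧ i < R0 ∧ ((∃ b b', Lay i = .prog b b') ∨ Lay i = .endZ ∨ Lay i = .endB)) ∨
    (∃ j : Fin 8, i = R0 + j ∧ Lay i = .ro (some j)) ∨ (R0 + 8 ≤ i ∧ i < R0 + RL ∧ Lay i = .ro none) ∨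
    (R0 + RL ≤ i ∧ i + 1 < R0 + BL ∧ Lay i = .rw) ∨ (i + 1 = R0 + BL ∧ Lay i = .perm) ∨
    (i = R0 + BL ∧ Lay i = .dummy) ∨ (R0 + BL < i ∧ Lay i = .fill) := by
  have := RL_ge
  have := RL_lt_BL
  rcases Nat.eq_zero_or_pos i with rfl | h0
  · exact Or.inl ⟨rfl, lay_zero⟩
  right
  rcases lt_or_ge i R0 with h1 | h1
  · refine Or.inl ⟨h0, h1, ?_⟩
    rcases lay_prog h0 h1 with h | h | h
    · left
      cases hl : Lay i <;> simp_all [Kind.isProg]
    · exact Or.inr (Or.inl h)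
    · exact Or.inr (Or.inr h)
  right
  obtain ⟨k, rfl⟩ := Nat.exists_eq_add_of_le h1
  rcases lt_trichotomy k BL with h2 | rfl | h2
  · rw [lay_reg h2, regKind]
    split_ifs with h3 h4 h5
    · exact Or.inl ⟨⟨k, h3⟩, rfl, rfl⟩
    · exact Or.inr (Or.inl ⟨by omega, by omega, rfl⟩)
    · exact Or.inr (Or.inr (Or.inl ⟨by omega, by omega, rfl⟩))
    · exact Or.inr (Or.inr (Or.inr (Or.inl ⟨by omega, rfl⟩)))
  · exact Or.inr (Or.inr (Or.inr (Or.inr (Or.inl ⟨rfl, lay_dummy⟩))))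
  · exact Or.inr (Or.inr (Or.inr (Or.inr (Or.inr ⟨by omega, lay_fill (by unfold PL; omega)⟩))))

theorem lay_home_iff {i : ℕ} : Lay i = .home ↔ i = 0 := by
  have := RL_ge
  have := RL_lt_BL
  have := R0_pos
  rcases lay_cases i with ⟨h, e⟩ | ⟨h, h', ⟨b, b', e⟩ | e | e⟩ | ⟨j', h, e⟩ | ⟨h, h', e⟩ | ⟨h, h', e⟩ | ⟨h, e⟩ |
    ⟨h, e⟩ | ⟨h, e⟩ <;> rw [e] <;> simp [Kind.isReg, Kind.isRO, Kind.isDat, Fin.ext_iff] <;> omega

theorem lay_isReg_iff {i : ℕ} : (Lay i).isReg = true ↔ R0 ≤ i ∧ i ≤ R0 + BL := by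
  have := RL_ge
  have := RL_lt_BL
  have := R0_pos
  rcases lay_cases i with ⟨h, e⟩ | ⟨h, h', ⟨b, b', e⟩ | e | e⟩ | ⟨j', h, e⟩ | ⟨h, h', e⟩ | ⟨h, h', e⟩ | ⟨h, e⟩ |
    ⟨h, e⟩ | ⟨h, e⟩ <;> rw [e] <;> simp [Kind.isReg, Kind.isRO, Kind.isDat, Fin.ext_iff] <;> omega

theorem lay_isRO_iff {i : ℕ} : (Lay i).isRO = true ↔ R0 ≤ i ∧ i < R0 + RL := by
  have := RL_ge
  have := RL_lt_BL
  have := R0_pos
  rcases lay_cases i with ⟨h, e⟩ | ⟨h, h', ⟨b, b', e⟩ | e | e⟩ | ⟨j', h, e⟩ | ⟨h, h', e⟩ | ⟨h, h', e⟩ | ⟨h, e⟩ |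
    ⟨h, e⟩ | ⟨h, e⟩ <;> rw [e] <;> simp [Kind.isReg, Kind.isRO, Kind.isDat, Fin.ext_iff] <;> omega

theorem lay_ro_some_iff {i : ℕ} {j : Fin 8} : Lay i = .ro (some j) ↔ i = R0 + j := by
  have := RL_ge
  have := RL_lt_BL
  have := R0_pos
  rcases lay_cases i with ⟨h, e⟩ | ⟨h, h', ⟨b, b', e⟩ | e | e⟩ | ⟨j', h, e⟩ | ⟨h, h', e⟩ | ⟨h, h', e⟩ | ⟨h, e⟩ |
    ⟨h, e⟩ | ⟨h, e⟩ <;> rw [e] <;> simp [Kind.isReg, Kind.isRO, Kind.isDat, Fin.ext_iff] <;> omega

theorem lay_rw_perm_iff {i : ℕ} : (Lay i = .rw ∨ Lay i = .perm) ↔ R0 + RL ≤ i ∧ i < R0 + BL := by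
  have := RL_ge
  have := RL_lt_BL
  have := R0_pos
  rcases lay_cases i with ⟨h, e⟩ | ⟨h, h', ⟨b, b', e⟩ | e | e⟩ | ⟨j', h, e⟩ | ⟨h, h', e⟩ | ⟨h, h', e⟩ | ⟨h, e⟩ |
    ⟨h, e⟩ | ⟨h, e⟩ <;> rw [e] <;> simp [Kind.isReg, Kind.isRO, Kind.isDat, Fin.ext_iff] <;> omega

theorem lay_perm_iff {i : ℕ} : Lay i = .perm ↔ i + 1 = R0 + BL := by
  have := RL_ge
  have := RL_lt_BL
  have := R0_pos
  rcases lay_cases i with ⟨h, e⟩ | ⟨h, h', ⟨b, b', e⟩ | e | e⟩ | ⟨j', h, e⟩ | ⟨h, h', e⟩ | ⟨h, h', e⟩ | ⟨h, e⟩ |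
    ⟨h, e⟩ | ⟨h, e⟩ <;> rw [e] <;> simp [Kind.isReg, Kind.isRO, Kind.isDat, Fin.ext_iff] <;> omega

theorem lay_isDat_iff {i : ℕ} : (Lay i).isDat = true ↔ R0 + BL ≤ i + 1 := by
  have := RL_ge
  have := RL_lt_BL
  have := R0_pos
  rcases lay_cases i with ⟨h, e⟩ | ⟨h, h', ⟨b, b', e⟩ | e | e⟩ | ⟨j', h, e⟩ | ⟨h, h', e⟩ | ⟨h, h', e⟩ | ⟨h, e⟩ |
    ⟨h, e⟩ | ⟨h, e⟩ <;> rw [e] <;> simp [Kind.isReg, Kind.isRO, Kind.isDat, Fin.ext_iff] <;> omega

/-! ### frames -/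

variable {s : ℕ}

theorem PL_lt_pow (hs : PL ≤ s) : PL < 2 ^ s := lt_of_le_of_lt hs Nat.lt_two_pow_self

theorem meS_sw {i : ℕ} (hi : i < FL s) : (meS s i).sw.val = i / 2 ^ s := by
  refine Nat.mod_eq_of_lt ?_
  rw [Nat.div_lt_iff_lt_mul (Nat.two_pow_pos s)]
  exact hi

theorem kd_of_me (hs : PL ≤ s) {σ : Sta} {i : ℕ} (hi : i < FL s) (h : σ.me = meS s i) : σ.kd = Lay i := by
  have h1 := meS_sw hi
  have h2 := PL_lt_pow hs
  rw [Sta.kd, h]
  split_ifs with h0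
  · rcases le_total i s with h3 | h3
    · simp only [meS, min_eq_left h3]
    · simp only [meS, min_eq_right h3]
      rw [lay_fill hs, lay_fill (hs.trans h3)]
  · have : 2 ^ s ≤ i := by
      by_contra hlt
      exact h0 (Fin.ext (by rw [h1, Nat.div_eq_of_lt (by omega)]; rfl))
    rw [lay_fill (by omega)]

theorem Std.kd (hs : PL ≤ s) {n : ℕ} {σ : ℕ → Sta} (h : Std s n σ) {i : ℕ} (hi : i < n) :
    (σ i).kd = Lay (i % FL s) :=
  kd_of_me hs (Nat.mod_lt _ (by unfold FL; positivity)) (h i hi)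

theorem Std.home_iff (hs : PL ≤ s) {σ : ℕ → Sta} (h : Std s (2 * FL s) σ) {i : ℕ} (hi : i < 2 * FL s) :
    (σ i).home ↔ i = 0 ∨ i = FL s := by
  rw [Sta.home, h.kd hs hi, lay_home_iff]
  rcases lt_or_ge i (FL s) with h1 | h1
  · rw [Nat.mod_eq_of_lt h1]; omega
  · rw [Nat.mod_eq_sub_mod h1, Nat.mod_eq_of_lt (by omega)]; omega

theorem std_stP (X Y : Lt (2 ^ s)) : Std s (2 * FL s) (stP X Y) := by
  intro i hi
  rw [stP, pr2]
  split_ifs with h1
  · rw [Nat.mod_eq_of_lt h1]; rfl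
  · rw [Nat.mod_eq_sub_mod (by omega), Nat.mod_eq_of_lt (by omega)]; rfl

/-- the static parts of a frame determine the static part of the encoded letter -/
theorem stX_inj (hs : PL ≤ s) {X Y : Lt (2 ^ s)} (h : ∀ i, i < FL s → stX X i = stX Y i) :
    X.st = Y.st ∧ X.a = Y.a ∧ X.h = Y.h := by
  have h2 := PL_lt_pow hs
  have h3 := RL_lt_BL
  have hpos := Nat.two_pow_pos s
  unfold PL at h2
  unfold FL at h
  refine ⟨st_eq_of_code_ro fun k hk => ?_, Fin.ext (Nat.eq_of_testBit_eq fun j => ?_), Fin.ext ?_⟩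
  · have := congrArg Sta.sp (h (R0 + k) (by omega))
    have e : (R0 + k) / 2 ^ s ≠ 1 := by rw [Nat.div_eq_of_lt (by omega)]; omega
    simp only [stX, spX, if_neg e, if_pos (show R0 ≤ R0 + k ∧ R0 + k < R0 + RL by omega),
      Nat.add_sub_cancel_left] at this
    exact this
  · rcases lt_or_ge j (2 ^ s) with hj | hj
    · have := congrArg Sta.sp (h (2 ^ s + j) (by omega))
      have e : (2 ^ s + j) / 2 ^ s = 1 := by rw [Nat.add_div_left _ hpos, Nat.div_eq_of_lt hj]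
      simp only [stX, spX, if_pos e, Nat.add_sub_cancel_left] at this
      exact this
    · rw [Nat.testBit_lt_two_pow (X.a.2.trans_le (Nat.pow_le_pow_right (by norm_num) hj)),
        Nat.testBit_lt_two_pow (Y.a.2.trans_le (Nat.pow_le_pow_right (by norm_num) hj))]
  · have h4 := congrArg Sta.hb (h X.h.val (by have := X.h.2; omega))
    have h5 := congrArg Sta.hb (h Y.h.val (by have := Y.h.2; omega))
    simp only [stX, decide_eq_decide] at h4 h5
    omega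

end Crest.Agent.R176
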