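import Crest.Agent.R176.Sys

/-!
# Row 176: the machine (all definitions; complete)

The system `Sg s` (alphabet `Lt s`) simulates `Sg (2 ^ s)`: a letter `X : Lt (2 ^ s)` is encoded by a *frame* `enc X` of
`FL s = 4 * 2 ^ s` cells (four *sweeps* of `2 ^ s` cells: `0` program and registers, `1` the bits of the address `X.a`
(its cells are also the *slots* which carry the exchangeable data `d` of this level), `2` the bits of the datum `X.d`,
`3` filler).  A letter has a *small part* `Sm` (a fixed finite type) and a big part `(a, h, d)`.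

Every frame owns one token.  It walks freely in its frame, or it *drops* the mark `m1` and starts a two pointer task:
in mode `main` it looks for the next relevant cell, marks it (`m2`), carries its static part `σ` and its bit `β` to the
left (`goL`) to the mark `m1`, operates and advances `m1` (`Op`), returns (`goR`), writes the bit back and goes on.  When
it leaves its frame to the right it captures the idle token of the next frame.  Tasks: `w1` compares the registers of
the two frames with a segment of the program (moves and zero pairs of the small system itself, invalid codes), `wst`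
checks the successor conditions for `a` and `h`, `w4` exchanges the data, `w5` tests them for equality.  Forward moves
`Fwd` are backward deterministic, a token without predecessor is zero (`NoPred`); bridges `Br` identify the ends of two
runs.

NEVER use `decide`/`rfl`/`simp` in a way that enumerates `Sta`, `Mode`, `Trk`, `Sm` (they are huge).
-/

set_option autoImplicit false

namespace Crest.Agent.R176

/-! ### the small alphabet -/

inductive Kind
  | home | fill | prog (b b' : Bool) | endZ | endB | ro (j : Option (Fin 8)) | rw | perm | dummy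
  deriving DecidableEq, Fintype, Inhabited

structure Cst where
  io : Kind
  sw : Fin 4
  fst : Bool
  deriving DecidableEq, Fintype, Inhabited

/-- the static part of a cell -/
structure Sta where
  me : Cst
  up : Cst
  hb : Bool
  sp : Bool
  deriving DecidableEq, Fintype, Inhabited

inductive Task
  | w1 (side : Bool) | wst | w4 (side : Bool) | w5
  deriving DecidableEq, Fintype, Inhabited

inductive Mode
  | walk
  | main (τ : Task) (q : Bool × Bool)
  | goL (τ : Task) (q : Bool × Bool) (σ : Sta) (β : Bool)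
  | goR (τ : Task) (q : Bool × Bool) (σ : Sta) (β : Bool)
  deriving DecidableEq, Fintype, Inhabited

inductive Pos
  | U | L | R
  deriving DecidableEq, Fintype, Inhabited

inductive Trk
  | ra | rb | la | lb | tok (p : Pos) (m : Mode)
  deriving DecidableEq, Fintype, Inhabited

structure Con where
  st : Sta
  dp : Bool
  m1 : Bool
  m2 : Bool
  deriving DecidableEq, Fintype, Inhabited

structure Sm where
  con : Con
  cap : Bool
  trk : Trk
  deriving DecidableEq, Fintype, Inhabited

theorem exists_cbit : ∃ f : Cst → Fin 8 → Bool, Function.Injective f := by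
  have h : Fintype.card Cst ≤ Fintype.card (Fin 8 → Bool) := by
    have : Fintype.card Cst = 160 := rfl
    rw [this]; simp
  obtain ⟨f⟩ := Function.Embedding.nonempty_of_card_le h
  exact ⟨f, f.injective⟩

noncomputable def cbit : Cst → Fin 8 → Bool := exists_cbit.choose

theorem cbit_injective : Function.Injective cbit := exists_cbit.choose_spec

def Cst.reset (c : Cst) : Prop := c.fst = true ∧ c.sw = 0

def Sta.kd (σ : Sta) : Kind := if σ.me.sw = 0 then σ.me.io else .fill

def Sta.home (σ : Sta) : Prop := σ.kd = .home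

def Kind.isRO : Kind → Bool
  | .ro _ => true
  | _ => false

def Kind.isReg : Kind → Bool
  | .ro _ | .rw | .perm | .dummy => true
  | _ => false

def Kind.isDat : Kind → Bool
  | .perm | .dummy | .fill => true
  | _ => false

def Kind.isProg : Kind → Bool
  | .prog _ _ => true
  | _ => false

def Kind.isSep : Kind → Bool
  | .home | .endZ | .endB => true
  | _ => false

def Mode.isMain : Mode → Bool
  | .main _ _ => true
  | _ => false

def Mode.isGoL : Mode → Bool
  | .goL _ _ _ _ => true
  | _ => false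

def Mode.isGoR : Mode → Bool
  | .goR _ _ _ _ => true
  | _ => false

def Task.isD : Task → Bool
  | .w4 _ | .w5 => true
  | _ => false

/-- the token is executing one of the data tasks -/
def Mode.isD : Mode → Bool
  | .walk => false
  | .main τ _ | .goL τ _ _ _ | .goR τ _ _ _ => τ.isD

/-- relevant cells; `r` says that the cell is in the right frame -/
def rel : Task → Prop → Sta → Prop
  | .w1 _, _, σ => σ.kd.isReg = true
  | .wst, r, σ => r ∧ ¬ σ.home
  | .w4 _, r, σ => r ∧ σ.kd.isDat = true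
  | .w5, r, σ => r ∧ σ.kd.isDat = true

/-- the task takes the bit of the relevant cell -/
def tk : Task → Bool
  | .wst => false
  | _ => true

def dropOK : Task → Sta → Sta → Bool → Prop
  | .w1 _, y, z, _ => y.kd.isSep = true ∧ z.kd.isProg = true
  | .wst, y, _, _ => y.home
  | .w4 _, _, z, d => z.kd = .perm ∧ d = true
  | .w5, _, z, d => z.kd = .perm ∧ d = true

def want (side : Bool) (bb : Bool × Bool) : Bool := if side then bb.2 else bb.1

/-- `Op τ q y d σ β q' d' β'`: the operation at the cell `y` (bit `d`) marked `m1`, carrying `σ` and `β` -/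
def Op : Task → Bool × Bool → Sta → Bool → Sta → Bool → Bool × Bool → Bool → Bool → Prop
  | .w1 side, q, y, d, σ, β, q', d', β' => ∃ b b', y.kd = .prog b b' ∧ q' = q ∧ d' = d ∧
      (σ.kd.isRO = true → σ.sp = want side (b, b') ∧ β' = β) ∧
      (σ.kd.isRO = false → β = want side (b, b') ∧ β' = b')
  | .wst, q, y, d, σ, β, q', d', β' => d' = d ∧ β' = β ∧
      ((y.me.sw = 0 ∧ σ.up.reset ∧ q' = q) ∨ (y.me.sw = 0 ∧ ¬ σ.up.reset ∧ σ.hb = q.2 ∧ q' = (q.1, y.hb)) ∨
        (y.me.sw = 1 ∧ σ.sp = xor y.sp q.1 ∧ q' = (y.sp && q.1, q.2)))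
  | .w4 side, q, y, d, σ, β, q', d', β' => y.me.sw ≠ 3 ∧ σ.up.sw = 1 ∧ q' = q ∧
      (if y.me.sw = 2 ∧ side = false then d' = β ∧ β' = d else d' = d ∧ β' = β)
  | .w5, q, y, d, σ, β, q', d', β' => y.me.sw ≠ 3 ∧ σ.up.sw = 1 ∧ q' = q ∧ d' = d ∧ β' = β ∧
      (y.me.sw = 2 → d = β)

/-- the states in which a task has detected a zero -/
def ZOp : Task → Bool × Bool → Sta → Sta → Prop
  | .w1 _, _, y, _ => y.kd = .endZ
  | .wst, q, y, σ => (y.me.sw = 0 ∧ ¬ σ.up.reset ∧ σ.hb ≠ q.2) ∨ (y.me.sw = 1 ∧ σ.sp ≠ xor y.sp q.1) ∨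
      (y.me.sw = 2 ∧ q.1 ≠ σ.up.fst)
  | .w4 _, _, _, _ => False
  | .w5, _, y, _ => y.me.sw = 3

/-- content part of the moves to the right (token at `y` with position `p` and mode `m`, new mode `m'` at `z`) -/
inductive CR (p : Pos) : Mode → Con → Con → Mode → Con → Con → Prop
  | walk (y z : Con) : CR p .walk y z .walk y z
  | drop (τ : Task) (y z : Con) : dropOK τ y.st z.st z.dp → z.m1 = false →
      CR p .walk y z (.main τ (true, y.st.hb)) y { z with m1 := true }
  | skip (τ : Task) (q : Bool × Bool) (y z : Con) : ¬ rel τ (p = .R) y.st → z.m1 = false →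
      CR p (.main τ q) y z (.main τ q) y z
  | ret (τ : Task) (q : Bool × Bool) (β : Bool) (y z : Con) : rel τ (p = .R) y.st → y.m2 = true → z.m1 = false →
      (tk τ = true → y.dp = false) → (tk τ = false → β = false) →
      CR p (.goR τ q y.st β) y z (.main τ q) { y with m2 := false, dp := if tk τ then β else y.dp } z
  | op (τ : Task) (q : Bool × Bool) (σ : Sta) (β : Bool) (y z : Con) (q' : Bool × Bool) (d' β' : Bool) :
      y.m1 = true → z.m1 = false → Op τ q y.st y.dp σ β q' d' β' →
      CR p (.goL τ q σ β) y z (.goR τ q' σ β') { y with m1 := false, dp := d' } { z with m1 := true }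
  | gor (τ : Task) (q : Bool × Bool) (σ : Sta) (β : Bool) (y z : Con) : y.m2 = false → z.m1 = false →
      CR p (.goR τ q σ β) y z (.goR τ q σ β) y z

/-- content part of the moves to the left (token at `z` with position `p` and mode `m`, new mode `m'` at `y`) -/
inductive CL (p : Pos) : Mode → Con → Mode → Con → Prop
  | leave (τ : Task) (q : Bool × Bool) (z : Con) : rel τ (p = .R) z.st → z.m2 = false →
      CL p (.main τ q) z (.goL τ q z.st (tk τ && z.dp)) { z with m2 := true, dp := if tk τ then false else z.dp }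
  | gol (τ : Task) (q : Bool × Bool) (σ : Sta) (β : Bool) (z : Con) : z.m1 = false → z.m2 = false →
      CL p (.goL τ q σ β) z (.goL τ q σ β) z

/-- track part of the moves to the right: old position, old track and `cap` of `z`, new track of `y`, new position,
new `cap` of `z` -/
inductive TR (z : Sta) (m' : Mode) : Pos → Trk → Bool → Trk → Pos → Bool → Prop
  | u (c : Bool) : ¬ z.home → TR z m' .U .la c .ra .U c
  | l (c : Bool) : ¬ z.home → TR z m' .L .lb c .ra .L c
  | r (c : Bool) : ¬ z.home → TR z m' .R .la c .rb .R c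
  | capture : z.home → m'.isMain = true → TR z m' .U (.tok .U .walk) false .ra .R true
  | cross : z.home → m'.isGoR = true → TR z m' .L .la true .ra .R true

/-- track part of the moves to the left: old position, old track of `y`, `cap` of `z`, new position, new track of `z` -/
inductive TL (z : Sta) : Pos → Trk → Bool → Pos → Trk → Prop
  | u (c : Bool) : ¬ z.home → TL z .U .ra c .U .la
  | l (c : Bool) : ¬ z.home → TL z .L .ra c .L .lb
  | r (c : Bool) : ¬ z.home → TL z .R .rb c .R .la
  | cross : z.home → TL z .R .ra true .L .la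

/-- forward moves -/
inductive Fwd : Sm → Sm → Sm → Sm → Prop
  | right {p p' : Pos} {m m' : Mode} {y z y' z' : Con} {cy cz cz' : Bool} {a b : Trk} :
      CR p m y z m' y' z' → TR z.st m' p a cz b p' cz' →
      Fwd ⟨y, cy, .tok p m⟩ ⟨z, cz, a⟩ ⟨y', cy, b⟩ ⟨z', cz', .tok p' m'⟩
  | left {p p' : Pos} {m m' : Mode} {y z z' : Con} {cy cz : Bool} {a b : Trk} :
      CL p m z m' z' → TL z.st p a cz p' b →
      Fwd ⟨y, cy, a⟩ ⟨z, cz, .tok p m⟩ ⟨y, cy, .tok p' m'⟩ ⟨z', cz, b⟩

/-- bridges -/
inductive Br : Sm → Sm → Prop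
  | w1 (y : Con) (c : Bool) (p : Pos) (q : Bool × Bool) (σ : Sta) (β : Bool) : y.m1 = true → y.st.kd = .endB →
      Br ⟨y, c, .tok p (.goL (.w1 false) q σ β)⟩ ⟨y, c, .tok p (.goL (.w1 true) q σ β)⟩
  | w4 (y : Con) (c : Bool) (p : Pos) (q : Bool × Bool) (σ : Sta) (β : Bool) : y.m1 = true → y.st.me.sw = 3 →
      Br ⟨y, c, .tok p (.goL (.w4 false) q σ β)⟩ ⟨y, c, .tok p (.goL (.w4 true) q σ β)⟩

def smv (y z y' z' : Sm) : Prop := Fwd y z y' z' ∨ (Br y y' ∧ z' = z)

/-- the shape of a track -/
inductive TC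
  | ra | rb | la | lb | tU | tL | tR
  deriving DecidableEq, Fintype

def Trk.cls : Trk → TC
  | .ra => .ra
  | .rb => .rb
  | .la => .la
  | .lb => .lb
  | .tok .U _ => .tU
  | .tok .L _ => .tL
  | .tok .R _ => .tR

def okStart : Bool → TC → Bool
  | false, .ra | false, .tU | false, .tL | true, .rb | true, .tR | true, .la => true
  | _, _ => false

def okIn : TC → TC → Bool
  | .ra, .ra | .ra, .tU | .ra, .tL | .rb, .rb | .rb, .tR | .tU, .la | .tL, .lb | .tR, .la | .la, .la
  | .lb, .lb => true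
  | _, _ => false

def okHome : Bool → TC → TC → Bool
  | false, .la, _ | false, .tU, _ | false, .tR, _ | true, .ra, .rb | true, .ra, .tR | true, .tL, .la
  | true, .lb, .la => true
  | _, _, _ => false

def dpOK (σ : Sta) : Prop := σ.kd = .rw ∨ σ.kd = .perm ∨ (σ.me.sw = 2 ∧ σ.up.sw = 1)

/-- forbidden static parts -/
def BadSta (σ : Sta) : Prop :=
  ¬ (σ.me.io = .home ↔ σ.me.reset) ∨ (σ.hb = true ∧ σ.me.sw ≠ 0) ∨
  (σ.sp = true ∧ σ.kd.isRO = false ∧ σ.me.sw ≠ 1) ∨ (∃ j, σ.kd = .ro (some j) ∧ σ.sp ≠ cbit σ.up j) ∨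
  (σ.home ∧ σ.hb = false ∧ σ.up.io ≠ .home)

/-- forbidden dynamic parts -/
def BadDyn (x : Sm) : Prop :=
  (x.con.dp = true ∧ ¬ dpOK x.con.st) ∨ (x.cap = true ∧ ¬ x.con.st.home) ∨
  (x.con.st.home ∧ okStart x.cap x.trk.cls = false) ∨
  (∃ p, x.trk = .tok p .walk ∧ (p ≠ .U ∨ x.con.m1 = true ∨ x.con.m2 = true)) ∨
  (∃ p m, x.trk = .tok p m ∧ m.isGoL = true ∧ p ≠ .L ∧ x.con.st.me.sw = 3) ∨
  (∃ p m, x.trk = .tok p m ∧ (m.isMain = true ∨ m.isGoR = true) ∧ x.con.st.home ∧ x.cap = false)

/-- a task has detected a zero -/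
def ZAt (τ : Task) (x : Sm) : Prop :=
  ∃ p q σ β, x.trk = .tok p (.goL τ q σ β) ∧ x.con.m1 = true ∧ ZOp τ q x.con.st σ

def Bad1 (x : Sm) : Prop := BadSta x.con.st ∨ BadDyn x ∨ ∃ τ, ZAt τ x

def BadPSta (y z : Sta) : Prop :=
  z.me.sw ≠ y.me.sw + (if z.me.fst then 1 else 0) ∨
  (¬ z.home ∧ (z.up ≠ y.up ∨ (z.hb = true ∧ y.hb = false) ∨ (y.hb = true ∧ z.hb = false ∧ z.up.io ≠ z.kd)))

def BadTrk (y z : Sm) : Prop :=
  (z.con.st.home ∧ okHome z.cap y.trk.cls z.trk.cls = false) ∨
  (¬ z.con.st.home ∧ okIn y.trk.cls z.trk.cls = false)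

def NoPred (y z : Sm) : Prop :=
  ((∃ p m, z.trk = .tok p m ∧ (m.isMain = true ∨ m.isGoR = true ∨ (m = .walk ∧ ¬ z.con.st.home))) ∨
    (∃ p m, y.trk = .tok p m ∧ m.isGoL = true)) ∧ ¬ ∃ y₀ z₀, Fwd y₀ z₀ y z

def szr (y z : Sm) : Prop :=
  Bad1 y ∨ Bad1 z ∨ BadPSta y.con.st z.con.st ∨ BadTrk y z ∨ NoPred y z

/-- the small system -/
def SS : Sys Sm := ⟨smv, szr⟩

/-- forward moves only -/
def FS : Sys Sm := ⟨Fwd, fun _ _ => False⟩

def permit (x : Sm) : Prop := x.trk = .tok .U .walk ∧ x.con.st.me.sw = 1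

instance (x : Sm) : Decidable (permit x) := inferInstanceAs (Decidable (_ ∧ _))

/-! ### codes, program, layout -/

noncomputable def allSta : List Sta := Finset.univ.toList

noncomputable def allSm : List Sm := Finset.univ.toList

/-- number of read-only registers -/
noncomputable def RL : ℕ := 8 + allSta.length

/-- number of registers -/
noncomputable def BL : ℕ := RL + allSm.length + 1

noncomputable def code (x : Sm) : List Bool :=
  List.ofFn (cbit x.con.st.me) ++ allSta.map (fun σ => decide (σ = x.con.st)) ++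
    allSm.map (fun y => decide (y = x)) ++ [decide (permit x)]

noncomputable def regKind (k : ℕ) : Kind :=
  if h : k < 8 then .ro (some ⟨k, h⟩) else if k < RL then .ro none else if k + 1 < BL then .rw else .perm

/-- a segment of the program: pairs (old bit, new bit), and whether it ends in a bridge -/
abbrev Seg : Type := List (Bool × Bool) × Bool

noncomputable def code2 (x y : Sm) : List Bool := code x ++ false :: code y

def IsSeg (g : Seg) : Prop :=
  (∃ x y x' y', smv x y x' y' ∧ g = ((code2 x y).zip (code2 x' y'), true)) ∨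
  (∃ x y, szr x y ∧ g = ((code2 x y).map fun b => (b, b), false)) ∨
  (∃ r : List Bool, r.length = BL ∧ (∀ x, r ≠ code x) ∧ g = (r.map fun b => (b, b), false))

open Classical in
noncomputable def segs : List Seg := if h : {g | IsSeg g}.Finite then h.toFinset.toList else []

def endK (e : Bool) : Kind := if e then .endB else .endZ

noncomputable def progL : List Kind := segs.flatMap fun g => g.1.map (fun bb => Kind.prog bb.1 bb.2) ++ [endK g.2]

/-- position of the first register -/
noncomputable def R0 : ℕ := 1 + progL.length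

/-- length of the layout -/
noncomputable def PL : ℕ := R0 + BL + 1

/-- the layout of a frame -/
noncomputable def Lay (i : ℕ) : Kind :=
  if i = 0 then .home else if i < R0 then progL.getD (i - 1) .fill else if i < R0 + BL then regKind (i - R0)
  else if i = R0 + BL then .dummy else .fill

/-- the segment `g` of the program starts at position `p` -/
def SegAt (p : ℕ) (g : Seg) : Prop :=
  1 ≤ p ∧ p + g.1.length < R0 ∧ (Lay (p - 1)).isSep = true ∧
    (∀ (k : ℕ) (h : k < g.1.length), Lay (p + k) = .prog g.1[k].1 g.1[k].2) ∧ Lay (p + g.1.length) = endK g.2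

/-! ### the big systems -/

structure Lt (s : ℕ) where
  sm : Sm
  a : Fin (2 ^ s)
  h : Fin (s + 1)
  d : Fin (2 ^ s)
  deriving Fintype

instance (s : ℕ) : Inhabited (Lt s) := ⟨⟨default, ⟨0, Nat.two_pow_pos s⟩, 0, ⟨0, Nat.two_pow_pos s⟩⟩⟩

variable {s : ℕ}

abbrev Lt.st (X : Lt s) : Sta := X.sm.con.st

abbrev Lt.me (X : Lt s) : Cst := X.sm.con.st.me

def Lt.setSm (X : Lt s) (x : Sm) : Lt s := { X with sm := x }

def Lt.setD (X : Lt s) (d : Fin (2 ^ s)) : Lt s := { X with d := d }

def BadB (X : Lt s) : Prop := X.me.io ≠ Lay X.h ∨ (X.me.sw ≠ 1 ∧ X.d.val ≠ 0)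

def SuccBad (Y Z : Lt s) : Prop :=
  Z.a.val ≠ (Y.a.val + 1) % 2 ^ s ∨ ¬ (Z.me.fst = true ↔ Z.a.val = 0) ∨
    (¬ Z.me.reset ∧ Z.h.val ≠ min (Y.h.val + 1) s)

def EqD (Y Z : Lt s) : Prop := permit Y.sm ∧ Z.me.sw = 1 ∧ Y.d = Z.d

def Sg (s : ℕ) : Sys (Lt s) where
  mv Y Z Y' Z' := (∃ y' z', smv Y.sm Z.sm y' z' ∧ Y' = Y.setSm y' ∧ Z' = Z.setSm z') ∨
    (permit Y.sm ∧ Z.me.sw = 1 ∧ Y' = Y.setD Z.d ∧ Z' = Z.setD Y.d)
  zr Y Z := szr Y.sm Z.sm ∨ BadB Y ∨ BadB Z ∨ SuccBad Y Z ∨ EqD Y Z

/-- length of a frame -/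
def FL (s : ℕ) : ℕ := 4 * 2 ^ s

/-- the address of a letter -/
def Lt.ph (X : Lt s) : ZMod (FL s) := (X.me.sw.val * 2 ^ s + X.a.val : ℕ)

def Lt.start (X : Lt s) : Prop := X.me.reset ∧ X.a.val = 0

/-- the word of length `n` given by a function -/
def wd {α : Type} (n : ℕ) (c : ℕ → α) : List α := (List.range n).map c

def pr2 {β : Type} (F : ℕ) (f g : ℕ → β) (i : ℕ) : β := if i < F then f i else g (i - F)

noncomputable def meS (s i : ℕ) : Cst :=
  ⟨Lay (min i s), ⟨i / 2 ^ s % 4, Nat.mod_lt _ (by norm_num)⟩, decide (i % 2 ^ s = 0)⟩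

/-- the static structure of `n` cells is that of consecutive frames -/
def Std (s n : ℕ) (σ : ℕ → Sta) : Prop := ∀ i, i < n → (σ i).me = meS s (i % FL s)

noncomputable def spX (X : Lt (2 ^ s)) (i : ℕ) : Bool :=
  if i / 2 ^ s = 1 then X.a.val.testBit (i - 2 ^ s)
  else if R0 ≤ i ∧ i < R0 + RL then (code X.sm).getD (i - R0) false else false

noncomputable def dpX (X : Lt (2 ^ s)) (i : ℕ) : Bool :=
  if i / 2 ^ s = 2 then X.d.val.testBit (i - 2 * 2 ^ s)
  else if R0 + RL ≤ i ∧ i < R0 + BL then (code X.sm).getD (i - R0) false else false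

noncomputable def stX (X : Lt (2 ^ s)) (i : ℕ) : Sta := ⟨meS s i, X.me, decide (i < X.h.val), spX X i⟩

noncomputable def stP (X Y : Lt (2 ^ s)) : ℕ → Sta := pr2 (FL s) (stX X) (stX Y)

noncomputable def dpP (X Y : Lt (2 ^ s)) : ℕ → Bool := pr2 (FL s) (dpX X) (dpX Y)

def cell (σ : ℕ → Sta) (dp : ℕ → Bool) (i : ℕ) : Sm :=
  ⟨⟨σ i, dp i, false, false⟩, false, if i = 0 then .tok .U .walk else .la⟩

/-- a frame without marks whose token is idle -/
def clean (F : ℕ) (σ : ℕ → Sta) (dp : ℕ → Bool) : List Sm := wd F (cell σ dp)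

noncomputable def encS (X : Lt (2 ^ s)) : List Sm := clean (FL s) (stX X) (dpX X)

def slot (s i : ℕ) : Prop := i % FL s / 2 ^ s = 1

instance (s i : ℕ) : Decidable (slot s i) := inferInstanceAs (Decidable (_ = _))

noncomputable def enc (X : Lt (2 ^ s)) : List (Lt s) :=
  wd (FL s) fun i => ⟨cell (stX X) (dpX X) i, ⟨i % 2 ^ s, Nat.mod_lt _ (Nat.two_pow_pos s)⟩,
    ⟨min i s, Nat.lt_succ_of_le (min_le_right _ _)⟩,
    ⟨if slot s i then i % 2 ^ s else 0, by
      split_ifs
      · exact Nat.mod_lt _ (Nat.two_pow_pos s)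
      · exact Nat.two_pow_pos s⟩⟩

/-! ### reachable configurations -/

def Reach1 (w₀ w : List Sm) : Prop := Relation.ReflTransGen FS.Step w₀ w

inductive Reach2 (w₀ w₁ : List Sm) : List Sm → Prop
  | cap {a r : List Sm} {y z y' z' : Sm} : Reach1 w₀ (a ++ [y]) → w₁ = z :: r → Fwd y z y' z' →
      Reach2 w₀ w₁ (a ++ y' :: z' :: r)
  | step {w w' : List Sm} : Reach2 w₀ w₁ w → FS.Step w w' → Reach2 w₀ w₁ w'

/-- the small parts of valid words -/
inductive SVal : List (Lt (2 ^ s)) → List Sm → Prop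
  | nil : SVal [] []
  | one {X : Lt (2 ^ s)} {w : List Sm} {u : List (Lt (2 ^ s))} {m : List Sm} :
      Reach1 (encS X) w → SVal u m → SVal (X :: u) (w ++ m)
  | two {X Y : Lt (2 ^ s)} {w : List Sm} {u : List (Lt (2 ^ s))} {m : List Sm} :
      Reach2 (encS X) (encS Y) w → SVal u m → SVal (X :: Y :: u) (w ++ m)

/-- the big parts of valid words -/
def BigOK (W : List (Lt s)) : Prop :=
  (∀ (i : ℕ) (X : Lt s), W[i]? = some X → X.a.val = i % 2 ^ s ∧ X.h.val = min (i % FL s) s ∧
    (¬ slot s i → X.d.val = 0)) ∧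
  ∀ (i j : ℕ) (X Y : Lt s), W[i]? = some X → W[j]? = some Y → slot s i → slot s j → i / FL s = j / FL s →
    X.d = Y.d → i = j

/-- `W` is a valid configuration of the encoding of `u` -/
def Val (u : List (Lt (2 ^ s))) (W : List (Lt s)) : Prop := SVal u (W.map Lt.sm) ∧ BigOK W

/-! ### explicit description of the reachable configurations -/

def posf (F : ℕ) (b : Bool) (t : ℕ) : Pos := if b then (if t < F then .L else .R) else .U

def trkf (F : ℕ) (b : Bool) (t : ℕ) (m : Mode) (i : ℕ) : Trk :=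
  if i = t then .tok (posf F b t) m
  else if b then
    (if t < F then (if i < t then .ra else if i < F then .lb else .la)
      else (if i < F then .ra else if i < t then .rb else .la))
  else (if i < t then .ra else if i = F then .tok .U .walk else .la)

/-- two frames of length `F`; token at `t` in mode `m`, marks at `p1`, `p2`; `b`: the right token is captured -/
def rend (F : ℕ) (σ : ℕ → Sta) (dp : ℕ → Bool) (m : Mode) (t : ℕ) (p1 p2 : Option ℕ) (b : Bool) (i : ℕ) : Sm :=
  ⟨⟨σ i, dp i, decide (p1 = some i), decide (p2 = some i)⟩, b && decide (i = F), trkf F b t m i⟩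

def take (τ : Task) (dp : ℕ → Bool) (t : ℕ) : ℕ → Bool := Function.update dp t (if tk τ then false else dp t)

/-- `Run F σ dp₀ τ p t q dp`: the task `τ` has `m1` at `p` and is in mode `main τ q` at `t`, the bits are `dp` -/
inductive Run (F : ℕ) (σ : ℕ → Sta) (dp₀ : ℕ → Bool) (τ : Task) : ℕ → ℕ → Bool × Bool → (ℕ → Bool) → Prop
  | base (p : ℕ) : p + 1 < F → dropOK τ (σ p) (σ (p + 1)) (dp₀ (p + 1)) →
      Run F σ dp₀ τ (p + 1) (p + 1) (true, (σ p).hb) dp₀
  | skip {p t : ℕ} {q : Bool × Bool} {dp : ℕ → Bool} : Run F σ dp₀ τ p t q dp → ¬ rel τ (F ≤ t) (σ t) →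
      Run F σ dp₀ τ p (t + 1) q dp
  | round {p t : ℕ} {q q' : Bool × Bool} {dp : ℕ → Bool} {d' β' : Bool} : Run F σ dp₀ τ p t q dp →
      rel τ (F ≤ t) (σ t) → Op τ q (σ p) (dp p) (σ t) (tk τ && dp t) q' d' β' →
      Run F σ dp₀ τ (p + 1) (t + 1) q'
        (Function.update (Function.update dp p d') t (if tk τ then β' else dp t))

inductive GoodC (F : ℕ) (σ : ℕ → Sta) (dp₀ : ℕ → Bool) : (ℕ → Sm) → Bool → Prop
  | walk (t : ℕ) : t < F → GoodC F σ dp₀ (rend F σ dp₀ .walk t none none false) false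
  | main {τ : Task} {p t : ℕ} {q : Bool × Bool} {dp : ℕ → Bool} {b : Bool} : Run F σ dp₀ τ p t q dp →
      t < 2 * F → (b = true ↔ F ≤ t) → GoodC F σ dp₀ (rend F σ dp (.main τ q) t (some p) none b) b
  | gl {τ : Task} {p p2 : ℕ} {q : Bool × Bool} {dp : ℕ → Bool} {b : Bool} (t : ℕ) : Run F σ dp₀ τ p p2 q dp →
      p2 < 2 * F → (b = true ↔ F ≤ p2) → rel τ (F ≤ p2) (σ p2) → p ≤ t → t < p2 →
      GoodC F σ dp₀
        (rend F σ (take τ dp p2) (.goL τ q (σ p2) (tk τ && dp p2)) t (some p) (some p2) b) b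
  | gr {τ : Task} {p p2 : ℕ} {q q' : Bool × Bool} {dp : ℕ → Bool} {b d' β' : Bool} (t : ℕ) :
      Run F σ dp₀ τ p p2 q dp → p2 < 2 * F → (b = true ↔ F ≤ p2) → rel τ (F ≤ p2) (σ p2) →
      Op τ q (σ p) (dp p) (σ p2) (tk τ && dp p2) q' d' β' → p < t → t ≤ p2 →
      GoodC F σ dp₀
        (rend F σ (Function.update (take τ dp p2) p d') (.goR τ q' (σ p2) β') t (some (p + 1)) (some p2) b) b

/-- the number of cells of a configuration -/
def wid (F : ℕ) (b : Bool) : ℕ := if b then 2 * F else F

/-- good configurations of the codes of two letters -/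
def GoodP (X Y : Lt (2 ^ s)) (c : ℕ → Sm) (b : Bool) : Prop := GoodC (FL s) (stP X Y) (dpP X Y) c b

/-- the equation lemmas are generated here once and for all -/
theorem realize_eqns : True := by
  have := @Kind.isRO.eq_1
  have := @Kind.isRO.eq_2
  have := @Kind.isReg.eq_1
  have := @Kind.isReg.eq_2
  have := @Kind.isDat.eq_1
  have := @Kind.isDat.eq_2
  have := @Kind.isProg.eq_1
  have := @Kind.isProg.eq_2
  have := @Kind.isSep.eq_1
  have := @Kind.isSep.eq_2
  have := @Mode.isMain.eq_1
  have := @Mode.isMain.eq_2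
  have := @Mode.isGoL.eq_1
  have := @Mode.isGoL.eq_2
  have := @Mode.isGoR.eq_1
  have := @Mode.isGoR.eq_2
  have := @Task.isD.eq_1
  have := @Task.isD.eq_2
  have := @Mode.isD.eq_1
  have := @Mode.isD.eq_2
  have := @rel.eq_1
  have := @rel.eq_2
  have := @tk.eq_1
  have := @tk.eq_2
  have := @dropOK.eq_1
  have := @dropOK.eq_2
  have := @Op.eq_1
  have := @Op.eq_2
  have := @ZOp.eq_1
  have := @ZOp.eq_2
  have := @Trk.cls.eq_1
  have := @Trk.cls.eq_2
  have := @okStart.eq_1
  have := @okStart.eq_2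
  have := @okIn.eq_1
  have := @okIn.eq_2
  have := @okHome.eq_1
  have := @okHome.eq_2
  trivial

end Crest.Agent.R176
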