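import Crest.Agent.R176.Loc

/-!
# Row 176, machine: normal form by running backwards  (task R176-NF)

A nonzero word has no zero pair, and neither has any equivalent word.  `nf1`: from `¬ BadTrk`, `¬ BadDyn` the tracks
are `ra ⋯ ra, tok U m, la ⋯ la` with the token at some `t < F`, and all `cap` are false (`okIn`, `okStart` are finite
tables on `TC`: `decide`/`cases`).  Strong induction on the measure
`(∑ i < n, if (c i).con.m1 then i else 0, rank)` (lexicographic, e.g. `A * (4 * n + 4) + rank`) with `rank = t` for the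
modes `walk, main, goR` and `rank = 2 * n + 1 - t`.. for `goL` (any choice with `rank (goL at t) > t + 1` decreasing in
`t`): if the token is not `walk` at `0`, the window `(t - 1, t)` (modes `walk, main, goR`; `t ≠ 0` by the last clause of
`BadDyn`) or `(t, t + 1)` (mode `goL`; `t + 1 < F` by the fifth clause) is not `NoPred`, so there is a predecessor,
which is equivalent (nonzero), has the same shape (cases on `TR`, `TL`) and a smaller measure (cases on `CR`, `CL`).
If the token is `walk` at `0` there is no mark: otherwise walk to it (`CR.walk`, `TR.u`) and get the fourth clause of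
`BadDyn`.  `nf2`: the same with the shapes `ra* tokL lb* | la*` and `ra* | rb* tokR la*` (`cap` true exactly at `F`;
compare `trkf F true`); the backward run ends with an un-capture, whose two halves are handled by `nf1`
(the right half has the token `walk` at `0`, so it is itself clean).
It is convenient to work with functions `c : ℕ → Sm`, `Function.update` and `Sys.step_range`, `Sys.hasZ_range`.
-/

set_option autoImplicit false

namespace Crest.Agent.R176

namespace NFAux

theorem cls_ra {x : Trk} (h : x.cls = .ra) : x = .ra := by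
  rcases x with _ | _ | _ | _ | ⟨_ | _ | _, _⟩ <;> simp_all [Trk.cls]

theorem cls_rb {x : Trk} (h : x.cls = .rb) : x = .rb := by
  rcases x with _ | _ | _ | _ | ⟨_ | _ | _, _⟩ <;> simp_all [Trk.cls]

theorem cls_la {x : Trk} (h : x.cls = .la) : x = .la := by
  rcases x with _ | _ | _ | _ | ⟨_ | _ | _, _⟩ <;> simp_all [Trk.cls]

theorem cls_lb {x : Trk} (h : x.cls = .lb) : x = .lb := by
  rcases x with _ | _ | _ | _ | ⟨_ | _ | _, _⟩ <;> simp_all [Trk.cls]

theorem cls_tU {x : Trk} (h : x.cls = .tU) : ∃ m, x = .tok .U m := by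
  rcases x with _ | _ | _ | _ | ⟨_ | _ | _, _⟩ <;> simp_all [Trk.cls]

theorem cls_tL {x : Trk} (h : x.cls = .tL) : ∃ m, x = .tok .L m := by
  rcases x with _ | _ | _ | _ | ⟨_ | _ | _, _⟩ <;> simp_all [Trk.cls]

theorem cls_tR {x : Trk} (h : x.cls = .tR) : ∃ m, x = .tok .R m := by
  rcases x with _ | _ | _ | _ | ⟨_ | _ | _, _⟩ <;> simp_all [Trk.cls]

theorem not_szr {n : ℕ} {c : ℕ → Sm} (hz : ¬ SS.IsZero (wd n c)) {i : ℕ} (hi : i + 1 < n) :
    ¬ szr (c i) (c (i + 1)) := fun h => hz (Sys.hasZ_range (S := SS) hi h).isZero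

theorem not_bad1 {n : ℕ} {c : ℕ → Sm} (hz : ¬ SS.IsZero (wd n c)) (hn : 2 ≤ n) {i : ℕ} (hi : i < n) :
    ¬ Bad1 (c i) := by
  intro h
  rcases Nat.eq_zero_or_pos i with rfl | h0
  · exact not_szr hz (i := 0) (by omega) (Or.inl h)
  · obtain ⟨k, rfl⟩ : ∃ k, i = k + 1 := ⟨i - 1, by omega⟩
    exact not_szr hz hi (Or.inr (Or.inl h))

theorem okIn_of {n : ℕ} {c : ℕ → Sm} (hz : ¬ SS.IsZero (wd n c)) {i : ℕ} (hi : i + 1 < n)
    (hh : ¬ (c (i + 1)).con.st.home) : okIn (c i).trk.cls (c (i + 1)).trk.cls = true := by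
  by_contra h
  exact not_szr hz hi (Or.inr (Or.inr (Or.inr (Or.inl (Or.inr ⟨hh, by simpa using h⟩)))))

theorem okHome_of {n : ℕ} {c : ℕ → Sm} (hz : ¬ SS.IsZero (wd n c)) {i : ℕ} (hi : i + 1 < n)
    (hh : (c (i + 1)).con.st.home) : okHome (c (i + 1)).cap (c i).trk.cls (c (i + 1)).trk.cls = true := by
  by_contra h
  exact not_szr hz hi (Or.inr (Or.inr (Or.inr (Or.inl (Or.inl ⟨hh, by simpa using h⟩)))))

theorem okStart_of {n : ℕ} {c : ℕ → Sm} (hz : ¬ SS.IsZero (wd n c)) (hn : 2 ≤ n) {i : ℕ} (hi : i < n)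
    (hh : (c i).con.st.home) : okStart (c i).cap (c i).trk.cls = true := by
  by_contra h
  exact not_bad1 hz hn hi (Or.inr (Or.inl (Or.inr (Or.inr (Or.inl ⟨hh, by simpa using h⟩)))))

theorem cap_false {n : ℕ} {c : ℕ → Sm} (hz : ¬ SS.IsZero (wd n c)) (hn : 2 ≤ n) {i : ℕ} (hi : i < n)
    (hh : ¬ (c i).con.st.home) : (c i).cap = false := by
  by_contra h
  exact not_bad1 hz hn hi (Or.inr (Or.inl (Or.inr (Or.inl ⟨by simpa using h, hh⟩))))

/-- after a cell of class `x` all the classes are `y` -/
theorem propagate {n : ℕ} {c : ℕ → Sm} (hz : ¬ SS.IsZero (wd n c)) {x y : TC} (h1 : ∀ z, okIn x z = true → z = y)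
    (h2 : ∀ z, okIn y z = true → z = y) {a e : ℕ} (he : e ≤ n) (ha : (c a).trk.cls = x)
    (hh : ∀ j, a < j → j < e → ¬ (c j).con.st.home) : ∀ j, a < j → j < e → (c j).trk.cls = y := by
  intro j
  induction j with
  | zero => intro h; omega
  | succ j ih =>
    intro h3 h4
    have := okIn_of hz (i := j) (by omega) (hh _ h3 h4)
    rcases Nat.lt_or_ge a j with h5 | h5
    · rw [ih h5 (by omega)] at this; exact h2 _ this
    · obtain rfl : a = j := by omega
      rw [ha] at this; exact h1 _ this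

def Sh (F : ℕ) (b : Bool) (c : ℕ → Sm) (t : ℕ) (m : Mode) : Prop :=
  t < wid F b ∧ ∀ i, i < wid F b → (c i).trk = trkf F b t m i ∧ (c i).cap = (b && decide (i = F))

theorem shape1 {F : ℕ} (hF : 2 ≤ F) {c : ℕ → Sm} (hh : ∀ i, i < F → ((c i).con.st.home ↔ i = 0))
    (hc : (c 0).cap = false) (ht : (c (F - 1)).trk.cls = .la ∨ (c (F - 1)).trk.cls = .tU)
    (hz : ¬ SS.IsZero (wd F c)) : ∃ t m, Sh F false c t m := by
  have hex : ∃ t, (c t).trk.cls ≠ .ra := ⟨F - 1, by rcases ht with h | h <;> rw [h] <;> decide⟩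
  classical
  obtain ⟨t, ht1, ht2⟩ : ∃ t, (c t).trk.cls ≠ .ra ∧ ∀ i, i < t → (c i).trk.cls = .ra :=
    ⟨Nat.find hex, Nat.find_spec hex, fun i hi => by simpa using Nat.find_min hex hi⟩
  have htF : t < F := by
    by_contra h
    have := ht2 (F - 1) (by omega)
    rcases ht with h | h <;> rw [h] at this <;> exact absurd this (by decide)
  have hnh : ∀ j, t < j → j < F → ¬ (c j).con.st.home := fun j h1 h2 => by rw [hh j h2]; omega
  have hcl : (c t).trk.cls = .tU ∨ (c t).trk.cls = .tL := by
    rcases Nat.eq_zero_or_pos t with rfl | h0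
    · have := okStart_of hz hF (i := 0) (by omega) ((hh 0 (by omega)).mpr rfl)
      rw [hc] at this
      revert this ht1; cases (c 0).trk.cls <;> decide
    · obtain ⟨k, rfl⟩ : ∃ k, t = k + 1 := ⟨t - 1, by omega⟩
      have := okIn_of hz (i := k) htF (by rw [hh _ htF]; omega)
      rw [ht2 k (by omega)] at this
      revert this ht1; cases (c (k + 1)).trk.cls <;> decide
  rcases hcl with hcl | hcl
  · obtain ⟨m, hm⟩ := cls_tU hcl
    have hla := propagate hz (x := .tU) (y := .la) (by decide) (by decide) le_rfl hcl hnh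
    refine ⟨t, m, htF, fun i hi => ⟨?_, ?_⟩⟩
    · have hi' : i < F := hi
      unfold trkf posf
      rcases lt_trichotomy i t with h | rfl | h
      · simp [h, h.ne, cls_ra (ht2 i h)]
      · simp [hm]
      · simp [h.ne', h.not_gt, hi'.ne, cls_la (hla i h hi')]
    · have hi' : i < F := hi
      rcases Nat.eq_zero_or_pos i with rfl | h0
      · simpa using hc
      · simpa using cap_false hz hF hi' (by rw [hh i hi']; omega)
  · exfalso
    have hlb := propagate hz (x := .tL) (y := .lb) (by decide) (by decide) le_rfl hcl hnh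
    rcases Nat.lt_or_ge t (F - 1) with h | h
    · have := hlb (F - 1) h (by omega)
      rcases ht with h | h <;> rw [h] at this <;> exact absurd this (by decide)
    · obtain rfl : t = F - 1 := by omega
      rcases ht with h | h <;> rw [h] at hcl <;> exact absurd hcl (by decide)

theorem shape2 {F : ℕ} (hF : 2 ≤ F) {c : ℕ → Sm} (hh : ∀ i, i < 2 * F → ((c i).con.st.home ↔ i = 0 ∨ i = F))
    (hc : (c 0).cap = false) (hc' : (c F).cap = true)
    (ht : (c (2 * F - 1)).trk.cls = .la ∨ (c (2 * F - 1)).trk.cls = .tR)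
    (hz : ¬ SS.IsZero (wd (2 * F) c)) : ∃ t m, Sh F true c t m := by
  classical
  have hcap : ∀ i, i < 2 * F → (c i).cap = (true && decide (i = F)) := by
    intro i hi
    by_cases h1 : i = F
    · subst h1; simpa using hc'
    · rcases Nat.eq_zero_or_pos i with rfl | h0
      · simpa [h1] using hc
      · simpa [h1] using cap_false hz (by omega) hi (by rw [hh i hi]; omega)
  obtain ⟨G, rfl⟩ : ∃ G, F = G + 1 := ⟨F - 1, by omega⟩
  have hH := okHome_of hz (i := G) (by omega) ((hh _ (by omega)).mpr (Or.inr rfl))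
  rw [hc'] at hH
  by_cases hex : ∃ t, t < G + 1 ∧ (c t).trk.cls ≠ .ra
  · obtain ⟨t, ⟨htF, ht1⟩, ht2⟩ : ∃ t, (t < G + 1 ∧ (c t).trk.cls ≠ .ra) ∧ ∀ i, i < t → (c i).trk.cls = .ra :=
      ⟨Nat.find hex, Nat.find_spec hex, fun i hi => by
        have h1 := Nat.find_min hex hi
        have h2 := (Nat.find_spec hex).1
        by_contra h
        exact h1 ⟨by omega, h⟩⟩
    have hnh : ∀ j, t < j → j < G + 1 → ¬ (c j).con.st.home := fun j h1 h2 => by rw [hh j (by omega)]; omega
    have hcl : (c t).trk.cls = .tU ∨ (c t).trk.cls = .tL := by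
      rcases Nat.eq_zero_or_pos t with rfl | h0
      · have := okStart_of hz (by omega) (i := 0) (by omega) ((hh 0 (by omega)).mpr (Or.inl rfl))
        rw [hc] at this
        revert this ht1; cases (c 0).trk.cls <;> decide
      · obtain ⟨k, rfl⟩ : ∃ k, t = k + 1 := ⟨t - 1, by omega⟩
        have := okIn_of hz (i := k) (by omega) (by rw [hh _ (by omega)]; omega)
        rw [ht2 k (by omega)] at this
        revert this ht1; cases (c (k + 1)).trk.cls <;> decide
    rcases hcl with hcl | hcl
    · exfalso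
      have hla := propagate hz (x := .tU) (y := .la) (by decide) (by decide) (by omega) hcl hnh
      rcases Nat.lt_or_ge t G with h | h
      · rw [hla G h (by omega)] at hH
        revert hH; cases (c (G + 1)).trk.cls <;> decide
      · obtain rfl : t = G := by omega
        rw [hcl] at hH
        revert hH; cases (c (t + 1)).trk.cls <;> decide
    · obtain ⟨m, hm⟩ := cls_tL hcl
      have hlb := propagate hz (x := .tL) (y := .lb) (by decide) (by decide) (by omega) hcl hnh
      have hF1 : (c (G + 1)).trk.cls = .la := by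
        rcases Nat.lt_or_ge t G with h | h
        · rw [hlb G h (by omega)] at hH
          revert hH; cases (c (G + 1)).trk.cls <;> decide
        · obtain rfl : t = G := by omega
          rw [hcl] at hH
          revert hH; cases (c (t + 1)).trk.cls <;> decide
      have hla := propagate hz (x := .la) (y := .la) (by decide) (by decide) le_rfl hF1
        (fun j h1 h2 => by rw [hh j h2]; omega)
      refine ⟨t, m, by unfold wid; simp; omega, fun i hi => ⟨?_, hcap i hi⟩⟩
      have hi' : i < 2 * (G + 1) := hi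
      unfold trkf posf
      rcases lt_trichotomy i t with h | rfl | h
      · simp [h, h.ne, htF, cls_ra (ht2 i h)]
      · simp [hm, htF]
      · rcases lt_trichotomy i (G + 1) with h' | rfl | h'
        · simp [h.ne', h.not_gt, htF, h', cls_lb (hlb i h h')]
        · simp [h.ne', h.not_gt, htF, cls_la hF1]
        · simp [h.ne', h.not_gt, htF, h'.not_gt, cls_la (hla i h' hi')]
  · have hra : ∀ i, i < G + 1 → (c i).trk.cls = .ra := fun i hi => by
      by_contra h; exact hex ⟨i, hi, h⟩
    have hex' : ∃ t, G + 1 ≤ t ∧ (c t).trk.cls ≠ .rb :=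
      ⟨2 * (G + 1) - 1, by omega, by rcases ht with h | h <;> rw [h] <;> decide⟩
    obtain ⟨t, ⟨htF, ht1⟩, ht2⟩ :
        ∃ t, (G + 1 ≤ t ∧ (c t).trk.cls ≠ .rb) ∧ ∀ i, G + 1 ≤ i → i < t → (c i).trk.cls = .rb :=
      ⟨Nat.find hex', Nat.find_spec hex', fun i h1 hi => by
        have h2 := Nat.find_min hex' hi
        by_contra h
        exact h2 ⟨h1, h⟩⟩
    have ht3 : t < 2 * (G + 1) := by
      by_contra h
      have := ht2 (2 * (G + 1) - 1) (by omega) (by omega)
      rcases ht with h | h <;> rw [h] at this <;> exact absurd this (by decide)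
    have hcl : (c t).trk.cls = .tR := by
      rcases Nat.lt_or_ge (G + 1) t with h0 | h0
      · obtain ⟨k, rfl⟩ : ∃ k, t = k + 1 := ⟨t - 1, by omega⟩
        have := okIn_of hz (i := k) ht3 (by rw [hh _ ht3]; omega)
        rw [ht2 k (by omega) (by omega)] at this
        revert this ht1; cases (c (k + 1)).trk.cls <;> decide
      · obtain rfl : t = G + 1 := by omega
        rw [hra G (by omega)] at hH
        revert hH ht1; cases (c (G + 1)).trk.cls <;> decide
    obtain ⟨m, hm⟩ := cls_tR hcl
    have hla := propagate hz (x := .tR) (y := .la) (by decide) (by decide) le_rfl hcl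
      (fun j h1 h2 => by rw [hh j h2]; omega)
    refine ⟨t, m, ht3, fun i hi => ⟨?_, hcap i hi⟩⟩
    have hi' : i < 2 * (G + 1) := hi
    have hnl : ¬ t < G + 1 := by omega
    unfold trkf posf
    rcases lt_trichotomy i t with h | rfl | h
    · rcases Nat.lt_or_ge i (G + 1) with h' | h'
      · simp [h.ne, hnl, h', cls_ra (hra i h')]
      · simp [h, h.ne, hnl, h'.not_gt, cls_rb (ht2 i h' h)]
    · simp [hm, hnl]
    · have : ¬ i < G + 1 := by omega
      simp [h.ne', h.not_gt, hnl, this, cls_la (hla i h hi')]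

theorem fwd_inv_right {y₀ z₀ y z : Sm} (h : Fwd y₀ z₀ y z) {p' : Pos} {m' : Mode} (hz : z.trk = .tok p' m') :
    ∃ p m, y₀.trk = .tok p m ∧ y₀.cap = y.cap ∧ CR p m y₀.con z₀.con m' y.con z.con ∧
      TR z₀.con.st m' p z₀.trk z₀.cap y.trk p' z.cap := by
  cases h with
  | right h1 h2 =>
    simp only [Trk.tok.injEq] at hz
    obtain ⟨rfl, rfl⟩ := hz
    exact ⟨_, _, rfl, rfl, h1, h2⟩
  | left h1 h2 => cases h2 <;> simp at hz

theorem fwd_inv_left {y₀ z₀ y z : Sm} (h : Fwd y₀ z₀ y z) {p' : Pos} {m' : Mode} (hy : y.trk = .tok p' m') :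
    ∃ p m, z₀.trk = .tok p m ∧ y₀.con = y.con ∧ y₀.cap = y.cap ∧ z₀.cap = z.cap ∧ CL p m z₀.con m' z.con ∧
      TL z₀.con.st p y₀.trk z.cap p' z.trk := by
  cases h with
  | right h1 h2 => cases h2 <;> simp at hy
  | left h1 h2 =>
    simp only [Trk.tok.injEq] at hy
    obtain ⟨rfl, rfl⟩ := hy
    exact ⟨_, _, rfl, rfl, rfl, rfl, h1, h2⟩

theorem cr_facts {p : Pos} {m m' : Mode} {y z y' z' : Con} (h : CR p m y z m' y' z') :
    y'.st = y.st ∧ z'.st = z.st ∧ m'.isGoL = false ∧
      ((m.isGoL = false ∧ y'.m1 = y.m1 ∧ (z.m1 = true → z'.m1 = true)) ∨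
        (y.m1 = true ∧ y'.m1 = false ∧ z.m1 = false ∧ z'.m1 = true)) := by
  cases h <;> simp_all [Mode.isGoL]

theorem cl_facts {p : Pos} {m m' : Mode} {z z' : Con} (h : CL p m z m' z') :
    z'.st = z.st ∧ z'.m1 = z.m1 ∧ m'.isGoL = true := by
  cases h <;> simp_all [Mode.isGoL]

def upd (c : ℕ → Sm) (i : ℕ) (y z : Sm) : ℕ → Sm := Function.update (Function.update c i y) (i + 1) z

theorem upd_left (c : ℕ → Sm) (i : ℕ) (y z : Sm) : upd c i y z i = y := by simp [upd]

theorem upd_right (c : ℕ → Sm) (i : ℕ) (y z : Sm) : upd c i y z (i + 1) = z := by simp [upd]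

theorem upd_other (c : ℕ → Sm) (i : ℕ) (y z : Sm) {k : ℕ} (h1 : k ≠ i) (h2 : k ≠ i + 1) : upd c i y z k = c k := by
  simp [upd, h1, h2]

def wt (k : ℕ) (x : Sm) : ℕ := if x.con.m1 then k else 0

def msum (n : ℕ) (c : ℕ → Sm) : ℕ := ∑ k ∈ Finset.range n, wt k (c k)

theorem msum_update {n j : ℕ} (hj : j < n) (c : ℕ → Sm) (x : Sm) :
    msum n (Function.update c j x) + wt j (c j) = msum n c + wt j x := by
  unfold msum
  have hm : j ∈ Finset.range n := Finset.mem_range.mpr hj
  rw [← Finset.add_sum_erase _ _ hm, ← Finset.add_sum_erase _ (fun k => wt k (c k)) hm]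
  have : ∑ k ∈ (Finset.range n).erase j, wt k (Function.update c j x k) =
      ∑ k ∈ (Finset.range n).erase j, wt k (c k) :=
    Finset.sum_congr rfl fun k hk => by rw [Function.update_of_ne (Finset.ne_of_mem_erase hk)]
  rw [this, Function.update_self]
  omega

theorem msum_upd {n i : ℕ} (hi : i + 1 < n) (c : ℕ → Sm) (y z : Sm) :
    msum n (upd c i y z) + wt i (c i) + wt (i + 1) (c (i + 1)) = msum n c + wt i y + wt (i + 1) z := by
  have h1 := msum_update hi (Function.update c i y) z
  have h2 := msum_update (j := i) (by omega : i < n) c y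
  rw [Function.update_of_ne (by omega)] at h1
  unfold upd
  omega

def rank (n t : ℕ) (m : Mode) : ℕ := if m.isGoL then 2 * n + 2 - t else t

def mu (n : ℕ) (c : ℕ → Sm) (t : ℕ) (m : Mode) : ℕ := msum n c * (4 * n + 4) + rank n t m

theorem upd_step {n i : ℕ} (hi : i + 1 < n) {c : ℕ → Sm} {y z : Sm} (h : Fwd y z (c i) (c (i + 1))) :
    FS.Step (wd n (upd c i y z)) (wd n c) :=
  Sys.step_range (S := FS) hi (by rw [upd_left, upd_right]; exact h) fun k _ h1 h2 => (upd_other c i y z h1 h2).symm

theorem upd_st {c : ℕ → Sm} {i : ℕ} {y z : Sm} (h : Fwd y z (c i) (c (i + 1))) (k : ℕ) :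
    (upd c i y z k).con.st = (c k).con.st := by
  by_cases h1 : k = i
  · subst h1; rw [upd_left, (fwd_st h).1]
  · by_cases h2 : k = i + 1
    · subst h2; rw [upd_right, (fwd_st h).2]
    · rw [upd_other c i y z h1 h2]

theorem back_right {F : ℕ} {b : Bool} {c : ℕ → Sm} {i : ℕ} {m : Mode} (hs : Sh F b c (i + 1) m)
    (hh : ∀ i, i < wid F b → ((c i).con.st.home ↔ i = 0 ∨ i = F)) {y z : Sm} (h : Fwd y z (c i) (c (i + 1))) :
    (∃ m', Sh F b (upd c i y z) i m' ∧ mu (wid F b) (upd c i y z) i m' < mu (wid F b) c (i + 1) m) ∨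
      (b = true ∧ i + 1 = F ∧ y.trk.cls = .tU ∧ y.cap = false ∧ z.trk = .tok .U .walk ∧ z.cap = false) := by
  obtain ⟨ht, hs⟩ := hs
  have h1 := hs (i + 1) ht
  have h2 := hs i (by omega)
  have e1 : (c (i + 1)).trk = .tok (posf F b (i + 1)) m := by rw [h1.1]; simp [trkf]
  obtain ⟨p, m', hy, hyc, hcr, htr⟩ := fwd_inv_right h e1
  obtain ⟨f1, f2, f3, f4⟩ := cr_facts hcr
  have hhome := hh (i + 1) ht
  rw [f2] at hhome
  have hmu : mu (wid F b) (upd c i y z) i m' < mu (wid F b) c (i + 1) m := by
    have hm := msum_upd ht c y z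
    unfold mu rank
    rw [f3]
    unfold wt at hm
    rcases f4 with ⟨g1, g2, g3⟩ | ⟨g1, g2, g3, g4⟩
    · rw [g1]
      have : msum (wid F b) (upd c i y z) ≤ msum (wid F b) c := by
        rw [g2] at hm
        cases hz : z.con.m1
        · simp [hz] at hm; omega
        · simp [hz, g3 hz] at hm; omega
      have := Nat.mul_le_mul_right (4 * wid F b + 4) this
      simp; omega
    · simp only [g1, g2, g3, g4] at hm
      have h5 : msum (wid F b) (upd c i y z) + 1 = msum (wid F b) c := by simp at hm; omega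
      rw [← h5]
      split_ifs <;> nlinarith [Nat.sub_le (2 * wid F b + 2) i]
  have hsh : p = posf F b i → z.trk = trkf F b i m' (i + 1) → z.cap = (c (i + 1)).cap →
      (∀ k, k < wid F b → k ≠ i → k ≠ i + 1 → trkf F b (i + 1) m k = trkf F b i m' k) →
      Sh F b (upd c i y z) i m' := by
    intro g1 g2 g3 g4
    refine ⟨by omega, fun k hk => ?_⟩
    by_cases k1 : k = i
    · subst k1
      rw [upd_left, hy, hyc, h2.2, g1]
      simp [trkf]
    · by_cases k2 : k = i + 1
      · subst k2
        rw [upd_right, g2, g3, h1.2]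
        exact ⟨rfl, rfl⟩
      · rw [upd_other c i y z k1 k2, (hs k hk).1, (hs k hk).2, g4 k hk k1 k2]
        exact ⟨rfl, rfl⟩
  generalize hq : posf F b (i + 1) = q at htr
  generalize hy1 : (c i).trk = a at htr
  generalize hz1 : (c (i + 1)).cap = cz at htr
  generalize hz2 : z.trk = zt at htr
  generalize hz3 : z.cap = zc at htr
  unfold wid at ht
  cases htr with
  | u _ g =>
    have hb : b = false := by
      cases b
      · rfl
      · unfold posf at hq; simp at hq; split_ifs at hq
    subst hb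
    simp at ht
    refine Or.inl ⟨m', hsh (by simp [posf]) (by rw [hz2]; simp [trkf]; omega) (by rw [hz3, hz1]) ?_, hmu⟩
    intro k hk k1 k2
    simp only [trkf, k1, k2, if_false, Bool.false_eq_true]
    split_ifs <;> first | rfl | omega
  | l _ g =>
    have hb : b = true ∧ i + 1 < F := by
      cases b
      · simp [posf] at hq
      · unfold posf at hq; simp at hq; exact ⟨rfl, by by_contra h; simp [h] at hq⟩
    obtain ⟨rfl, hb⟩ := hb
    have hi : i < F := by omega
    refine Or.inl ⟨m', hsh (by simp [posf, hi]) (by rw [hz2]; simp [trkf, hi, hb]) (by rw [hz3, hz1]) ?_, hmu⟩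
    intro k hk k1 k2
    simp only [trkf, k1, k2, if_false, if_true, hi, hb]
    split_ifs <;> first | rfl | omega
  | r _ g =>
    have hb : b = true ∧ ¬ i + 1 < F := by
      cases b
      · simp [posf] at hq
      · unfold posf at hq; simp at hq; exact ⟨rfl, by omega⟩
    obtain ⟨rfl, hb⟩ := hb
    have hi : ¬ i < F := by
      rw [hhome] at g; omega
    refine Or.inl ⟨m', hsh (by simp [posf, hi]) (by rw [hz2]; simp [trkf, hi, hb]) (by rw [hz3, hz1]) ?_, hmu⟩
    intro k hk k1 k2
    simp only [trkf, k1, k2, if_false, if_true, hi, hb]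
    split_ifs <;> first | rfl | omega
  | capture g g' =>
    have hb : b = true := by
      cases b
      · simp [posf] at hq
      · rfl
    subst hb
    rw [hhome] at g
    have hi : i + 1 = F := by omega
    refine Or.inr ⟨rfl, hi, by rw [hy]; rfl, ?_, rfl, rfl⟩
    rw [hyc, h2.2]; simp; omega
  | cross g g' =>
    have hb : b = true := by
      cases b
      · simp [posf] at hq
      · rfl
    subst hb
    rw [hhome] at g
    have hi : i + 1 = F := by omega
    subst hi
    refine Or.inl ⟨m', hsh (by simp [posf]) (by rw [hz2]; simp [trkf]) (by rw [hz3, hz1]) ?_, hmu⟩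
    intro k hk k1 k2
    simp only [trkf, k1, k2, if_false, if_true, lt_irrefl, Nat.lt_succ_self]
    split_ifs <;> first | rfl | omega

theorem back_left {F : ℕ} {b : Bool} {c : ℕ → Sm} {i : ℕ} {m : Mode} (hs : Sh F b c i m) (ht : i + 1 < wid F b)
    (hh : ∀ i, i < wid F b → ((c i).con.st.home ↔ i = 0 ∨ i = F)) {y z : Sm} (h : Fwd y z (c i) (c (i + 1))) :
    ∃ m', Sh F b (upd c i y z) (i + 1) m' ∧ mu (wid F b) (upd c i y z) (i + 1) m' < mu (wid F b) c i m := by
  obtain ⟨-, hs⟩ := hs
  have h1 := hs (i + 1) ht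
  have h2 := hs i (by omega)
  have e1 : (c i).trk = .tok (posf F b i) m := by rw [h2.1]; simp [trkf]
  obtain ⟨p, m', hz, hy1, hyc, hzc, hcl, htl⟩ := fwd_inv_left h e1
  obtain ⟨f1, f2, f3⟩ := cl_facts hcl
  have hhome := hh (i + 1) ht
  rw [f1] at hhome
  have hmu : mu (wid F b) (upd c i y z) (i + 1) m' < mu (wid F b) c i m := by
    have hm := msum_upd ht c y z
    unfold wt at hm
    rw [hy1, f2] at hm
    have : msum (wid F b) (upd c i y z) = msum (wid F b) c := by omega
    unfold mu rank
    rw [this, f3]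
    simp only [if_true]
    split_ifs <;> omega
  have hsh : p = posf F b (i + 1) → y.trk = trkf F b (i + 1) m' i →
      (∀ k, k < wid F b → k ≠ i → k ≠ i + 1 → trkf F b i m k = trkf F b (i + 1) m' k) →
      Sh F b (upd c i y z) (i + 1) m' := by
    intro g1 g2 g4
    refine ⟨ht, fun k hk => ?_⟩
    by_cases k1 : k = i
    · subst k1
      rw [upd_left, g2, hyc, h2.2]
      exact ⟨rfl, rfl⟩
    · by_cases k2 : k = i + 1
      · subst k2
        rw [upd_right, hz, hzc, h1.2, g1]
        simp [trkf]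
      · rw [upd_other c i y z k1 k2, (hs k hk).1, (hs k hk).2, g4 k hk k1 k2]
        exact ⟨rfl, rfl⟩
  refine ⟨m', ?_, hmu⟩
  have h1' := h1.1
  generalize hq : posf F b i = q at htl
  generalize hy1 : y.trk = a at htl
  generalize hz1 : (c (i + 1)).cap = cz at htl
  generalize hz2 : (c (i + 1)).trk = zt at htl
  unfold wid at ht
  cases htl with
  | u _ g =>
    have hb : b = false := by
      cases b
      · rfl
      · unfold posf at hq; simp at hq; split_ifs at hq
    subst hb
    refine hsh (by simp [posf]) (by rw [hy1]; simp [trkf]) ?_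
    intro k hk k1 k2
    simp only [trkf, k1, k2, if_false, Bool.false_eq_true]
    split_ifs <;> first | rfl | omega
  | l _ g =>
    have hb : b = true ∧ i < F := by
      cases b
      · simp [posf] at hq
      · unfold posf at hq; simp at hq; exact ⟨rfl, by by_contra h; simp [h] at hq⟩
    obtain ⟨rfl, hi⟩ := hb
    have hb : i + 1 < F := by
      rw [hhome] at g; omega
    refine hsh (by simp [posf, hb]) (by rw [hy1]; simp [trkf, hb]) ?_
    intro k hk k1 k2
    simp only [trkf, k1, k2, if_false, if_true, hi, hb]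
    split_ifs <;> first | rfl | omega
  | r _ g =>
    have hb : b = true ∧ ¬ i < F := by
      cases b
      · simp [posf] at hq
      · unfold posf at hq; simp at hq; exact ⟨rfl, by omega⟩
    obtain ⟨rfl, hi⟩ := hb
    have hb : ¬ i + 1 < F := by omega
    refine hsh (by simp [posf, hb]) (by rw [hy1]; simp [trkf, hb, hi]) ?_
    intro k hk k1 k2
    simp only [trkf, k1, k2, if_false, if_true, hi, hb]
    split_ifs <;> first | rfl | omega
  | cross g =>
    have hb : b = true := by
      cases b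
      · simp [posf] at hq
      · rfl
    subst hb
    rw [hhome] at g
    have hi : i + 1 = F := by omega
    subst hi
    refine hsh (by simp [posf]) (by rw [hy1]; simp [trkf]) ?_
    intro k hk k1 k2
    simp only [trkf, k1, k2, if_false, if_true, lt_irrefl, Nat.lt_succ_self]
    split_ifs <;> first | rfl | omega

theorem wd_congr {α : Type} {n : ℕ} {c c' : ℕ → α} (h : ∀ i, i < n → c i = c' i) : wd n c = wd n c' :=
  List.map_congr_left fun i hi => h i (List.mem_range.mp hi)

theorem clean_congr {F : ℕ} {σ σ' : ℕ → Sta} (dp : ℕ → Bool) (h : ∀ i, i < F → σ i = σ' i) :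
    clean F σ dp = clean F σ' dp :=
  wd_congr fun i hi => by unfold cell; rw [h i hi]

theorem idle_clean {F : ℕ} (hF : 2 ≤ F) {c : ℕ → Sm} (hh : ∀ i, i < F → ((c i).con.st.home ↔ i = 0))
    (hs : Sh F false c 0 .walk) (hz : ¬ SS.IsZero (wd F c)) :
    wd F c = clean F (fun i => (c i).con.st) fun i => (c i).con.dp := by
  obtain ⟨-, hs⟩ := hs
  let cw : ℕ → ℕ → Sm := fun t k => ⟨(c k).con, (c k).cap, trkf F false t .walk k⟩
  have h0 : wd F c = wd F (cw 0) := wd_congr fun i hi => by
    have := (hs i hi).1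
    simp only [cw, ← this]
  have h1 : ∀ t, t < F → SS.Eqv (wd F c) (wd F (cw t)) := by
    intro t
    induction t with
    | zero => intro _; rw [← h0]; exact Sys.Eqv.refl _
    | succ t ih =>
      intro ht
      refine (ih (by omega)).trans (fs_step_ss (Sys.step_range (S := FS) ht ?_ ?_)).eqv
      · have e1 : trkf F false t .walk t = .tok .U .walk := by simp [trkf, posf]
        have e2 : trkf F false t .walk (t + 1) = .la := by simp [trkf, ht.ne]
        have e3 : trkf F false (t + 1) .walk t = .ra := by simp [trkf]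
        have e4 : trkf F false (t + 1) .walk (t + 1) = .tok .U .walk := by simp [trkf, posf]
        simp only [cw, e1, e2, e3, e4]
        exact Fwd.right (CR.walk _ _) (TR.u _ (by rw [hh _ ht]; omega))
      · intro k hk k1 k2
        simp only [cw, trkf, k1, k2, if_false, Bool.false_eq_true]
        congr 1
        split_ifs <;> first | rfl | omega
  have h2 : ∀ t, t < F → (c t).con.m1 = false ∧ (c t).con.m2 = false := by
    intro t ht
    have := not_bad1 (fun h => hz (h.of_eqv (h1 t ht))) hF ht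
    by_contra h
    refine this (Or.inr (Or.inl (Or.inr (Or.inr (Or.inr (Or.inl ⟨.U, by simp [cw, trkf, posf], Or.inr ?_⟩))))))
    simp only [cw]
    revert h
    cases (c t).con.m1 <;> cases (c t).con.m2 <;> simp
  refine wd_congr fun i hi => ?_
  obtain ⟨e1, e2⟩ := hs i hi
  obtain ⟨e3, e4⟩ := h2 i hi
  unfold cell
  beta_reduce
  generalize c i = x at e1 e2 e3 e4
  rcases x with ⟨⟨a1, a2, a3, a4⟩, a5, a6⟩
  simp only at e1 e2 e3 e4
  subst e1 e2 e3 e4
  have hi' : i ≠ F := hi.ne
  by_cases h : i = 0 <;> simp [trkf, posf, h, hi']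

/-- the window in which the predecessor lives -/
theorem exists_pred {F : ℕ} (hF : 2 ≤ F) {b : Bool} {c : ℕ → Sm} {t : ℕ} {m : Mode} (hs : Sh F b c t m)
    (hh : ∀ i, i < wid F b → ((c i).con.st.home ↔ i = 0 ∨ i = F))
    (hl : (c (wid F b - 1)).con.st.me.sw = 3) (hz : ¬ SS.IsZero (wd (wid F b) c)) :
    (b = false ∧ t = 0 ∧ m = .walk) ∨ (∃ i y z, t = i + 1 ∧ Fwd y z (c i) (c (i + 1))) ∨
      (t + 1 < wid F b ∧ ∃ y z, Fwd y z (c t) (c (t + 1))) := by
  obtain ⟨ht, hs⟩ := hs
  have hn : 2 ≤ wid F b := by unfold wid; split_ifs <;> omega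
  have e1 : (c t).trk = .tok (posf F b t) m := by rw [(hs t ht).1]; simp [trkf]
  have hb := not_bad1 hz hn ht
  by_cases hm : m.isGoL = true
  · refine Or.inr (Or.inr ?_)
    have h1 : t + 1 < wid F b := by
      by_contra h
      obtain rfl : t = wid F b - 1 := by omega
      refine hb (Or.inr (Or.inl (Or.inr (Or.inr (Or.inr (Or.inr (Or.inl ⟨_, _, e1, hm, ?_, hl⟩)))))))
      unfold posf wid
      cases b
      · simp
      · have : ¬ 2 * F - 1 < F := by omega
        simp [this]
    refine ⟨h1, ?_⟩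
    by_contra h
    exact not_szr hz h1 (Or.inr (Or.inr (Or.inr (Or.inr ⟨Or.inr ⟨_, _, e1, hm⟩, h⟩))))
  · have hw : m = .walk → posf F b t = .U := by
      rintro rfl
      by_contra h
      exact hb (Or.inr (Or.inl (Or.inr (Or.inr (Or.inr (Or.inl ⟨_, e1, Or.inl h⟩))))))
    have hw' : m = .walk → b = false := by
      intro h
      have := hw h
      cases b
      · rfl
      · unfold posf at this; simp at this; split_ifs at this
    have hmm : m.isMain = true ∨ m.isGoR = true ∨ m = .walk := by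
      cases m <;> simp_all [Mode.isMain, Mode.isGoR, Mode.isGoL]
    rcases Nat.eq_zero_or_pos t with rfl | h0
    · by_cases h : m = .walk
      · exact Or.inl ⟨hw' h, rfl, h⟩
      · exfalso
        refine hb (Or.inr (Or.inl (Or.inr (Or.inr (Or.inr (Or.inr (Or.inr
          ⟨_, _, e1, by tauto, (hh 0 ht).mpr (Or.inl rfl), ?_⟩)))))))
        rw [(hs 0 ht).2]; simp; omega
    · obtain ⟨i, rfl⟩ : ∃ i, t = i + 1 := ⟨t - 1, by omega⟩
      refine Or.inr (Or.inl ?_)
      by_contra h
      refine not_szr hz ht (Or.inr (Or.inr (Or.inr (Or.inr ⟨Or.inl ⟨_, _, e1, ?_⟩, ?_⟩))))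
      · rcases hmm with h | h | h
        · exact Or.inl h
        · exact Or.inr (Or.inl h)
        · refine Or.inr (Or.inr ⟨h, ?_⟩)
          rw [hh _ ht]
          have := hw' h
          subst this
          unfold wid at ht
          simp at ht
          omega
      · rintro ⟨y, z, hf⟩
        exact h ⟨i, y, z, rfl, hf⟩

theorem nf1_aux {F : ℕ} (hF : 2 ≤ F) (σ : ℕ → Sta) (hh : ∀ i, i < F → ((σ i).home ↔ i = 0))
    (hl : (σ (F - 1)).me.sw = 3) : ∀ (N : ℕ) (c : ℕ → Sm) (t : ℕ) (m : Mode), mu F c t m < N →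
      (∀ i, (c i).con.st = σ i) → Sh F false c t m → ¬ SS.IsZero (wd F c) →
      ∃ dp₀, Reach1 (clean F σ dp₀) (wd F c) := by
  intro N
  induction N with
  | zero => intro c t m h; omega
  | succ N ih =>
    intro c t m hN hσ hs hz
    have hh' : ∀ i, i < wid F false → ((c i).con.st.home ↔ i = 0 ∨ i = F) := fun i hi => by
      have hi' : i < F := hi
      rw [hσ, hh i hi']; omega
    have key : ∀ (i : ℕ) (y z : Sm) (t' : ℕ) (m' : Mode), i + 1 < F → Fwd y z (c i) (c (i + 1)) →
        Sh F false (upd c i y z) t' m' → mu F (upd c i y z) t' m' < mu F c t m →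
        ∃ dp₀, Reach1 (clean F σ dp₀) (wd F c) := by
      intro i y z t' m' hi hf hs' hmu
      have hst := upd_step hi hf
      obtain ⟨dp₀, h⟩ := ih _ t' m' (by omega) (fun k => by rw [upd_st hf, hσ]) hs'
        (fun h => hz (h.of_eqv (fs_step_ss hst).eqv.symm))
      exact ⟨dp₀, h.tail hst⟩
    rcases exists_pred hF hs hh' (by rw [hσ]; exact hl) hz with ⟨-, rfl, rfl⟩ | ⟨i, y, z, rfl, hf⟩ | ⟨h1, y, z, hf⟩
    · refine ⟨fun i => (c i).con.dp, ?_⟩
      rw [idle_clean hF (fun i hi => by rw [hσ, hh i hi]) hs hz, clean_congr _ fun i _ => hσ i]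
      exact Relation.ReflTransGen.refl
    · rcases back_right hs hh' hf with ⟨m', h1, h2⟩ | ⟨h, -⟩
      · exact key i y z i m' hs.1 hf h1 h2
      · exact absurd h (by simp)
    · obtain ⟨m', h2, h3⟩ := back_left hs h1 hh' hf
      exact key t y z (t + 1) m' h1 hf h2 h3

theorem wd_add {α : Type} (a b : ℕ) (c : ℕ → α) : wd (a + b) c = wd a c ++ wd b fun i => c (a + i) := by
  simp [wd, List.range_add, Function.comp_def]

theorem wd_succ {α : Type} (a : ℕ) (c : ℕ → α) : wd (a + 1) c = wd a c ++ [c a] := by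
  simp [wd, List.range_succ]

theorem wd_succ' {α : Type} (a : ℕ) (c : ℕ → α) : wd (a + 1) c = c 0 :: wd a fun i => c (i + 1) := by
  simp [wd, List.range_succ_eq_map, Function.comp_def]

theorem nf2_aux {F : ℕ} (hF : 2 ≤ F) (σ : ℕ → Sta) (hh : ∀ i, i < 2 * F → ((σ i).home ↔ i = 0 ∨ i = F))
    (hl : (σ (F - 1)).me.sw = 3) (hl' : (σ (2 * F - 1)).me.sw = 3) :
    ∀ (N : ℕ) (c : ℕ → Sm) (t : ℕ) (m : Mode), mu (2 * F) c t m < N →
      (∀ i, (c i).con.st = σ i) → Sh F true c t m → ¬ SS.IsZero (wd (2 * F) c) →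
      ∃ dp₀ dp₁, Reach2 (clean F σ dp₀) (clean F (fun i => σ (F + i)) dp₁) (wd (2 * F) c) := by
  intro N
  induction N with
  | zero => intro c t m h; omega
  | succ N ih =>
    intro c t m hN hσ hs hz
    have hh' : ∀ i, i < wid F true → ((c i).con.st.home ↔ i = 0 ∨ i = F) := fun i hi => by
      rw [hσ, hh i hi]
    have key : ∀ (i : ℕ) (y z : Sm) (t' : ℕ) (m' : Mode), i + 1 < 2 * F → Fwd y z (c i) (c (i + 1)) →
        Sh F true (upd c i y z) t' m' → mu (2 * F) (upd c i y z) t' m' < mu (2 * F) c t m →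
        ∃ dp₀ dp₁, Reach2 (clean F σ dp₀) (clean F (fun i => σ (F + i)) dp₁) (wd (2 * F) c) := by
      intro i y z t' m' hi hf hs' hmu
      have hst := upd_step hi hf
      obtain ⟨dp₀, dp₁, h⟩ := ih _ t' m' (by omega) (fun k => by rw [upd_st hf, hσ]) hs'
        (fun h => hz (h.of_eqv (fs_step_ss hst).eqv.symm))
      exact ⟨dp₀, dp₁, h.step hst⟩
    rcases exists_pred hF hs hh' (by rw [hσ]; exact hl') hz with ⟨h, -⟩ | ⟨i, y, z, rfl, hf⟩ | ⟨h1, y, z, hf⟩
    · exact absurd h (by simp)
    · rcases back_right hs hh' hf with ⟨m', h1, h2⟩ | ⟨-, rfl, g1, g2, g3, g4⟩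
      · exact key i y z i m' hs.1 hf h1 h2
      · have hi : i + 1 < 2 * (i + 1) := hs.1
        have hst := upd_step hi hf
        have hz' : ¬ SS.IsZero (wd (2 * (i + 1)) (upd c i y z)) :=
          fun h => hz (h.of_eqv (fs_step_ss hst).eqv.symm)
        rw [two_mul, wd_add] at hz'
        have hzl : ¬ SS.IsZero (wd (i + 1) (upd c i y z)) := fun h => hz' (h.append_right _)
        have hzr : ¬ SS.IsZero (wd (i + 1) fun k => upd c i y z (i + 1 + k)) := fun h => hz' (h.append_left _)
        have hσ' : ∀ k, (upd c i y z k).con.st = σ k := fun k => by rw [upd_st hf, hσ]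
        obtain ⟨m', hy⟩ := cls_tU g1
        have hsl : Sh (i + 1) false (upd c i y z) i m' := by
          refine ⟨Nat.lt_succ_self i, fun k hk => ?_⟩
          have hk' : k < i + 1 := hk
          by_cases k1 : k = i
          · subst k1
            rw [upd_left, hy, g2]; simp [trkf, posf]
          · have k2 : k < i := by omega
            have := hs.2 k (by unfold wid; simp; omega)
            rw [upd_other c i y z k1 (by omega), this.1, this.2]
            simp [trkf, k1, k2, hk', hk'.ne]
        obtain ⟨dp₀, h1⟩ := nf1_aux hF σ (fun k hk => by rw [hh k (by omega)]; omega) hl _ _ _ _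
          (Nat.lt_succ_self _) hσ' hsl hzl
        have hsr : Sh (i + 1) false (fun k => upd c i y z (i + 1 + k)) 0 .walk := by
          refine ⟨Nat.succ_pos i, fun k hk => ?_⟩
          have hk' : k < i + 1 := hk
          rcases Nat.eq_zero_or_pos k with rfl | k1
          · simp only [add_zero]
            rw [upd_right, g3, g4]; simp [trkf, posf]
          · have := hs.2 (i + 1 + k) (by unfold wid; simp; omega)
            simp only
            rw [upd_other c i y z (by omega) (by omega), this.1, this.2]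
            have k2 : ¬ i + 1 + k < i + 1 := by omega
            simp [trkf, k1.ne', hk'.ne, k2]
        have h2 := idle_clean hF (fun k hk => by rw [hσ', hh _ (by omega)]; omega) hsr hzr
        rw [clean_congr (σ' := fun k => σ (i + 1 + k)) _ fun k _ => hσ' _] at h2
        refine ⟨dp₀, fun k => (upd c i y z (i + 1 + k)).con.dp, ?_⟩
        rw [wd_succ, upd_left] at h1
        rw [wd_succ'] at h2
        simp only [add_zero] at h2
        rw [upd_right] at h2
        have h3 := Reach2.cap h1 h2.symm hf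
        have e1 : wd i (upd c i y z) = wd i c :=
          wd_congr fun k hk => upd_other c i y z (by omega) (by omega)
        have e2 : (wd i fun k => upd c i y z (i + 1 + (k + 1))) = wd i fun k => c (i + 1 + (k + 1)) :=
          wd_congr fun k hk => upd_other c i y z (by omega) (by omega)
        rw [e1, e2] at h3
        rw [two_mul, wd_add, wd_succ, wd_succ']
        simpa using h3
    · obtain ⟨m', h2, h3⟩ := back_left hs h1 hh' hf
      exact key t y z (t + 1) m' h1 hf h2 h3

end NFAux

open NFAux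

theorem nf1 {F : ℕ} (hF : 2 ≤ F) {c : ℕ → Sm} (hh : ∀ i, i < F → ((c i).con.st.home ↔ i = 0))
    (hl : (c (F - 1)).con.st.me.sw = 3) (hc : (c 0).cap = false)
    (ht : (c (F - 1)).trk.cls = .la ∨ (c (F - 1)).trk.cls = .tU) (hz : ¬ SS.IsZero (wd F c)) :
    ∃ dp₀, Reach1 (clean F (fun i => (c i).con.st) dp₀) (wd F c) := by
  obtain ⟨t, m, hs⟩ := shape1 hF hh hc ht hz
  exact nf1_aux hF _ hh hl _ c t m (Nat.lt_succ_self _) (fun _ => rfl) hs hz

theorem nf2 {F : ℕ} (hF : 2 ≤ F) {c : ℕ → Sm} (hh : ∀ i, i < 2 * F → ((c i).con.st.home ↔ i = 0 ∨ i = F))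
    (hl : (c (F - 1)).con.st.me.sw = 3) (hl' : (c (2 * F - 1)).con.st.me.sw = 3) (hc : (c 0).cap = false)
    (hc' : (c F).cap = true) (ht : (c (2 * F - 1)).trk.cls = .la ∨ (c (2 * F - 1)).trk.cls = .tR)
    (hz : ¬ SS.IsZero (wd (2 * F) c)) :
    ∃ dp₀ dp₁, Reach2 (clean F (fun i => (c i).con.st) dp₀) (clean F (fun i => (c (F + i)).con.st) dp₁)
      (wd (2 * F) c) := by
  obtain ⟨t, m, hs⟩ := shape2 hF hh hc hc' ht hz
  exact nf2_aux hF (fun i => (c i).con.st) hh hl hl' _ c t m (Nat.lt_succ_self _) (fun _ => rfl) hs hz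

end Crest.Agent.R176
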