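import Crest.Agent.R176.Sim
import Crest.Agent.R176.NF
import Crest.Agent.R176.Desc

/-!
# Row 176, machine: parsing nonzero words  (task R176-Parse)

`frame_struct`: induction on `i` using `¬ zr (c i) (c (i+1))` (`SuccBad`, first clause of `BadPSta`, first clause of
`BadSta`, `BadB`, `lay_home_iff`).  `tyF` is the type of a frame.  `terr1`/`terr2`: `frame_struct`, `nf1`/`nf2` (the small
part is `SS`-nonzero by `lift_zero`), `clean_eq_encS`, and `reach*_swap` for the injectivity of the data.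
`ty_bad`: by induction along the frame (`okStart`, `okIn`): with `cap = false` at home only the classes
`ra, tU, tL, la, lb` occur, with `cap = true` only `rb, tR, la`; a last class `rb` cannot be followed by a home cell
(`okHome`).  `ty_z1`, `ty_z2`: `okHome` at the junction.
`parse`: all positions `b - F + k * F` are start letters (`ph_succ`, `start_of_ph`).  Induction on `K` for the statement
with `e₁ = 0` under the assumption that the first frame is not of type `2`; if it is of type `2`, the frame before it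
has type `1`.
`slot_perm`: `parse` with `K = 1` is not enough (one needs the territory itself): use `terr1`, `terr2` and
`reach1_swap`, `reach2_swap` in the three cases of the type of the frame at `b`; cut `wd n c` into three parts.
-/

set_option autoImplicit false

namespace Crest.Agent.R176

open NFAux

variable {s : ℕ}

theorem pa_succ {Y Z : Lt s} (h : ¬ (Sg s).zr Y Z) :
    Z.a.val = (Y.a.val + 1) % 2 ^ s ∧ (Z.me.fst = true ↔ Z.a.val = 0) ∧
      (¬ Z.me.reset → Z.h.val = min (Y.h.val + 1) s) ∧ Z.me.sw = Y.me.sw + (if Z.me.fst then 1 else 0) := by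
  refine ⟨?_, ?_, fun h1 => ?_, ?_⟩
  · by_contra h'
    exact h (Or.inr (Or.inr (Or.inr (Or.inl (Or.inl h')))))
  · by_contra h'
    exact h (Or.inr (Or.inr (Or.inr (Or.inl (Or.inr (Or.inl h'))))))
  · by_contra h'
    exact h (Or.inr (Or.inr (Or.inr (Or.inl (Or.inr (Or.inr ⟨h1, h'⟩))))))
  · by_contra h'
    exact h (Or.inl (Or.inr (Or.inr (Or.inl (Or.inl h')))))

theorem pa_ph_lt (Z : Lt s) : Z.me.sw.val * 2 ^ s + Z.a.val < FL s := by
  have h1 := Z.me.sw.isLt
  have h2 := Z.a.isLt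
  have h3 : Z.me.sw.val * 2 ^ s ≤ 3 * 2 ^ s := Nat.mul_le_mul_right _ (by omega)
  unfold FL; omega

theorem ph_succ {Y Z : Lt s} (h : ¬ (Sg s).zr Y Z) : Z.ph = Y.ph + 1 := by
  obtain ⟨h1, h2, -, h4⟩ := pa_succ h
  have ha := Y.a.isLt
  unfold Lt.ph
  rw [← Nat.cast_succ, ZMod.natCast_eq_natCast_iff']
  rcases Nat.lt_or_ge (Y.a.val + 1) (2 ^ s) with h5 | h5
  · rw [Nat.mod_eq_of_lt h5] at h1
    have h6 : ¬ Z.me.fst = true := fun e => by have := h2.1 e; omega
    rw [if_neg h6, add_zero] at h4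
    rw [h4, h1]; rfl
  · have h6 : Y.a.val + 1 = 2 ^ s := by omega
    rw [h6, Nat.mod_self] at h1
    rw [if_pos (h2.2 h1)] at h4
    have h7 : Z.me.sw.val = (Y.me.sw.val + 1) % 4 := by rw [h4, Fin.val_add]; rfl
    rw [h1, h7, add_zero, show (Y.me.sw.val * 2 ^ s + Y.a.val).succ = (Y.me.sw.val + 1) * 2 ^ s by
      rw [Nat.succ_eq_add_one, add_assoc, h6]; ring, FL, Nat.mul_mod_mul_right, Nat.mul_mod_mul_right, Nat.mod_mod]

theorem start_of_ph {Y Z : Lt s} (h : ¬ (Sg s).zr Y Z) (h0 : Z.ph = 0) : Z.start := by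
  obtain ⟨-, h2, -, -⟩ := pa_succ h
  unfold Lt.ph at h0
  rw [ZMod.natCast_eq_zero_iff] at h0
  have h3 := Nat.eq_zero_of_dvd_of_lt h0 (pa_ph_lt Z)
  have h4 : Z.a.val = 0 := by omega
  have h5 : Z.me.sw.val * 2 ^ s = 0 := by omega
  have h6 : Z.me.sw.val = 0 := by simpa using h5
  exact ⟨⟨h2.2 h4, Fin.ext h6⟩, h4⟩

theorem ph_of_start {Z : Lt s} (h : Z.start) : Z.ph = 0 := by
  unfold Lt.ph
  rw [h.1.2, h.2]; simp

theorem pa_nzr {n : ℕ} {c : ℕ → Lt s} (hz : ¬ (Sg s).IsZero (wd n c)) {i : ℕ} (hi : i + 1 < n) :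
    ¬ (Sg s).zr (c i) (c (i + 1)) := fun h => hz (Sys.hasZ_range hi h).isZero

theorem pa_map (n : ℕ) (c : ℕ → Lt s) : (wd n c).map Lt.sm = wd n fun i => (c i).sm := by
  simp [wd, Function.comp_def]

theorem pa_small {n : ℕ} {c : ℕ → Lt s} (hz : ¬ (Sg s).IsZero (wd n c)) : ¬ SS.IsZero (wd n fun i => (c i).sm) :=
  fun h => hz (lift_zero (by rwa [pa_map]))

theorem pa_factor {α : Type} {S : Sys α} {n : ℕ} {c : ℕ → α} (hz : ¬ S.IsZero (wd n c)) (p m : ℕ)
    (h : p + m ≤ n) : ¬ S.IsZero (wd m fun i => c (p + i)) := fun h' => by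
  obtain ⟨r, rfl⟩ := Nat.exists_eq_add_of_le h
  rw [wd_add, wd_add] at hz
  exact hz (h'.append _ _)

theorem pa_prefix {α : Type} {S : Sys α} {n : ℕ} {c : ℕ → α} (hz : ¬ S.IsZero (wd n c)) (m : ℕ)
    (h : m ≤ n) : ¬ S.IsZero (wd m c) := by
  simpa using pa_factor hz 0 m (by omega)

theorem pa_not_badB {n : ℕ} {c : ℕ → Lt s} (hz : ¬ (Sg s).IsZero (wd n c)) (hn : 2 ≤ n) {i : ℕ} (hi : i < n) :
    ¬ BadB (c i) := by
  intro h
  rcases Nat.eq_zero_or_pos i with rfl | h0
  · exact pa_nzr hz (i := 0) (by omega) (Or.inr (Or.inl h))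
  · obtain ⟨k, rfl⟩ : ∃ k, i = k + 1 := ⟨i - 1, by omega⟩
    exact pa_nzr hz hi (Or.inr (Or.inr (Or.inl h)))

theorem ph_add {n : ℕ} {c : ℕ → Lt s} (hz : ¬ (Sg s).IsZero (wd n c)) {i k : ℕ} (h : i + k < n) :
    (c (i + k)).ph = (c i).ph + k := by
  induction k with
  | zero => simp
  | succ k ih => rw [← add_assoc, ph_succ (pa_nzr hz (i := i + k) h), ih (by omega), Nat.cast_succ, add_assoc]

theorem pa_start {n : ℕ} {c : ℕ → Lt s} (hz : ¬ (Sg s).IsZero (wd n c)) {b : ℕ} (hb : 1 ≤ b) (hn : b < n)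
    (h0 : (c b).ph = 0) : (c b).start := by
  obtain ⟨k, rfl⟩ : ∃ k, b = k + 1 := ⟨b - 1, by omega⟩
  exact start_of_ph (pa_nzr hz hn) h0

theorem pa_start_next {n : ℕ} {c : ℕ → Lt s} (hz : ¬ (Sg s).IsZero (wd n c)) {b : ℕ} (hn : b + FL s < n)
    (h0 : (c b).start) : (c (b + FL s)).start := by
  have := FL_ge s
  refine pa_start hz (by omega) hn ?_
  rw [ph_add hz hn, ph_of_start h0, ZMod.natCast_self, add_zero]

theorem pa_start_prev {n : ℕ} {c : ℕ → Lt s} (hz : ¬ (Sg s).IsZero (wd n c)) {b : ℕ} (hb : 1 ≤ b)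
    (hn : b + FL s < n) (h0 : (c (b + FL s)).ph = 0) : (c b).start := by
  refine pa_start hz hb (by omega) ?_
  rwa [ph_add hz hn, ZMod.natCast_self, add_zero] at h0

theorem frame_struct (hs : PL ≤ s) {n : ℕ} {c : ℕ → Lt s} (hz : ¬ (Sg s).IsZero (wd n c)) (hn : 2 ≤ n)
    (h0 : (c 0).start) {i : ℕ} (hi : i < n) :
    (c i).me = meS s (i % FL s) ∧ (c i).a.val = i % 2 ^ s ∧ (c i).h.val = min (i % FL s) s ∧
      (¬ slot s i → (c i).d.val = 0) := by
  have hM := Nat.two_pow_pos s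
  have hF := FL_ge s
  have h1 : ∀ i, i < n → (c i).me.sw.val * 2 ^ s + (c i).a.val = i % FL s := by
    intro i hi
    have := ph_add hz (i := 0) (k := i) (by omega)
    rw [ph_of_start h0, zero_add, zero_add, Lt.ph, ZMod.natCast_eq_natCast_iff',
      Nat.mod_eq_of_lt (pa_ph_lt _)] at this
    exact this
  have h2 : ∀ i, i < n → (c i).a.val = i % FL s % 2 ^ s := by
    intro i hi
    rw [← h1 i hi, Nat.mul_add_mod', Nat.mod_eq_of_lt (c i).a.isLt]
  have h3 : ∀ i, i < n → (c i).me.sw.val = i % FL s / 2 ^ s := by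
    intro i hi
    rw [← h1 i hi, add_comm, Nat.add_mul_div_right _ _ hM, Nat.div_eq_of_lt (c i).a.isLt, zero_add]
  have h4 : ∀ i, i < n → ((c i).me.fst = true ↔ (c i).a.val = 0) := by
    intro i hi
    rcases Nat.eq_zero_or_pos i with rfl | hp
    · exact ⟨fun _ => h0.2, fun _ => h0.1.1⟩
    · obtain ⟨k, rfl⟩ : ∃ k, i = k + 1 := ⟨i - 1, by omega⟩
      exact (pa_succ (pa_nzr hz hi)).2.1
  have h5 : ∀ i, i < n → (c i).me.io = Lay (c i).h := fun i hi => by
    by_contra h
    exact pa_not_badB hz hn hi (Or.inl h)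
  have h6 : ∀ i, i < n → (c i).me.reset → (c i).h.val = 0 := by
    intro i hi hr
    have : (c i).me.io = .home ↔ (c i).me.reset := by
      by_contra h
      exact not_bad1 (pa_small hz) hn hi (Or.inl (Or.inl h))
    rw [← lay_home_iff, ← h5 i hi]
    exact this.2 hr
  have h7 : ∀ i, i < n → ((c i).me.reset ↔ i % FL s = 0) := by
    intro i hi
    rw [← h1 i hi]
    constructor
    · rintro ⟨e1, e2⟩
      rw [e2, (h4 i hi).1 e1]; simp
    · intro e
      have e1 : (c i).me.sw.val * 2 ^ s = 0 := by omega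
      exact ⟨(h4 i hi).2 (by omega), Fin.ext (by simpa using e1)⟩
  have h8 : ∀ i, i < n → (c i).h.val = min (i % FL s) s := by
    intro i
    induction i with
    | zero => intro hi; simpa using h6 0 hi h0.1
    | succ i ih =>
      intro hi
      by_cases hr : (c (i + 1)).me.reset
      · rw [h6 _ hi hr, (h7 _ hi).1 hr]; simp
      · rw [(pa_succ (pa_nzr hz hi)).2.2.1 hr, ih (by omega)]
        rw [h7 _ hi] at hr
        have : (i + 1) % FL s = i % FL s + 1 := by
          have e := Nat.add_mod i 1 (FL s)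
          rw [Nat.mod_eq_of_lt (show 1 < FL s by omega)] at e
          have := Nat.mod_lt i (show 0 < FL s by omega)
          rcases Nat.lt_or_ge (i % FL s + 1) (FL s) with h | h
          · rw [e, Nat.mod_eq_of_lt h]
          · rw [show i % FL s + 1 = FL s by omega, Nat.mod_self] at e
            exact absurd e hr
        omega
  refine ⟨?_, ?_, h8 i hi, fun hsl => ?_⟩
  · have e : (c i).me = ⟨(c i).me.io, (c i).me.sw, (c i).me.fst⟩ := rfl
    rw [e, meS, Cst.mk.injEq]
    refine ⟨by rw [h5 i hi, h8 i hi], Fin.ext ?_, ?_⟩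
    · have := (c i).me.sw.isLt
      simp only [← h3 i hi]
      omega
    · rw [Bool.eq_iff_iff, h4 i hi, h2 i hi]; simp
  · rw [h2 i hi, Nat.mod_mod_of_dvd _ (show 2 ^ s ∣ FL s from Dvd.intro_left 4 rfl)]
  · by_contra h
    refine pa_not_badB hz hn hi (Or.inr ⟨fun e => hsl ?_, h⟩)
    rw [slot, ← h3 i hi, e]; rfl

theorem pa_home (hs : PL ≤ s) {n : ℕ} {c : ℕ → Lt s} (hz : ¬ (Sg s).IsZero (wd n c)) (hn : 2 ≤ n)
    (h0 : (c 0).start) {i : ℕ} (hi : i < n) : (c i).sm.con.st.home ↔ i % FL s = 0 := by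
  have := FL_ge s
  rw [Sta.home, kd_of_me hs (Nat.mod_lt i (by omega)) (frame_struct hs hz hn h0 hi).1, lay_home_iff]

theorem pa_sw_last : (meS s (FL s - 1)).sw = 3 := by
  have := FL_ge s
  have hM := Nat.two_pow_pos s
  apply Fin.ext
  rw [meS_sw (by omega)]
  change _ = 3
  rw [Nat.div_eq_iff hM]
  unfold FL; omega

theorem pa_get {α : Type} {n : ℕ} {c : ℕ → α} {i : ℕ} {X : α} (h : (wd n c)[i]? = some X) : i < n ∧ c i = X := by
  obtain ⟨h1, h2⟩ := List.getElem?_eq_some_iff.mp h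
  simp only [wd, List.length_map, List.length_range] at h1
  exact ⟨h1, by simpa [wd] using h2⟩

theorem pa_bigOK (hs : PL ≤ s) {n : ℕ} {c : ℕ → Lt s} (hz : ¬ (Sg s).IsZero (wd n c)) (hn : 2 ≤ n)
    (h0 : (c 0).start) (h : ∀ i j, i < n → j < n → slot s i → slot s j → i / FL s = j / FL s → i ≠ j →
      (c i).d = (c j).d → (Sg s).IsZero (wd n c)) : BigOK (wd n c) := by
  refine ⟨fun i X hX => ?_, fun i j X Y hX hY si sj e1 e2 => ?_⟩
  · obtain ⟨hi, rfl⟩ := pa_get hX
    exact (frame_struct hs hz hn h0 hi).2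
  · obtain ⟨hi, rfl⟩ := pa_get hX
    obtain ⟨hj, rfl⟩ := pa_get hY
    by_contra hne
    exact hz (h i j hi hj si sj e1 hne e2)

/-- the type of a frame with the given `cap` at home and class of the last track -/
def tyC : Bool → TC → Fin 4
  | false, .la | false, .tU => 0
  | false, .ra | false, .tL | false, .lb => 1
  | true, .la | true, .tR => 2
  | _, _ => 3

def tyF (W : List (Lt s)) : Fin 4 := tyC (W.headD default).sm.cap (W.getLastD default).sm.trk.cls

theorem terr1 (hs : PL ≤ s) {c : ℕ → Lt s} (hz : ¬ (Sg s).IsZero (wd (FL s) c)) (h0 : (c 0).start)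
    (ht : tyC (c 0).sm.cap (c (FL s - 1)).sm.trk.cls = 0) :
    ∃ X : Lt (2 ^ s), Reach1 (encS X) ((wd (FL s) c).map Lt.sm) ∧ BigOK (wd (FL s) c) := by
  have hF := FL_ge s
  have hn : 2 ≤ FL s := by omega
  obtain ⟨t1, t2⟩ := (show ∀ b t, tyC b t = 0 → b = false ∧ (t = .la ∨ t = .tU) by decide) _ _ ht
  obtain ⟨dp, h⟩ := nf1 hn (c := fun i => (c i).sm)
    (fun i hi => by rw [pa_home hs hz hn h0 hi, Nat.mod_eq_of_lt hi])
    (by
      have := (frame_struct hs hz hn h0 (i := FL s - 1) (by omega)).1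
      rw [Nat.mod_eq_of_lt (by omega)] at this
      change (c (FL s - 1)).me.sw = 3
      rw [this, pa_sw_last]) t1 t2 (pa_small hz)
  obtain ⟨X, hX⟩ := clean_eq_encS hs (σ := fun i => (c i).sm.con.st) (dp₀ := dp)
    (fun i hi => (frame_struct hs hz hn h0 hi).1) (fun h' => pa_small hz (h'.of_eqv h.eqv.symm))
  rw [hX, ← pa_map] at h
  exact ⟨X, h, pa_bigOK hs hz hn h0 fun i j hi hj si sj _ => (reach1_swap hs h hi hj si sj).2⟩

theorem terr2 (hs : PL ≤ s) {c : ℕ → Lt s} (hz : ¬ (Sg s).IsZero (wd (2 * FL s) c)) (h0 : (c 0).start)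
    (ht : tyC (c 0).sm.cap (c (FL s - 1)).sm.trk.cls = 1)
    (ht' : tyC (c (FL s)).sm.cap (c (2 * FL s - 1)).sm.trk.cls = 2) :
    ∃ X Y : Lt (2 ^ s), Reach2 (encS X) (encS Y) ((wd (2 * FL s) c).map Lt.sm) ∧ BigOK (wd (2 * FL s) c) := by
  have hF := FL_ge s
  have hn : 2 ≤ 2 * FL s := by omega
  have t1 := (show ∀ b t, tyC b t = 1 → b = false by decide) _ _ ht
  obtain ⟨t2, t3⟩ := (show ∀ b t, tyC b t = 2 → b = true ∧ (t = .la ∨ t = .tR) by decide) _ _ ht'
  obtain ⟨dp, dp', h⟩ := nf2 (F := FL s) (by omega) (c := fun i => (c i).sm)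
    (fun i hi => by
      rw [pa_home hs hz hn h0 hi]
      rcases Nat.lt_or_ge i (FL s) with h | h
      · rw [Nat.mod_eq_of_lt h]; omega
      · rw [Nat.mod_eq_sub_mod h, Nat.mod_eq_of_lt (by omega)]; omega)
    (by
      have := (frame_struct hs hz hn h0 (i := FL s - 1) (by omega)).1
      rw [Nat.mod_eq_of_lt (by omega)] at this
      change (c (FL s - 1)).me.sw = 3
      rw [this, pa_sw_last])
    (by
      have := (frame_struct hs hz hn h0 (i := 2 * FL s - 1) (by omega)).1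
      rw [Nat.mod_eq_sub_mod (by omega), Nat.mod_eq_of_lt (by omega),
        show 2 * FL s - 1 - FL s = FL s - 1 by omega] at this
      change (c (2 * FL s - 1)).me.sw = 3
      rw [this, pa_sw_last]) t1 t2 t3 (pa_small hz)
  have hz' := fun h' => pa_small hz (Sys.IsZero.of_eqv h' h.eqv.symm)
  obtain ⟨X, hX⟩ := clean_eq_encS hs (σ := fun i => (c i).sm.con.st) (dp₀ := dp)
    (fun i hi => (frame_struct hs hz hn h0 (by omega)).1) (fun h' => hz' (h'.append_right _))
  obtain ⟨Y, hY⟩ := clean_eq_encS hs (σ := fun i => (c (FL s + i)).sm.con.st) (dp₀ := dp')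
    (fun i hi => by
      have := (frame_struct hs hz hn h0 (i := FL s + i) (by omega)).1
      rwa [Nat.add_mod_left] at this) (fun h' => hz' (h'.append_left _))
  rw [hX, hY, ← pa_map] at h
  exact ⟨X, Y, h, pa_bigOK hs hz hn h0 fun i j hi hj si sj e => (reach2_swap hs h hi hj si sj e).2⟩

/-- the classes of tracks in a frame with the given `cap` at home -/
def paInv : Bool → TC → Bool
  | false, .ra | false, .tU | false, .tL | false, .la | false, .lb | true, .rb | true, .tR | true, .la => true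
  | _, _ => false

theorem pa_inv (hs : PL ≤ s) {c : ℕ → Lt s} (hz : ¬ (Sg s).IsZero (wd (FL s + 1) c)) (h0 : (c 0).start) :
    paInv (c 0).sm.cap (c (FL s - 1)).sm.trk.cls = true ∧
      okHome (c (FL s)).sm.cap (c (FL s - 1)).sm.trk.cls (c (FL s)).sm.trk.cls = true := by
  have hF := FL_ge s
  have hn : 2 ≤ FL s + 1 := by omega
  have hz' := pa_small hz
  have key : ∀ i, i < FL s → paInv (c 0).sm.cap (c i).sm.trk.cls = true := by
    intro i
    induction i with
    | zero =>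
      intro _
      exact (show ∀ b t, okStart b t = true → paInv b t = true by decide) _ _
        (okStart_of hz' hn (i := 0) (by omega) ((pa_home hs hz hn h0 (by omega)).2 rfl))
    | succ i ih =>
      intro hi
      exact (show ∀ b t t', paInv b t = true → okIn t t' = true → paInv b t' = true by decide) _ _ _ (ih (by omega))
        (okIn_of hz' (i := i) (by omega) (by rw [pa_home hs hz hn h0 (by omega), Nat.mod_eq_of_lt hi]; omega))
  refine ⟨key _ (by omega), ?_⟩
  have := okHome_of hz' (i := FL s - 1) (by omega) (by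
    rw [pa_home hs hz hn h0 (by omega), Nat.sub_add_cancel (by omega), Nat.mod_self])
  rwa [Nat.sub_add_cancel (by omega)] at this

theorem ty_bad (hs : PL ≤ s) {c : ℕ → Lt s} (hz : ¬ (Sg s).IsZero (wd (FL s + 1) c)) (h0 : (c 0).start) :
    tyC (c 0).sm.cap (c (FL s - 1)).sm.trk.cls ≠ 3 :=
  (show ∀ b t b' t', paInv b t = true → okHome b' t t' = true → tyC b t ≠ 3 by decide) _ _ _ _
    (pa_inv hs hz h0).1 (pa_inv hs hz h0).2

/-- the junction of two frames: type `1` is followed by `cap = true`, types `0` and `2` by `cap = false` -/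
theorem ty_next (hs : PL ≤ s) {c : ℕ → Lt s} (hz : ¬ (Sg s).IsZero (wd (FL s + 1) c)) (h0 : (c 0).start) :
    (c (FL s)).sm.cap = true ↔ tyC (c 0).sm.cap (c (FL s - 1)).sm.trk.cls = 1 :=
  (show ∀ b t b' t', paInv b t = true → okHome b' t t' = true → (b' = true ↔ tyC b t = 1) by decide) _ _ _ _
    (pa_inv hs hz h0).1 (pa_inv hs hz h0).2

theorem pa_two {α : Type} [Inhabited α] (W W' : List α) :
    ∃ c : ℕ → α, W = wd W.length c ∧ W' = wd W'.length fun i => c (W.length + i) := by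
  have h : W ++ W' = wd (W.length + W'.length) fun i => (W ++ W').getD i default :=
    List.ext_getElem (by simp [wd]) fun i h _ => by simp [wd, List.getElem?_eq_getElem h]
  rw [wd_add] at h
  exact ⟨_, List.append_inj h (by simp [wd])⟩

theorem pa_tyF (c : ℕ → Lt s) : tyF (wd (FL s) c) = tyC (c 0).sm.cap (c (FL s - 1)).sm.trk.cls := by
  have hF := FL_ge s
  obtain ⟨k, hk⟩ : ∃ k, FL s = k + 1 := ⟨FL s - 1, by omega⟩
  rw [hk, tyF]
  nth_rewrite 1 [wd_succ']
  rw [wd_succ]
  simp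

theorem pa_head {α : Type} {a : α} {w : List α} {n : ℕ} {c : ℕ → α} (h : a :: w = wd n c) : c 0 = a := by
  cases n with
  | zero => simp [wd] at h
  | succ n => rw [wd_succ'] at h; exact (List.cons.inj h).1.symm

theorem pa_frames {a a' : Lt s} {w w' : List (Lt s)} (h : (a :: w).length = FL s) (h' : (a' :: w').length = FL s) :
    ∃ c : ℕ → Lt s, c 0 = a ∧ a :: w ++ a' :: w' = wd (2 * FL s) c ∧
      tyF (a :: w) = tyC (c 0).sm.cap (c (FL s - 1)).sm.trk.cls ∧
      tyF (a' :: w') = tyC (c (FL s)).sm.cap (c (2 * FL s - 1)).sm.trk.cls := by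
  have hF := FL_ge s
  obtain ⟨c, e1, e2⟩ := pa_two (a :: w) (a' :: w')
  rw [h] at e1 e2
  rw [h'] at e2
  refine ⟨c, pa_head e1, ?_, ?_, ?_⟩
  · rw [two_mul, wd_add, ← e1, ← e2]
  · rw [e1, pa_tyF]
  · rw [e2, pa_tyF, show FL s + (FL s - 1) = 2 * FL s - 1 by omega, add_zero]

theorem pa_val_one {X : Lt (2 ^ s)} {c : ℕ → Lt s} {u : List (Lt (2 ^ s))} {W : List (Lt s)}
    (h : Reach1 (encS X) ((wd (FL s) c).map Lt.sm) ∧ BigOK (wd (FL s) c)) (hu : Val u W) :
    Val (X :: u) (wd (FL s) c ++ W) :=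
  ⟨by rw [List.map_append]; exact .one h.1 hu.1, (bigOK_append (k := 1) (by simp [wd])).2 ⟨h.2, hu.2⟩⟩

theorem pa_val_two {X Y : Lt (2 ^ s)} {c : ℕ → Lt s} {u : List (Lt (2 ^ s))} {W : List (Lt s)}
    (h : Reach2 (encS X) (encS Y) ((wd (2 * FL s) c).map Lt.sm) ∧ BigOK (wd (2 * FL s) c)) (hu : Val u W) :
    Val (X :: Y :: u) (wd (2 * FL s) c ++ W) :=
  ⟨by rw [List.map_append]; exact .two h.1 hu.1, (bigOK_append (k := 2) (by simp [wd])).2 ⟨h.2, hu.2⟩⟩

theorem pa_val_nil : Val ([] : List (Lt (2 ^ s))) [] := ⟨.nil, by simp, by simp⟩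

noncomputable def hier (hs : PL ≤ s) : Sys.Hier (Sg s) (Sg (2 ^ s)) where
  F := FL s
  F_pos := (by norm_num : 1 ≤ 4).trans (FL_ge s)
  ph := Lt.ph
  start := Lt.start
  ty := tyF
  enc := enc
  succ := fun y z h => Sys.HasZ.isZero ⟨[], y, z, [], rfl, by_contra fun h' => h (ph_succ h')⟩
  st := fun y z h1 h2 => Sys.HasZ.isZero ⟨[], y, z, [], rfl, by_contra fun h' => h2 (start_of_ph h' h1)⟩
  st0 := fun _ => ph_of_start
  bad := fun a w b ha hl ht _ => by
    by_contra hz
    obtain ⟨c, e1, e2⟩ := pa_two (a :: w) [b]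
    rw [hl] at e1 e2
    have e3 : a :: w ++ [b] = wd (FL s + 1) c := by rw [wd_add, ← e1]; exact congrArg _ e2
    rw [e3] at hz
    rw [e1, pa_tyF] at ht
    exact ty_bad hs hz (pa_head e1 ▸ ha) ht
  z1 := fun a w a' w' ha hl _ hl' ht ht' => by
    by_contra hz
    have hF := FL_ge s
    obtain ⟨c, rfl, e1, e2, e3⟩ := pa_frames hl hl'
    rw [e1] at hz
    rw [e2] at ht
    rw [e3, (ty_next hs (pa_prefix hz _ (by omega)) ha).2 ht] at ht'
    exact (show ∀ t, ¬ (tyC true t = 0 ∨ tyC true t = 1) by decide) _ ht'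
  z2 := fun a w a' w' ha hl _ hl' ht ht' => by
    by_contra hz
    have hF := FL_ge s
    obtain ⟨c, rfl, e1, e2, e3⟩ := pa_frames hl hl'
    rw [e1] at hz
    rw [e3] at ht'
    rw [e2, (ty_next hs (pa_prefix hz _ (by omega)) ha).1
      ((show ∀ b t, tyC b t = 2 → b = true by decide) _ _ ht')] at ht
    exact absurd ht (by decide)
  parse0 := fun a w ha hl ht hz => by
    obtain ⟨c, e1, -⟩ := pa_two (a :: w) []
    rw [hl] at e1
    have h0 := pa_head e1
    rw [e1] at hz ht ⊢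
    rw [pa_tyF] at ht
    obtain ⟨X, h⟩ := terr1 hs hz (h0 ▸ ha) ht
    exact ⟨X, by simpa using val_eqv_enc hs (pa_val_one h pa_val_nil)⟩
  parse12 := fun a w a' w' ha hl _ hl' ht ht' hz => by
    obtain ⟨c, rfl, e1, e2, e3⟩ := pa_frames hl hl'
    rw [e1] at hz ⊢
    rw [e2] at ht
    rw [e3] at ht'
    obtain ⟨X, Y, h⟩ := terr2 hs hz ha ht ht'
    exact ⟨X, Y, by simpa using val_eqv_enc hs (pa_val_two h pa_val_nil)⟩
  sim_mv := fun _ _ _ _ => sim_mv hs
  sim_zr := fun _ _ => sim_zr hs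

/-- the territory which starts at a free home cell -/
theorem pa_terr (hs : PL ≤ s) {n : ℕ} {c : ℕ → Lt s} (hz : ¬ (Sg s).IsZero (wd n c)) {b : ℕ} (h0 : (c b).start)
    (hc : (c b).sm.cap = false) (hn : b + 2 * FL s < n) :
    ((c (b + FL s)).sm.cap = false ∧ ∃ X : Lt (2 ^ s),
      Reach1 (encS X) ((wd (FL s) fun i => c (b + i)).map Lt.sm) ∧ BigOK (wd (FL s) fun i => c (b + i))) ∨
    ((c (b + FL s)).sm.cap = true ∧ (c (b + 2 * FL s)).sm.cap = false ∧ ∃ X Y : Lt (2 ^ s),
      Reach2 (encS X) (encS Y) ((wd (2 * FL s) fun i => c (b + i)).map Lt.sm) ∧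
        BigOK (wd (2 * FL s) fun i => c (b + i))) := by
  have hF := FL_ge s
  have h1 := pa_start_next hz (b := b) (by omega) h0
  have a1 := ty_bad hs (pa_factor hz b (FL s + 1) (by omega)) h0
  have a2 := ty_next hs (pa_factor hz b (FL s + 1) (by omega)) h0
  have a3 := ty_bad hs (pa_factor hz (b + FL s) (FL s + 1) (by omega)) h1
  have a4 := ty_next hs (pa_factor hz (b + FL s) (FL s + 1) (by omega)) h1
  simp only [add_zero] at a1 a2 a3 a4
  rw [show b + FL s + (FL s - 1) = b + (2 * FL s - 1) by omega] at a3 a4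
  rw [show b + FL s + FL s = b + 2 * FL s by omega] at a4
  cases hc' : (c (b + FL s)).sm.cap with
  | false =>
    refine Or.inl ⟨rfl, terr1 hs (pa_factor hz b (FL s) (by omega)) h0 ?_⟩
    rw [hc', hc] at a2
    rw [hc] at a1
    rw [add_zero, hc]
    exact (show ∀ t, tyC false t ≠ 3 → (false = true ↔ tyC false t = 1) → tyC false t = 0 by decide) _ a1 a2
  | true =>
    have a5 : tyC (c (b + FL s)).sm.cap (c (b + (2 * FL s - 1))).sm.trk.cls = 2 := by
      rw [hc'] at a3 ⊢
      exact (show ∀ t, tyC true t ≠ 3 → tyC true t = 2 by decide) _ a3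
    refine Or.inr ⟨rfl, ?_, terr2 hs (pa_factor hz b (2 * FL s) (by omega)) h0 (a2.1 hc') a5⟩
    rw [a5] at a4
    by_contra h
    exact absurd (a4.1 (by simpa using h)) (by decide)

theorem pa_parse (hs : PL ≤ s) {n : ℕ} {c : ℕ → Lt s} (hz : ¬ (Sg s).IsZero (wd n c)) (K : ℕ) :
    ∀ b, (c b).start → (c b).sm.cap = false → b + (K + 1) * FL s < n →
      ∃ (e : ℕ) (u : List (Lt (2 ^ s))), e ≤ 1 ∧ u.length = K + e ∧ Val u (wd ((K + e) * FL s) fun i => c (b + i)) := by
  have hF := FL_ge s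
  induction K using Nat.strong_induction_on with
  | _ K ih =>
    intro b h0 hc hn
    rcases K with _ | K
    · exact ⟨0, [], zero_le_one, rfl, by simpa [wd] using pa_val_nil⟩
    have hn' : b + K * FL s + 2 * FL s < n := by rw [add_assoc, ← add_mul]; exact hn
    have h1 := pa_start_next hz (b := b) (by omega) h0
    rcases pa_terr hs hz h0 hc (by omega) with ⟨a1, X, a2⟩ | ⟨-, a1, X, Y, a2⟩
    · obtain ⟨e, u, b1, b2, b3⟩ := ih K (by omega) (b + FL s) h1 a1 (by rw [add_mul]; omega)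
      refine ⟨e, X :: u, b1, by simp [b2]; omega, ?_⟩
      rw [show (K + 1 + e) * FL s = FL s + (K + e) * FL s by ring, wd_add]
      simpa only [add_assoc] using pa_val_one a2 b3
    · rcases K with _ | K
      · exact ⟨1, [X, Y], le_rfl, rfl, by simpa using pa_val_two a2 pa_val_nil⟩
      have h2 := pa_start_next hz (b := b + FL s) (by omega) h1
      rw [add_assoc, ← two_mul] at h2
      obtain ⟨e, u, b1, b2, b3⟩ := ih K (by omega) (b + 2 * FL s) h2 a1 (by omega)
      refine ⟨e, X :: Y :: u, b1, by simp [b2]; omega, ?_⟩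
      rw [show (K + 1 + 1 + e) * FL s = 2 * FL s + (K + e) * FL s by ring, wd_add]
      simpa only [add_assoc] using pa_val_two a2 b3

theorem pa_prev (hs : PL ≤ s) {n : ℕ} {c : ℕ → Lt s} (hz : ¬ (Sg s).IsZero (wd n c)) {b : ℕ} (hb : 1 ≤ b)
    (h0 : (c (b + FL s)).ph = 0) (hn : b + FL s < n) (hc : (c (b + FL s)).sm.cap = true) :
    (c b).start ∧ (c b).sm.cap = false := by
  have h1 := pa_start_prev hz hb hn h0
  exact ⟨h1, (show ∀ b t, tyC b t = 1 → b = false by decide) _ _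
    ((ty_next hs (pa_factor hz b (FL s + 1) (by omega)) h1).1 hc)⟩

/-- `K` consecutive frames well inside a nonzero word can be extended by at most one frame on each side to a valid
word -/
theorem parse (hs : PL ≤ s) {n : ℕ} {c : ℕ → Lt s} (hz : ¬ (Sg s).IsZero (wd n c)) {b K : ℕ} (hb : FL s < b)
    (h0 : (c b).ph = 0) (hn : b + (K + 1) * FL s < n) :
    ∃ (e₁ e₂ : ℕ) (u : List (Lt (2 ^ s))), e₁ ≤ 1 ∧ e₂ ≤ 1 ∧ u.length = e₁ + K + e₂ ∧
      Val u (wd ((e₁ + K + e₂) * FL s) fun i => c (b - e₁ * FL s + i)) := by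
  cases hc : (c b).sm.cap with
  | false =>
    obtain ⟨e, u, h1, h2, h3⟩ := pa_parse hs hz K b (pa_start hz (by omega) (by omega) h0) hc hn
    exact ⟨0, e, u, zero_le_one, h1, by omega, by simpa using h3⟩
  | true =>
    obtain ⟨b, rfl⟩ : ∃ b', b = b' + FL s := ⟨b - FL s, by omega⟩
    obtain ⟨a1, a2⟩ := pa_prev hs hz (by omega) h0 (by omega) hc
    obtain ⟨e, u, h1, h2, h3⟩ := pa_parse hs hz (K + 1) b a1 a2 (by rw [add_mul (K + 1)]; omega)
    exact ⟨1, e, u, le_rfl, h1, by omega, by simpa [add_comm 1 K] using h3⟩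

theorem pa_swap {n : ℕ} {c : ℕ → Lt s} (hz : ¬ (Sg s).IsZero (wd n c)) {p m i j : ℕ} (hm : p + m ≤ n) (hi : i < m)
    (hj : j < m)
    (h : (Sg s).Eqv (wd m fun k => c (p + k)) (wd m (swapD i j fun k => c (p + k))) ∧
      (i ≠ j → (c (p + i)).d = (c (p + j)).d → (Sg s).IsZero (wd m fun k => c (p + k)))) :
    (Sg s).Eqv (wd n c) (wd n (swapD (p + i) (p + j) c)) ∧ (i ≠ j → (c (p + i)).d ≠ (c (p + j)).d) := by
  refine ⟨?_, fun h1 h2 => pa_factor hz p m hm (h.2 h1 h2)⟩
  obtain ⟨r, rfl⟩ := Nat.exists_eq_add_of_le hm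
  have e : ∀ k, k ≠ p + i → k ≠ p + j → swapD (p + i) (p + j) c k = c k := fun k h1 h2 => by
    rw [swapD, Equiv.swap_apply_of_ne_of_ne h1 h2]; rfl
  rw [wd_add, wd_add, wd_add, wd_add, wd_congr (c := swapD (p + i) (p + j) c) (c' := c) fun k hk =>
    e k (by omega) (by omega), wd_congr (c := fun k => swapD (p + i) (p + j) c (p + m + k))
      (c' := fun k => c (p + m + k)) fun k hk => e _ (by omega) (by omega),
    wd_congr (c := fun k => swapD (p + i) (p + j) c (p + k)) (c' := swapD i j fun k => c (p + k)) fun k _ => by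
      rw [swapD, swapD, (add_right_injective p).swap_apply]]
  exact h.1.append _ _

/-- the data of the slots of a frame well inside a nonzero word are distinct and can be exchanged -/
theorem slot_perm (hs : PL ≤ s) {n : ℕ} {c : ℕ → Lt s} (hz : ¬ (Sg s).IsZero (wd n c)) {b : ℕ} (hb : FL s < b)
    (h0 : (c b).ph = 0) (hn : b + 2 * FL s < n) {i j : ℕ} (hi : 2 ^ s ≤ i) (hi' : i < 2 * 2 ^ s)
    (hj : 2 ^ s ≤ j) (hj' : j < 2 * 2 ^ s) :
    (Sg s).Eqv (wd n c) (wd n (swapD (b + i) (b + j) c)) ∧ (i ≠ j → (c (b + i)).d ≠ (c (b + j)).d) := by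
  have hM := Nat.two_pow_pos s
  have hF : FL s = 4 * 2 ^ s := rfl
  have hi2 : i < FL s := by omega
  have hj2 : j < FL s := by omega
  have si : slot s i := by rw [slot, Nat.mod_eq_of_lt hi2, Nat.div_eq_iff hM]; omega
  have sj : slot s j := by rw [slot, Nat.mod_eq_of_lt hj2, Nat.div_eq_iff hM]; omega
  cases hc : (c b).sm.cap with
  | false =>
    rcases pa_terr hs hz (pa_start hz (by omega) (by omega) h0) hc hn with ⟨-, X, a, -⟩ | ⟨-, -, X, Y, a, -⟩
    · exact pa_swap hz (by omega) hi2 hj2 (reach1_swap hs a hi2 hj2 si sj)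
    · exact pa_swap hz (m := 2 * FL s) (by omega) (by omega) (by omega) (reach2_swap hs a (by omega) (by omega) si sj
        (by rw [Nat.div_eq_of_lt hi2, Nat.div_eq_of_lt hj2]))
  | true =>
    obtain ⟨b, rfl⟩ : ∃ b', b = b' + FL s := ⟨b - FL s, by omega⟩
    obtain ⟨a1, a2⟩ := pa_prev hs hz (by omega) h0 (by omega) hc
    rcases pa_terr hs hz a1 a2 (by omega) with ⟨a, -⟩ | ⟨-, -, X, Y, a, -⟩
    · rw [hc] at a; exact absurd a (by decide)
    · have := pa_swap hz (m := 2 * FL s) (i := FL s + i) (j := FL s + j) (by omega) (by omega) (by omega)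
        (reach2_swap hs a (by omega) (by omega) (by rwa [slot, Nat.add_mod_left]) (by rwa [slot, Nat.add_mod_left])
          (by rw [Nat.add_div_left _ (by omega), Nat.add_div_left _ (by omega), Nat.div_eq_of_lt hi2,
            Nat.div_eq_of_lt hj2]))
      simp only [← add_assoc] at this
      exact ⟨this.1, fun h => this.2 (by omega)⟩

/-- a frame well inside a nonzero word contains at most one token -/
theorem one_token (hs : PL ≤ s) {n : ℕ} {c : ℕ → Lt s} (hz : ¬ (Sg s).IsZero (wd n c)) {b : ℕ} (hb : 1 ≤ b)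
    (h0 : (c b).ph = 0) (hn : b + FL s ≤ n) {i j : ℕ} (hi : i < FL s) (hj : j < FL s) {p q : Pos} {m m' : Mode}
    (h1 : (c (b + i)).sm.trk = .tok p m) (h2 : (c (b + j)).sm.trk = .tok q m') : i = j := by
  have hF := FL_ge s
  have hz1 := pa_factor hz b (FL s) hn
  have hst : (c (b + 0)).start := pa_start hz hb (by omega) h0
  have key : ∀ (i j : ℕ) (p q : Pos) (m m' : Mode), i < j → j < FL s → (c (b + i)).sm.trk = .tok p m →
      (c (b + j)).sm.trk ≠ .tok q m' := by
    intro i j p q m m' hij hj h1 h2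
    have hh : ∀ k, i < k → k < FL s → ¬ (c (b + k)).sm.con.st.home := fun k h3 h4 => by
      rw [pa_home hs hz1 (by omega) hst h4, Nat.mod_eq_of_lt h4]; omega
    have e1 : (c (b + i)).sm.trk.cls = (Trk.tok p m).cls := by rw [h1]
    have e2 : (c (b + j)).sm.trk.cls = (Trk.tok q m').cls := by rw [h2]
    cases p with
    | U =>
      have := propagate (pa_small hz1) (x := .tU) (y := .la) (by decide) (by decide) le_rfl e1 hh j hij hj
      rw [e2] at this
      cases q <;> simp [Trk.cls] at this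
    | L =>
      have := propagate (pa_small hz1) (x := .tL) (y := .lb) (by decide) (by decide) le_rfl e1 hh j hij hj
      rw [e2] at this
      cases q <;> simp [Trk.cls] at this
    | R =>
      have := propagate (pa_small hz1) (x := .tR) (y := .la) (by decide) (by decide) le_rfl e1 hh j hij hj
      rw [e2] at this
      cases q <;> simp [Trk.cls] at this
  rcases lt_trichotomy i j with h | h | h
  · exact absurd h2 (key i j p q m m' h hj h1)
  · exact h
  · exact absurd h1 (key j i q p m' m h hi h2)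

end Crest.Agent.R176
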