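import Crest.Agent.R176.SemW

/-!
# Row 176, machine: the data tasks `w4`, `w5`  (task R176-SemD)

Write `n = 2 ^ s`, `F = FL s`, `pp = R0 + BL - 1` (the `perm` register, whose bit is `decide (permit X.sm)`,
`code_perm`).  Invariant of `Run F (stP X Y) (dpP X Y) τ p t q dp` for `τ.isD` (`t ≤ 2 * F`): `permit X.sm`,
`pp ≤ p ≤ 3 * n`, `t ≤ F + p`, `pp < p → t = F + p ∧ Y.me.sw = 1`, `q = (true, (stP X Y (pp - 1)).hb)`, and `dp = dpP X Y`
except for `τ = w4 false`, where the bits at `i` and `F + i` are exchanged for `2 * n ≤ i < p`; for `w5` moreover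
`dpP X Y i = dpP X Y (F + i)` for `2 * n ≤ i < p`.  Conversely the runs exist.  At `p = 3 * n` the exchanged bits are
`dpP (X.setD Y.d) (Y.setD X.d)`, and `stP` does not depend on the data.
-/

set_option autoImplicit false

namespace Crest.Agent.R176

variable {s : ℕ} {X Y : Lt (2 ^ s)}

namespace DAux

open WAux

/-- the bits at `i` and `F + i` are exchanged for `a ≤ i < p` -/
def xch (F a p : ℕ) (dp₀ : ℕ → Bool) (i : ℕ) : Bool :=
  if a ≤ i ∧ i < p then dp₀ (F + i) else if F + a ≤ i ∧ i < F + p then dp₀ (i - F) else dp₀ i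

theorem xch_of_le {F a p : ℕ} (h : p ≤ a) (dp₀ : ℕ → Bool) : xch F a p dp₀ = dp₀ := by
  funext i
  unfold xch
  rw [if_neg (by omega), if_neg (by omega)]

theorem xch_succ {F a p : ℕ} (h1 : a ≤ p) (h2 : p < F) (dp₀ : ℕ → Bool) :
    Function.update (Function.update (xch F a p dp₀) p (xch F a p dp₀ (F + p))) (F + p) (xch F a p dp₀ p) =
      xch F a (p + 1) dp₀ := by
  funext i
  by_cases e1 : i = F + p
  · subst e1
    rw [Function.update_self]
    unfold xch
    rw [if_neg (by omega), if_neg (by omega), if_neg (by omega), if_pos (by omega), Nat.add_sub_cancel_left]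
  · rw [Function.update_of_ne e1]
    by_cases e2 : i = p
    · subst e2
      rw [Function.update_self]
      unfold xch
      rw [if_neg (by omega), if_neg (by omega), if_pos (by omega)]
    · rw [Function.update_of_ne e2]
      unfold xch
      split_ifs <;> first | rfl | omega

/-- the bits when `m1` is at `p` -/
noncomputable def dpa (X Y : Lt (2 ^ s)) (τ : Task) (p : ℕ) : ℕ → Bool :=
  if τ = .w4 false then xch (FL s) (2 * 2 ^ s) p (dpP X Y) else dpP X Y

theorem div_eq_iff' {i k : ℕ} : i / 2 ^ s = k ↔ k * 2 ^ s ≤ i ∧ i < (k + 1) * 2 ^ s := by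
  rw [Nat.div_eq_iff (Nat.two_pow_pos s)]
  have := Nat.two_pow_pos s
  rw [Nat.add_mul]
  omega

theorem sw_left {i : ℕ} (hi : i < FL s) (k : Fin 4) :
    (stP X Y i).me.sw = k ↔ k.val * 2 ^ s ≤ i ∧ i < (k.val + 1) * 2 ^ s := by
  rw [← div_eq_iff', ← meS_sw hi, stP, pr2, if_pos hi, Fin.ext_iff]
  rfl

theorem sw_right {i : ℕ} (hi : i < FL s) (k : Fin 4) :
    (stP X Y (FL s + i)).me.sw = k ↔ k.val * 2 ^ s ≤ i ∧ i < (k.val + 1) * 2 ^ s := by
  rw [← div_eq_iff', ← meS_sw hi, stP, pr2, if_neg (by omega), Nat.add_sub_cancel_left, Fin.ext_iff]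
  rfl

theorem sw2 {i : ℕ} (hi : i < FL s) : (stP X Y i).me.sw = 2 ↔ 2 * 2 ^ s ≤ i ∧ i < 3 * 2 ^ s :=
  sw_left hi 2

theorem sw3 {i : ℕ} (hi : i < FL s) : (stP X Y i).me.sw = 3 ↔ 3 * 2 ^ s ≤ i := by
  rw [sw_left hi 3]
  exact and_iff_left hi

theorem up_left {i : ℕ} (hi : i < FL s) : (stP X Y i).up = X.me := by
  rw [stP, pr2, if_pos hi]; rfl

theorem up_right (i : ℕ) : (stP X Y (FL s + i)).up = Y.me := by
  rw [stP, pr2, if_neg (by omega)]; rfl

theorem lt_pow (hs : PL ≤ s) : R0 + BL + 1 < 2 ^ s := PL_lt_pow hs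

theorem rel_iff (hs : PL ≤ s) {τ : Task} (hτ : τ.isD = true) {t : ℕ} (ht : t < 2 * FL s) :
    rel τ (FL s ≤ t) (stP X Y t) ↔ FL s + R0 + BL ≤ t + 1 := by
  have h : (FL s ≤ t ∧ (stP X Y t).kd.isDat = true) ↔ FL s + R0 + BL ≤ t + 1 := by
    have := R0_pos
    have := RL_lt_BL
    rw [(std_stP X Y).kd hs ht, lay_isDat_iff, mod_FL ht]
    split_ifs <;> omega
  cases τ with
  | w1 _ => simp [Task.isD] at hτ
  | wst => simp [Task.isD] at hτ
  | w4 _ => exact h
  | w5 => exact h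

theorem tk_D {τ : Task} (hτ : τ.isD = true) : tk τ = true := by
  cases τ <;> simp_all [Task.isD, tk]

theorem drop_iff {τ : Task} (hτ : τ.isD = true) {y z : Sta} {d : Bool} :
    dropOK τ y z d ↔ z.kd = .perm ∧ d = true := by
  cases τ with
  | w1 _ => simp [Task.isD] at hτ
  | wst => simp [Task.isD] at hτ
  | w4 _ => rfl
  | w5 => rfl

theorem dp_perm (hs : PL ≤ s) {i : ℕ} (hi : i + 1 = R0 + BL) : dpP X Y i = decide (permit X.sm) := by
  have h1 := PL_lt hs
  have h2 := RL_lt_BL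
  rw [dpP, pr2, if_pos (by omega), dpX, if_neg (by rw [div_small hs (by omega)]; omega), if_pos (by omega),
    ← code_perm]
  congr 1
  omega

/-- one round of a data task -/
theorem op_iff {τ : Task} (hτ : τ.isD = true) {p : ℕ} (hp : p < FL s) (hp' : p ≤ 3 * 2 ^ s)
    {q q' : Bool × Bool} {d' β' : Bool} :
    Op τ q (stP X Y p) (dpa X Y τ p p) (stP X Y (FL s + p)) (tk τ && dpa X Y τ p (FL s + p)) q' d' β' ↔
      p < 3 * 2 ^ s ∧ Y.me.sw = 1 ∧ q' = q ∧ d' = dpa X Y τ (p + 1) p ∧ β' = dpa X Y τ (p + 1) (FL s + p) ∧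
        (τ = .w5 → 2 * 2 ^ s ≤ p → dpP X Y p = dpP X Y (FL s + p)) := by
  have e3 : (stP X Y p).me.sw ≠ 3 ↔ p < 3 * 2 ^ s := by rw [Ne, sw3 hp, not_le]
  cases τ with
  | w1 _ => simp [Task.isD] at hτ
  | wst => simp [Task.isD] at hτ
  | w5 =>
    simp only [Op, e3, up_right, sw2 hp, tk, Bool.true_and, dpa, reduceCtorEq, if_false, forall_const]
    tauto
  | w4 side =>
    simp only [Op, e3, up_right, sw2 hp, tk, Bool.true_and, reduceCtorEq, false_imp_iff, and_true]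
    refine and_congr_right fun h3 => and_congr_right fun _ => and_congr_right fun _ => ?_
    cases side
    · simp only [dpa, if_true, and_true, h3]
      split_ifs with h2
      · rw [← xch_succ h2 hp, Function.update_self, Function.update_of_ne (by omega), Function.update_self]
      · rw [xch_of_le (by omega), xch_of_le (by omega)]
    · simp [dpa]

theorem dpa_succ {τ : Task} {p : ℕ} (hp : p < FL s) :
    Function.update (Function.update (dpa X Y τ p) p (dpa X Y τ (p + 1) p)) (FL s + p)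
      (dpa X Y τ (p + 1) (FL s + p)) = dpa X Y τ (p + 1) := by
  unfold dpa
  split_ifs with h
  · by_cases h2 : 2 * 2 ^ s ≤ p
    · conv_rhs => rw [← xch_succ h2 hp]
      rw [← xch_succ h2 hp, Function.update_self, Function.update_of_ne (by omega), Function.update_self]
    · rw [xch_of_le (by omega), xch_of_le (by omega)]
      simp
  · simp

theorem inv (hs : PL ≤ s) {τ : Task} (hτ : τ.isD = true) {p t : ℕ} {q : Bool × Bool} {dp : ℕ → Bool}
    (h : Run (FL s) (stP X Y) (dpP X Y) τ p t q dp) (ht : t ≤ 2 * FL s) :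
    permit X.sm ∧ R0 + BL ≤ p + 1 ∧ p ≤ 3 * 2 ^ s ∧ t ≤ FL s + p ∧
      (R0 + BL ≤ p → t = FL s + p ∧ Y.me.sw = 1) ∧ q = (true, (stP X Y (R0 + BL - 2)).hb) ∧ dp = dpa X Y τ p ∧
      (τ = .w5 → ∀ i, 2 * 2 ^ s ≤ i → i < p → dpP X Y i = dpP X Y (FL s + i)) := by
  have h1 := lt_pow hs
  have hF : FL s = 4 * 2 ^ s := rfl
  induction h with
  | base p a1 a2 =>
    rw [drop_iff hτ, kd_small hs (std_stP X Y) a1, lay_perm_iff] at a2
    obtain ⟨a2, a3⟩ := a2
    rw [dp_perm hs a2] at a3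
    refine ⟨of_decide_eq_true a3, by omega, by omega, by omega, fun _ => by omega, ?_, ?_,
      fun _ i _ _ => by omega⟩
    · rw [← a2]; rfl
    · unfold dpa
      rw [xch_of_le (by omega)]
      simp
  | @skip p t q dp a1 a2 ih =>
    obtain ⟨b1, b2, b3, b4, b5, b6, b7, b8⟩ := ih (by omega)
    rw [rel_iff hs hτ (by omega)] at a2
    refine ⟨b1, b2, b3, by omega, fun h => ?_, b6, b7, b8⟩
    have := (b5 h).1
    omega
  | @round p t q q' dp d' β' a1 a2 a3 ih =>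
    obtain ⟨b1, b2, b3, b4, b5, b6, rfl, b8⟩ := ih (by omega)
    rw [rel_iff hs hτ (by omega)] at a2
    obtain rfl : t = FL s + p := by
      by_cases h : R0 + BL ≤ p
      · exact (b5 h).1
      · omega
    have hp : p < FL s := by omega
    obtain ⟨c1, c2, rfl, rfl, rfl, c6⟩ := (op_iff hτ hp b3).1 a3
    refine ⟨b1, by omega, by omega, by omega, fun _ => ⟨rfl, c2⟩, b6, ?_, fun h i h1 h2 => ?_⟩
    · rw [tk_D hτ, if_pos rfl, dpa_succ hp]
    · rcases Nat.lt_succ_iff_lt_or_eq.mp h2 with h3 | rfl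
      · exact b8 h i h1 h3
      · exact c6 h h1

theorem run (hs : PL ≤ s) {τ : Task} (hτ : τ.isD = true) (h1 : permit X.sm) (h2 : Y.me.sw = 1)
    (h3 : τ = .w5 → X.d = Y.d) {p : ℕ} (hp : R0 + BL - 1 ≤ p) (hp' : p ≤ 3 * 2 ^ s) :
    Run (FL s) (stP X Y) (dpP X Y) τ p (FL s + p) (true, (stP X Y (R0 + BL - 2)).hb) (dpa X Y τ p) := by
  have h4 := lt_pow hs
  have h5 := R0_pos
  have h6 := RL_lt_BL
  have hF : FL s = 4 * 2 ^ s := rfl
  induction p, hp using Nat.le_induction with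
  | base =>
    have e : dpa X Y τ (R0 + BL - 1) = dpP X Y := by
      unfold dpa
      rw [xch_of_le (by omega)]
      simp
    have e' : R0 + BL - 1 = R0 + BL - 2 + 1 := by omega
    rw [e, e']
    refine skip_to (Run.base _ (by omega) ?_) (by omega) fun i a1 a2 => ?_
    · rw [drop_iff hτ, kd_small hs (std_stP X Y) (by omega), lay_perm_iff, dp_perm hs (by omega)]
      exact ⟨by omega, decide_eq_true h1⟩
    · rw [rel_iff hs hτ (by omega)]
      omega
  | succ p hp ih =>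
    have hpF : p < FL s := by omega
    have := (ih (by omega)).round ((rel_iff hs hτ (by omega)).2 (by omega))
      ((op_iff hτ hpF (by omega)).2 ⟨by omega, h2, rfl, rfl, rfl, fun a1 a2 => by
        have a3 : p / 2 ^ s = 2 := div_eq_iff'.2 ⟨a2, by omega⟩
        rw [dpP, pr2, if_pos hpF, pr2, if_neg (by omega), Nat.add_sub_cancel_left, dpX, dpX, if_pos a3, if_pos a3,
          h3 a1]⟩)
    rw [tk_D hτ, if_pos rfl, dpa_succ hpF] at this
    exact this

theorem xch_full (X Y : Lt (2 ^ s)) :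
    xch (FL s) (2 * 2 ^ s) (3 * 2 ^ s) (dpP X Y) = dpP (X.setD Y.d) (Y.setD X.d) := by
  have hF : FL s = 4 * 2 ^ s := rfl
  funext i
  unfold xch
  split_ifs with h1 h2
  · have a3 : i / 2 ^ s = 2 := div_eq_iff'.2 h1
    rw [dpP, pr2, if_neg (by omega), Nat.add_sub_cancel_left, dpP, pr2, if_pos (by omega), dpX, dpX, if_pos a3,
      if_pos a3]
    rfl
  · have a3 : (i - FL s) / 2 ^ s = 2 := div_eq_iff'.2 (by omega)
    rw [dpP, pr2, if_pos (by omega), dpP, pr2, if_neg (by omega), dpX, dpX, if_pos a3, if_pos a3]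
    rfl
  · unfold dpP pr2
    split_ifs with h3
    · have a3 : ¬ i / 2 ^ s = 2 := fun h => h1 (div_eq_iff'.1 h)
      rw [dpX, dpX, if_neg a3, if_neg a3]
      rfl
    · have a3 : ¬ (i - FL s) / 2 ^ s = 2 := fun h => by
        have := div_eq_iff'.1 h
        omega
      rw [dpX, dpX, if_neg a3, if_neg a3]
      rfl

theorem dpa_swap (X Y : Lt (2 ^ s)) (side : Bool) :
    dpa (X.setD Y.d) (Y.setD X.d) (.w4 (!side)) (3 * 2 ^ s) = dpa X Y (.w4 side) (3 * 2 ^ s) := by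
  cases side
  · simp [dpa, xch_full]
  · simp only [dpa, Bool.not_true, if_true, xch_full, Task.w4.injEq, Bool.true_eq_false, if_false]
    rfl

/-- the configuration at the end of a data task -/
theorem good_end (hs : PL ≤ s) {τ : Task} (hτ : τ.isD = true) (h1 : permit X.sm) (h2 : Y.me.sw = 1)
    (h3 : τ = .w5 → X.d = Y.d) :
    GoodP X Y (rend (FL s) (stP X Y) (take .w5 (dpa X Y τ (3 * 2 ^ s)) (FL s + 3 * 2 ^ s))
      (.goL τ (true, (stP X Y (R0 + BL - 2)).hb) (stP X Y (FL s + 3 * 2 ^ s))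
        (dpa X Y τ (3 * 2 ^ s) (FL s + 3 * 2 ^ s)))
      (3 * 2 ^ s) (some (3 * 2 ^ s)) (some (FL s + 3 * 2 ^ s)) true) true := by
  have h4 := lt_pow hs
  have hF : FL s = 4 * 2 ^ s := rfl
  have := GoodC.gl (b := true) (3 * 2 ^ s) (run hs hτ h1 h2 h3 (by omega) le_rfl) (by omega) (by simp)
    ((rel_iff hs hτ (by omega)).2 (by omega)) le_rfl (by omega)
  rw [take, tk_D hτ, Bool.true_and] at this
  exact this

/-- analysis of a token standing at the end of a data task -/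
theorem end_inv (hs : PL ≤ s) {τ : Task} (hτ : τ.isD = true) {c : ℕ → Sm} {b : Bool} (h : GoodP X Y c b) {i : ℕ}
    {p : Pos} {q : Bool × Bool} {σ : Sta} {β : Bool} (ht : (c i).trk = .tok p (.goL τ q σ β))
    (hm : (c i).con.m1 = true) (hk : (c i).con.st.me.sw = 3) :
    b = true ∧ permit X.sm ∧ Y.me.sw = 1 ∧ (τ = .w5 → X.d = Y.d) ∧ i = 3 * 2 ^ s ∧ p = posf (FL s) true i ∧
      q = (true, (stP X Y (R0 + BL - 2)).hb) ∧ σ = stP X Y (FL s + 3 * 2 ^ s) ∧
      β = dpa X Y τ (3 * 2 ^ s) (FL s + 3 * 2 ^ s) ∧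
      c = rend (FL s) (stP X Y) (take .w5 (dpa X Y τ (3 * 2 ^ s)) (FL s + 3 * 2 ^ s)) (.goL τ q σ β) i (some i)
        (some (FL s + 3 * 2 ^ s)) true := by
  have h4 := lt_pow hs
  have hF : FL s = 4 * 2 ^ s := rfl
  rw [good_st h] at hk
  obtain ⟨p2, dp, a1, a2, a3, a4, a5, a6, a7, a8, a9⟩ := goL_inv h ht hm
  obtain ⟨b1, b2, b3, b4, b5, b6, rfl, b8⟩ := inv hs hτ a1 a2.le
  rw [sw3 (by omega)] at hk
  obtain rfl : i = 3 * 2 ^ s := le_antisymm b3 hk
  obtain ⟨rfl, c2⟩ := b5 (by omega)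
  obtain rfl : b = true := a3.2 (by omega)
  rw [tk_D hτ, Bool.true_and] at a7
  rw [take, tk_D hτ] at a9
  refine ⟨rfl, b1, c2, fun h5 => Fin.ext (Nat.eq_of_testBit_eq fun j => ?_), rfl, a8, b6, a6, a7, a9⟩
  rcases Nat.lt_or_ge j (2 ^ s) with hj | hj
  · have := b8 h5 (2 * 2 ^ s + j) (by omega) (by omega)
    have a3 : (2 * 2 ^ s + j) / 2 ^ s = 2 := div_eq_iff'.2 (by omega)
    rwa [dpP, pr2, if_pos (by omega), pr2, if_neg (by omega), Nat.add_sub_cancel_left, dpX, dpX, if_pos a3,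
      if_pos a3, Nat.add_sub_cancel_left] at this
  · have := Nat.pow_le_pow_right (by norm_num : 0 < 2) hj
    rw [Nat.testBit_lt_two_pow (X.d.2.trans_le this), Nat.testBit_lt_two_pow (Y.d.2.trans_le this)]

end DAux

open DAux

theorem wd_safe (hs : PL ≤ s) {τ : Task} (hτ : τ.isD = true) {p t : ℕ} {q : Bool × Bool} {dp : ℕ → Bool}
    (h : Run (FL s) (stP X Y) (dpP X Y) τ p t q dp) (ht : t ≤ 2 * FL s) :
    permit X.sm ∧ p ≤ 3 * 2 ^ s ∧ t ≤ FL s + p ∧
      ∀ i, i < 2 * FL s → dp i = true → dpP X Y i = true ∨ dpOK (stP X Y i) := by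
  have h4 := lt_pow hs
  have hF : FL s = 4 * 2 ^ s := rfl
  obtain ⟨b1, b2, b3, b4, b5, -, rfl, -⟩ := inv hs hτ h ht
  refine ⟨b1, b3, b4, fun i _ hi => ?_⟩
  unfold dpa at hi
  split_ifs at hi with a1
  · unfold xch at hi
    split_ifs at hi with a2 a3
    · refine Or.inr (Or.inr (Or.inr ⟨(sw2 (by omega)).2 (by omega), ?_⟩))
      rw [up_left (by omega)]
      exact b1.2
    · obtain ⟨k, rfl⟩ : ∃ k, i = FL s + k := ⟨i - FL s, by omega⟩
      refine Or.inr (Or.inr (Or.inr ⟨(sw_right (by omega) 2).2 ?_, ?_⟩))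
      · change 2 * 2 ^ s ≤ k ∧ k < 3 * 2 ^ s
        omega
      · rw [up_right]
        exact (b5 (by omega)).2
    · exact Or.inl hi
  · exact Or.inl hi

theorem w5_zero (hs : PL ≤ s) {c : ℕ → Sm} {b : Bool} (h : GoodP X Y c b) {i : ℕ}
    (hz : ZAt .w5 (c i)) : b = true ∧ EqD X Y := by
  obtain ⟨p, q, σ, β, h1, h2, h3⟩ := hz
  obtain ⟨a1, a2, a3, a4, -⟩ := end_inv hs rfl h h1 h2 h3
  exact ⟨a1, a2, a3, a4 rfl⟩

theorem w5_exists (hs : PL ≤ s) (h : EqD X Y) : ∃ c i, GoodP X Y c true ∧ i + 1 < 2 * FL s ∧ Bad1 (c i) := by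
  have h4 := lt_pow hs
  have hF : FL s = 4 * 2 ^ s := rfl
  refine ⟨_, 3 * 2 ^ s, good_end hs (τ := .w5) rfl h.1 h.2.1 fun _ => h.2.2, by omega,
    Or.inr (Or.inr ⟨.w5, posf (FL s) true (3 * 2 ^ s), (true, (stP X Y (R0 + BL - 2)).hb),
      stP X Y (FL s + 3 * 2 ^ s), dpa X Y .w5 (3 * 2 ^ s) (FL s + 3 * 2 ^ s), ?_, ?_, ?_⟩)⟩
  · simp only [rend, trkf, if_true]
  · simp only [rend, decide_true]
  · exact (sw3 (by omega)).2 le_rfl

theorem w4_bridge (hs : PL ≤ s) {c : ℕ → Sm} {b : Bool} (h : GoodP X Y c b) {i : ℕ} {p : Pos} {side : Bool}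
    {q : Bool × Bool} {σ : Sta} {β : Bool} (ht : (c i).trk = .tok p (.goL (.w4 side) q σ β))
    (hm : (c i).con.m1 = true) (hk : (c i).con.st.me.sw = 3) :
    b = true ∧ permit X.sm ∧ Y.me.sw = 1 ∧ GoodP (X.setD Y.d) (Y.setD X.d)
      (Function.update c i { c i with trk := .tok p (.goL (.w4 (!side)) q σ β) }) true := by
  obtain ⟨a1, a2, a3, -, a5, a6, a7, a8, a9, a10⟩ := end_inv hs rfl h ht hm hk
  refine ⟨a1, a2, a3, ?_⟩
  have := good_end hs (X := X.setD Y.d) (Y := Y.setD X.d) (τ := .w4 (!side)) rfl a2 a3 (by simp)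
  rw [dpa_swap] at this
  rw [a10, a6, WAux.rend_update, a7, a8, a9, a5]
  exact this

theorem w4_exists (hs : PL ≤ s) (h1 : permit X.sm) (h2 : Y.me.sw = 1) :
    ∃ c i z, GoodP X Y c true ∧ i + 1 < 2 * FL s ∧ Br (c i) z ∧
      GoodP (X.setD Y.d) (Y.setD X.d) (Function.update c i z) true := by
  have h4 := lt_pow hs
  have hF : FL s = 4 * 2 ^ s := rfl
  have g1 := good_end hs (τ := .w4 false) rfl h1 h2 (by simp)
  have hk : (stP X Y (3 * 2 ^ s)).me.sw = 3 := (sw3 (by omega)).2 le_rfl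
  have g2 := (w4_bridge hs g1 (i := 3 * 2 ^ s) (p := posf (FL s) true (3 * 2 ^ s)) (side := false)
    (q := (true, (stP X Y (R0 + BL - 2)).hb)) (σ := stP X Y (FL s + 3 * 2 ^ s))
    (β := dpa X Y (.w4 false) (3 * 2 ^ s) (FL s + 3 * 2 ^ s))
    (by simp only [rend, trkf, if_true]) (by simp only [rend, decide_true]) hk).2.2.2
  refine ⟨_, 3 * 2 ^ s, _, g1, by omega, ?_, g2⟩
  simp only [rend, trkf, if_true]
  exact Br.w4 _ _ _ _ _ _ (by simp only [decide_true]) hk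

end Crest.Agent.R176
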