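import Crest.Agent.R176.SemW

/-!
# Row 176, machine: the task `wst`  (task R176-SemSt)

Write `n = 2 ^ s`, `F = FL s`.  Invariant of `Run F (stP X Y) (dpP X Y) .wst p t q dp` (`t ≤ 2 * F`): `dp = dpP X Y`,
`1 ≤ p ≤ 2 * n`, `t ≤ F + p`, `1 < p → t = F + p` (the relevant cells are `F + 1, F + 2, …`), and
* `p ≤ n → q.1 = true`; `¬ Y.me.reset → p ≤ n → q.2 = decide (p - 1 < X.h)`;
  `¬ Y.me.reset → ∀ i, 1 ≤ i → i < p → i < n → (i < Y.h ↔ i - 1 < X.h)`;
* for `p = n + j`: `q.1 = decide (∀ i < j, testBit X.a i)` and `∀ i < j, testBit Y.a i = testBit (X.a + 1) i`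
  (`testBit (a + 1) j = testBit a j xor (all lower bits of a are set)`; prove it by induction on `j` via `a / 2`, or use
  `q.1 = decide (a % 2 ^ j = 2 ^ j - 1)`).
`wst_exists`: run as long as `Op` is possible (induction on `p`: either a state with `ZOp` was reached or the run
exists up to `p`); at `p = 2 * n` without mismatch `SuccBad` is false.  The zero state is `GoodC.gl` with `t = p`.
-/

set_option autoImplicit false

namespace Crest.Agent.R176

variable {s : ℕ} {X Y : Lt (2 ^ s)}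

namespace StAux

/-- all bits below `j` are set -/
def carry (a j : ℕ) : Bool := decide (∀ i, i < j → a.testBit i = true)

theorem carry_zero (a : ℕ) : carry a 0 = true := by simp [carry]

theorem carry_succ (a j : ℕ) : carry a (j + 1) = (a.testBit j && carry a j) := by
  rw [Bool.eq_iff_iff]
  simp only [carry, decide_eq_true_eq, Bool.and_eq_true]
  exact ⟨fun h => ⟨h j (by omega), fun i hi => h i (by omega)⟩, fun h i hi => by
    rcases Nat.lt_succ_iff_lt_or_eq.mp hi with h' | rfl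
    · exact h.2 i h'
    · exact h.1⟩

theorem carry_succ' (a j : ℕ) : carry a (j + 1) = (a.testBit 0 && carry (a / 2) j) := by
  induction j with
  | zero => rw [carry_succ, carry_zero, carry_zero]
  | succ j ih =>
    rw [carry_succ, ih, carry_succ, Nat.testBit_succ]
    cases a.testBit 0 <;> simp

theorem testBit_add_one (a j : ℕ) : (a + 1).testBit j = xor (a.testBit j) (carry a j) := by
  induction j generalizing a with
  | zero =>
    rw [carry_zero, Nat.testBit_zero, Nat.testBit_zero]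
    rcases Nat.mod_two_eq_zero_or_one a with h | h
    · have : (a + 1) % 2 = 1 := by omega
      simp [h, this]
    · have : (a + 1) % 2 = 0 := by omega
      simp [h, this]
  | succ j ih =>
    rw [carry_succ', Nat.testBit_succ, Nat.testBit_succ, Nat.testBit_zero]
    rcases Nat.mod_two_eq_zero_or_one a with h | h
    · have : (a + 1) / 2 = a / 2 := by omega
      simp [h, this]
    · have : (a + 1) / 2 = a / 2 + 1 := by omega
      simp [h, this, ih]

theorem carry_iff {a n : ℕ} (ha : a < 2 ^ n) : carry a n = true ↔ (a + 1) % 2 ^ n = 0 := by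
  have h := testBit_add_one a n
  rw [Nat.testBit_lt_two_pow ha, Bool.false_xor] at h
  rw [← h]
  rcases (Nat.succ_le_of_lt ha).lt_or_eq with h1 | h1
  · rw [Nat.testBit_lt_two_pow h1, Nat.mod_eq_of_lt h1]
    simp
  · rw [Nat.succ_eq_add_one] at h1
    rw [h1]
    simp

theorem stP_left {i : ℕ} (hi : i < FL s) : stP X Y i = stX X i := if_pos hi

theorem stP_right (i : ℕ) : stP X Y (FL s + i) = stX Y i := by simp [stP, pr2]

theorem sw_left {i : ℕ} (hi : i < FL s) : (stX X i).me.sw.val = i / 2 ^ s := meS_sw hi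

theorem sw_zero {i : ℕ} (hi : i < FL s) : (stX X i).me.sw = 0 ↔ i < 2 ^ s := by
  rw [Fin.ext_iff, sw_left hi]
  simp [Nat.div_eq_zero_iff]

theorem sw_one {i : ℕ} (hi : i < FL s) : (stX X i).me.sw = 1 ↔ 2 ^ s ≤ i ∧ i < 2 * 2 ^ s := by
  rw [Fin.ext_iff, sw_left hi]
  have := Nat.div_eq_iff (x := i) (y := 1) (Nat.two_pow_pos s)
  have h := Nat.two_pow_pos s
  show i / 2 ^ s = 1 ↔ _
  rw [this]
  omega

theorem sw_two {i : ℕ} (hi : i < FL s) : (stX X i).me.sw = 2 ↔ 2 * 2 ^ s ≤ i ∧ i < 3 * 2 ^ s := by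
  rw [Fin.ext_iff, sw_left hi]
  have := Nat.div_eq_iff (x := i) (y := 2) (Nat.two_pow_pos s)
  have h := Nat.two_pow_pos s
  show i / 2 ^ s = 2 ↔ _
  rw [this]
  omega

theorem sp_one {i : ℕ} (h1 : 2 ^ s ≤ i) (h2 : i < 2 * 2 ^ s) :
    (stX X i).sp = X.a.val.testBit (i - 2 ^ s) := by
  have e : i / 2 ^ s = 1 := by
    have h := Nat.two_pow_pos s
    rw [Nat.div_eq_iff h]
    omega
  simp only [stX, spX, if_pos e]

theorem rel_iff (hs : PL ≤ s) {t : ℕ} (ht : t < 2 * FL s) :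
    rel .wst (FL s ≤ t) (stP X Y t) ↔ FL s < t := by
  have := FL_ge s
  simp only [rel, (std_stP X Y).home_iff hs ht]
  omega

/-- the invariant of the register `q` -/
structure Inv (X Y : Lt (2 ^ s)) (p : ℕ) (q : Bool × Bool) : Prop where
  a : q.1 = carry X.a.val (p - 2 ^ s)
  b : ¬ Y.me.reset → p ≤ 2 ^ s → q.2 = decide (p - 1 < X.h.val)
  c : ¬ Y.me.reset → ∀ i, 1 ≤ i → i < p → i < 2 ^ s → (i < Y.h.val ↔ i - 1 < X.h.val)
  d : ∀ i, i < p - 2 ^ s → Y.a.val.testBit i = (X.a.val + 1).testBit i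

theorem Inv.step {p : ℕ} {q q' : Bool × Bool} (h : Inv X Y p q) (hp : p < FL s) {d d' β β' : Bool}
    (ho : Op .wst q (stX X p) d (stX Y p) β q' d' β') : p < 2 * 2 ^ s ∧ Inv X Y (p + 1) q' := by
  obtain ⟨-, -, ⟨h1, h2, rfl⟩ | ⟨h1, h2, h3, rfl⟩ | ⟨h1, h2, rfl⟩⟩ := ho
  · rw [sw_zero hp] at h1
    have e : p + 1 - 2 ^ s = p - 2 ^ s := by omega
    exact ⟨by omega, e ▸ h.a, fun hr => absurd h2 hr, fun hr => absurd h2 hr, e ▸ h.d⟩
  · rw [sw_zero hp] at h1
    have e : p + 1 - 2 ^ s = p - 2 ^ s := by omega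
    refine ⟨by omega, e ▸ h.a, fun _ _ => rfl, fun hr i i1 i2 i3 => ?_, e ▸ h.d⟩
    rcases Nat.lt_succ_iff_lt_or_eq.mp i2 with h' | rfl
    · exact h.c hr i i1 h' i3
    · rw [h.b hr h1.le] at h3
      exact decide_eq_decide.mp h3
  · rw [sw_one hp] at h1
    have e : p + 1 - 2 ^ s = p - 2 ^ s + 1 := by omega
    rw [sp_one h1.1 h1.2, sp_one h1.1 h1.2, h.a] at h2
    refine ⟨h1.2, ?_, fun _ h' => absurd h' (by omega), fun hr i i1 _ i3 => h.c hr i i1 (by omega) i3,
      fun i hi => ?_⟩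
    · rw [e, carry_succ, sp_one h1.1 h1.2, h.a]
    · rw [e] at hi
      rcases Nat.lt_succ_iff_lt_or_eq.mp hi with h' | rfl
      · exact h.d i h'
      · rw [h2, testBit_add_one]

theorem inv (hs : PL ≤ s) {p t : ℕ} {q : Bool × Bool} {dp : ℕ → Bool}
    (h : Run (FL s) (stP X Y) (dpP X Y) .wst p t q dp) (ht : t ≤ 2 * FL s) :
    dp = dpP X Y ∧ 1 ≤ p ∧ p ≤ 2 * 2 ^ s ∧ t ≤ FL s + p ∧ (1 < p → t = FL s + p) ∧ Inv X Y p q := by
  have hF : FL s = 4 * 2 ^ s := rfl
  have hn := Nat.two_pow_pos s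
  induction h with
  | base p h1 h2 =>
    have h3 : (stP X Y p).home := h2
    rw [(std_stP X Y).home_iff hs (by omega)] at h3
    obtain rfl : p = 0 := by omega
    have e : 0 + 1 - 2 ^ s = 0 := by omega
    refine ⟨rfl, by omega, by omega, by omega, by omega, ?_, fun _ _ => ?_, fun _ i _ _ _ => by omega,
      fun i hi => by omega⟩
    · rw [e, carry_zero]
    · rw [stP_left (by omega)]
      rfl
  | @skip p t q dp h1 h2 ih =>
    obtain ⟨a1, a2, a3, a4, a5, a6⟩ := ih (by omega)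
    rw [rel_iff hs (by omega)] at h2
    exact ⟨a1, a2, a3, by omega, by omega, a6⟩
  | @round p t q q' dp d' β' h1 h2 h3 ih =>
    obtain ⟨rfl, a2, a3, a4, a5, a6⟩ := ih (by omega)
    rw [rel_iff hs (by omega)] at h2
    obtain rfl : t = FL s + p := by omega
    rw [stP_left (by omega), stP_right] at h3
    obtain ⟨b1, b2⟩ := a6.step (by omega) h3
    refine ⟨?_, by omega, by omega, by omega, by omega, b2⟩
    rw [h3.1, Function.update_eq_self]
    exact Function.update_eq_self _ _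

theorem zero_of (hs : PL ≤ s) {p : ℕ} {q : Bool × Bool}
    (h : Run (FL s) (stP X Y) (dpP X Y) .wst p (FL s + p) q (dpP X Y)) (h1 : 1 ≤ p) (hp : p < FL s)
    (hz : ZOp .wst q (stX X p) (stX Y p)) :
    ∃ c i, GoodP X Y c true ∧ i + 1 < 2 * FL s ∧ Bad1 (c i) := by
  refine ⟨_, p, GoodC.gl p h (by omega) (by simp) ((rel_iff hs (by omega)).2 (by omega)) le_rfl (by omega),
    by omega, Or.inr (Or.inr ⟨.wst, posf (FL s) true p, q, stP X Y (FL s + p),
      tk .wst && dpP X Y (FL s + p), ?_, ?_, ?_⟩)⟩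
  · simp [rend, trkf]
  · simp [rend]
  · show ZOp .wst q (stP X Y p) _
    rw [stP_left hp, stP_right]
    exact hz

theorem op_or_zop {p : ℕ} (hp : p < 2 * 2 ^ s) (q : Bool × Bool) (d β : Bool) :
    (∃ q', Op .wst q (stX X p) d (stX Y p) β q' d β) ∨ ZOp .wst q (stX X p) (stX Y p) := by
  have hF : FL s = 4 * 2 ^ s := rfl
  rcases lt_or_ge p (2 ^ s) with h | h
  · have h0 := (sw_zero (X := X) (i := p) (by omega)).2 h
    by_cases hr : (stX Y p).up.reset
    · exact Or.inl ⟨q, rfl, rfl, Or.inl ⟨h0, hr, rfl⟩⟩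
    · by_cases hb : (stX Y p).hb = q.2
      · exact Or.inl ⟨_, rfl, rfl, Or.inr (Or.inl ⟨h0, hr, hb, rfl⟩)⟩
      · exact Or.inr (Or.inl ⟨h0, hr, hb⟩)
  · have h0 := (sw_one (X := X) (i := p) (by omega)).2 ⟨h, hp⟩
    by_cases hb : (stX Y p).sp = xor (stX X p).sp q.1
    · exact Or.inl ⟨_, rfl, rfl, Or.inr (Or.inr ⟨h0, hb, rfl⟩)⟩
    · exact Or.inr (Or.inr (Or.inl ⟨h0, hb⟩))

end StAux

open StAux

theorem wst_safe (hs : PL ≤ s) {p t : ℕ} {q : Bool × Bool} {dp : ℕ → Bool}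
    (h : Run (FL s) (stP X Y) (dpP X Y) .wst p t q dp) (ht : t ≤ 2 * FL s) :
    dp = dpP X Y ∧ p ≤ 2 * 2 ^ s ∧ t ≤ FL s + p := by
  obtain ⟨a1, -, a3, a4, -⟩ := inv hs h ht
  exact ⟨a1, a3, a4⟩

theorem wst_zero (hs : PL ≤ s) {c : ℕ → Sm} {b : Bool} (h : GoodP X Y c b) {i : ℕ}
    (hz : ZAt .wst (c i)) : b = true ∧ SuccBad X Y := by
  have hF : FL s = 4 * 2 ^ s := rfl
  have hn := Nat.two_pow_pos s
  obtain ⟨p, q, σ, β, h1, h2, h3⟩ := hz
  obtain ⟨p2, dp, a1, a2, a3, a4, -, rfl, -⟩ := WAux.goL_inv h h1 h2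
  obtain ⟨-, b2, b3, b4, b5, b6⟩ := inv hs a1 a2.le
  rw [rel_iff hs a2] at a4
  obtain rfl : p2 = FL s + i := by omega
  have hi : i < FL s := by omega
  rw [good_st h, stP_left hi, stP_right] at h3
  refine ⟨a3.2 (by omega), ?_⟩
  rcases h3 with ⟨c1, c2, c3⟩ | ⟨c1, c2⟩ | ⟨c1, c2⟩
  · rw [sw_zero hi] at c1
    rw [b6.b c2 c1.le] at c3
    refine Or.inr (Or.inr ⟨c2, fun e => c3 (decide_eq_decide.mpr ?_)⟩)
    omega
  · rw [sw_one hi] at c1
    rw [sp_one c1.1 c1.2, sp_one c1.1 c1.2, b6.a, ← testBit_add_one] at c2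
    refine Or.inl fun e => c2 ?_
    rw [e, Nat.testBit_mod_two_pow, decide_eq_true (by omega), Bool.true_and]
  · rw [sw_two hi] at c1
    have e : i - 2 ^ s = 2 ^ s := by omega
    rw [b6.a, e] at c2
    by_cases ha : Y.a.val = (X.a.val + 1) % 2 ^ 2 ^ s
    · refine Or.inr (Or.inl fun h' => c2 ?_)
      rw [Bool.eq_iff_iff, carry_iff X.a.2, ← ha]
      exact h'.symm
    · exact Or.inl ha

theorem wst_exists (hs : PL ≤ s) (h : SuccBad X Y) (h0 : ¬ Y.me.reset → 1 ≤ Y.h.val) :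
    ∃ c i, GoodP X Y c true ∧ i + 1 < 2 * FL s ∧ Bad1 (c i) := by
  have hF : FL s = 4 * 2 ^ s := rfl
  have hn := Nat.two_pow_pos s
  by_contra hne
  have key : ∀ p, 1 ≤ p → p ≤ 2 * 2 ^ s →
      ∃ q, Run (FL s) (stP X Y) (dpP X Y) .wst p (FL s + p) q (dpP X Y) := by
    intro p h1
    induction p, h1 using Nat.le_induction with
    | base =>
      intro _
      have hb := Run.base (F := FL s) (σ := stP X Y) (dp₀ := dpP X Y) (τ := .wst) 0 (by omega)
        (((std_stP X Y).home_iff hs (i := 0) (by omega)).2 (Or.inl rfl))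
      exact ⟨_, WAux.skip_to hb (by omega) fun i _ h2 hr => by
        rw [rel_iff hs (by omega)] at hr
        omega⟩
    | succ p h1 ih =>
      intro h2
      obtain ⟨q, hq⟩ := ih (by omega)
      rcases op_or_zop (X := X) (Y := Y) (p := p) (by omega) q (dpP X Y p)
        (tk .wst && dpP X Y (FL s + p)) with ⟨q', ho⟩ | hz
      · rw [← stP_left (X := X) (Y := Y) (show p < FL s by omega), ← stP_right (X := X) (Y := Y)] at ho
        have hr := hq.round ((rel_iff hs (by omega)).2 (by omega)) ho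
        rw [Function.update_eq_self] at hr
        have e : Function.update (dpP X Y) (FL s + p)
            (if tk .wst then tk .wst && dpP X Y (FL s + p) else dpP X Y (FL s + p)) = dpP X Y :=
          Function.update_eq_self _ _
        rw [e] at hr
        exact ⟨q', hr⟩
      · exact absurd (zero_of hs hq h1 (by omega) hz) hne
  obtain ⟨q, hq⟩ := key (2 * 2 ^ s) (by omega) le_rfl
  obtain ⟨-, -, -, -, -, hI⟩ := inv hs hq (by omega)
  have e : 2 * 2 ^ s - 2 ^ s = 2 ^ s := by omega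
  have ha : Y.a.val = (X.a.val + 1) % 2 ^ 2 ^ s := by
    refine Nat.eq_of_testBit_eq fun j => ?_
    rw [Nat.testBit_mod_two_pow]
    rcases lt_or_ge j (2 ^ s) with hj | hj
    · rw [hI.d j (by omega), decide_eq_true hj, Bool.true_and]
    · rw [Nat.testBit_lt_two_pow (Y.a.2.trans_le (Nat.pow_le_pow_right (by norm_num) hj)),
        decide_eq_false (by omega), Bool.false_and]
  rcases h with h | h | ⟨h, h'⟩
  · exact h ha
  · refine hne (zero_of hs hq (by omega) (by omega)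
      (Or.inr (Or.inr ⟨(sw_two (by omega)).2 (by omega), fun e' => h ?_⟩)))
    rw [hI.a, e] at e'
    rw [ha, ← carry_iff X.a.2, e']
    rfl
  · have c1 := hI.c h Y.h.val
    have c2 := hI.c h (X.h.val + 1)
    have c3 := h0 h
    have c4 := Y.h.2
    have c5 := X.h.2
    omega

end Crest.Agent.R176
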