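import Crest.Agent.R176.SemW
import Crest.Agent.R176.SemSt
import Crest.Agent.R176.SemD

/-!
# Row 176, machine: zeros and bridges in good configurations  (task R176-SemS)

`stX_ok`, `stX_pair`: the static conditions hold in the code of a letter which is not `BadB`; `badB_hasZ`: they detect
`BadB` (`h = 0`: last clause of `BadSta` at the cell `0`; `h ≥ 1`: the tie in `BadPSta` at `(h - 1, h)`, note
`h ≤ 2 ^ s < FL s`; nonzero datum outside the slots: first clause of `BadDyn` at a set bit).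
`good_not_badDyn`: bits (`*_safe`; in the phase `gr` compare with the bits after the round, `Run.round`), `cap`,
`okStart`, walking token, `goL` in sweep `3` (a relevant target `p2` satisfies `p2 % FL s ≤ 3 * 2 ^ s`, and a token at
`t < p2` with position `≠ L` is in the same frame), `main/goR` at home.
-/

set_option autoImplicit false

namespace Crest.Agent.R176

variable {s : ℕ} {X Y : Lt (2 ^ s)}

namespace SAux

open WAux

theorem s_pos (hs : PL ≤ s) : 1 ≤ s := by unfold PL at hs; omega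

theorem sw_stX (X : Lt (2 ^ s)) {i : ℕ} (hi : i < FL s) : (stX X i).me.sw.val = i / 2 ^ s := meS_sw hi

theorem sw_eq_iff (X : Lt (2 ^ s)) {i : ℕ} (hi : i < FL s) (k : Fin 4) :
    (stX X i).me.sw = k ↔ i / 2 ^ s = k.val := by
  rw [← sw_stX X hi, Fin.ext_iff]

theorem home_stX (hs : PL ≤ s) (X : Lt (2 ^ s)) {i : ℕ} (hi : i < FL s) : (stX X i).home ↔ i = 0 := by
  rw [Sta.home, kd_stX hs X hi, lay_home_iff]

theorem stP_lt (X Y : Lt (2 ^ s)) {i : ℕ} (hi : i < FL s) : stP X Y i = stX X i := by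
  simp [stP, pr2, hi]

theorem stP_ge (X Y : Lt (2 ^ s)) {i : ℕ} (hi : FL s ≤ i) : stP X Y i = stX Y (i - FL s) := by
  simp [stP, pr2, hi.not_gt]

theorem dpP_lt (X Y : Lt (2 ^ s)) {i : ℕ} (hi : i < FL s) : dpP X Y i = dpX X i := by
  simp [dpP, pr2, hi]

theorem dpP_ge (X Y : Lt (2 ^ s)) {i : ℕ} (hi : FL s ≤ i) : dpP X Y i = dpX Y (i - FL s) := by
  simp [dpP, pr2, hi.not_gt]

theorem wid_le (F : ℕ) (b : Bool) : wid F b ≤ 2 * F := by
  unfold wid; split_ifs <;> omega

theorem trkf_tok {F : ℕ} {b : Bool} {t i : ℕ} {m m' : Mode} {p : Pos} (h : trkf F b t m i = .tok p m')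
    (hi : i < wid F b) : i = t ∧ m = m' ∧ p = posf F b t := by
  unfold trkf at h
  unfold wid at hi
  split_ifs at h <;> simp_all

end SAux

open WAux SAux

theorem stX_ok (hs : PL ≤ s) (hX : ¬ BadB X) {i : ℕ} (hi : i < FL s) : ¬ BadSta (stX X i) := by
  have hpos := Nat.two_pow_pos s
  have hPL := PL_lt_pow hs
  have hs1 := s_pos hs
  have hRL := RL_ge
  have hBL := RL_lt_BL
  have hio : X.me.io = Lay X.h := by
    by_contra h; exact hX (Or.inl h)
  unfold PL at hPL
  rintro (h | ⟨h1, h2⟩ | ⟨h1, h2, h3⟩ | ⟨j, h1, h2⟩ | ⟨h1, h2, h3⟩)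
  · refine h ?_
    unfold Cst.reset
    rw [sw_eq_iff X hi]
    change Lay (min i s) = .home ↔ decide (i % 2 ^ s = 0) = true ∧ i / 2 ^ s = 0
    rw [lay_home_iff, decide_eq_true_iff]
    constructor
    · intro h
      obtain rfl : i = 0 := by omega
      simp
    · rintro ⟨h1, h2⟩
      have := Nat.div_add_mod i (2 ^ s)
      rw [h1, h2] at this
      omega
  · refine h2 ((sw_eq_iff X hi 0).mpr (Nat.div_eq_of_lt ?_))
    have h3 : i < X.h.val := by simpa [stX] using h1
    have := X.h.2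
    omega
  · rw [Ne, sw_eq_iff X hi] at h3
    rw [kd_stX hs X hi] at h2
    change spX X i = true at h1
    unfold spX at h1
    rw [if_neg (show ¬ i / 2 ^ s = 1 from h3)] at h1
    split_ifs at h1 with h4
    rw [lay_isRO_iff.mpr h4] at h2
    exact absurd h2 (by simp)
  · rw [kd_stX hs X hi, lay_ro_some_iff] at h1
    subst h1
    refine h2 ?_
    have hj := j.2
    change spX X (R0 + j) = cbit X.me j
    unfold spX
    rw [if_neg (by rw [Nat.div_eq_of_lt (by omega)]; omega), if_pos (by omega), Nat.add_sub_cancel_left, code_cbit]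
  · rw [home_stX hs X hi] at h1
    subst h1
    have h4 : X.h.val = 0 := by simpa [stX] using h2
    exact h3 (by change X.me.io = _; rw [hio, h4, lay_zero])

theorem stX_pair (hs : PL ≤ s) (hX : ¬ BadB X) {i : ℕ} (hi : i + 1 < FL s) :
    ¬ BadPSta (stX X i) (stX X (i + 1)) := by
  have hpos := Nat.two_pow_pos s
  have hio : X.me.io = Lay X.h := by
    by_contra h; exact hX (Or.inl h)
  rintro (h | ⟨-, h | ⟨h1, h2⟩ | ⟨h1, h2, h3⟩⟩)
  · refine h (Fin.ext ?_)
    have e1 := sw_stX X hi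
    have e2 := sw_stX X (i := i) (by omega)
    have e3 := (stX X (i + 1)).me.sw.2
    have e4 : (stX X (i + 1)).me.fst = decide ((i + 1) % 2 ^ s = 0) := rfl
    rw [Fin.val_add, e1, e2, e4]
    rw [e1] at e3
    rw [Nat.succ_div] at e3 ⊢
    by_cases h5 : 2 ^ s ∣ i + 1
    · rw [if_pos h5] at e3 ⊢
      rw [if_pos (by simpa using Nat.mod_eq_zero_of_dvd h5)]
      exact (Nat.mod_eq_of_lt e3).symm
    · rw [if_neg h5] at e3 ⊢
      rw [if_neg (by simpa using fun h6 => h5 (Nat.dvd_of_mod_eq_zero h6))]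
      exact (Nat.mod_eq_of_lt e3).symm
  · exact h rfl
  · have h3 : i + 1 < X.h.val := by simpa [stX] using h1
    have h4 : ¬ i < X.h.val := by simpa [stX] using h2
    omega
  · have h4 : i < X.h.val := by simpa [stX] using h1
    have h5 : ¬ i + 1 < X.h.val := by simpa [stX] using h2
    refine h3 ?_
    rw [kd_stX hs X hi]
    change X.me.io = _
    rw [hio, show X.h.val = i + 1 by omega]

theorem stX_boundary (hs : PL ≤ s) (X Y : Lt (2 ^ s)) : ¬ BadPSta (stX X (FL s - 1)) (stX Y 0) := by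
  have hpos := Nat.two_pow_pos s
  have hF := FL_ge s
  rintro (h | ⟨h, -⟩)
  · refine h ?_
    have e1 : (stX Y 0).me.sw = 0 := (sw_eq_iff Y (by omega) 0).mpr (by simp)
    have e2 : (stX X (FL s - 1)).me.sw = 3 := by
      rw [sw_eq_iff X (by omega)]
      refine Nat.div_eq_of_lt_le ?_ ?_
      · unfold FL; change 3 * 2 ^ s ≤ _; omega
      · unfold FL; change _ < (3 + 1) * 2 ^ s; omega
    have e3 : (stX Y 0).me.fst = true := by simp [stX, meS]
    rw [e1, e2, e3]
    rfl
  · exact h ((home_stX hs Y (by omega)).mpr rfl)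

theorem dpX_ok (hs : PL ≤ s) (hX : ¬ BadB X) {i : ℕ} (hi : i < FL s) (h : dpX X i = true) : dpOK (stX X i) := by
  unfold dpX at h
  split_ifs at h with h1 h2
  · refine Or.inr (Or.inr ⟨(sw_eq_iff X hi 2).mpr h1, ?_⟩)
    by_contra h3
    refine hX (Or.inr ⟨h3, fun h4 => ?_⟩)
    rw [h4] at h
    simp at h
  · have := lay_rw_perm_iff.mpr h2
    rw [← kd_stX hs X hi] at this
    rcases this with h3 | h3
    · exact Or.inl h3
    · exact Or.inr (Or.inl h3)

theorem badB_hasZ (hs : PL ≤ s) (hX : BadB X) : SS.HasZ (encS X) := by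
  have hpos := Nat.two_pow_pos s
  have hF := FL_ge s
  have hPL := PL_lt_pow hs
  rcases hX with h | ⟨h1, h2⟩
  · rcases Nat.eq_zero_or_pos X.h.val with h0 | h0
    · refine Sys.hasZ_range (S := SS) (i := 0) (by omega) (Or.inl (Or.inl ?_))
      refine Or.inr (Or.inr (Or.inr (Or.inr ⟨(home_stX hs X (by omega)).mpr rfl, ?_, ?_⟩)))
      · simp [cell, stX, h0]
      · rw [h0, lay_zero] at h
        exact h
    · obtain ⟨k, hk⟩ : ∃ k, X.h.val = k + 1 := ⟨X.h.val - 1, by omega⟩
      have hlt : k + 1 < FL s := by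
        have := X.h.2
        unfold FL; omega
      refine Sys.hasZ_range (S := SS) (i := k) hlt (Or.inr (Or.inr (Or.inl (Or.inr ⟨?_, Or.inr (Or.inr ?_)⟩))))
      · change ¬ (stX X (k + 1)).home
        rw [home_stX hs X hlt]; omega
      · refine ⟨by simp [cell, stX, hk], by simp [cell, stX, hk], ?_⟩
        change X.me.io ≠ (stX X (k + 1)).kd
        rw [kd_stX hs X hlt, ← hk]
        exact h
  · obtain ⟨j, hj⟩ := Nat.exists_testBit_of_ne_zero h2
    have hj' : j < 2 ^ s := by
      by_contra h3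
      rw [Nat.testBit_lt_two_pow (X.d.2.trans_le (Nat.pow_le_pow_right (by norm_num) (by omega)))] at hj
      exact absurd hj (by simp)
    have hlt : 2 * 2 ^ s + j + 1 < FL s := by unfold FL; omega
    have hdiv : (2 * 2 ^ s + j) / 2 ^ s = 2 := Nat.div_eq_of_lt_le (by omega) (by omega)
    refine Sys.hasZ_range (S := SS) (i := 2 * 2 ^ s + j) hlt (Or.inl (Or.inr (Or.inl (Or.inl ⟨?_, ?_⟩))))
    · change dpX X (2 * 2 ^ s + j) = true
      unfold dpX
      rw [if_pos hdiv, Nat.add_sub_cancel_left, hj]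
    · change ¬ dpOK (stX X (2 * 2 ^ s + j))
      unfold dpOK
      rw [kd_stX hs X (by omega), lay_fill (by omega)]
      rintro (h | h | ⟨-, h⟩)
      · exact absurd h (by simp)
      · exact absurd h (by simp)
      · exact h1 h

namespace SAux

theorem dpP_ok (hs : PL ≤ s) (hX : ¬ BadB X) (hY : ¬ BadB Y) {i : ℕ} (hi : i < 2 * FL s)
    (h : dpP X Y i = true) : dpOK (stP X Y i) := by
  rcases lt_or_ge i (FL s) with h1 | h1
  · rw [dpP_lt X Y h1] at h
    rw [stP_lt X Y h1]
    exact dpX_ok hs hX h1 h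
  · rw [dpP_ge X Y h1] at h
    rw [stP_ge X Y h1]
    exact dpX_ok hs hY (by omega) h

theorem run_dp (hs : PL ≤ s) (hX : ¬ BadB X) (hY : ¬ BadB Y) {τ : Task} {p t : ℕ} {q : Bool × Bool}
    {dp : ℕ → Bool} (h : Run (FL s) (stP X Y) (dpP X Y) τ p t q dp) (ht : t ≤ 2 * FL s) {i : ℕ}
    (hi : i < 2 * FL s) (hd : dp i = true) : dpOK (stP X Y i) := by
  cases τ with
  | w1 side =>
    by_cases h1 : (stP X Y i).kd = .rw
    · exact Or.inl h1
    by_cases h2 : (stP X Y i).kd = .perm
    · exact Or.inr (Or.inl h2)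
    rw [(w1_safe hs h ht).2 i h1 h2] at hd
    exact dpP_ok hs hX hY hi hd
  | wst =>
    rw [(wst_safe hs h ht).1] at hd
    exact dpP_ok hs hX hY hi hd
  | w4 side =>
    rcases (wd_safe hs rfl h ht).2.2.2 i hi hd with h1 | h1
    · exact dpP_ok hs hX hY hi h1
    · exact h1
  | w5 =>
    rcases (wd_safe hs rfl h ht).2.2.2 i hi hd with h1 | h1
    · exact dpP_ok hs hX hY hi h1
    · exact h1

theorem take_true {τ : Task} {dp : ℕ → Bool} {t i : ℕ} (h : take τ dp t i = true) : dp i = true := by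
  unfold take at h
  by_cases h1 : i = t
  · subst h1
    rw [Function.update_self] at h
    split_ifs at h
    exact h
  · rwa [Function.update_of_ne h1] at h

theorem good_dp (hs : PL ≤ s) (hX : ¬ BadB X) (hY : ¬ BadB Y) {c : ℕ → Sm} {b : Bool} (h : GoodP X Y c b)
    {i : ℕ} (hi : i < 2 * FL s) (hd : (c i).con.dp = true) : dpOK (stP X Y i) := by
  unfold GoodP at h
  cases h with
  | walk t _ => exact dpP_ok hs hX hY hi hd
  | main h1 h2 _ => exact run_dp hs hX hY h1 h2.le hi hd
  | gl t h1 h2 _ _ _ _ => exact run_dp hs hX hY h1 h2.le hi (take_true hd)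
  | @gr τ p p2 q q' dp b d' β' t h1 h2 _ h4 h5 h6 h7 =>
    change Function.update (take τ dp p2) p d' i = true at hd
    by_cases h8 : i = p
    · subst h8
      rw [Function.update_self] at hd
      refine run_dp hs hX hY (h1.round h4 h5) (by omega) hi ?_
      rw [Function.update_of_ne (by omega), Function.update_self, hd]
    · rw [Function.update_of_ne h8] at hd
      exact run_dp hs hX hY h1 h2.le hi (take_true hd)

/-- a relevant target lies in the first three sweeps of its frame, or is the first cell of the last sweep -/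
theorem target_le (hs : PL ≤ s) {τ : Task} {p t : ℕ} {q : Bool × Bool} {dp : ℕ → Bool}
    (h : Run (FL s) (stP X Y) (dpP X Y) τ p t q dp) (ht : t < 2 * FL s) (hr : rel τ (FL s ≤ t) (stP X Y t)) :
    (t < FL s → t ≤ 3 * 2 ^ s) ∧ t ≤ FL s + 3 * 2 ^ s := by
  have hPL := PL_lt_pow hs
  unfold PL at hPL
  cases τ with
  | w1 side =>
    change (stP X Y t).kd.isReg = true at hr
    rw [(std_stP X Y).kd hs ht, lay_isReg_iff, mod_FL ht] at hr
    split_ifs at hr <;> omega
  | wst =>
    have := wst_safe hs h ht.le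
    have h1 : FL s ≤ t := hr.1
    omega
  | w4 side =>
    have := wd_safe hs rfl h ht.le
    have h1 : FL s ≤ t := hr.1
    omega
  | w5 =>
    have := wd_safe hs rfl h ht.le
    have h1 : FL s ≤ t := hr.1
    omega

end SAux

/-- the token is never in mode `goL` in the last sweep, except in position `L` -/
theorem good_goL (hs : PL ≤ s) {c : ℕ → Sm} {b : Bool} (h : GoodP X Y c b) {i : ℕ} {p : Pos} {m : Mode}
    (ht : (c i).trk = .tok p m) (hm : m.isGoL = true) (hp : p ≠ .L) : (c i).con.st.me.sw ≠ 3 := by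
  have hpos := Nat.two_pow_pos s
  have hw : m ≠ .walk := by rintro rfl; simp [Mode.isGoL] at hm
  unfold GoodP at h
  rw [good_st h]
  cases h with
  | walk t _ => obtain ⟨-, rfl, -⟩ := trkf_goL ht hw; simp [Mode.isGoL] at hm
  | main _ _ _ => obtain ⟨-, rfl, -⟩ := trkf_goL ht hw; simp [Mode.isGoL] at hm
  | gr t _ _ _ _ _ _ _ => obtain ⟨-, rfl, -⟩ := trkf_goL ht hw; simp [Mode.isGoL] at hm
  | @gl τ p1 p2 q dp b t h1 h2 h3 h4 h5 h6 =>
    obtain ⟨rfl, -, rfl⟩ := trkf_goL ht hw
    obtain ⟨h7, h8⟩ := target_le hs h1 h2 h4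
    rcases lt_or_ge i (FL s) with h9 | h9
    · have hb : b = false := by
        cases b
        · rfl
        · simp [posf, h9] at hp
      have h10 : p2 < FL s := by
        by_contra h10
        rw [h3.mpr (by omega)] at hb
        exact absurd hb (by simp)
      rw [stP_lt X Y h9, Ne, sw_eq_iff X h9]
      have : i / 2 ^ s < 3 := by
        rw [Nat.div_lt_iff_lt_mul hpos]
        have := h7 h10
        omega
      change ¬ i / 2 ^ s = 3
      omega
    · rw [stP_ge X Y h9, Ne, sw_eq_iff Y (by omega)]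
      have : (i - FL s) / 2 ^ s < 3 := by
        rw [Nat.div_lt_iff_lt_mul hpos]
        omega
      change ¬ (i - FL s) / 2 ^ s = 3
      omega

theorem good_not_badDyn (hs : PL ≤ s) (hX : ¬ BadB X) (hY : ¬ BadB Y) {c : ℕ → Sm} {b : Bool}
    (h : GoodP X Y c b) {i : ℕ} (hi : i < wid (FL s) b) : ¬ BadDyn (c i) := by
  have hF := FL_ge s
  have hi2 : i < 2 * FL s := hi.trans_le (wid_le _ _)
  have hst : (c i).con.st = stP X Y i := good_st h i
  have hh := (std_stP X Y).home_iff hs hi2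
  have hdp := good_dp hs hX hY h hi2
  have hgl := fun p m => good_goL hs h (i := i) (p := p) (m := m)
  obtain ⟨dp, m, t, p1, p2, a1, rfl, a2, a3, -⟩ := good_shape h
  unfold BadDyn
  rw [hst, hh]
  rintro (⟨h1, h2⟩ | ⟨h1, h2⟩ | ⟨h1, h2⟩ | ⟨p, h1, h2⟩ | ⟨p, m', h1, h2, h3, h4⟩ | ⟨p, m', h1, h2, h3, h4⟩)
  · exact h2 (hdp h1)
  · simp only [rend, Bool.and_eq_true, decide_eq_true_eq] at h1
    exact h2 (Or.inr h1.2)
  · revert h2
    simp only [rend, trkf, posf]
    unfold wid at hi a1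
    rcases h1 with rfl | rfl
    · have : (0 : ℕ) ≠ FL s := by omega
      cases b <;> simp only [this, Bool.false_eq_true, if_false, if_true, decide_false, Bool.and_false] at hi a1 ⊢ <;>
        split_ifs <;> first | omega | simp [Trk.cls, okStart]
    · cases b
      · simp at hi
      · simp only [if_true, decide_true, Bool.and_true] at hi a1 ⊢
        split_ifs <;> first | omega | simp [Trk.cls, okStart]
  · obtain ⟨rfl, rfl, rfl⟩ := SAux.trkf_tok h1 hi
    obtain ⟨rfl, rfl, rfl, -⟩ := a3 rfl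
    simp [rend, posf] at h2
  · rw [← hst] at h4
    exact hgl p m' h1 h2 h3 h4
  · obtain ⟨rfl, rfl, rfl⟩ := SAux.trkf_tok h1 hi
    rcases h3 with h3 | h3
    · rw [a2 h3] at h2
      simp [Mode.isMain, Mode.isGoR] at h2
    · cases b
      · unfold wid at hi
        simp at hi
        omega
      · simp [rend, h3] at h4

theorem good_not_badTrk (hs : PL ≤ s) {c : ℕ → Sm} {b : Bool} (h : GoodP X Y c b) {i : ℕ}
    (hi : i + 1 < wid (FL s) b) : ¬ BadTrk (c i) (c (i + 1)) := by
  have hF := FL_ge s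
  have hi2 : i + 1 < 2 * FL s := hi.trans_le (wid_le _ _)
  have hst : (c (i + 1)).con.st = stP X Y (i + 1) := good_st h _
  have hh := (std_stP X Y).home_iff hs hi2
  obtain ⟨dp, m, t, p1, p2, a1, rfl, -⟩ := good_shape h
  unfold BadTrk
  rw [hst, hh]
  unfold wid at hi a1
  generalize FL s = F at *
  rintro (⟨h1, h2⟩ | ⟨h1, h2⟩)
  · revert h2
    obtain rfl : i + 1 = F := by omega
    simp only [rend, trkf, posf]
    cases b
    · simp at hi
    · simp only [if_true, decide_true, Bool.and_true] at hi a1 ⊢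
      split_ifs <;> first | omega | simp [Trk.cls, okHome]
  · revert h2
    simp only [rend, trkf, posf]
    cases b <;> simp only [Bool.false_eq_true, if_false, if_true] at hi a1 ⊢ <;>
      split_ifs <;> first | omega | simp [Trk.cls, okIn]

theorem good_bad1 (hs : PL ≤ s) (hX : ¬ BadB X) (hY : ¬ BadB Y) {c : ℕ → Sm} {b : Bool}
    (h : GoodP X Y c b) {i : ℕ} (hi : i < wid (FL s) b) (hz : Bad1 (c i)) : b = true ∧ (Sg (2 ^ s)).zr X Y := by
  have hi2 : i < 2 * FL s := hi.trans_le (wid_le _ _)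
  rcases hz with hz | hz | ⟨τ, hz⟩
  · exfalso
    rw [good_st h] at hz
    rcases lt_or_ge i (FL s) with h1 | h1
    · rw [stP_lt X Y h1] at hz
      exact stX_ok hs hX h1 hz
    · rw [stP_ge X Y h1] at hz
      exact stX_ok hs hY (by omega) hz
  · exact absurd hz (good_not_badDyn hs hX hY h hi)
  · cases τ with
    | w1 side => exact ⟨(w1_zero hs h hz).1, Or.inl (w1_zero hs h hz).2⟩
    | wst => exact ⟨(wst_zero hs h hz).1, Or.inr (Or.inr (Or.inr (Or.inl (wst_zero hs h hz).2)))⟩
    | w4 side =>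
      obtain ⟨_, _, _, _, -, -, h1⟩ := hz
      exact h1.elim
    | w5 => exact ⟨(w5_zero hs h hz).1, Or.inr (Or.inr (Or.inr (Or.inr (w5_zero hs h hz).2)))⟩

theorem good_szr (hs : PL ≤ s) (hX : ¬ BadB X) (hY : ¬ BadB Y) {c : ℕ → Sm} {b : Bool}
    (h : GoodP X Y c b) {i : ℕ} (hi : i + 1 < wid (FL s) b) (hz : szr (c i) (c (i + 1))) :
    b = true ∧ (Sg (2 ^ s)).zr X Y := by
  have hF := FL_ge s
  have hi2 : i + 1 < 2 * FL s := hi.trans_le (wid_le _ _)
  rcases hz with hz | hz | hz | hz | hz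
  · exact good_bad1 hs hX hY h (by omega) hz
  · exact good_bad1 hs hX hY h hi hz
  · exfalso
    rw [good_st h, good_st h] at hz
    rcases lt_trichotomy (i + 1) (FL s) with h1 | h1 | h1
    · rw [stP_lt X Y h1, stP_lt X Y (by omega)] at hz
      exact stX_pair hs hX h1 hz
    · rw [stP_lt X Y (by omega), stP_ge X Y h1.ge, h1, Nat.sub_self, show i = FL s - 1 by omega] at hz
      exact stX_boundary hs X Y hz
    · rw [stP_ge X Y (by omega), stP_ge X Y h1.le, show i + 1 - FL s = i - FL s + 1 by omega] at hz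
      exact stX_pair hs hY (by omega) hz
  · exact absurd hz (good_not_badTrk hs h hi)
  · exact absurd hz (good_not_noPred (by omega) (fun i hi => (std_stP X Y).home_iff hs hi) h hi)

theorem good_bridge (hs : PL ≤ s) {c : ℕ → Sm} {b : Bool} (h : GoodP X Y c b) {i : ℕ} {z : Sm}
    (hb : Br (c i) z ∨ Br z (c i)) :
    b = true ∧ ∃ X' Y', ((Sg (2 ^ s)).mv X Y X' Y' ∨ (Sg (2 ^ s)).mv X' Y' X Y) ∧
      GoodP X' Y' (Function.update c i z) true := by
  generalize hw : c i = w at hb
  rcases hb with hb | hb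
  · cases hb with
    | w1 y cp p q σ β h1 h2 =>
      obtain ⟨e, x', y', h3, h4⟩ := w1_bridge hs h (i := i) (p := p) (side := false) (q := q) (σ := σ) (β := β)
        (by rw [hw]) (by rw [hw]; exact h1) (by rw [hw]; exact h2)
      rw [hw] at h4
      exact ⟨e, _, _, Or.inl (Or.inl ⟨x', y', h3, rfl, rfl⟩), h4⟩
    | w4 y cp p q σ β h1 h2 =>
      obtain ⟨e, h3, h4, h5⟩ := w4_bridge hs h (i := i) (p := p) (side := false) (q := q) (σ := σ) (β := β)
        (by rw [hw]) (by rw [hw]; exact h1) (by rw [hw]; exact h2)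
      rw [hw] at h5
      exact ⟨e, _, _, Or.inl (Or.inr ⟨h3, h4, rfl, rfl⟩), h5⟩
  · cases hb with
    | w1 y cp p q σ β h1 h2 =>
      obtain ⟨e, x', y', h3, h4⟩ := w1_bridge hs h (i := i) (p := p) (side := true) (q := q) (σ := σ) (β := β)
        (by rw [hw]) (by rw [hw]; exact h1) (by rw [hw]; exact h2)
      rw [hw] at h4
      rw [if_pos rfl] at h3
      exact ⟨e, X.setSm x', Y.setSm y', Or.inr (Or.inl ⟨X.sm, Y.sm, h3, rfl, rfl⟩), h4⟩
    | w4 y cp p q σ β h1 h2 =>
      obtain ⟨e, h3, h4, h5⟩ := w4_bridge hs h (i := i) (p := p) (side := true) (q := q) (σ := σ) (β := β)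
        (by rw [hw]) (by rw [hw]; exact h1) (by rw [hw]; exact h2)
      rw [hw] at h5
      exact ⟨e, _, _, Or.inl (Or.inr ⟨h3, h4, rfl, rfl⟩), h5⟩

end Crest.Agent.R176
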