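import Crest.Agent.R176.EngB

/-!
# Row 176, machine: the task `w1`  (task R176-SemW)

`tgt s k` is the position of the `k`-th relevant cell, `rval σ dp i` the bit stored in a register.
`w1_inv`: induction on `Run` (base: `seg_of_start`; `skip` cannot pass `tgt s k` because it is a register,
`k ≤ 2 * BL + 1`; `round`: `t = tgt s k` since no register lies strictly between consecutive targets, the cell `p + k` is
a `prog` cell so `k < |g.1|`).  `w1_run`: the converse, by induction on `k` (skip from `tgt s k + 1` to `tgt s (k+1)`).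
For the contents `stP X Y`, `dpP X Y` one has `rval (tgt s j) = (code2 X.sm Y.sm).getD j false` for `j ≤ 2 * BL`
(`tgt s BL` is the `dummy` cell), `stP (X.setSm x') (Y.setSm y') = stP X Y` if the static parts agree (`code_ro_eq`), and
after a complete bridge segment the bits are `dpP (X.setSm x') (Y.setSm y')` (as functions on `ℕ`).
-/

set_option autoImplicit false

namespace Crest.Agent.R176

variable {s : ℕ}

noncomputable def tgt (s k : ℕ) : ℕ := if k ≤ BL then R0 + k else FL s + R0 + (k - BL - 1)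

def rval (σ : ℕ → Sta) (dp : ℕ → Bool) (i : ℕ) : Bool := if (σ i).kd.isRO then (σ i).sp else dp i

open Classical in
/-- the bits after `k` rounds along the list `l` -/
noncomputable def wr (s : ℕ) (σ : ℕ → Sta) (dp₀ : ℕ → Bool) (l : List (Bool × Bool)) (k i : ℕ) : Bool :=
  if h : (σ i).kd.isRO = false ∧ ∃ j, j < k ∧ i = tgt s j then (l.getD h.2.choose default).2 else dp₀ i

namespace WAux

theorem mod_FL {i : ℕ} (hi : i < 2 * FL s) : i % FL s = if i < FL s then i else i - FL s := by
  split_ifs with h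
  · exact Nat.mod_eq_of_lt h
  · rw [Nat.mod_eq_sub_mod (by omega), Nat.mod_eq_of_lt (by omega)]

theorem PL_lt (hs : PL ≤ s) : R0 + BL + 1 < FL s := by
  have := PL_lt_pow hs
  unfold PL at this; unfold FL; omega

theorem tgt_lt (hs : PL ≤ s) {k : ℕ} (hk : k ≤ 2 * BL + 1) : tgt s k + 1 < 2 * FL s := by
  have := PL_lt hs
  unfold tgt; split_ifs <;> omega

theorem tgt_mono (hs : PL ≤ s) : StrictMono (tgt s) := by
  have := PL_lt hs
  intro a b hab
  unfold tgt; split_ifs <;> omega

theorem tgt_ge (k : ℕ) : R0 ≤ tgt s k := by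
  unfold tgt; split_ifs <;> omega

theorem tgt_mod (hs : PL ≤ s) {k : ℕ} (hk : k ≤ 2 * BL + 1) :
    tgt s k % FL s = R0 + if k ≤ BL then k else k - BL - 1 := by
  have := PL_lt hs
  rw [mod_FL (by have := tgt_lt hs hk; omega)]
  unfold tgt; split_ifs <;> omega

theorem tgt_reg (hs : PL ≤ s) {σ : ℕ → Sta} (hσ : Std s (2 * FL s) σ) {k : ℕ} (hk : k ≤ 2 * BL + 1) :
    (σ (tgt s k)).kd.isReg = true := by
  rw [hσ.kd hs (by have := tgt_lt hs hk; omega), lay_isReg_iff, tgt_mod hs hk]
  split_ifs <;> omega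

theorem eq_tgt (hs : PL ≤ s) {σ : ℕ → Sta} (hσ : Std s (2 * FL s) σ) {k t : ℕ} (ht : t < 2 * FL s)
    (hr : (σ t).kd.isReg = true) (h1 : t ≤ tgt s k) (h2 : 0 < k → tgt s (k - 1) < t) : t = tgt s k := by
  have := PL_lt hs
  rw [hσ.kd hs ht, lay_isReg_iff, mod_FL ht] at hr
  rcases Nat.eq_zero_or_pos k with rfl | hk
  · unfold tgt at *; simp at *; split_ifs at hr <;> omega
  · have h2 := h2 hk
    unfold tgt at *; split_ifs at * <;> omega

theorem wr_of_not {σ : ℕ → Sta} {dp₀ : ℕ → Bool} {l : List (Bool × Bool)} {k i : ℕ}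
    (h : (σ i).kd.isRO = true ∨ ∀ j, j < k → i ≠ tgt s j) : wr s σ dp₀ l k i = dp₀ i := by
  unfold wr
  rw [dif_neg]
  rintro ⟨h1, j, h2, h3⟩
  rcases h with h | h
  · rw [h] at h1; exact absurd h1 (by simp)
  · exact h j h2 h3

theorem wr_tgt (hs : PL ≤ s) {σ : ℕ → Sta} {dp₀ : ℕ → Bool} {l : List (Bool × Bool)} {k j : ℕ} (hj : j < k)
    (h : (σ (tgt s j)).kd.isRO = false) : wr s σ dp₀ l k (tgt s j) = (l.getD j default).2 := by
  unfold wr
  have h1 : (σ (tgt s j)).kd.isRO = false ∧ ∃ j', j' < k ∧ tgt s j = tgt s j' := ⟨h, j, hj, rfl⟩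
  rw [dif_pos h1, ← (tgt_mono hs).injective h1.2.choose_spec.2]

theorem wr_zero {σ : ℕ → Sta} {dp₀ : ℕ → Bool} {l : List (Bool × Bool)} : wr s σ dp₀ l 0 = dp₀ :=
  funext fun _ => wr_of_not (Or.inr fun _ h => absurd h (by omega))

theorem wr_self (hs : PL ≤ s) {σ : ℕ → Sta} {dp₀ : ℕ → Bool} {l : List (Bool × Bool)} {k : ℕ} :
    wr s σ dp₀ l k (tgt s k) = dp₀ (tgt s k) :=
  wr_of_not (Or.inr fun _ h => ((tgt_mono hs) h).ne')

theorem wr_succ (hs : PL ≤ s) {σ : ℕ → Sta} {dp₀ : ℕ → Bool} {l : List (Bool × Bool)} {k : ℕ} :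
    wr s σ dp₀ l (k + 1) = Function.update (wr s σ dp₀ l k) (tgt s k)
      (if (σ (tgt s k)).kd.isRO then dp₀ (tgt s k) else (l.getD k default).2) := by
  funext i
  by_cases hi : i = tgt s k
  · subst hi
    rw [Function.update_self]
    cases h : (σ (tgt s k)).kd.isRO
    · rw [wr_tgt hs (Nat.lt_succ_self k) h]; simp
    · rw [wr_of_not (Or.inl h)]; simp
  · rw [Function.update_of_ne hi]
    cases h : (σ i).kd.isRO
    · by_cases h2 : ∃ j, j < k ∧ i = tgt s j
      · obtain ⟨j, h2, rfl⟩ := h2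
        rw [wr_tgt hs h2 h, wr_tgt hs (by omega) h]
      · rw [wr_of_not (Or.inr fun j hj e => h2 ⟨j, hj, e⟩), wr_of_not (Or.inr fun j hj e => ?_)]
        rcases Nat.lt_succ_iff_lt_or_eq.mp hj with h3 | rfl
        · exact h2 ⟨j, h3, e⟩
        · exact hi e
    · rw [wr_of_not (Or.inl h), wr_of_not (Or.inl h)]

theorem kd_small (hs : PL ≤ s) {σ : ℕ → Sta} (hσ : Std s (2 * FL s) σ) {i : ℕ} (hi : i < FL s) :
    (σ i).kd = Lay i := by
  rw [hσ.kd hs (by omega), Nat.mod_eq_of_lt hi]

theorem skip_to {F : ℕ} {σ : ℕ → Sta} {dp₀ : ℕ → Bool} {τ : Task} {p t : ℕ} {q : Bool × Bool} {dp : ℕ → Bool}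
    (h : Run F σ dp₀ τ p t q dp) {t' : ℕ} (h1 : t ≤ t') (h2 : ∀ i, t ≤ i → i < t' → ¬ rel τ (F ≤ i) (σ i)) :
    Run F σ dp₀ τ p t' q dp := by
  induction t', h1 using Nat.le_induction with
  | base => exact h
  | succ k hk ih => exact (ih fun i h3 h4 => h2 i h3 (by omega)).skip (h2 k hk (by omega))

end WAux

open WAux

theorem w1_inv (hs : PL ≤ s) {σ : ℕ → Sta} (hσ : Std s (2 * FL s) σ) {dp₀ : ℕ → Bool} {side : Bool} {p1 t : ℕ}
    {q : Bool × Bool} {dp : ℕ → Bool} (h : Run (FL s) σ dp₀ (.w1 side) p1 t q dp) (ht : t ≤ 2 * FL s) :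
    ∃ g p k, IsSeg g ∧ SegAt p g ∧ k ≤ g.1.length ∧ p1 = p + k ∧ q = (true, (σ (p - 1)).hb) ∧ t ≤ tgt s k ∧
      (0 < k → tgt s (k - 1) < t) ∧ (∀ j, j < k → rval σ dp₀ (tgt s j) = want side (g.1.getD j default)) ∧
      dp = wr s σ dp₀ g.1 k := by
  have hPL := PL_lt hs
  induction h with
  | base p h1 h2 =>
    obtain ⟨h2, h3⟩ := h2
    rw [kd_small hs hσ (by omega)] at h2 h3
    obtain ⟨g, hg, hp⟩ := seg_of_start h2 h3
    refine ⟨g, p + 1, 0, hg, hp, by omega, rfl, by simp, ?_, by omega, fun j hj => absurd hj (by omega),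
      wr_zero.symm⟩
    have := hp.2.1
    have := tgt_ge (s := s) 0
    omega
  | @skip p t q dp h1 h2 ih =>
    obtain ⟨g, p', k, a1, a2, a3, a4, a5, a6, a7, a8, a9⟩ := ih (by omega)
    refine ⟨g, p', k, a1, a2, a3, a4, a5, ?_, fun hk => by have := a7 hk; omega, a8, a9⟩
    have : t ≠ tgt s k := by
      rintro rfl
      exact h2 (tgt_reg hs hσ (by have := a1.length; omega))
    omega
  | @round p t q q' dp d' β' h1 h2 h3 ih =>
    obtain ⟨g, p', k, a1, a2, a3, rfl, a5, a6, a7, a8, rfl⟩ := ih (by omega)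
    obtain rfl : t = tgt s k := eq_tgt hs hσ (by omega) h2 a6 a7
    obtain ⟨b, b', e1, rfl, rfl, e2, e3⟩ := h3
    have hp := a2.2.1
    rw [kd_small hs hσ (by omega)] at e1
    have hk : k < g.1.length := by
      rcases a3.lt_or_eq with h | rfl
      · exact h
      · rw [a2.2.2.2.2] at e1
        unfold endK at e1
        split_ifs at e1
    rw [a2.2.2.2.1 k hk] at e1
    simp only [Kind.prog.injEq] at e1
    have e4 : g.1.getD k default = (b, b') := by
      rw [List.getD_eq_getElem _ _ hk, ← e1.1, ← e1.2]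
    rw [wr_self hs] at e2 e3
    refine ⟨g, p', k + 1, a1, a2, hk, rfl, a5, tgt_mono hs (Nat.lt_succ_self k), fun _ => by simp,
      fun j hj => ?_, ?_⟩
    · rcases Nat.lt_succ_iff_lt_or_eq.mp hj with h | rfl
      · exact a8 j h
      · rw [e4]
        unfold rval
        cases h : (σ (tgt s j)).kd.isRO
        · simpa [tk] using (e3 h).1
        · simpa using (e2 h).1
    · rw [wr_succ hs, Function.update_eq_self, e4]
      congr 1
      cases h : (σ (tgt s k)).kd.isRO
      · simpa [tk] using (e3 h).2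
      · simpa [tk] using (e2 h).2

theorem w1_run (hs : PL ≤ s) {σ : ℕ → Sta} (hσ : Std s (2 * FL s) σ) {dp₀ : ℕ → Bool} {side : Bool} {g : Seg}
    {p k : ℕ} (hg : IsSeg g) (hp : SegAt p g) (hk : k ≤ g.1.length)
    (hv : ∀ j, j < k → rval σ dp₀ (tgt s j) = want side (g.1.getD j default)) :
    Run (FL s) σ dp₀ (.w1 side) (p + k) (tgt s k) (true, (σ (p - 1)).hb) (wr s σ dp₀ g.1 k) := by
  have hPL := PL_lt hs
  have hlen := hg.length
  have hBL := RL_lt_BL
  obtain ⟨a1, a2, a3, a4, a5⟩ := hp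
  induction k with
  | zero =>
    obtain ⟨p, rfl⟩ : ∃ p', p = p' + 1 := ⟨p - 1, by omega⟩
    rw [wr_zero]
    have h0 := a4 0 (by omega)
    have hb : Run (FL s) σ dp₀ (.w1 side) (p + 1) (p + 1) (true, (σ p).hb) dp₀ := by
      refine Run.base p (by omega) ⟨?_, ?_⟩
      · rw [kd_small hs hσ (by omega)]; simpa using a3
      · rw [kd_small hs hσ (by omega)]
        simp only [add_zero] at h0
        rw [h0]; rfl
    refine skip_to hb (by have := tgt_ge (s := s) 0; omega) fun i h1 h2 hr => ?_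
    have := tgt_lt hs (k := 0) (by omega)
    have := eq_tgt hs hσ (k := 0) (by omega) hr h2.le (by omega)
    omega
  | succ k ih =>
    have ih := ih (by omega) fun j hj => hv j (by omega)
    have hk' : k < g.1.length := hk
    have hv := hv k (Nat.lt_succ_self k)
    have e4 : g.1.getD k default = (g.1[k].1, g.1[k].2) := by rw [List.getD_eq_getElem _ _ hk']
    have hr := ih.round (q' := (true, (σ (p - 1)).hb)) (d' := wr s σ dp₀ g.1 k (p + k))
      (β' := if (σ (tgt s k)).kd.isRO then dp₀ (tgt s k) else (g.1.getD k default).2)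
      (tgt_reg hs hσ (by omega)) (by
        refine ⟨g.1[k].1, g.1[k].2, by rw [kd_small hs hσ (by omega), a4 k hk'], rfl, rfl, fun h => ?_, fun h => ?_⟩
        · rw [wr_self hs]
          unfold rval at hv
          rw [h, e4] at hv
          simpa [h, tk] using hv
        · rw [wr_self hs]
          unfold rval at hv
          rw [h, e4] at hv
          rw [e4]
          simpa [h, tk] using hv)
    rw [Function.update_eq_self] at hr
    rw [wr_succ hs]
    refine skip_to hr (tgt_mono hs (Nat.lt_succ_self k)) fun i h1 h2 hr => ?_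
    have := tgt_lt hs (k := k + 1) (by omega)
    have := eq_tgt hs hσ (k := k + 1) (by omega) hr h2.le (fun _ => by simpa using h1)
    omega

namespace WAux

theorem trkf_goL {F : ℕ} {b : Bool} {t i : ℕ} {m m' : Mode} {p : Pos} (h : trkf F b t m i = .tok p m')
    (hm : m' ≠ .walk) : i = t ∧ m = m' ∧ p = posf F b t := by
  unfold trkf at h
  split_ifs at h <;> simp_all

theorem goL_inv {F : ℕ} {σ : ℕ → Sta} {dp₀ : ℕ → Bool} {c : ℕ → Sm} {b : Bool} (h : GoodC F σ dp₀ c b) {i : ℕ}
    {p : Pos} {τ : Task} {q : Bool × Bool} {σ' : Sta} {β : Bool} (ht : (c i).trk = .tok p (.goL τ q σ' β))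
    (hm : (c i).con.m1 = true) :
    ∃ p2 dp, Run F σ dp₀ τ i p2 q dp ∧ p2 < 2 * F ∧ (b = true ↔ F ≤ p2) ∧ rel τ (F ≤ p2) (σ p2) ∧ i < p2 ∧
      σ' = σ p2 ∧ β = (tk τ && dp p2) ∧ p = posf F b i ∧
      c = rend F σ (take τ dp p2) (.goL τ q σ' β) i (some i) (some p2) b := by
  cases h with
  | walk t _ => obtain ⟨-, h, -⟩ := trkf_goL ht (by simp); simp at h
  | main _ _ _ => obtain ⟨-, h, -⟩ := trkf_goL ht (by simp); simp at h
  | gr t _ _ _ _ _ _ _ => obtain ⟨-, h, -⟩ := trkf_goL ht (by simp); simp at h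
  | @gl τ' p1 p2 q' dp b t h1 h2 h3 h4 h5 h6 =>
    obtain ⟨rfl, h, rfl⟩ := trkf_goL ht (by simp)
    simp only [Mode.goL.injEq] at h
    obtain ⟨rfl, rfl, rfl, rfl⟩ := h
    obtain rfl : p1 = i := by simpa [rend] using hm
    exact ⟨p2, dp, h1, h2, h3, h4, h6, rfl, rfl, rfl, rfl⟩

theorem rend_update (F : ℕ) (σ : ℕ → Sta) (dp : ℕ → Bool) (m m' : Mode) (t : ℕ) (p1 p2 : Option ℕ) (b : Bool) :
    Function.update (rend F σ dp m t p1 p2 b) t
      { rend F σ dp m t p1 p2 b t with trk := .tok (posf F b t) m' } = rend F σ dp m' t p1 p2 b := by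
  funext i
  by_cases h : i = t
  · subst h; simp [rend, trkf]
  · rw [Function.update_of_ne h]; simp [rend, trkf, h]

theorem div_small (hs : PL ≤ s) {i : ℕ} (hi : i ≤ R0 + BL) : i / 2 ^ s = 0 := by
  have := PL_lt_pow hs
  unfold PL at this
  exact Nat.div_eq_of_lt (by omega)

theorem kd_stX (hs : PL ≤ s) (X : Lt (2 ^ s)) {i : ℕ} (hi : i < FL s) : (stX X i).kd = Lay i :=
  kd_of_me hs hi rfl

theorem rval_X (hs : PL ≤ s) (X : Lt (2 ^ s)) {k : ℕ} (hk : k ≤ BL) :
    rval (stX X) (dpX X) (R0 + k) = (code X.sm).getD k false := by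
  have hPL := PL_lt hs
  have hBL := RL_lt_BL
  unfold rval
  rw [kd_stX hs X (by omega)]
  have h0 := div_small hs (i := R0 + k) (by omega)
  by_cases h : k < RL
  · rw [lay_isRO_iff.mpr (by omega)]
    simp [stX, spX, h0, h]
  · have : (Lay (R0 + k)).isRO = false := by
      by_contra h'
      have := lay_isRO_iff.mp (by simpa using h' : (Lay (R0 + k)).isRO = true)
      omega
    rw [this]
    rcases hk.lt_or_eq with h' | rfl
    · have : RL ≤ k := by omega
      simp [dpX, h0, h', this]
    · rw [List.getD_eq_default _ _ (code_length _).le]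
      simp [dpX, h0]

theorem code2_length (x y : Sm) : (code2 x y).length = 2 * BL + 1 := by
  simp [code2, code_length]; omega

theorem code2_getD (x y : Sm) (j : ℕ) :
    (code2 x y).getD j false = if j ≤ BL then (code x).getD j false else (code y).getD (j - BL - 1) false := by
  unfold code2
  split_ifs with h
  · rcases h.lt_or_eq with h | rfl
    · rw [List.getD_append _ _ _ _ (by rw [code_length]; exact h)]
    · rw [List.getD_append_right _ _ _ _ (code_length x).le, List.getD_eq_default _ _ (code_length x).le,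
        code_length]
      simp
  · rw [List.getD_append_right _ _ _ _ (by rw [code_length]; omega), code_length]
    obtain ⟨k, rfl⟩ : ∃ k, j = BL + (k + 1) := ⟨j - BL - 1, by omega⟩
    have : BL + (k + 1) - BL - 1 = k := by omega
    rw [this, Nat.add_sub_cancel_left, List.getD_cons_succ]

theorem rval_P (hs : PL ≤ s) (X Y : Lt (2 ^ s)) {j : ℕ} (hj : j ≤ 2 * BL + 1) :
    rval (stP X Y) (dpP X Y) (tgt s j) = (code2 X.sm Y.sm).getD j false := by
  have hPL := PL_lt hs
  rw [code2_getD]
  unfold tgt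
  split_ifs with h
  · rw [← rval_X hs X h]
    have : R0 + j < FL s := by omega
    simp [rval, stP, dpP, pr2, this]
  · rw [← rval_X hs Y (by omega)]
    have h1 : ¬ FL s + R0 + (j - BL - 1) < FL s := by omega
    have h2 : FL s + R0 + (j - BL - 1) - FL s = R0 + (j - BL - 1) := by omega
    simp [rval, stP, dpP, pr2, h1, h2]

theorem stX_setSm {X : Lt (2 ^ s)} {x : Sm} (h : x.con.st = X.st) : stX (X.setSm x) = stX X := by
  funext i
  unfold stX spX
  have e1 : (X.setSm x).me = X.me := congrArg Sta.me h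
  rw [e1]
  congr 1
  split_ifs with h1 h2
  · rfl
  · exact code_ro_eq h (by omega)
  · rfl

theorem stP_setSm {X Y : Lt (2 ^ s)} {x y : Sm} (h : x.con.st = X.st) (h' : y.con.st = Y.st) :
    stP (X.setSm x) (Y.setSm y) = stP X Y := by
  unfold stP; rw [stX_setSm h, stX_setSm h']

theorem kd_stP (X Y X' Y' : Lt (2 ^ s)) (i : ℕ) : (stP X Y i).kd = (stP X' Y' i).kd := by
  unfold stP pr2; split_ifs <;> rfl

theorem wr_full (hs : PL ≤ s) (X Y : Lt (2 ^ s)) (x y : Sm) {l : List (Bool × Bool)}
    (hl : ∀ j, j < 2 * BL + 1 → (l.getD j default).2 = (code2 x y).getD j false) :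
    wr s (stP X Y) (dpP X Y) l (2 * BL + 1) = dpP (X.setSm x) (Y.setSm y) := by
  have hPL := PL_lt hs
  have hBL := RL_lt_BL
  funext i
  by_cases h : (stP X Y i).kd.isRO = false ∧ ∃ j, j < 2 * BL + 1 ∧ i = tgt s j
  · obtain ⟨h1, j, h2, rfl⟩ := h
    rw [wr_tgt hs h2 h1, hl j h2]
    have := rval_P hs (X.setSm x) (Y.setSm y) h2.le
    unfold rval at this
    rw [kd_stP _ _ X Y, h1] at this
    exact this.symm
  · rw [wr_of_not (by
      cases h1 : (stP X Y i).kd.isRO
      · exact Or.inr fun j hj e => h ⟨h1, j, hj, e⟩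
      · exact Or.inl rfl)]
    have hro : ∀ k, k < FL s → R0 + RL ≤ k → (Lay k).isRO = false := fun k _ h2 => by
      by_contra h'
      have := lay_isRO_iff.mp (by simpa using h' : (Lay k).isRO = true)
      omega
    unfold dpP pr2 dpX
    split_ifs with h1 h2 h3 h4 h5
    · rfl
    · refine absurd ⟨?_, i - R0, by omega, ?_⟩ h
      · rw [kd_small hs (std_stP X Y) h1]; exact hro i h1 h3.1
      · unfold tgt; split_ifs <;> omega
    · rfl
    · rfl
    · refine absurd ⟨?_, i - FL s - R0 + BL + 1, by omega, ?_⟩ h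
      · rw [(std_stP X Y).kd hs (by omega), mod_FL (by omega), if_neg h1]; exact hro _ (by omega) h5.1
      · unfold tgt; split_ifs <;> omega
    · rfl

theorem zip_getD {a b : List Bool} (h : a.length = b.length) (j : ℕ) :
    (a.zip b).getD j default = (a.getD j false, b.getD j false) := by
  rcases Nat.lt_or_ge j a.length with hj | hj
  · rw [List.getD_eq_getElem _ _ (by simp; omega), List.getD_eq_getElem _ _ hj,
      List.getD_eq_getElem _ _ (h ▸ hj), List.getElem_zip]
  · rw [List.getD_eq_default _ _ (by simp; omega), List.getD_eq_default _ _ hj,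
      List.getD_eq_default _ _ (h ▸ hj)]
    rfl

theorem diag_getD (a : List Bool) (j : ℕ) :
    (a.map fun b => (b, b)).getD j default = (a.getD j false, a.getD j false) :=
  List.getD_map (l := a) (d := false) (n := j) (f := fun b => (b, b))

theorem want_diag (side b : Bool) : want side (b, b) = b := by cases side <;> rfl

theorem eq_of_getD {a b : List Bool} (h : a.length = b.length)
    (h' : ∀ j, j < a.length → a.getD j false = b.getD j false) : a = b :=
  List.ext_getElem h fun j h1 h2 => by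
    have := h' j h1
    rwa [List.getD_eq_getElem _ _ h1, List.getD_eq_getElem _ _ h2] at this

theorem code2_inj {x y x' y' : Sm} (h : code2 x y = code2 x' y') : x = x' ∧ y = y' := by
  unfold code2 at h
  have := List.append_inj h (by rw [code_length, code_length])
  exact ⟨code_injective this.1, code_injective (by simpa using this.2)⟩

/-- the configuration at the end of a segment -/
theorem good_end (hs : PL ≤ s) {σ : ℕ → Sta} (hσ : Std s (2 * FL s) σ) {dp₀ : ℕ → Bool} {side : Bool} {g : Seg}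
    {p : ℕ} (hg : IsSeg g) (hp : SegAt p g)
    (hv : ∀ j, j < g.1.length → rval σ dp₀ (tgt s j) = want side (g.1.getD j default)) {b : Bool}
    (hb : b = true ↔ FL s ≤ tgt s g.1.length) :
    GoodC (FL s) σ dp₀ (rend (FL s) σ (take (.w1 side) (wr s σ dp₀ g.1 g.1.length) (tgt s g.1.length))
      (.goL (.w1 side) (true, (σ (p - 1)).hb) (σ (tgt s g.1.length)) (dp₀ (tgt s g.1.length)))
      (p + g.1.length) (some (p + g.1.length)) (some (tgt s g.1.length)) b) b := by
  have hlen := hg.length
  have := GoodC.gl (p + g.1.length) (w1_run hs hσ hg hp le_rfl hv)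
    (by have := tgt_lt hs (k := g.1.length) (by omega); omega) hb (tgt_reg hs hσ (by omega)) le_rfl
    (by have := hp.2.1; have := tgt_ge (s := s) g.1.length; omega)
  rw [wr_self hs] at this
  simpa [tk] using this

theorem rend_bad {F : ℕ} {σ : ℕ → Sta} {dp : ℕ → Bool} {side : Bool} {q : Bool × Bool} {σ' : Sta} {β : Bool}
    {t : ℕ} {p2 : Option ℕ} {b : Bool} (h : (σ t).kd = .endZ) :
    Bad1 (rend F σ dp (.goL (.w1 side) q σ' β) t (some t) p2 b t) :=
  Or.inr (Or.inr ⟨.w1 side, posf F b t, q, σ', β, by simp [rend, trkf], by simp [rend], h⟩)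

/-- analysis of a token standing at the end of a segment -/
theorem end_inv (hs : PL ≤ s) {σ : ℕ → Sta} (hσ : Std s (2 * FL s) σ) {dp₀ : ℕ → Bool} {c : ℕ → Sm} {b : Bool}
    (h : GoodC (FL s) σ dp₀ c b) {i : ℕ} {p : Pos} {side : Bool} {q : Bool × Bool} {σ' : Sta} {β : Bool}
    (ht : (c i).trk = .tok p (.goL (.w1 side) q σ' β)) (hm : (c i).con.m1 = true) {e : Bool}
    (hk : (c i).con.st.kd = endK e) :
    ∃ g p₀, IsSeg g ∧ SegAt p₀ g ∧ g.2 = e ∧ i = p₀ + g.1.length ∧ (b = true ↔ FL s ≤ tgt s g.1.length) ∧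
      (∀ j, j < g.1.length → rval σ dp₀ (tgt s j) = want side (g.1.getD j default)) ∧ p = posf (FL s) b i ∧
      q = (true, (σ (p₀ - 1)).hb) ∧ σ' = σ (tgt s g.1.length) ∧ β = dp₀ (tgt s g.1.length) ∧
      c = rend (FL s) σ (take (.w1 side) (wr s σ dp₀ g.1 g.1.length) (tgt s g.1.length))
        (.goL (.w1 side) q σ' β) i (some i) (some (tgt s g.1.length)) b := by
  have hPL := PL_lt hs
  rw [good_st h] at hk
  obtain ⟨p2, dp, h1, h2, h3, h4, h5, h6, h7, h8, h9⟩ := goL_inv h ht hm
  obtain ⟨g, p₀, k, a1, a2, a3, rfl, a5, a6, a7, a8, rfl⟩ := w1_inv hs hσ h1 h2.le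
  obtain rfl : p2 = tgt s k := eq_tgt hs hσ h2 h4 a6 a7
  have hp := a2.2.1
  rw [kd_small hs hσ (by omega)] at hk
  obtain rfl : k = g.1.length := by
    rcases a3.lt_or_eq with h | h
    · rw [a2.2.2.2.1 k h] at hk
      unfold endK at hk
      split_ifs at hk
    · exact h
  rw [a2.2.2.2.2] at hk
  refine ⟨g, p₀, a1, a2, ?_, rfl, h3, a8, h8, a5, h6, ?_, h9⟩
  · revert hk; unfold endK; cases g.2 <;> cases e <;> simp
  · rw [h7, wr_self hs]; simp [tk]

end WAux

/-- invalid register contents are zero (the `dummy` cell is the last target, so everything happens in one frame) -/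
theorem raw_zero (hs : PL ≤ s) {σ : ℕ → Sta} (hσ : Std s (FL s) σ) {dp₀ : ℕ → Bool}
    (h : ∀ x, (wd BL fun k => rval σ dp₀ (R0 + k)) ≠ code x) : SS.IsZero (clean (FL s) σ dp₀) := by
  have hPL := PL_lt hs
  have hσ' : Std s (2 * FL s) (pr2 (FL s) σ σ) := by
    intro i hi
    rw [mod_FL hi]
    unfold pr2
    split_ifs with h1
    · rw [hσ i h1, Nat.mod_eq_of_lt h1]
    · rw [hσ _ (by omega), Nat.mod_eq_of_lt (by omega)]
  have hlen : (wd BL fun k => rval σ dp₀ (R0 + k)).length = BL := by simp [wd]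
  have hg : IsSeg ((wd BL fun k => rval σ dp₀ (R0 + k)).map fun b => (b, b), false) :=
    Or.inr (Or.inr ⟨_, hlen, h, rfl⟩)
  obtain ⟨p, hp⟩ := seg_exists hg
  have hG := good_end hs hσ' (dp₀ := dp₀) (side := false) hg hp (b := false) (by
    intro j hj
    simp only [List.length_map, hlen] at hj
    rw [diag_getD, want_diag, List.getD_eq_getElem _ _ (by rw [hlen]; exact hj)]
    have h1 : R0 + j < FL s := by omega
    simp [wd, tgt, hj.le, rval, pr2, h1]) (by
    simp only [List.length_map, hlen]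
    unfold tgt; simp; omega)
  have hR := good_reach1 ((by norm_num : 2 ≤ 4).trans (FL_ge s)) (fun i hi => hσ'.home_iff hs hi) hG
  have e : clean (FL s) (pr2 (FL s) σ σ) dp₀ = clean (FL s) σ dp₀ :=
    List.map_congr_left fun i hi => by
      have := List.mem_range.mp hi
      simp [cell, pr2, this]
  rw [e] at hR
  have hp2 := hp.2.1
  refine (Sys.hasZ_range (S := SS) ?_ (Or.inl (rend_bad ?_))).isZero.of_eqv hR.eqv
  · omega
  rw [kd_small hs hσ' (by omega), hp.2.2.2.2]
  rfl

variable {X Y : Lt (2 ^ s)}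

theorem w1_safe (hs : PL ≤ s) {side : Bool} {p t : ℕ} {q : Bool × Bool} {dp : ℕ → Bool}
    (h : Run (FL s) (stP X Y) (dpP X Y) (.w1 side) p t q dp) (ht : t ≤ 2 * FL s) :
    p < R0 ∧ ∀ i, (stP X Y i).kd ≠ .rw → (stP X Y i).kd ≠ .perm → dp i = dpP X Y i := by
  have hPL := PL_lt hs
  have hBL := RL_lt_BL
  obtain ⟨g, p₀, k, a1, a2, a3, rfl, a5, a6, a7, a8, rfl⟩ := w1_inv hs (std_stP X Y) h ht
  refine ⟨by have := a2.2.1; omega, fun i h1 h2 => ?_⟩
  by_cases h3 : (stP X Y i).kd.isRO = false ∧ ∃ j, j < k ∧ i = tgt s j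
  · obtain ⟨h3, j, h4, rfl⟩ := h3
    have hlen := a1.length
    have hj : j < 2 * BL + 1 := by omega
    have hkd := (std_stP X Y).kd hs (i := tgt s j) (by have := tgt_lt hs hj.le; omega)
    rw [tgt_mod hs hj.le] at hkd
    have hj' : j = BL := by
      by_contra hne
      have h5 : ¬ (Lay (R0 + if j ≤ BL then j else j - BL - 1)).isRO = true := by rw [← hkd, h3]; simp
      rw [lay_isRO_iff] at h5
      have h6 := (lay_rw_perm_iff (i := R0 + if j ≤ BL then j else j - BL - 1)).mpr (by split_ifs at * <;> omega)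
      rw [← hkd] at h6
      tauto
    subst hj'
    rw [wr_tgt hs h4 h3]
    have e1 := rval_P hs X Y hj.le
    unfold rval at e1
    rw [h3, code2_getD, if_pos le_rfl, List.getD_eq_default _ _ (code_length _).le] at e1
    simp only [Bool.false_eq_true, if_false] at e1
    rw [e1]
    rcases a1 with ⟨x, y, x', y', -, rfl⟩ | ⟨x, y, -, rfl⟩ | ⟨r, hr, -, rfl⟩
    · rw [zip_getD (by rw [code2_length, code2_length])]
      simp only
      rw [code2_getD, if_pos le_rfl, List.getD_eq_default _ _ (code_length _).le]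
    · rw [diag_getD]
      simp only
      rw [code2_getD, if_pos le_rfl, List.getD_eq_default _ _ (code_length _).le]
    · simp only [List.length_map, hr] at a3
      omega
  · refine wr_of_not ?_
    cases h4 : (stP X Y i).kd.isRO
    · exact Or.inr fun j hj e => h3 ⟨h4, j, hj, e⟩
    · exact Or.inl rfl

theorem w1_zero (hs : PL ≤ s) {c : ℕ → Sm} {b : Bool} (h : GoodP X Y c b) {i : ℕ} {side : Bool}
    (hz : ZAt (.w1 side) (c i)) : b = true ∧ szr X.sm Y.sm := by
  have hBL := RL_lt_BL
  obtain ⟨p, q, σ', β, h1, h2, h3⟩ := hz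
  obtain ⟨g, p₀, a1, a2, a3, a4, a5, a6, -⟩ := end_inv hs (std_stP X Y) h h1 h2 (e := false) h3
  rcases a1 with ⟨x, y, x', y', -, rfl⟩ | ⟨x, y, hxy, rfl⟩ | ⟨r, hr, hr', rfl⟩
  · simp at a3
  · simp only [List.length_map, code2_length] at a5 a6
    refine ⟨a5.mpr (by unfold tgt; split_ifs <;> omega), ?_⟩
    have := code2_inj (eq_of_getD (a := code2 X.sm Y.sm) (b := code2 x y) (by rw [code2_length, code2_length])
      fun j hj => by
        rw [code2_length] at hj
        rw [← rval_P hs X Y hj.le, a6 j hj, diag_getD, want_diag])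
    rw [this.1, this.2]; exact hxy
  · simp only [List.length_map, hr] at a6
    refine absurd (eq_of_getD (by rw [hr, code_length]) fun j hj => ?_) (hr' X.sm)
    rw [hr] at hj
    have := a6 j hj
    rw [rval_P hs X Y (by omega), diag_getD, want_diag, code2_getD, if_pos hj.le] at this
    exact this.symm

/-- both runs along a bridge segment exist and end in the same state -/
theorem WAux.bridge_good (hs : PL ≤ s) (X Y : Lt (2 ^ s)) {x y x' y' : Sm} (hm : smv x y x' y')
    (hx : x.con.st = X.st) (hy : y.con.st = Y.st) {p : ℕ} (hp : SegAt p ((code2 x y).zip (code2 x' y'), true))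
    (side : Bool) :
    GoodP (X.setSm (if side then x' else x)) (Y.setSm (if side then y' else y))
      (rend (FL s) (stP X Y) (take (.w1 false) (dpP (X.setSm x') (Y.setSm y')) (tgt s (2 * BL + 1)))
        (.goL (.w1 side) (true, (stP X Y (p - 1)).hb) (stP X Y (tgt s (2 * BL + 1))) false)
        (p + (2 * BL + 1)) (some (p + (2 * BL + 1))) (some (tgt s (2 * BL + 1))) true) true := by
  have hBL := RL_lt_BL
  have hst := smv_st hm
  have hlen : ((code2 x y).zip (code2 x' y')).length = 2 * BL + 1 := by simp [code2_length]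
  have e1 : stP (X.setSm (if side then x' else x)) (Y.setSm (if side then y' else y)) = stP X Y :=
    stP_setSm (by split_ifs; exacts [hst.1.trans hx, hx]) (by split_ifs; exacts [hst.2.trans hy, hy])
  have hG := good_end hs (std_stP (X.setSm (if side then x' else x)) (Y.setSm (if side then y' else y)))
    (dp₀ := dpP (X.setSm (if side then x' else x)) (Y.setSm (if side then y' else y))) (side := side)
    (g := ((code2 x y).zip (code2 x' y'), true)) (Or.inl ⟨x, y, x', y', hm, rfl⟩) hp (b := true) (by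
      intro j hj
      simp only [hlen] at hj
      rw [rval_P hs _ _ hj.le, zip_getD (by rw [code2_length, code2_length])]
      cases side <;> rfl) (by
      simp only [hlen]
      unfold tgt; split_ifs <;> simp <;> omega)
  simp only [hlen] at hG
  rw [wr_full hs _ _ x' y' (fun j hj => by rw [zip_getD (by rw [code2_length, code2_length])])] at hG
  have e2 := rval_P hs (X.setSm (if side then x' else x)) (Y.setSm (if side then y' else y)) (j := 2 * BL + 1) le_rfl
  have e3 : (stP (X.setSm (if side then x' else x)) (Y.setSm (if side then y' else y))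
      (tgt s (2 * BL + 1))).kd.isRO = false := by
    rw [(std_stP _ _).kd hs (by have := tgt_lt hs (k := 2 * BL + 1) le_rfl; omega), tgt_mod hs le_rfl]
    by_contra h'
    have := lay_isRO_iff.mp (by simpa only [Bool.not_eq_false] using h')
    split_ifs at this <;> omega
  unfold rval at e2
  rw [e3, List.getD_eq_default _ _ (code2_length _ _).le] at e2
  simp only [Bool.false_eq_true, if_false] at e2
  rw [e2] at hG
  unfold GoodP
  rw [e1] at hG ⊢
  exact hG

theorem w1_bridge (hs : PL ≤ s) {c : ℕ → Sm} {b : Bool} (h : GoodP X Y c b) {i : ℕ} {p : Pos} {side : Bool}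
    {q : Bool × Bool} {σ : Sta} {β : Bool} (ht : (c i).trk = .tok p (.goL (.w1 side) q σ β))
    (hm : (c i).con.m1 = true) (hk : (c i).con.st.kd = .endB) :
    b = true ∧ ∃ x' y', (if side then smv x' y' X.sm Y.sm else smv X.sm Y.sm x' y') ∧
      GoodP (X.setSm x') (Y.setSm y')
        (Function.update c i { c i with trk := .tok p (.goL (.w1 (!side)) q σ β) }) true := by
  have hBL := RL_lt_BL
  obtain ⟨g, p₀, a1, a2, a3, a4, a5, a6, a7, a8, a9, a10, a11⟩ := end_inv hs (std_stP X Y) h ht hm (e := true) hk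
  rcases a1 with ⟨x, y, x', y', hxy, rfl⟩ | ⟨x, y, hxy, rfl⟩ | ⟨r, hr, hr', rfl⟩
  · have hlen : ((code2 x y).zip (code2 x' y')).length = 2 * BL + 1 := by simp [code2_length]
    simp only [hlen] at a4 a5 a6 a9 a10 a11
    obtain rfl : b = true := a5.mpr (by unfold tgt; split_ifs <;> omega)
    have hst := smv_st hxy
    have e := code2_inj (eq_of_getD (a := code2 X.sm Y.sm)
      (b := code2 (if side then x' else x) (if side then y' else y)) (by rw [code2_length, code2_length])
      fun j hj => by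
        rw [code2_length] at hj
        rw [← rval_P hs X Y hj.le, a6 j hj, zip_getD (by rw [code2_length, code2_length])]
        cases side <;> rfl)
    have hx : x.con.st = X.st := by
      unfold Lt.st; rw [e.1]; split_ifs; exacts [hst.1.symm, rfl]
    have hy : y.con.st = Y.st := by
      unfold Lt.st; rw [e.2]; split_ifs; exacts [hst.2.symm, rfl]
    have hβ : β = false := by
      have e2 := rval_P hs X Y (j := 2 * BL + 1) le_rfl
      have e3 : (stP X Y (tgt s (2 * BL + 1))).kd.isRO = false := by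
        rw [(std_stP _ _).kd hs (by have := tgt_lt hs (k := 2 * BL + 1) le_rfl; omega), tgt_mod hs le_rfl]
        by_contra h'
        have := lay_isRO_iff.mp (by simpa only [Bool.not_eq_false] using h')
        split_ifs at this <;> omega
      unfold rval at e2
      rw [e3, List.getD_eq_default _ _ (code2_length _ _).le] at e2
      rw [a10]; simpa using e2
    rw [wr_full hs _ _ x' y' (fun j hj => by rw [zip_getD (by rw [code2_length, code2_length])])] at a11
    refine ⟨rfl, if !side then x' else x, if !side then y' else y, ?_, ?_⟩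
    · rw [e.1, e.2]; cases side <;> simpa using hxy
    · have := bridge_good hs X Y hxy hx hy a2 (!side)
      rw [a11, a7, rend_update, a8, a9, hβ, a4]
      exact this
  · simp at a3
  · simp at a3

theorem w1_exists_mv (hs : PL ≤ s) {x' y' : Sm} (h : smv X.sm Y.sm x' y') :
    ∃ c i z, GoodP X Y c true ∧ i + 1 < 2 * FL s ∧ Br (c i) z ∧
      GoodP (X.setSm x') (Y.setSm y') (Function.update c i z) true := by
  have hPL := PL_lt hs
  obtain ⟨p, hp⟩ := seg_exists (g := ((code2 X.sm Y.sm).zip (code2 x' y'), true)) (Or.inl ⟨_, _, _, _, h, rfl⟩)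
  have h1 := bridge_good hs X Y h rfl rfl hp false
  have h2 := bridge_good hs X Y h rfl rfl hp true
  have hlen : ((code2 X.sm Y.sm).zip (code2 x' y')).length = 2 * BL + 1 := by simp [code2_length]
  have hp2 := hp.2.1
  have hp3 := hp.2.2.2.2
  simp only [hlen] at hp2 hp3
  rw [← rend_update (m := .goL (.w1 false) (true, (stP X Y (p - 1)).hb) (stP X Y (tgt s (2 * BL + 1))) false)] at h2
  refine ⟨_, p + (2 * BL + 1), _, h1, by omega, ?_, h2⟩
  simp only [rend, trkf, if_true]
  refine Br.w1 _ _ _ _ _ _ (by simp) ?_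
  change (stP X Y _).kd = _
  rw [kd_small hs (std_stP X Y) (by omega), hp3]
  rfl

theorem w1_exists_zr (hs : PL ≤ s) (h : szr X.sm Y.sm) :
    ∃ c i, GoodP X Y c true ∧ i + 1 < 2 * FL s ∧ Bad1 (c i) := by
  have hPL := PL_lt hs
  have hBL := RL_lt_BL
  have hg : IsSeg ((code2 X.sm Y.sm).map fun b => (b, b), false) := Or.inr (Or.inl ⟨_, _, h, rfl⟩)
  obtain ⟨p, hp⟩ := seg_exists hg
  have hG := good_end hs (std_stP X Y) (dp₀ := dpP X Y) (side := false) hg hp (b := true) (by
    intro j hj
    simp only [List.length_map, code2_length] at hj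
    rw [diag_getD, want_diag, rval_P hs X Y hj.le]) (by
    simp only [List.length_map, code2_length]
    unfold tgt; split_ifs <;> simp <;> omega)
  have hp2 := hp.2.1
  refine ⟨_, _, hG, ?_, rend_bad ?_⟩
  · omega
  rw [kd_small hs (std_stP X Y) (by omega), hp.2.2.2.2]
  rfl

end Crest.Agent.R176
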