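import Crest.Agent.R176.SemS
import Crest.Agent.R176.Big

/-!
# Row 176, machine: simulation  (task R176-Sim)

`sim_mv`, `sim_zr`: `*_exists`, `reach2_iff`, `Reach2.eqv`, one bridge step (`Sys.step_range`; `smv` with `z' = z`),
`lift_eqv` (the big parts of `enc X ++ enc Y` do not depend on `X, Y`), `lift_zero`, `badB_hasZ`.  For `SuccBad`: if
`Y.h = 0` and `Y.me` is not `reset` then either `BadB Y` or `Bad1 Y.sm` (first clause of `BadSta`).
`sval_st`: induction on `SVal`, `reach*_iff`, `good_st`.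
-/

set_option autoImplicit false

namespace Crest.Agent.R176

variable {s : ℕ}

namespace SimAux

theorem comb_enc (X X' : Lt (2 ^ s)) : comb (encS X') (enc X) = enc X' := by
  simp only [comb, encS, clean, enc, wd, List.zipWith_map, List.zipWith_self]
  rfl

theorem comb_enc2 (X Y X' Y' : Lt (2 ^ s)) :
    comb (encS X' ++ encS Y') (enc X ++ enc Y) = enc X' ++ enc Y' := by
  rw [← comb_enc X X', ← comb_enc Y Y', comb, comb, comb,
    List.zipWith_append (by rw [encS_length, enc_length])]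

theorem lift2 {X Y X' Y' : Lt (2 ^ s)} (h : SS.Eqv (encS X ++ encS Y) (encS X' ++ encS Y')) :
    (Sg s).Eqv (enc X ++ enc Y) (enc X' ++ enc Y') := by
  have := lift_eqv h (W := enc X ++ enc Y) (by simp [encS_length, enc_length])
  rwa [comb_enc2, comb_enc2] at this

theorem lift2_zero {X Y : Lt (2 ^ s)} (h : SS.IsZero (encS X ++ encS Y)) :
    (Sg s).IsZero (enc X ++ enc Y) :=
  lift_zero (by rwa [List.map_append, enc_map_sm, enc_map_sm])

theorem good_eqv (hs : PL ≤ s) {X Y : Lt (2 ^ s)} {c : ℕ → Sm} (h : GoodP X Y c true) :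
    SS.Eqv (encS X ++ encS Y) (wd (2 * FL s) c) :=
  ((reach2_iff hs X Y).2 ⟨c, h, rfl⟩).eqv

theorem bridge_eqv (hs : PL ≤ s) {X Y X' Y' : Lt (2 ^ s)}
    (h : ∃ c i z, GoodP X Y c true ∧ i + 1 < 2 * FL s ∧ Br (c i) z ∧
      GoodP X' Y' (Function.update c i z) true) :
    (Sg s).Eqv (enc X ++ enc Y) (enc X' ++ enc Y') := by
  obtain ⟨c, i, z, h1, hi, hb, h2⟩ := h
  refine lift2 ((good_eqv hs h1).trans (Sys.Eqv.trans ?_ (good_eqv hs h2).symm))
  refine (Sys.step_range (S := SS) hi (Or.inr ⟨?_, ?_⟩) fun k _ hk _ => ?_).eqv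
  · rwa [Function.update_self]
  · exact Function.update_of_ne (Nat.succ_ne_self i) _ _
  · exact Function.update_of_ne hk _ _

theorem bad_zero (hs : PL ≤ s) {X Y : Lt (2 ^ s)}
    (h : ∃ c i, GoodP X Y c true ∧ i + 1 < 2 * FL s ∧ Bad1 (c i)) : (Sg s).IsZero (enc X ++ enc Y) := by
  obtain ⟨c, i, h1, hi, hb⟩ := h
  exact lift2_zero ((Sys.hasZ_range (S := SS) hi (Or.inl hb)).isZero.of_eqv (good_eqv hs h1))

theorem wd_get {α : Type} {n i : ℕ} (c : ℕ → α) (hi : i < n) : (wd n c)[i]? = some (c i) := by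
  simp [wd, hi]

theorem wd_len {α : Type} (n : ℕ) (c : ℕ → α) : (wd n c).length = n := by simp [wd]

end SimAux

open SimAux

theorem sim_mv (hs : PL ≤ s) {X Y X' Y' : Lt (2 ^ s)} (h : (Sg (2 ^ s)).mv X Y X' Y') :
    (Sg s).Eqv (enc X ++ enc Y) (enc X' ++ enc Y') := by
  rcases h with ⟨x', y', h, rfl, rfl⟩ | ⟨h1, h2, rfl, rfl⟩
  · exact bridge_eqv hs (w1_exists_mv hs h)
  · exact bridge_eqv hs (w4_exists hs h1 h2)

theorem sim_zr (hs : PL ≤ s) {X Y : Lt (2 ^ s)} (h : (Sg (2 ^ s)).zr X Y) : (Sg s).IsZero (enc X ++ enc Y) := by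
  have hB : BadB Y → (Sg s).IsZero (enc X ++ enc Y) := fun h =>
    lift2_zero ((badB_hasZ hs h).isZero.append_left _)
  rcases h with h | h | h | h | h
  · exact bad_zero hs (w1_exists_zr hs h)
  · exact lift2_zero ((badB_hasZ hs h).isZero.append_right _)
  · exact hB h
  · by_cases h0 : ¬ Y.me.reset → 1 ≤ Y.h.val
    · exact bad_zero hs (wst_exists hs h h0)
    · by_cases hY : BadB Y
      · exact hB hY
      · have h1 : ¬ Y.me.reset := fun hr => h0 fun hn => absurd hr hn
        have h2 : Y.h.val = 0 := by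
          by_contra h2
          exact h0 fun _ => Nat.one_le_iff_ne_zero.2 h2
        have h3 : Y.me.io = .home := by
          by_contra h3
          exact hY (Or.inl (by rw [h2, lay_zero]; exact h3))
        exact bad_zero hs (w1_exists_zr hs (Or.inr (Or.inl (Or.inl (Or.inl fun hh => h1 (hh.1 h3))))))
  · exact bad_zero hs (w5_exists hs h)

theorem sim_eqv (hs : PL ≤ s) {u u' : List (Lt (2 ^ s))} (h : (Sg (2 ^ s)).Eqv u u') :
    (Sg s).Eqv (u.flatMap enc) (u'.flatMap enc) := by
  induction h with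
  | rel _ _ h =>
    cases h with
    | mk a b h =>
      simpa only [List.flatMap_append, List.flatMap_cons, List.append_assoc] using
        (sim_mv hs h).append (a.flatMap enc) (b.flatMap enc)
  | refl => exact Sys.Eqv.refl _
  | symm _ _ _ ih => exact ih.symm
  | trans _ _ _ _ _ ih ih' => exact ih.trans ih'

theorem sim_zero (hs : PL ≤ s) {u : List (Lt (2 ^ s))} (h : (Sg (2 ^ s)).IsZero u) :
    (Sg s).IsZero (u.flatMap enc) := by
  obtain ⟨u', e, a, y, z, b, rfl, hz⟩ := h
  refine Sys.IsZero.of_eqv ?_ (sim_eqv hs e)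
  simpa only [List.flatMap_append, List.flatMap_cons, List.append_assoc] using
    (sim_zr hs hz).append (a.flatMap enc) (b.flatMap enc)

theorem val_nz (hs : PL ≤ s) {u : List (Lt (2 ^ s))} {W : List (Lt s)} (h : Val u W) (hz : ¬ (Sg s).IsZero W) :
    ¬ (Sg (2 ^ s)).IsZero u :=
  fun h0 => hz ((sim_zero hs h0).of_eqv (val_eqv_enc hs h))

theorem sval_st (hs : PL ≤ s) {u : List (Lt (2 ^ s))} {w : List Sm} (h : SVal u w) {k i : ℕ} {X : Lt (2 ^ s)}
    (hk : u[k]? = some X) (hi : i < FL s) : ∃ x, w[k * FL s + i]? = some x ∧ x.con.st = stX X i := by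
  induction h generalizing k with
  | nil => simp at hk
  | @one Z w u m h1 _ ih =>
    obtain ⟨c, hc, rfl⟩ := (reach1_iff hs Z Z).1 h1
    rcases k with _ | k
    · obtain rfl : Z = X := by simpa using hk
      refine ⟨c i, ?_, ?_⟩
      · rw [zero_mul, zero_add, List.getElem?_append_left (by rwa [wd_len]), wd_get c hi]
      · rw [good_st hc]; simp [stP, pr2, hi]
    · obtain ⟨x, hx, hx'⟩ := ih (k := k) (by simpa using hk)
      refine ⟨x, ?_, hx'⟩
      rw [List.getElem?_append_right (by rw [wd_len]; nlinarith), wd_len, ← hx]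
      congr 1
      rw [add_mul, one_mul]; omega
  | @two Z Y w u m h1 _ ih =>
    obtain ⟨c, hc, rfl⟩ := (reach2_iff hs Z Y).1 h1
    rcases k with _ | _ | k
    · obtain rfl : Z = X := by simpa using hk
      refine ⟨c i, ?_, ?_⟩
      · rw [zero_mul, zero_add, List.getElem?_append_left (by rw [wd_len]; omega), wd_get c (by omega)]
      · rw [good_st hc]; simp [stP, pr2, hi]
    · obtain rfl : Y = X := by simpa using hk
      refine ⟨c (FL s + i), ?_, ?_⟩
      · rw [zero_add, one_mul, List.getElem?_append_left (by rw [wd_len]; omega), wd_get c (by omega)]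
      · rw [good_st hc]; simp [stP, pr2]
    · obtain ⟨x, hx, hx'⟩ := ih (k := k) (by simpa using hk)
      refine ⟨x, ?_, hx'⟩
      rw [List.getElem?_append_right (by rw [wd_len]; nlinarith), wd_len, ← hx]
      congr 1
      rw [add_mul, add_mul, one_mul]; omega

theorem val_not_badB (hs : PL ≤ s) {u : List (Lt (2 ^ s))} {W : List (Lt s)} (h : Val u W) :
    ∀ X ∈ W, ¬ BadB X := by
  intro X hX
  obtain ⟨j, hj⟩ := List.getElem?_of_mem hX
  have hF : 0 < FL s := lt_of_lt_of_le (by norm_num) (FL_ge s)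
  have hlen : W.length = u.length * FL s := by rw [← sval_length h.1, List.length_map]
  have hjl : j < u.length * FL s := hlen ▸ (List.getElem?_eq_some_iff.1 hj).1
  have hk : j / FL s < u.length := (Nat.div_lt_iff_lt_mul hF).2 hjl
  have hi : j % FL s < FL s := Nat.mod_lt _ hF
  obtain ⟨x, hx, hx'⟩ := sval_st hs h.1 (List.getElem?_eq_getElem hk) hi
  rw [Nat.div_add_mod', List.getElem?_map, hj] at hx
  obtain rfl : X.sm = x := by simpa using hx
  have hme : X.me = meS s (j % FL s) := congrArg Sta.me hx'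
  obtain ⟨-, h2, h3⟩ := h.2.1 j X hj
  rintro (hb | ⟨hb1, hb2⟩)
  · exact hb (by rw [hme, h2]; rfl)
  · refine hb2 (h3 fun hsl => hb1 (Fin.ext ?_))
    rw [hme, meS_sw hi]
    exact hsl

end Crest.Agent.R176
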