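import Crest.Agent.R176.Sim

/-!
# Row 176, machine: soundness  (task R176-Sound)

Soundness.  `sval_step`: induction on `SVal`, `Sys.Step.of_append`/`of_append'`.  Inside a territory: forward move
(`Reach1`/`Reach2.step`), backward move (the territory has exactly one token by `reach*_iff` and `good_shape`; it is the
clean frame, which has no predecessor by `fwd_cases`, or it has a predecessor in `Reach1`, `Reach2` or an un-captured
pair, which is the given one by `step_pred_unique`), bridge (`good_bridge`).  At the boundary of two territories (last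
cell `y`: class `la, tU, tR`, not `goL`; first cell `z`: home, `cap = false`, a token there is the idle one) only the
capture is possible, between two single frames (`Reach2.cap`; a single frame with its token at `0` is clean).
`sval_hasZ`: `Sys.HasZ.of_append`, `good_szr`, `good_bad1`, `stX_boundary`.
`val_step`, `val_hasZ`: the big parts; `sval_st` gives the static structure (a data move happens at two slots of the
same frame).  `sound`: the property `∃ u', Eqv u u' ∧ Val u' W'` is invariant along `Eqv W W'`.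
-/

set_option autoImplicit false

namespace Crest.Agent.R176

variable {s : ℕ}

namespace SoundAux

inductive Terr : List (Lt (2 ^ s)) → List Sm → Prop
  | one {X : Lt (2 ^ s)} {w : List Sm} : Reach1 (encS X) w → Terr [X] w
  | two {X Y : Lt (2 ^ s)} {w : List Sm} : Reach2 (encS X) (encS Y) w → Terr [X, Y] w

theorem sval_append {u u' : List (Lt (2 ^ s))} {w w' : List Sm} (h : SVal u w) (h' : SVal u' w') :
    SVal (u ++ u') (w ++ w') := by
  induction h with
  | nil => exact h'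
  | one h1 _ ih => simpa using SVal.one h1 ih
  | two h1 _ ih => simpa using SVal.two h1 ih

theorem Terr.sval {u : List (Lt (2 ^ s))} {w : List Sm} (h : Terr u w) : SVal u w := by
  cases h with
  | one h => simpa using SVal.one h SVal.nil
  | two h => simpa using SVal.two h SVal.nil

theorem sval_ind {P : List (Lt (2 ^ s)) → List Sm → Prop} (h0 : P [] [])
    (h1 : ∀ u w u' w', Terr u w → SVal u' w' → P u' w' → P (u ++ u') (w ++ w'))
    {u : List (Lt (2 ^ s))} {w : List Sm} (h : SVal u w) : P u w := by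
  induction h with
  | nil => exact h0
  | one a b ih => exact h1 _ _ _ _ (.one a) b ih
  | two a b ih => exact h1 _ _ _ _ (.two a) b ih

theorem Terr.good (hs : PL ≤ s) {u : List (Lt (2 ^ s))} {w : List Sm} (h : Terr u w) :
    ∃ X Y c b, GoodP X Y c b ∧ w = wd (wid (FL s) b) c ∧ u = (if b then [X, Y] else [X]) ∧ Y ∈ u := by
  cases h with
  | @one X w h =>
    obtain ⟨c, h1, h2⟩ := (reach1_iff hs X X).mp h
    exact ⟨X, X, c, false, h1, h2, rfl, by simp⟩
  | @two X Y w h =>
    obtain ⟨c, h1, h2⟩ := (reach2_iff hs X Y).mp h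
    exact ⟨X, Y, c, true, h1, h2, rfl, by simp⟩

theorem wd_length {α : Type} (n : ℕ) (c : ℕ → α) : (wd n c).length = n := by simp [wd]

theorem wd_get {α : Type} {n i : ℕ} {c : ℕ → α} {x : α} (h : (wd n c)[i]? = some x) : i < n ∧ c i = x := by
  obtain ⟨h1, h2⟩ := List.getElem?_eq_some_iff.mp h
  rw [wd_length] at h1
  exact ⟨h1, by simpa [wd] using h2⟩

theorem wd_get' {α : Type} {n i : ℕ} (c : ℕ → α) (h : i < n) : (wd n c)[i]? = some (c i) := by
  simp [wd, h]

theorem wd_eq_append {α : Type} {n : ℕ} {c : ℕ → α} {a r : List α} {y : α} (h : wd n c = a ++ y :: r) :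
    a.length + 1 + r.length = n ∧ c a.length = y ∧ ∀ y', wd n (Function.update c a.length y') = a ++ y' :: r := by
  have h1 : a.length + 1 + r.length = n := by
    have := congrArg List.length h
    rw [wd_length] at this
    simp at this; omega
  refine ⟨h1, (wd_get (n := n) (by rw [h]; simp)).2, fun y' => List.ext_getElem? fun k => ?_⟩
  by_cases hk : k = a.length
  · subst hk
    rw [wd_get' _ (by omega)]; simp
  · have e : (a ++ y' :: r)[k]? = (a ++ y :: r)[k]? := by
      rcases Nat.lt_or_ge k a.length with h2 | h2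
      · simp [List.getElem?_append_left h2]
      · obtain ⟨m, rfl⟩ : ∃ m, k = a.length + (m + 1) := ⟨k - a.length - 1, by omega⟩
        simp [List.getElem?_append_right]
    rw [e, ← h]
    rcases Nat.lt_or_ge k n with h2 | h2
    · rw [wd_get' _ h2, wd_get' _ h2, Function.update_of_ne hk]
    · rw [List.getElem?_eq_none (by rw [wd_length]; exact h2), List.getElem?_eq_none (by rw [wd_length]; exact h2)]

theorem trkf_tok {F : ℕ} {b : Bool} {t i : ℕ} {m m' : Mode} {p : Pos} (h : trkf F b t m i = .tok p m')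
    (hi : i < wid F b) : i = t ∧ m = m' ∧ p = posf F b t := by
  unfold trkf at h
  unfold wid at hi
  split_ifs at h hi <;> simp_all

theorem Terr.unique (hs : PL ≤ s) {u : List (Lt (2 ^ s))} {w : List Sm} (h : Terr u w) (i j : ℕ) (x y : Sm)
    (p q : Pos) (m m' : Mode) (h1 : w[i]? = some x) (h2 : w[j]? = some y) (h3 : x.trk = .tok p m)
    (h4 : y.trk = .tok q m') : i = j := by
  obtain ⟨X, Y, c, b, hg, rfl, -⟩ := h.good hs
  obtain ⟨dp, m₀, t, p1, p2, -, rfl, -⟩ := good_shape hg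
  obtain ⟨a1, rfl⟩ := wd_get h1
  obtain ⟨a2, rfl⟩ := wd_get h2
  exact (trkf_tok h3 a1).1.trans (trkf_tok h4 a2).1.symm

theorem clean_no_pred {F : ℕ} {σ : ℕ → Sta} {dp : ℕ → Bool} {w : List Sm} (h : FS.Step w (clean F σ dp)) :
    False := by
  obtain ⟨i, y, z, y', z', hf, -, -, h1, h2, -⟩ := h.exists_index
  obtain ⟨-, rfl⟩ := wd_get h1
  obtain ⟨-, rfl⟩ := wd_get h2
  rcases fwd_cases hf with ⟨-, -, ⟨p, m, h, -⟩, -⟩ | ⟨-, -, p, m, h, h'⟩
  · simp [cell] at h
  · unfold cell at h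
    split_ifs at h <;> simp at h
    rw [← h.2] at h'
    simp [Mode.isGoL] at h'

theorem terr_bridge (hs : PL ≤ s) {u : List (Lt (2 ^ s))} {a r : List Sm} {y y' : Sm} (h : Terr u (a ++ y :: r))
    (hb : Br y y' ∨ Br y' y) : ∃ u', (Sg (2 ^ s)).Eqv u u' ∧ SVal u' (a ++ y' :: r) := by
  obtain ⟨X, Y, c, b, hg, e, rfl, -⟩ := h.good hs
  obtain ⟨-, rfl, h3⟩ := wd_eq_append e.symm
  obtain ⟨rfl, X', Y', hm, hg'⟩ := good_bridge hs hg hb
  refine ⟨[X', Y'], ?_, ?_⟩
  · rcases hm with hm | hm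
    · exact (Sys.Step.mk (S := Sg (2 ^ s)) [] [] hm).eqv
    · exact (Sys.Step.mk (S := Sg (2 ^ s)) [] [] hm).eqv.symm
  · rw [← h3 y']
    exact (Terr.two ((reach2_iff hs X' Y').mpr ⟨_, hg', rfl⟩)).sval

theorem terr_step (hs : PL ≤ s) {u : List (Lt (2 ^ s))} {w w' : List Sm} (h : Terr u w)
    (hw : SS.Step w w' ∨ SS.Step w' w) : ∃ u', (Sg (2 ^ s)).Eqv u u' ∧ SVal u' w' := by
  rcases hw with hw | hw
  · cases hw with
    | @mk a r y z y' z' hm =>
      rcases hm with hm | ⟨hm, rfl⟩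
      · refine ⟨u, Sys.Eqv.refl _, Terr.sval ?_⟩
        have hst := Sys.Step.mk (S := FS) a r hm
        generalize a ++ y :: z :: r = w at h hst
        cases h with
        | one h => exact .one (h.tail hst)
        | two h => exact .two (h.step hst)
      · exact terr_bridge hs h (Or.inl hm)
  · cases hw with
    | @mk a r y z y' z' hm =>
      rcases hm with hm | ⟨hm, rfl⟩
      · refine ⟨u, Sys.Eqv.refl _, ?_⟩
        have hst := Sys.Step.mk (S := FS) a r hm
        have hu := h.unique hs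
        generalize a ++ y :: z :: r = w' at hst
        generalize a ++ y' :: z' :: r = w at h hst hu
        cases h with
        | one h =>
          rcases Relation.ReflTransGen.cases_tail h with rfl | ⟨w'', h1, h2⟩
          · exact (clean_no_pred hst).elim
          · rw [step_pred_unique hst h2 hu]
            exact (Terr.one h1).sval
        | @two X Y _ h =>
          cases h with
          | @cap a r y z y' z' h1 h2 h3 =>
            rw [step_pred_unique hst (Sys.Step.mk (S := FS) a r h3) hu]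
            have := SVal.one h1 (SVal.one (X := Y) (Relation.ReflTransGen.refl (a := encS Y)) SVal.nil)
            rw [h2] at this
            simpa using this
          | step h1 h2 =>
            rw [step_pred_unique hst h2 hu]
            exact (Terr.two h1).sval
      · exact terr_bridge hs h (Or.inr hm)

theorem terr_last (hs : PL ≤ s) {u : List (Lt (2 ^ s))} {a : List Sm} {y : Sm} (h : Terr u (a ++ [y])) :
    (y.trk.cls = .la ∨ y.trk.cls = .tU ∨ y.trk.cls = .tR) ∧ (∀ p m, y.trk = .tok p m → m.isGoL = false) ∧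
      (∃ X : Lt (2 ^ s), y.con.st = stX X (FL s - 1)) ∧
      (∀ m, y.trk = .tok .U m → ∃ X, u = [X] ∧ Reach1 (encS X) (a ++ [y])) := by
  have hF := FL_ge s
  obtain ⟨X, Y, c, b, hg, e, e', -⟩ := h.good hs
  obtain ⟨h1, h2, -⟩ := wd_eq_append e.symm
  have hst := good_st hg a.length
  obtain ⟨dp, m₀, t, p1, p2, ht, hc, -, -, hgo⟩ := good_shape hg
  have e1 : y.trk = trkf (FL s) b t m₀ a.length := by rw [← h2, hc]; rfl
  simp only [List.length_nil, add_zero] at h1
  refine ⟨?_, fun p m hy => ?_, ?_, fun m hy => ?_⟩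
  · rw [e1]
    unfold trkf posf
    unfold wid at h1 ht
    cases b
    · simp only [Bool.false_eq_true, if_false] at h1 ht ⊢
      split_ifs <;> first | omega | simp [Trk.cls]
    · simp only [if_true] at h1 ht ⊢
      split_ifs <;> first | omega | simp [Trk.cls]
  · rw [e1] at hy
    obtain ⟨a1, rfl, -⟩ := trkf_tok hy (by omega)
    by_contra h3
    have := hgo (by simpa using h3)
    omega
  · rw [h2] at hst
    unfold wid at h1
    unfold stP pr2 at hst
    cases b
    · simp only [Bool.false_eq_true, if_false] at h1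
      rw [if_pos (by omega)] at hst
      exact ⟨X, by rw [hst]; congr 1; omega⟩
    · simp only [if_true] at h1
      rw [if_neg (by omega)] at hst
      exact ⟨Y, by rw [hst]; congr 1; omega⟩
  · rw [e1] at hy
    obtain ⟨-, -, a3⟩ := trkf_tok hy (by omega)
    cases b
    · exact ⟨X, e', (reach1_iff hs X Y).mpr ⟨c, hg, e⟩⟩
    · unfold posf at a3; simp only [if_true] at a3; split_ifs at a3

theorem sval_first (hs : PL ≤ s) {u : List (Lt (2 ^ s))} {z : Sm} {r : List Sm} (h : SVal u (z :: r)) :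
    z.con.st.home ∧ z.cap = false ∧ (∃ X : Lt (2 ^ s), z.con.st = stX X 0) ∧
      ∀ p m, z.trk = .tok p m → m = .walk ∧
        ∃ X u' r' w', u = X :: u' ∧ encS X = z :: r' ∧ r = r' ++ w' ∧ SVal u' w' := by
  have hF := FL_ge s
  generalize hw : z :: r = w at h
  revert hw
  refine sval_ind (P := fun u w => z :: r = w → z.con.st.home ∧ z.cap = false ∧
    (∃ X : Lt (2 ^ s), z.con.st = stX X 0) ∧ ∀ p m, z.trk = .tok p m → m = .walk ∧
      ∃ X u' r' w', u = X :: u' ∧ encS X = z :: r' ∧ r = r' ++ w' ∧ SVal u' w') (fun h => absurd h (by simp)) ?_ h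
  intro u w u' w' h1 h2 _ hw
  obtain ⟨X, Y, c, b, hg, e, e', -⟩ := h1.good hs
  have hn : 0 < wid (FL s) b := by unfold wid; split_ifs <;> omega
  obtain ⟨r', rfl⟩ : ∃ r', w = z :: r' := by
    rcases w with _ | ⟨z', r'⟩
    · have := congrArg List.length e
      rw [wd_length] at this
      simp at this; omega
    · simp only [List.cons_append, List.cons.injEq] at hw
      exact ⟨r', by rw [hw.1]⟩
  simp only [List.cons_append, List.cons.injEq, true_and] at hw
  obtain ⟨-, h3, -⟩ := wd_eq_append (a := []) e.symm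
  simp only [List.length_nil] at h3
  have hst := good_st hg 0
  rw [h3] at hst
  have hst' : z.con.st = stX X 0 := by rw [hst]; unfold stP pr2; rw [if_pos (by omega)]
  obtain ⟨dp, m₀, t, p1, p2, ht, hc, h0, hwk, -⟩ := good_shape hg
  refine ⟨?_, ?_, ⟨X, hst'⟩, fun p m hz => ?_⟩
  · rw [hst, (std_stP X Y).home_iff hs (by omega)]; exact Or.inl rfl
  · rw [← h3, hc]; simp [rend]; omega
  · have e1 : z.trk = trkf (FL s) b t m₀ 0 := by rw [← h3, hc]; rfl
    rw [e1] at hz
    obtain ⟨rfl, rfl, -⟩ := trkf_tok hz hn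
    obtain rfl := h0 rfl
    obtain ⟨rfl, rfl, rfl, rfl⟩ := hwk rfl
    refine ⟨rfl, X, u', r', w', by rw [e']; rfl, ?_, hw, h2⟩
    rw [e, hc, ← clean_stP_left X Y]
    refine List.map_congr_left fun i hi => ?_
    have hi' := List.mem_range.mp hi
    by_cases h : i = 0 <;> simp [cell, rend, trkf, posf, h, hi'.ne]

theorem fwd_home {y z y' z' : Sm} (h : Fwd y z y' z') (h1 : z.con.st.home) (h2 : z.cap = false)
    (h3 : ∀ p m, z.trk = .tok p m → m = .walk) : (∃ m, y.trk = .tok .U m) ∧ z.trk = .tok .U .walk := by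
  cases h with
  | right a b => cases b <;> simp_all
  | left a b =>
    obtain rfl := h3 _ _ rfl
    cases a

theorem br_goL {y y' : Sm} (h : Br y y' ∨ Br y' y) : ∃ p m, y.trk = .tok p m ∧ m.isGoL = true := by
  rcases h with h | h <;> cases h <;> exact ⟨_, _, rfl, rfl⟩

theorem terr_zero {X Y : Lt (2 ^ s)} {b : Bool} (h : b = true ∧ (Sg (2 ^ s)).zr X Y) :
    (Sg (2 ^ s)).IsZero (if b then [X, Y] else [X]) := by
  obtain ⟨rfl, h⟩ := h
  exact Sys.HasZ.isZero ⟨[], X, Y, [], rfl, h⟩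

theorem terr_bad1 (hs : PL ≤ s) {u : List (Lt (2 ^ s))} {w : List Sm} (h : Terr u w) (hu : ∀ X ∈ u, ¬ BadB X)
    {x : Sm} (hx : x ∈ w) (hb : Bad1 x) : (Sg (2 ^ s)).IsZero u := by
  obtain ⟨X, Y, c, b, hg, rfl, e', hY⟩ := h.good hs
  obtain ⟨i, hi, rfl⟩ := List.mem_map.mp hx
  have := good_bad1 hs (hu X (by rw [e']; split_ifs <;> simp)) (hu Y hY) hg (List.mem_range.mp hi) hb
  rw [e']
  exact terr_zero this

theorem sval_bad1 (hs : PL ≤ s) {u : List (Lt (2 ^ s))} {w : List Sm} (h : SVal u w) :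
    (∀ X ∈ u, ¬ BadB X) → ∀ x ∈ w, Bad1 x → (Sg (2 ^ s)).IsZero u := by
  refine sval_ind (P := fun u w => (∀ X ∈ u, ¬ BadB X) → ∀ x ∈ w, Bad1 x → (Sg (2 ^ s)).IsZero u)
    (fun _ x hx => absurd hx (by simp)) ?_ h
  intro u w u' w' h1 _ ih hu x hx hb
  rcases List.mem_append.mp hx with hx | hx
  · exact (terr_bad1 hs h1 (fun X hX => hu X (List.mem_append_left _ hX)) hx hb).append_right _
  · exact (ih (fun X hX => hu X (List.mem_append_right _ hX)) x hx hb).append_left _

theorem terr_hasZ (hs : PL ≤ s) {u : List (Lt (2 ^ s))} {w : List Sm} (h : Terr u w) (hu : ∀ X ∈ u, ¬ BadB X)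
    (hw : SS.HasZ w) : (Sg (2 ^ s)).IsZero u := by
  obtain ⟨X, Y, c, b, hg, rfl, e', hY⟩ := h.good hs
  obtain ⟨i, y, z, hz, h1, h2⟩ := hw.exists_index
  obtain ⟨-, rfl⟩ := wd_get h1
  obtain ⟨hi, rfl⟩ := wd_get h2
  have := good_szr hs (hu X (by rw [e']; split_ifs <;> simp)) (hu Y hY) hg hi hz
  rw [e']
  exact terr_zero this

end SoundAux

open SoundAux

theorem sval_step (hs : PL ≤ s) {u : List (Lt (2 ^ s))} {w w' : List Sm} (h : SVal u w)
    (hw : SS.Step w w' ∨ SS.Step w' w) : ∃ u', (Sg (2 ^ s)).Eqv u u' ∧ SVal u' w' := by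
  revert w'
  refine sval_ind (P := fun u w => ∀ {w' : List Sm}, SS.Step w w' ∨ SS.Step w' w →
    ∃ u', (Sg (2 ^ s)).Eqv u u' ∧ SVal u' w') ?_ ?_ h
  · rintro w' (hw | hw)
    · obtain ⟨i, y, z, y', z', -, h1, -⟩ := hw.exists_index
      simp at h1
    · obtain ⟨i, y, z, y', z', -, -, -, h1, -⟩ := hw.exists_index
      simp at h1
  intro u w u₂ w₂ h1 h2 ih w' hw
  have hl : ∀ t', SS.Step w t' ∨ SS.Step t' w → ∃ u', (Sg (2 ^ s)).Eqv (u ++ u₂) u' ∧ SVal u' (t' ++ w₂) := by
    intro t' ht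
    obtain ⟨u', e, hv⟩ := terr_step hs h1 ht
    exact ⟨u' ++ u₂, e.append_right _, sval_append hv h2⟩
  have hr : ∀ r', SS.Step w₂ r' ∨ SS.Step r' w₂ → ∃ u', (Sg (2 ^ s)).Eqv (u ++ u₂) u' ∧ SVal u' (w ++ r') := by
    intro r' ht
    obtain ⟨u', e, hv⟩ := ih ht
    exact ⟨u ++ u', e.append_left _, sval_append h1.sval hv⟩
  rcases hw with hw | hw
  · rcases hw.of_append with ⟨t', ht, rfl⟩ | ⟨r', ht, rfl⟩ | ⟨a, r, y, z, y', z', hm, rfl, rfl, rfl⟩
    · exact hl t' (Or.inl ht)
    · exact hr r' (Or.inl ht)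
    · obtain ⟨-, l2, -, l4⟩ := terr_last hs h1
      obtain ⟨f1, f2, -, f4⟩ := sval_first hs h2
      rcases hm with hm | ⟨hm, rfl⟩
      · obtain ⟨⟨m, g1⟩, g2⟩ := fwd_home hm f1 f2 fun p m h => (f4 p m h).1
        obtain ⟨X, rfl, hX⟩ := l4 m g1
        obtain ⟨-, Y, u', r', w', rfl, e, rfl, hv⟩ := f4 _ _ g2
        refine ⟨_, Sys.Eqv.refl _, ?_⟩
        simpa using SVal.two (Reach2.cap hX e hm) hv
      · obtain ⟨p, m, g1, g2⟩ := br_goL (Or.inl hm)
        rw [l2 p m g1] at g2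
        exact absurd g2 (by simp)
  · rcases hw.of_append' with ⟨t', ht, rfl⟩ | ⟨r', ht, rfl⟩ | ⟨a, r, y, z, y', z', hm, rfl, rfl, rfl⟩
    · exact hl t' (Or.inr ht)
    · exact hr r' (Or.inr ht)
    · obtain ⟨-, l2, -, -⟩ := terr_last hs h1
      obtain ⟨f1, f2, -, -⟩ := sval_first hs h2
      exfalso
      rcases hm with hm | ⟨hm, rfl⟩
      · rcases fwd_cases hm with ⟨-, -, -, g⟩ | ⟨-, -, p, m, g1, g2⟩
        · rw [← (fwd_st hm).2, f2] at g
          exact absurd (g f1) (by simp)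
        · rw [l2 p m g1] at g2
          exact absurd g2 (by simp)
      · obtain ⟨p, m, g1, g2⟩ := br_goL (Or.inr hm)
        rw [l2 p m g1] at g2
        exact absurd g2 (by simp)

theorem sval_hasZ (hs : PL ≤ s) {u : List (Lt (2 ^ s))} {w : List Sm} (h : SVal u w) (hu : ∀ X ∈ u, ¬ BadB X)
    (hw : SS.HasZ w) : (Sg (2 ^ s)).IsZero u := by
  revert hu hw
  refine sval_ind (P := fun u w => (∀ X ∈ u, ¬ BadB X) → SS.HasZ w → (Sg (2 ^ s)).IsZero u) ?_ ?_ h
  · rintro - ⟨a, y, z, r, h, -⟩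
    simp at h
  intro u w u₂ w₂ h1 h2 ih hu hw
  have hu1 : ∀ X ∈ u, ¬ BadB X := fun X hX => hu X (List.mem_append_left _ hX)
  have hu2 : ∀ X ∈ u₂, ¬ BadB X := fun X hX => hu X (List.mem_append_right _ hX)
  rcases hw.of_append with hw | hw | ⟨a, r, y, z, hz, rfl, rfl⟩
  · exact (terr_hasZ hs h1 hu1 hw).append_right _
  · exact (ih hu2 hw).append_left _
  · obtain ⟨l1, l2, ⟨X, l3⟩, -⟩ := terr_last hs h1
    obtain ⟨f1, f2, ⟨Y, f3⟩, f4⟩ := sval_first hs h2
    rcases hz with hz | hz | hz | hz | hz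
    · exact (terr_bad1 hs h1 hu1 (by simp) hz).append_right _
    · exact (sval_bad1 hs h2 hu2 z (by simp) hz).append_left _
    · rw [l3, f3] at hz
      exact absurd hz (stX_boundary hs X Y)
    · rcases hz with ⟨-, hz⟩ | ⟨hz, -⟩
      · rw [f2] at hz
        rcases l1 with l1 | l1 | l1 <;> rw [l1] at hz <;> simp [okHome] at hz
      · exact absurd f1 hz
    · exfalso
      rcases hz.1 with ⟨p, m, g1, g2⟩ | ⟨p, m, g1, g2⟩
      · obtain rfl := (f4 p m g1).1
        simp [Mode.isMain, Mode.isGoR, f1] at g2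
      · rw [l2 p m g1] at g2
        exact absurd g2 (by simp)

namespace SoundAux

theorem val_me (hs : PL ≤ s) {u : List (Lt (2 ^ s))} {W : List (Lt s)} (h : Val u W) {i : ℕ} {Z : Lt s}
    (hi : W[i]? = some Z) : Z.me = meS s (i % FL s) := by
  have hF := FL_ge s
  have hlen := sval_length h.1
  rw [List.length_map] at hlen
  have hi' := (List.getElem?_eq_some_iff.mp hi).1
  have hk : i / FL s < u.length := by
    rw [Nat.div_lt_iff_lt_mul (by omega)]; omega
  obtain ⟨x, h1, h2⟩ := sval_st hs h.1 (k := i / FL s) (i := i % FL s) (List.getElem?_eq_getElem hk)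
    (Nat.mod_lt _ (by omega))
  rw [Nat.div_add_mod', List.getElem?_map, hi] at h1
  simp only [Option.map_some, Option.some.injEq] at h1
  unfold Lt.me
  rw [h1, h2]
  rfl

theorem val_slot (hs : PL ≤ s) {u : List (Lt (2 ^ s))} {W : List (Lt s)} (h : Val u W) {i : ℕ} {Z : Lt s}
    (hi : W[i]? = some Z) (hz : Z.me.sw = 1) : slot s i := by
  have hF := FL_ge s
  have := meS_sw (s := s) (i := i % FL s) (Nat.mod_lt _ (by omega))
  rw [← val_me hs h hi, hz] at this
  exact this.symm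

theorem slot_succ {i : ℕ} (h1 : slot s i) : (i + 1) / FL s = i / FL s := by
  have hF := FL_ge s
  have hp := Nat.two_pow_pos s
  unfold slot at h1
  have h3 : i % FL s < 2 * 2 ^ s := by
    by_contra h
    have : 2 ≤ i % FL s / 2 ^ s := (Nat.le_div_iff_mul_le hp).mpr (by omega)
    omega
  have h4 : i % FL s + 1 < FL s := by unfold FL at *; omega
  conv_lhs => rw [← Nat.div_add_mod i (FL s), add_assoc, Nat.mul_add_div (by omega), Nat.div_eq_of_lt h4]
  simp

theorem bigOK_congr {W W' : List (Lt s)} (h : BigOK W)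
    (e : ∀ (i : ℕ) (X' : Lt s), W'[i]? = some X' → ∃ X, W[i]? = some X ∧ X'.a = X.a ∧ X'.h = X.h ∧ X'.d = X.d) :
    BigOK W' := by
  refine ⟨fun i X' hi => ?_, fun i j X' Y' hi hj si sj hij hd => ?_⟩
  · obtain ⟨X, h1, h2, h3, h4⟩ := e i X' hi
    rw [h2, h3, h4]; exact h.1 i X h1
  · obtain ⟨X, h1, -, -, h4⟩ := e i X' hi
    obtain ⟨Y, h1', -, -, h4'⟩ := e j Y' hj
    exact h.2 i j X Y h1 h1' si sj hij (by rw [← h4, ← h4', hd])

theorem get_two {α : Type} (a r : List α) (y z : α) (k : ℕ) :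
    (a ++ y :: z :: r)[k]? = if k = a.length then some y else if k = a.length + 1 then some z
      else (a ++ y :: z :: r)[k]? := by
  split_ifs with h1 h2
  · subst h1; simp
  · subst h2; simp
  · rfl

theorem get_other {α : Type} (a r : List α) (y z y' z' : α) {k : ℕ} (h1 : k ≠ a.length) (h2 : k ≠ a.length + 1) :
    (a ++ y' :: z' :: r)[k]? = (a ++ y :: z :: r)[k]? := by
  rcases lt_or_ge k a.length with hk | hk
  · simp [List.getElem?_append_left hk]
  · obtain ⟨m, rfl⟩ : ∃ m, k = a.length + (m + 2) := ⟨k - a.length - 2, by omega⟩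
    simp [List.getElem?_append_right]

theorem bigOK_setSm {a r : List (Lt s)} {Y Z Y' Z' : Lt s} (h : BigOK (a ++ Y :: Z :: r))
    (hY : Y'.a = Y.a ∧ Y'.h = Y.h ∧ Y'.d = Y.d) (hZ : Z'.a = Z.a ∧ Z'.h = Z.h ∧ Z'.d = Z.d) :
    BigOK (a ++ Y' :: Z' :: r) := by
  refine bigOK_congr h fun i X' hi => ?_
  by_cases h1 : i = a.length
  · subst h1
    obtain rfl : Y' = X' := by simpa using hi
    exact ⟨Y, by simp, hY⟩
  · by_cases h2 : i = a.length + 1
    · subst h2
      obtain rfl : Z' = X' := by simpa using hi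
      exact ⟨Z, by simp, hZ⟩
    · exact ⟨X', by rw [← hi]; exact get_other a r _ _ _ _ h1 h2, rfl, rfl, rfl⟩

theorem bigOK_swap {a r : List (Lt s)} {Y Z : Lt s} (h : BigOK (a ++ Y :: Z :: r))
    (h1 : slot s a.length) (h2 : slot s (a.length + 1)) : BigOK (a ++ Y.setD Z.d :: Z.setD Y.d :: r) := by
  have hY : (a ++ Y :: Z :: r)[a.length]? = some Y := by simp
  have hZ : (a ++ Y :: Z :: r)[a.length + 1]? = some Z := by simp
  have key : ∀ (i : ℕ) (X' : Lt s), (a ++ Y.setD Z.d :: Z.setD Y.d :: r)[i]? = some X' →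
      ∃ X X₀, (a ++ Y :: Z :: r)[i]? = some X ∧ X'.a = X.a ∧ X'.h = X.h ∧
        (a ++ Y :: Z :: r)[Equiv.swap a.length (a.length + 1) i]? = some X₀ ∧ X'.d = X₀.d := by
    intro i X' hi
    by_cases k1 : i = a.length
    · subst k1
      obtain rfl : Y.setD Z.d = X' := by simpa using hi
      exact ⟨Y, Z, hY, rfl, rfl, by rw [Equiv.swap_apply_left]; exact hZ, rfl⟩
    · by_cases k2 : i = a.length + 1
      · subst k2
        obtain rfl : Z.setD Y.d = X' := by simpa using hi
        exact ⟨Z, Y, hZ, rfl, rfl, by rw [Equiv.swap_apply_right]; exact hY, rfl⟩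
      · have := get_other a r Y Z (Y.setD Z.d) (Z.setD Y.d) k1 k2
        rw [hi] at this
        exact ⟨X', X', this.symm, rfl, rfl, by rw [Equiv.swap_apply_of_ne_of_ne k1 k2]; exact this.symm, rfl⟩
  have hsw : ∀ i, (slot s (Equiv.swap a.length (a.length + 1) i) ↔ slot s i) ∧
      Equiv.swap a.length (a.length + 1) i / FL s = i / FL s := by
    intro i
    by_cases k1 : i = a.length
    · subst k1; rw [Equiv.swap_apply_left]; exact ⟨by simp [h1, h2], slot_succ h1⟩
    · by_cases k2 : i = a.length + 1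
      · subst k2; rw [Equiv.swap_apply_right]; exact ⟨by simp [h1, h2], (slot_succ h1).symm⟩
      · rw [Equiv.swap_apply_of_ne_of_ne k1 k2]; exact ⟨Iff.rfl, rfl⟩
  refine ⟨fun i X' hi => ?_, fun i j X' Y' hi hj si sj hij hd => ?_⟩
  · obtain ⟨X, X₀, e1, e2, e3, e4, e5⟩ := key i X' hi
    rw [e2, e3, e5]
    exact ⟨(h.1 i X e1).1, (h.1 i X e1).2.1, fun hn => (h.1 _ X₀ e4).2.2 fun hs' => hn ((hsw i).1.mp hs')⟩
  · obtain ⟨-, X₀, -, -, -, e4, e5⟩ := key i X' hi
    obtain ⟨-, Y₀, -, -, -, e4', e5'⟩ := key j Y' hj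
    exact (Equiv.swap a.length (a.length + 1)).injective (h.2 _ _ X₀ Y₀ e4 e4' ((hsw i).1.mpr si) ((hsw j).1.mpr sj)
      (by rw [(hsw i).2, (hsw j).2, hij]) (by rw [← e5, ← e5', hd]))

end SoundAux

theorem val_step (hs : PL ≤ s) {u : List (Lt (2 ^ s))} {W W' : List (Lt s)} (h : Val u W)
    (hw : (Sg s).Step W W' ∨ (Sg s).Step W' W) : ∃ u', (Sg (2 ^ s)).Eqv u u' ∧ Val u' W' := by
  rcases hw with hw | hw
  · cases hw with
    | @mk a r Y Z Y' Z' hm =>
      rcases hm with ⟨y', z', hm, rfl, rfl⟩ | ⟨h1, h2, rfl, rfl⟩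
      · obtain ⟨u', e, hv⟩ := sval_step hs h.1 (w' := (a ++ Y.setSm y' :: Z.setSm z' :: r).map Lt.sm) (Or.inl (by
          simpa [Lt.setSm] using Sys.Step.mk (S := SS) (a.map Lt.sm) (r.map Lt.sm) hm))
        exact ⟨u', e, hv, bigOK_setSm h.2 ⟨rfl, rfl, rfl⟩ ⟨rfl, rfl, rfl⟩⟩
      · refine ⟨u, Sys.Eqv.refl _, by simpa [Lt.setD] using h.1, bigOK_swap h.2 ?_ ?_⟩
        · exact val_slot hs h (Z := Y) (by simp) h1.2
        · exact val_slot hs h (Z := Z) (by simp) h2
  · cases hw with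
    | @mk a r Y Z Y' Z' hm =>
      rcases hm with ⟨y', z', hm, rfl, rfl⟩ | ⟨h1, h2, rfl, rfl⟩
      · obtain ⟨u', e, hv⟩ := sval_step hs h.1 (w' := (a ++ Y :: Z :: r).map Lt.sm) (Or.inr (by
          simpa [Lt.setSm] using Sys.Step.mk (S := SS) (a.map Lt.sm) (r.map Lt.sm) hm))
        exact ⟨u', e, hv, bigOK_setSm h.2 ⟨rfl, rfl, rfl⟩ ⟨rfl, rfl, rfl⟩⟩
      · refine ⟨u, Sys.Eqv.refl _, by simpa [Lt.setD] using h.1, bigOK_swap h.2 ?_ ?_⟩
        · exact val_slot hs h (Z := Y.setD Z.d) (by simp) h1.2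
        · exact val_slot hs h (Z := Z.setD Y.d) (by simp) h2

theorem val_hasZ (hs : PL ≤ s) {u : List (Lt (2 ^ s))} {W : List (Lt s)} (h : Val u W) (hu : ∀ X ∈ u, ¬ BadB X)
    (hw : (Sg s).HasZ W) : (Sg (2 ^ s)).IsZero u := by
  have hF := FL_ge s
  obtain ⟨i, Y, Z, hz, h1, h2⟩ := hw.exists_index
  rcases hz with hz | hz | hz | hz | hz
  · exact sval_hasZ hs h.1 hu (Sys.hasZ_of_index (S := SS) (i := i) hz (by simp [h1]) (by simp [h2]))
  · exact absurd hz (val_not_badB hs h Y (List.mem_of_getElem? h1))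
  · exact absurd hz (val_not_badB hs h Z (List.mem_of_getElem? h2))
  · exfalso
    obtain ⟨a1, a2, -⟩ := h.2.1 i Y h1
    obtain ⟨b1, b2, -⟩ := h.2.1 (i + 1) Z h2
    have hme := val_me hs h h2
    have hdvd : 2 ^ s ∣ FL s := ⟨4, by unfold FL; ring⟩
    rcases hz with hz | hz | ⟨hz, hz'⟩
    · rw [a1, b1] at hz; simp at hz
    · rw [hme, b1] at hz
      simp [meS, Nat.mod_mod_of_dvd _ hdvd] at hz
    · rw [a2, b2] at hz'
      have h0 : (i + 1) % FL s ≠ 0 := by
        intro h0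
        rw [hme, h0] at hz
        exact hz ⟨by simp [meS], by simp [meS]⟩
      have h3 : (i + 1) % FL s = i % FL s + 1 := by
        have := Nat.mod_lt i (by omega : 0 < FL s)
        rw [Nat.add_mod, Nat.mod_eq_of_lt (by omega : 1 < FL s)] at h0 ⊢
        rcases Nat.lt_or_ge (i % FL s + 1) (FL s) with h4 | h4
        · exact Nat.mod_eq_of_lt h4
        · have : i % FL s + 1 = FL s := by omega
          rw [this] at h0
          simp at h0
      omega
  · have s1 := val_slot hs h h1 hz.1.2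
    have := h.2.2 i (i + 1) Y Z h1 h2 s1 (val_slot hs h h2 hz.2.1) (slot_succ s1).symm hz.2.2
    omega

theorem sound (hs : PL ≤ s) {u : List (Lt (2 ^ s))} {W : List (Lt s)} (h : Val u W) (hu : ∀ X ∈ u, ¬ BadB X)
    (hz : ¬ (Sg (2 ^ s)).IsZero u) : ¬ (Sg s).IsZero W := by
  have key : ∀ W W' : List (Lt s), (Sg s).Eqv W W' →
      ((∃ u', (Sg (2 ^ s)).Eqv u u' ∧ Val u' W) ↔ ∃ u', (Sg (2 ^ s)).Eqv u u' ∧ Val u' W') := by
    intro W W' e
    induction e with
    | rel a b hab =>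
      constructor
      · rintro ⟨u', e, hv⟩
        obtain ⟨u'', e', hv'⟩ := val_step hs hv (Or.inl hab)
        exact ⟨u'', e.trans e', hv'⟩
      · rintro ⟨u', e, hv⟩
        obtain ⟨u'', e', hv'⟩ := val_step hs hv (Or.inr hab)
        exact ⟨u'', e.trans e', hv'⟩
    | refl => rfl
    | symm _ _ _ ih => exact ih.symm
    | trans _ _ _ _ _ ih ih' => exact ih.trans ih'
  rintro ⟨W', e, hW⟩
  obtain ⟨u', e', hv⟩ := (key W W' e).mp ⟨u, Sys.Eqv.refl _, h⟩
  exact hz ((val_hasZ hs hv ((Sg_eqv_badB e').mp hu) hW).of_eqv e')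

end Crest.Agent.R176
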