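import Mathlib

/-!
# Row 176: rewriting systems with moves and zero pairs of window two

A system `S` on an alphabet `α` presents a semigroup with zero: `mv y z y' z'` means `y z = y' z'`, `zr y z`
means `y z = 0`.  This file is complete (no missing proof).
-/

set_option autoImplicit false

namespace Crest.Agent.R176

structure Sys (α : Type) where
  mv : α → α → α → α → Prop
  zr : α → α → Prop

namespace Sys

variable {α : Type} (S : Sys α)

inductive Step : List α → List α → Prop
  | mk (u v : List α) {y z y' z' : α} : S.mv y z y' z' → Step (u ++ y :: z :: v) (u ++ y' :: z' :: v)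

def Eqv : List α → List α → Prop := Relation.EqvGen S.Step

def HasZ (w : List α) : Prop := ∃ u y z v, w = u ++ y :: z :: v ∧ S.zr y z

def IsZero (w : List α) : Prop := ∃ w', S.Eqv w w' ∧ S.HasZ w'

variable {S}

theorem Step.length_eq {w w' : List α} (h : S.Step w w') : w.length = w'.length := by
  cases h; simp

theorem Step.append {w w' : List α} (h : S.Step w w') (a b : List α) :
    S.Step (a ++ w ++ b) (a ++ w' ++ b) := by
  cases h with
  | mk u v h => simpa using Step.mk (a ++ u) (v ++ b) h

theorem Eqv.refl (w : List α) : S.Eqv w w := Relation.EqvGen.refl w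

theorem Eqv.symm {w w' : List α} (h : S.Eqv w w') : S.Eqv w' w := Relation.EqvGen.symm _ _ h

theorem Eqv.trans {w w' w'' : List α} (h : S.Eqv w w') (h' : S.Eqv w' w'') : S.Eqv w w'' :=
  Relation.EqvGen.trans _ _ _ h h'

theorem Step.eqv {w w' : List α} (h : S.Step w w') : S.Eqv w w' := Relation.EqvGen.rel _ _ h

theorem Eqv.length_eq {w w' : List α} (h : S.Eqv w w') : w.length = w'.length := by
  induction h with
  | rel _ _ h => exact h.length_eq
  | refl => rfl
  | symm _ _ _ ih => exact ih.symm
  | trans _ _ _ _ _ ih ih' => exact ih.trans ih'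

theorem Eqv.append {w w' : List α} (h : S.Eqv w w') (a b : List α) :
    S.Eqv (a ++ w ++ b) (a ++ w' ++ b) := by
  induction h with
  | rel _ _ h => exact (h.append a b).eqv
  | refl => exact Eqv.refl _
  | symm _ _ _ ih => exact ih.symm
  | trans _ _ _ _ _ ih ih' => exact ih.trans ih'

theorem Eqv.append_left {w w' : List α} (h : S.Eqv w w') (a : List α) :
    S.Eqv (a ++ w) (a ++ w') := by simpa using h.append a []

theorem Eqv.append_right {w w' : List α} (h : S.Eqv w w') (b : List α) :
    S.Eqv (w ++ b) (w' ++ b) := by simpa using h.append [] b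

theorem Eqv.append_both {a a' b b' : List α} (h : S.Eqv a a') (h' : S.Eqv b b') :
    S.Eqv (a ++ b) (a' ++ b') := (h.append_right b).trans (h'.append_left a')

/-- a function invariant under steps is invariant under the equivalence -/
theorem Eqv.apply_eq {β : Sort*} {f : List α → β} (hf : ∀ w w', S.Step w w' → f w = f w')
    {w w' : List α} (h : S.Eqv w w') : f w = f w' := by
  induction h with
  | rel _ _ h => exact hf _ _ h
  | refl => rfl
  | symm _ _ _ ih => exact ih.symm
  | trans _ _ _ _ _ ih ih' => exact ih.trans ih'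

theorem HasZ.isZero {w : List α} (h : S.HasZ w) : S.IsZero w := ⟨w, Eqv.refl w, h⟩

theorem HasZ.append {w : List α} (h : S.HasZ w) (a b : List α) : S.HasZ (a ++ w ++ b) := by
  obtain ⟨u, y, z, v, rfl, h⟩ := h
  exact ⟨a ++ u, y, z, v ++ b, by simp, h⟩

theorem IsZero.of_eqv {w w' : List α} (h : S.IsZero w') (e : S.Eqv w w') : S.IsZero w := by
  obtain ⟨w'', e', hz⟩ := h
  exact ⟨w'', e.trans e', hz⟩

theorem Eqv.isZero_iff {w w' : List α} (e : S.Eqv w w') : S.IsZero w ↔ S.IsZero w' :=
  ⟨fun h => h.of_eqv e.symm, fun h => h.of_eqv e⟩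

theorem IsZero.append {w : List α} (h : S.IsZero w) (a b : List α) : S.IsZero (a ++ w ++ b) := by
  obtain ⟨w', e, hz⟩ := h
  exact ⟨_, e.append a b, hz.append a b⟩

theorem IsZero.append_left {w : List α} (h : S.IsZero w) (a : List α) : S.IsZero (a ++ w) := by
  simpa using h.append a []

theorem IsZero.append_right {w : List α} (h : S.IsZero w) (b : List α) : S.IsZero (w ++ b) := by
  simpa using h.append [] b

theorem eq_of_eqv_of_length_le_one {w w' : List α} (e : S.Eqv w w') (h : w.length ≤ 1) : w = w' := by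
  induction e with
  | rel _ _ h' => cases h'; simp at h; omega
  | refl => rfl
  | symm a b e ih => exact (ih (by rw [Eqv.length_eq (S := S) e]; exact h)).symm
  | trans a b c e _ ih ih' => exact (ih h).trans (ih' (by rw [← Eqv.length_eq (S := S) e]; exact h))

theorem not_isZero_of_length_le_one {w : List α} (h : w.length ≤ 1) : ¬ S.IsZero w := by
  rintro ⟨w', e, u, y, z, v, rfl, -⟩
  have := e.length_eq
  simp at this; omega

/-- a step inside a word given by a function on indices -/
theorem step_range {c c' : ℕ → α} {n i : ℕ} (hi : i + 1 < n)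
    (h : S.mv (c i) (c (i + 1)) (c' i) (c' (i + 1))) (ho : ∀ k, k < n → k ≠ i → k ≠ i + 1 → c' k = c k) :
    S.Step ((List.range n).map c) ((List.range n).map c') := by
  obtain ⟨m, rfl⟩ : ∃ m, n = i + (2 + m) := ⟨n - i - 2, by omega⟩
  have key : ∀ f : ℕ → α, (List.range (i + (2 + m))).map f =
      (List.range i).map f ++ f i :: f (i + 1) :: (List.range m).map (fun k => f (i + (2 + k))) := by
    intro f
    rw [List.range_add, List.range_add]
    simp [List.range_succ, Function.comp_def]
  rw [key c, key c']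
  have h1 : (List.range i).map c' = (List.range i).map c :=
    List.map_congr_left fun k hk => by
      have := List.mem_range.mp hk
      exact ho k (by omega) (by omega) (by omega)
  have h2 : (List.range m).map (fun k => c' (i + (2 + k))) = (List.range m).map (fun k => c (i + (2 + k))) :=
    List.map_congr_left fun k hk => by
      have := List.mem_range.mp hk
      exact ho _ (by omega) (by omega) (by omega)
  rw [h1, h2]
  exact Step.mk _ _ h

/-- a zero pair inside a word given by a function on indices -/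
theorem hasZ_range {c : ℕ → α} {n i : ℕ} (hi : i + 1 < n) (h : S.zr (c i) (c (i + 1))) :
    S.HasZ ((List.range n).map c) := by
  obtain ⟨m, rfl⟩ : ∃ m, n = i + (2 + m) := ⟨n - i - 2, by omega⟩
  refine ⟨(List.range i).map c, c i, c (i + 1), (List.range m).map (fun k => c (i + (2 + k))), ?_, h⟩
  rw [List.range_add, List.range_add]
  simp [List.range_succ, Function.comp_def]

/-- a step, described by indices -/
theorem Step.exists_index {w w' : List α} (h : S.Step w w') :
    ∃ (i : ℕ) (y z y' z' : α), S.mv y z y' z' ∧ w[i]? = some y ∧ w[i + 1]? = some z ∧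
      w'[i]? = some y' ∧ w'[i + 1]? = some z' ∧ ∀ k, k ≠ i → k ≠ i + 1 → w'[k]? = w[k]? := by
  cases h with
  | @mk u v y z y' z' h =>
    refine ⟨u.length, y, z, y', z', h, by simp, by simp, by simp, by simp, fun k h1 h2 => ?_⟩
    rcases lt_or_ge k u.length with hk | hk
    · simp [List.getElem?_append_left hk]
    · obtain ⟨m, rfl⟩ : ∃ m, k = u.length + (m + 2) := ⟨k - u.length - 2, by omega⟩
      simp [List.getElem?_append_right]

theorem HasZ.exists_index {w : List α} (h : S.HasZ w) :
    ∃ (i : ℕ) (y z : α), S.zr y z ∧ w[i]? = some y ∧ w[i + 1]? = some z := by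
  obtain ⟨u, y, z, v, rfl, h⟩ := h
  exact ⟨u.length, y, z, h, by simp, by simp⟩

theorem hasZ_of_index {w : List α} {i : ℕ} {y z : α} (h : S.zr y z) (hy : w[i]? = some y)
    (hz : w[i + 1]? = some z) : S.HasZ w := by
  obtain ⟨h1, rfl⟩ := List.getElem?_eq_some_iff.mp hy
  obtain ⟨h2, rfl⟩ := List.getElem?_eq_some_iff.mp hz
  refine ⟨w.take i, _, _, w.drop (i + 2), ?_, h⟩
  conv_lhs => rw [← List.take_append_drop i w, List.drop_eq_getElem_cons h1,
    List.drop_eq_getElem_cons h2]

/-- where a step on a concatenation happens -/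
theorem Step.of_append {t r w' : List α} (h : S.Step (t ++ r) w') :
    (∃ t', S.Step t t' ∧ w' = t' ++ r) ∨ (∃ r', S.Step r r' ∧ w' = t ++ r') ∨
      ∃ u v y z y' z', S.mv y z y' z' ∧ t = u ++ [y] ∧ r = z :: v ∧ w' = u ++ y' :: z' :: v := by
  generalize hw : t ++ r = w at h
  cases h with
  | @mk u v y z y' z' h =>
    rcases List.append_eq_append_iff.mp hw with ⟨a, rfl, rfl⟩ | ⟨a, rfl, ha⟩
    · exact Or.inr (Or.inl ⟨_, Step.mk a v h, by simp⟩)
    · rcases a with _ | ⟨a1, _ | ⟨a2, a⟩⟩
      · simp only [List.nil_append] at ha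
        subst ha
        exact Or.inr (Or.inl ⟨_, Step.mk [] v h, by simp⟩)
      · simp only [List.cons_append, List.nil_append, List.cons.injEq] at ha
        obtain ⟨rfl, rfl⟩ := ha
        exact Or.inr (Or.inr ⟨u, v, y, z, y', z', h, rfl, rfl, rfl⟩)
      · simp only [List.cons_append, List.cons.injEq] at ha
        obtain ⟨rfl, rfl, rfl⟩ := ha
        exact Or.inl ⟨_, Step.mk u a h, by simp⟩

/-- where a step into a concatenation happens -/
theorem Step.of_append' {t r w' : List α} (h : S.Step w' (t ++ r)) :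
    (∃ t', S.Step t' t ∧ w' = t' ++ r) ∨ (∃ r', S.Step r' r ∧ w' = t ++ r') ∨
      ∃ u v y z y' z', S.mv y' z' y z ∧ t = u ++ [y] ∧ r = z :: v ∧ w' = u ++ y' :: z' :: v := by
  let S' : Sys α := ⟨fun y z y' z' => S.mv y' z' y z, S.zr⟩
  have h1 : ∀ a b, S.Step a b → S'.Step b a := fun a b h => by
    cases h with
    | mk u v h => exact Step.mk (S := S') u v h
  have h2 : ∀ a b, S'.Step a b → S.Step b a := fun a b h => by
    cases h with
    | mk u v h => exact Step.mk (S := S) u v h
  rcases (h1 _ _ h).of_append with ⟨t', h, e⟩ | ⟨r', h, e⟩ | h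
  · exact Or.inl ⟨t', h2 _ _ h, e⟩
  · exact Or.inr (Or.inl ⟨r', h2 _ _ h, e⟩)
  · exact Or.inr (Or.inr h)

theorem HasZ.of_append {t r : List α} (h : S.HasZ (t ++ r)) :
    S.HasZ t ∨ S.HasZ r ∨ ∃ u v y z, S.zr y z ∧ t = u ++ [y] ∧ r = z :: v := by
  obtain ⟨u, y, z, v, hw, h⟩ := h
  rcases List.append_eq_append_iff.mp hw with ⟨a, rfl, rfl⟩ | ⟨a, rfl, ha⟩
  · exact Or.inr (Or.inl ⟨a, y, z, v, rfl, h⟩)
  · rcases a with _ | ⟨a1, _ | ⟨a2, a⟩⟩
    · simp only [List.nil_append] at ha
      subst ha
      exact Or.inr (Or.inl ⟨[], y, z, v, rfl, h⟩)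
    · simp only [List.cons_append, List.nil_append, List.cons.injEq] at ha
      obtain ⟨rfl, rfl⟩ := ha
      exact Or.inr (Or.inr ⟨u, v, y, z, h, rfl, rfl⟩)
    · simp only [List.cons_append, List.cons.injEq] at ha
      obtain ⟨rfl, rfl, rfl⟩ := ha
      exact Or.inl ⟨u, y, z, a, rfl, h⟩

variable (S)

/-- a representation of the system in a ring -/
structure Rep {B : Type} [Ring B] (g : α → B) : Prop where
  mv : ∀ y z y' z', S.mv y z y' z' → g y * g z = g y' * g z'
  zr : ∀ y z, S.zr y z → g y * g z = 0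

variable {S}

theorem Rep.prod_eq {B : Type} [Ring B] {g : α → B} (h : S.Rep g) {w w' : List α} (e : S.Eqv w w') :
    (w.map g).prod = (w'.map g).prod := by
  refine Eqv.apply_eq (f := fun w => (w.map g).prod) (fun w w' hs => ?_) e
  cases hs with
  | mk u v hm => simp only [List.map_append, List.map_cons, List.prod_append, List.prod_cons,
      ← mul_assoc (g _) (g _), h.mv _ _ _ _ hm]

theorem Rep.prod_zero {B : Type} [Ring B] {g : α → B} (h : S.Rep g) {w : List α} (e : S.IsZero w) :
    (w.map g).prod = 0 := by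
  obtain ⟨w', e, u, y, z, v, rfl, hz⟩ := e
  rw [h.prod_eq e]
  simp only [List.map_append, List.map_cons, List.prod_append, List.prod_cons,
    ← mul_assoc (g _) (g _), h.zr _ _ hz, zero_mul, mul_zero]

variable (S)

/-- the coefficient ring of the nilpotence statement -/
abbrev KK : Type := Polynomial (ZMod 2)

/-- every linear form in the generators, with coefficients in an algebra `T` spanned by `ρ` elements and commuting
with the generators, is nilpotent -/
def Nil [Fintype α] (ρ : ℕ) : Prop :=
  ∀ (T B : Type) [Ring T] [Algebra KK T] [Ring B],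
    (∃ s : Finset T, s.card ≤ ρ ∧ Submodule.span KK (s : Set T) = ⊤) →
    ∀ (j : T →+* B) (g : α → B), S.Rep g → (∀ t a, Commute (j t) (g a)) →
    ∀ μ : α → T, IsNilpotent (∑ a, j (μ a) * g a)

/-- long nonzero words have a phase modulo `2 ^ e j` -/
structure Phases where
  e : ℕ → ℕ
  lam : ℕ → ℕ
  Φ : ℕ → List α → ℤ
  e_zero : e 0 = 0
  e_lt : ∀ j, e j < e (j + 1)
  lam_pos : ∀ j, 1 ≤ lam j
  lam_le : ∀ j, lam j ≤ lam (j + 1)
  lam_bd : ∀ j, lam (j + 1) ≤ 20 * 2 ^ e j
  eqv : ∀ j w w', S.Eqv w w' → Φ j w = Φ j w'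
  ext : ∀ j a b c, ¬ S.IsZero (a ++ b ++ c) → lam j ≤ b.length →
    Φ j b ≡ Φ j (a ++ b ++ c) + a.length [ZMOD 2 ^ e j]
  compat : ∀ j w, ¬ S.IsZero w → lam (j + 1) ≤ w.length → Φ (j + 1) w ≡ Φ j w [ZMOD 2 ^ e j]

end Sys

end Crest.Agent.R176
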