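import Crest.Agent.R176.LR

/-!
# Row 176, group half: the representation `theta` and arcs  (task R176-Theta)

First part: calculus of the operators `nu` (`lift_ev`, `lin_ext`; the ring `EE` has characteristic two).
`Th_rel`: for `mul` put `a = nu p u`, `b = nu (p + |u|) v`; `a * a = b * b = b * a = 0`, so the commutator is `1 + a * b`.

`arc_sup`.  Show first: `g ∈ Arc a m`, `h ∈ Arc b m'`, `theta g = theta h` imply `g ∈ Arc b m'` (induction on `m`, for
all `g, h`); apply it to `g * h⁻¹`-type elements with the trivial arc (`Arc b 0 = ⊥` because good words are nonempty)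
to get injectivity on arcs.  Induction step `m + 1`, `e := a + (m + 1)`: let `Col` be the subgroup generated by the
roots `xl p w` with `(p - a).val + |w| = m + 1`.  Its generators commute and have order two, and `Arc a m`
normalises it (`y * x * y⁻¹ = ⁅y, x⁆ * x`), so `g = v * g'` with `g' ∈ Arc a m` and
`v = (l.map fun w => xl (e - |w|) w).prod` for a list `l` of good words.  Elements of `Arc a m` fix `1 = ev []` in the
component `e`, so `theta g e 1 = 1 + (l.map ev).sum`.  On the other hand `theta h e 1 - 1` lies in the span of the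
`ev w` with `InArc b m' (e - |w|) |w|`, `w ≠ []` (this affine set is preserved by the generators of `Arc b m'`).
By strong induction on the length of `l` (cancel two equivalent words, or read off the coefficient `coef w` of the
head) `v ∈ Arc b m'`; continue with `g'` and `v⁻¹ * h`.
-/

set_option autoImplicit false

namespace Crest.Agent.R176

open scoped commutatorElement

variable {α : Type} [Fintype α] {S : Sys α} {N : ℕ} {Amb Good : ZMod N → List α → Prop} {lam c : ℕ}

open Classical in
theorem nu_ev (hA : AmbOK S Amb lam) (p : ZMod N) (u : List α) (e : ZMod N) (w : List α) :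
    nu S Amb p u e (S.ev w) =
      if p + u.length + w.length = e ∧ Amb p (u ++ w) then S.ev (u ++ w) else 0 := by
  refine Sys.lift_ev (f := fun w => if p + u.length + w.length = e ∧ Amb p (u ++ w) then
    S.ev (u ++ w) else 0) (fun w w' h => ?_) (fun w h => ?_) w
  · have h1 := h.append_left u
    have h2 : Amb p (u ++ w) ↔ Amb p (u ++ w') := ⟨hA.eqv _ _ _ h1, hA.eqv _ _ _ h1.symm⟩
    simp only [h.length_eq, h2, Sys.ev_eq h1]
  · simp only [Sys.ev_zero (h.append_left u), ite_self]

theorem nu_mul_nu (hA : AmbOK S Amb lam) (p : ZMod N) (u : List α) (q : ZMod N) (v : List α) :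
    nu S Amb p u * nu S Amb q v = if p + u.length = q then nu S Amb p (u ++ v) else 0 := by
  funext e
  refine Sys.lin_ext fun w => ?_
  rw [Pi.mul_apply, Module.End.mul_apply, nu_ev hA]
  by_cases h : p + u.length = q
  · subst h
    have e1 : p + (u ++ v).length + w.length = p + u.length + v.length + w.length := by
      rw [List.length_append, Nat.cast_add, ← add_assoc]
    have e2 : p + u.length + (v ++ w).length = p + u.length + v.length + w.length := by
      rw [List.length_append, Nat.cast_add, ← add_assoc]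
    rw [if_pos rfl, nu_ev hA, e1, List.append_assoc]
    split_ifs with h1 h2 h2
    · rw [nu_ev hA, e2, if_pos h2]
    · rw [nu_ev hA, e2, if_neg h2]
    · exact absurd ⟨h2.1, hA.right _ _ _ h2.2⟩ h1
    · exact map_zero _
  · rw [if_neg h]
    split_ifs with h1
    · rw [nu_ev hA, if_neg]
      · rfl
      · rintro ⟨h2, -⟩
        rw [← h1.1, List.length_append, Nat.cast_add, ← add_assoc] at h2
        exact h (add_right_cancel (add_right_cancel h2))
    · exact map_zero _

theorem nu_eq_zero (hA : AmbOK S Amb lam) {p : ZMod N} {u : List α} (h : ¬ Amb p u) : nu S Amb p u = 0 := by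
  funext e
  refine Sys.lin_ext fun w => ?_
  rw [nu_ev hA, if_neg fun h1 => h (hA.left _ _ _ h1.2)]
  rfl

theorem nu_congr (hA : AmbOK S Amb lam) (p : ZMod N) {u u' : List α} (h : S.Eqv u u') :
    nu S Amb p u = nu S Amb p u' := by
  funext e
  refine Sys.lin_ext fun w => ?_
  have h1 := h.append_right w
  have h2 : Amb p (u ++ w) ↔ Amb p (u' ++ w) := ⟨hA.eqv _ _ _ h1, hA.eqv _ _ _ h1.symm⟩
  rw [nu_ev hA, nu_ev hA, h.length_eq, Sys.ev_eq h1, propext h2]

theorem Theta.add_self {M : Type} [AddCommGroup M] [Module (ZMod 2) M] (x : M) : x + x = 0 := by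
  rw [← one_smul (ZMod 2) x, ← add_smul, show (1 + 1 : ZMod 2) = 0 from rfl, zero_smul]

theorem Theta.add_ne {l : ℕ} (h0 : 0 < l) (hl : l < N) (p : ZMod N) : p + l ≠ p := fun h =>
  (Nat.le_of_dvd h0 ((ZMod.natCast_eq_zero_iff _ _).1 (add_eq_left.1 h))).not_gt hl

open Theta

theorem EE_add_self (x : EE S N) : x + x = 0 := by
  exact add_self x

theorem Theta.nu_sq (hA : AmbOK S Amb lam) (p : ZMod N) {u : List α} (h0 : u ≠ [])
    (hu : u.length < N) : nu S Amb p u * nu S Amb p u = 0 := by
  rw [nu_mul_nu hA, if_neg (add_ne (List.length_pos_iff.2 h0) hu p)]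

theorem Theta.one_add_sq {x : EE S N} (h : x * x = 0) : (1 + x) * (1 + x) = 1 := by
  rw [add_mul, mul_add, mul_add, h, one_mul, one_mul, mul_one, add_zero, add_assoc, EE_add_self,
    add_zero]

theorem Th_val (hA : AmbOK S Amb lam) (hG : GoodOK S Amb Good lam) {p : ZMod N} {u : List α}
    (hu : u.length < N) (hg : Good p u) : (Th S Amb Good p u : EE S N) = 1 + nu S Amb p u := by
  have h := one_add_sq (nu_sq hA p (hG.ne _ _ hg) hu)
  have h1 : IsUnit (1 + nu S Amb p u) := ⟨⟨_, _, h, h⟩, rfl⟩
  rw [Th, if_pos hg, unit1, dif_pos h1, IsUnit.unit_spec]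

theorem Th_rel (hA : AmbOK S Amb lam) (hG : GoodOK S Amb Good lam) (hN : 0 < N) :
    SRel S Good (N - 1) (Th S Amb Good) := by
  have sq : ∀ p w, w.length ≤ N - 1 → Th S Amb Good p w * Th S Amb Good p w = 1 := fun p w hw => by
    by_cases hg : Good p w
    · ext1
      rw [Units.val_mul, Th_val hA hG (by omega) hg,
        one_add_sq (nu_sq hA p (hG.ne _ _ hg) (by omega)), Units.val_one]
    · rw [Th, if_neg hg, one_mul]
  refine ⟨fun p w _ h => if_neg h, fun p w w' _ h => ?_, sq, fun p u v h hu hv => ?_,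
    fun p u q v hu hv h1 h2 => ?_⟩
  · have h2 : Good p w ↔ Good p w' := ⟨hG.eqv _ _ _ h, hG.eqv _ _ _ h.symm⟩
    rw [Th, Th, nu_congr hA p h, propext h2]
  · have u0 := List.length_pos_iff.2 (hG.ne _ _ hu)
    have e1 : (Th S Amb Good p (u ++ v) : EE S N) = 1 + nu S Amb p (u ++ v) := by
      by_cases hg : Good p (u ++ v)
      · exact Th_val hA hG (by rw [List.length_append]; omega) hg
      · rw [Th, if_neg hg, nu_eq_zero hA fun h => hg (hG.mul _ _ _ hu hv h), add_zero, Units.val_one]
    ext1
    rw [commutatorElement_def, inv_eq_of_mul_eq_one_right (sq _ _ (by omega)),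
      inv_eq_of_mul_eq_one_right (sq _ _ (by omega)), e1]
    simp only [Units.val_mul]
    rw [Th_val hA hG (by omega) hu, Th_val hA hG (by omega) hv]
    have aa := nu_sq hA p (hG.ne _ _ hu) (by omega)
    have bb := nu_sq hA (p + u.length) (hG.ne _ _ hv) (by omega)
    have ab := nu_mul_nu hA p u (p + u.length) v
    have ba := nu_mul_nu hA (p + u.length) v p u
    rw [if_pos rfl] at ab
    rw [if_neg (by rw [add_assoc, ← Nat.cast_add]; exact add_ne (by omega) (by omega) p)] at ba
    rw [← ab]
    generalize nu S Amb p u = a at aa ba ⊢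
    generalize nu S Amb (p + u.length) v = b at bb ba ⊢
    have e2 : (1 + b) * (1 + a) = 1 + a + b := by
      rw [add_mul, mul_add b, ba, one_mul, mul_one, add_zero]
    rw [mul_assoc (1 + a), e2, mul_add (1 + a), one_add_sq aa, add_mul 1 a, one_mul, ← add_assoc,
      add_mul, one_add_sq bb, mul_add, mul_one, mul_assoc, bb, mul_zero, add_zero]
  · by_cases hu' : Good p u
    · by_cases hv' : Good q v
      · refine Commute.units_val_iff.1 ?_
        rw [Th_val hA hG (by omega) hu', Th_val hA hG (by omega) hv']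
        refine (Commute.one_left _).add_left ((Commute.one_right _).add_right ?_)
        rw [Commute, SemiconjBy, nu_mul_nu hA, nu_mul_nu hA, if_neg h1, if_neg h2]
      · rw [show Th S Amb Good q v = 1 from if_neg hv']
        exact Commute.one_right _
    · rw [show Th S Amb Good p u = 1 from if_neg hu']
      exact Commute.one_left _

theorem theta_xg (hA : AmbOK S Amb lam) (hG : GoodOK S Amb Good lam) (hN : c < N) (p : ZMod N) {w : List α}
    (hw : w.length ≤ c) : theta S Amb Good c (xg S Good c p w) = Th S Amb Good p w :=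
  ((Th_rel hA hG (by omega)).mono (by omega)).stLift_xg p hw

theorem theta_xl (hA : AmbOK S Amb lam) (hG : GoodOK S Amb Good lam) (hc : 8 * lam ≤ c) (hN : c < N)
    (p : ZMod N) {w : List α} (hw : w.length < N) :
    theta S Amb Good c (xl S Good c p w) = Th S Amb Good p w :=
  ((xl_spec hA hG hc hN).1.map (theta S Amb Good c)).unique hA hG hc (Th_rel hA hG (by omega))
    (fun p w hw => by rw [(xl_spec hA hG hc hN).2 p w hw, theta_xg hA hG hN p hw]) p w (by omega)

theorem theta_incl {Good' : ZMod N → List α → Prop} {lam' c' : ℕ} (hA : AmbOK S Amb lam) (hA' : AmbOK S Amb lam')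
    (hG : GoodOK S Amb Good lam) (hG' : GoodOK S Amb Good' lam') (hle : ∀ p w, Good p w → Good' p w)
    (hc : c ≤ c') (hN : c' < N) (g : St S Good c) :
    theta S Amb Good' c' (incl S Good Good' c c' g) = theta S Amb Good c g := by
  have : (theta S Amb Good' c').comp (incl S Good Good' c c') = theta S Amb Good c :=
    St.hom_ext fun p w hw hg => by
      rw [MonoidHom.comp_apply, incl_xg hG hG' hle hc hw hg, theta_xg hA' hG' hN p (hw.trans hc),
        theta_xg hA hG (by omega) p hw, Th, Th, if_pos hg, if_pos (hle p w hg)]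
  exact DFunLike.congr_fun this g

namespace Theta

theorem val_add {p b : ZMod N} {k : ℕ} (h : (p - b).val + k < N) :
    (p + k - b).val = (p - b).val + k := by
  haveI : NeZero N := ⟨by omega⟩
  rw [← ZMod.val_cast_of_lt h]
  congr 1
  rw [Nat.cast_add, ZMod.natCast_zmod_val]; ring

theorem val_col (a : ZMod N) {m l : ℕ} (hm : m < N) (hl : l ≤ m) :
    (a + m - l - a).val = m - l := by
  rw [← ZMod.val_cast_of_lt (show m - l < N by omega), Nat.cast_sub hl]
  congr 1; ring

theorem arc_ind (hx : SRel S Good (N - 1) (xl S Good c)) {a : ZMod N} {m : ℕ} (hm : m < N)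
    {Q : St S Good c → Prop} (h1 : Q 1)
    (h2 : ∀ p w g, InArc a m p w.length → Good p w → Q g → Q (xl S Good c p w * g))
    {g : St S Good c} (hg : g ∈ Arc S Good c a m) : Q g := by
  have key : ∀ p w g, InArc a m p w.length → Q g → Q (xl S Good c p w * g) := fun p w g hp hq => by
    by_cases h : Good p w
    · exact h2 p w g hp h hq
    · rwa [hx.triv p w (by unfold InArc at hp; omega) h, one_mul]
  induction hg using Subgroup.closure_induction_left with
  | one => exact h1
  | mul_left x hx' y _ ih =>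
    obtain ⟨p, w, hp, rfl⟩ := hx'
    exact key p w y hp ih
  | inv_mul_cancel x hx' y _ ih =>
    obtain ⟨p, w, hp, rfl⟩ := hx'
    rw [inv_eq_of_mul_eq_one_right (hx.sq p w (by unfold InArc at hp; omega))]
    exact key p w y hp ih

theorem mem_arc {a p : ZMod N} {m : ℕ} {w : List α} (h : InArc a m p w.length) :
    xl S Good c p w ∈ Arc S Good c a m := Subgroup.subset_closure ⟨p, w, h, rfl⟩

variable (S) in
/-- the span of the paths in an arc with a given end point -/
noncomputable def W (b : ZMod N) (m : ℕ) (e : ZMod N) : Submodule (ZMod 2) S.Alg :=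
  Submodule.span (ZMod 2) (S.ev '' {w | InArc b m (e - w.length) w.length ∧ w ≠ []})

theorem theta_one_mem (hA : AmbOK S Amb lam) (hG : GoodOK S Amb Good lam) (hc : 8 * lam ≤ c)
    (hN : c < N) {b : ZMod N} {m : ℕ} (hm : m < N) (e : ZMod N) {h : St S Good c}
    (hh : h ∈ Arc S Good c b m) : (theta S Amb Good c h : EE S N) e 1 - 1 ∈ W S b m e := by
  refine arc_ind (xl_spec hA hG hc hN).1 hm
    (Q := fun h => (theta S Amb Good c h : EE S N) e 1 - 1 ∈ W S b m e) (by simp)
    (fun p u g hp hu ih => ?_) hh
  have hp' : (p - b).val + u.length ≤ m := hp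
  have k1 : ∀ w : List α, (w = [] ∨ InArc b m (e - w.length) w.length) →
      nu S Amb p u e (S.ev w) ∈ W S b m e := fun w hw => by
    rw [nu_ev hA]
    split_ifs with h
    · refine Submodule.subset_span ⟨u ++ w, ⟨?_, by simp [hG.ne _ _ hu]⟩, rfl⟩
      have e1 : e - (u ++ w).length = p := by rw [← h.1, List.length_append, Nat.cast_add]; ring
      rw [e1, List.length_append, InArc]
      rcases hw with rfl | hw
      · exact hp'
      · rw [← h.1, add_sub_cancel_right, InArc, val_add (by omega)] at hw
        omega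
    · exact zero_mem _
  have k2 : ∀ t ∈ W S b m e, nu S Amb p u e t ∈ W S b m e := fun t ht =>
    (Submodule.span_le (p := (W S b m e).comap (nu S Amb p u e))).2
      (by rintro _ ⟨w, hw, rfl⟩; exact k1 w (.inr hw.1)) ht
  rw [map_mul, theta_xl hA hG hc hN p (by omega), Units.val_mul, Th_val hA hG (by omega) hu,
    Pi.mul_apply, Module.End.mul_apply]
  have := add_mem ih (add_mem (k2 _ ih) (k1 [] (.inl rfl)))
  convert this using 1
  simp only [Pi.add_apply, Pi.one_apply, LinearMap.add_apply, Module.End.one_apply, map_sub,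
    Sys.ev_nil]
  abel

variable (S Good c) in
/-- products of roots in a column -/
noncomputable def V (e : ZMod N) (l : List (List α)) : St S Good c :=
  (l.map fun w => xl S Good c (e - w.length) w).prod

variable (Good) in
/-- admissible lists -/
def Col (e : ZMod N) (m : ℕ) (l : List (List α)) : Prop :=
  ∀ w ∈ l, Good (e - w.length) w ∧ w.length ≤ m

theorem V_cons (e : ZMod N) (w : List α) (l : List (List α)) :
    V S Good c e (w :: l) = xl S Good c (e - w.length) w * V S Good c e l := by simp [V]

theorem V_append (e : ZMod N) (l l' : List (List α)) :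
    V S Good c e (l ++ l') = V S Good c e l * V S Good c e l' := by simp [V]

theorem theta_V (hA : AmbOK S Amb lam) (hG : GoodOK S Amb Good lam) (hc : 8 * lam ≤ c)
    (hN : c < N) {e : ZMod N} {m : ℕ} (hm : m < N) {l : List (List α)} (hl : Col Good e m l) :
    (theta S Amb Good c (V S Good c e l) : EE S N) e 1 = 1 + (l.map S.ev).sum := by
  induction l with
  | nil => simp [V]
  | cons w l ih =>
    obtain ⟨hw, hl⟩ := List.forall_mem_cons.1 hl
    have k1 : nu S Amb (e - w.length) w e 1 = S.ev w := by
      rw [← Sys.ev_nil, nu_ev hA, List.append_nil, if_pos ⟨by simp, hG.amb _ _ hw.1⟩]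
    have k2 : nu S Amb (e - w.length) w e (l.map S.ev).sum = 0 := by
      rw [map_list_sum]
      refine List.sum_eq_zero fun x hx => ?_
      simp only [List.map_map, List.mem_map, Function.comp] at hx
      obtain ⟨w', hw', rfl⟩ := hx
      rw [nu_ev hA, if_neg]
      rintro ⟨h, -⟩
      rw [sub_add_cancel] at h
      exact add_ne (List.length_pos_iff.2 (hG.ne _ _ (hl w' hw').1)) ((hl w' hw').2.trans_lt hm) e h
    rw [V_cons, map_mul, theta_xl hA hG hc hN _ (by omega), Units.val_mul,
      Th_val hA hG (by omega) hw.1, Pi.mul_apply, Module.End.mul_apply, ih hl]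
    simp only [Pi.add_apply, Pi.one_apply, LinearMap.add_apply, Module.End.one_apply, map_add, k1, k2,
      List.map_cons, List.sum_cons]
    abel

theorem conj_V (hx : SRel S Good (N - 1) (xl S Good c)) {a p : ZMod N} {m : ℕ} (hm : m + 1 < N)
    {u : List α} (hp : InArc a m p u.length) (hu : Good p u) {l : List (List α)}
    (hl : Col Good (a + (m + 1 : ℕ)) (m + 1) l) :
    ∃ l', Col Good (a + (m + 1 : ℕ)) (m + 1) l' ∧ xl S Good c p u * V S Good c (a + (m + 1 : ℕ)) l =
      V S Good c (a + (m + 1 : ℕ)) l' * xl S Good c p u := by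
  have hp' : (p - a).val + u.length ≤ m := hp
  induction l with
  | nil => exact ⟨[], hl, by simp [V]⟩
  | cons w l ih =>
    obtain ⟨hw, hl⟩ := List.forall_mem_cons.1 hl
    obtain ⟨l', hl', ih⟩ := ih hl
    by_cases h : p + u.length = a + (m + 1 : ℕ) - w.length
    · have h1 : (p - a).val + u.length = m + 1 - w.length := by
        rw [← val_add (by omega), h, val_col a hm hw.2]
      have h2 := hx.mul p u w (by omega) hu (h ▸ hw.1)
      have h3 : a + (m + 1 : ℕ) - (u ++ w).length = p := by
        rw [List.length_append, Nat.cast_add u.length, add_comm (u.length : ZMod N), ← sub_sub, ← h,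
          add_sub_cancel_right]
      have h4 : xl S Good c p u * V S Good c (a + (m + 1 : ℕ)) (w :: l) =
          xl S Good c p (u ++ w) * (V S Good c (a + (m + 1 : ℕ)) (w :: l') * xl S Good c p u) := by
        rw [V_cons, V_cons, mul_assoc, ← ih, ← h2, ← h, commutatorElement_def]
        group
      by_cases hg : Good p (u ++ w)
      · refine ⟨(u ++ w) :: w :: l', List.forall_mem_cons.2 ⟨⟨h3 ▸ hg, ?_⟩,
          List.forall_mem_cons.2 ⟨hw, hl'⟩⟩, by rw [h4, V_cons _ (u ++ w), h3, mul_assoc]⟩
        rw [List.length_append]; omega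
      · exact ⟨w :: l', List.forall_mem_cons.2 ⟨hw, hl'⟩, by
          rw [h4, hx.triv p _ (by rw [List.length_append]; omega) hg, one_mul]⟩
    · have h2 := hx.comm p u _ w (by omega) (by omega) h (by
        rw [sub_add_cancel]
        rintro rfl
        have := val_col a (l := 0) hm (Nat.zero_le _)
        rw [Nat.cast_zero, sub_zero] at this
        omega)
      exact ⟨w :: l', List.forall_mem_cons.2 ⟨hw, hl'⟩, by
        rw [V_cons, V_cons, ← mul_assoc, h2.eq, mul_assoc, ih, mul_assoc]⟩

theorem decomp (hx : SRel S Good (N - 1) (xl S Good c)) {a : ZMod N} {m : ℕ} (hm : m + 1 < N)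
    {g : St S Good c} (hg : g ∈ Arc S Good c a (m + 1)) :
    ∃ l, Col Good (a + (m + 1 : ℕ)) (m + 1) l ∧ ∃ g' ∈ Arc S Good c a m,
      g = V S Good c (a + (m + 1 : ℕ)) l * g' := by
  refine arc_ind hx hm (Q := fun g => ∃ l, Col Good (a + (m + 1 : ℕ)) (m + 1) l ∧
    ∃ g' ∈ Arc S Good c a m, g = V S Good c (a + (m + 1 : ℕ)) l * g')
    ⟨[], by simp [Col], 1, one_mem _, by simp [V]⟩ ?_ hg
  rintro p u _ hp hu ⟨l, hl, g', hg', rfl⟩
  have hp' : (p - a).val + u.length ≤ m + 1 := hp
  by_cases h : InArc a m p u.length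
  · obtain ⟨l', hl', e⟩ := conj_V hx hm h hu hl
    exact ⟨l', hl', _, mul_mem (mem_arc h) hg', by rw [← mul_assoc, e, mul_assoc]⟩
  · haveI : NeZero N := ⟨by omega⟩
    have h1 : m + 1 = (p - a).val + u.length := by unfold InArc at h; omega
    have h2 : a + (m + 1 : ℕ) - u.length = p := by
      rw [h1, Nat.cast_add, ZMod.natCast_zmod_val]; ring
    exact ⟨u :: l, List.forall_mem_cons.2 ⟨⟨h2 ▸ hu, by omega⟩, hl⟩, g', hg',
      by rw [V_cons, h2, mul_assoc]⟩

theorem V_mem (hA : AmbOK S Amb lam) (hG : GoodOK S Amb Good lam)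
    (hx : SRel S Good (N - 1) (xl S Good c)) {e b : ZMod N} {m m' : ℕ} (hm : m < N) (n : ℕ) :
    ∀ l : List (List α), l.length = n → Col Good e m l → (l.map S.ev).sum ∈ W S b m' e →
      V S Good c e l ∈ Arc S Good c b m' := by
  induction n using Nat.strong_induction_on with
  | _ n ih =>
  rintro (_ | ⟨w, l⟩) rfl hl hW
  · exact one_mem _
  obtain ⟨hw, hl⟩ := List.forall_mem_cons.1 hl
  by_cases h : ∃ w' ∈ l, S.Eqv w' w
  · obtain ⟨w', hw', hE⟩ := h
    obtain ⟨l₁, l₂, rfl⟩ := List.append_of_mem hw'
    have h1 : ∀ v ∈ l₁ ++ l₂, v ∈ l₁ ++ w' :: l₂ := fun v hv => by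
      simp only [List.mem_append, List.mem_cons] at hv ⊢
      tauto
    have h2 : Commute (xl S Good c (e - w.length) w) (V S Good c e l₁) := by
      refine Commute.list_prod_right _ _ fun x hx' => ?_
      obtain ⟨v, hv, rfl⟩ := List.mem_map.1 hx'
      have hv' := hl v (List.mem_append_left _ hv)
      refine hx.comm _ _ _ _ (by omega) (by omega) (fun h => ?_) fun h => ?_
      · rw [sub_add_cancel, eq_sub_iff_add_eq] at h
        exact add_ne (List.length_pos_iff.2 (hG.ne _ _ hv'.1)) (by omega) e h
      · rw [sub_add_cancel, eq_sub_iff_add_eq] at h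
        exact add_ne (List.length_pos_iff.2 (hG.ne _ _ hw.1)) (by omega) e h
    have h3 : V S Good c e (w :: (l₁ ++ w' :: l₂)) = V S Good c e (l₁ ++ l₂) := by
      rw [V_cons, V_append, V_append, V_cons, ← mul_assoc, h2.eq, hE.length_eq,
        hx.eqv _ w' w (by rw [hE.length_eq]; omega) hE, mul_assoc, ← mul_assoc (xl _ _ _ _ _),
        hx.sq _ _ (by omega), one_mul]
    rw [h3]
    refine ih _ (by simp) _ rfl (fun v hv => hl v (h1 v hv)) ?_
    convert hW using 1
    simp only [List.map_append, List.map_cons, List.sum_append, List.sum_cons, Sys.ev_eq hE]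
    rw [← add_zero (_ + _), ← add_self (S.ev w)]
    abel
  · have h1 : S.coef w ((w :: l).map S.ev).sum = 1 := by
      rw [List.map_cons, List.sum_cons, map_add, Sys.coef_ev,
        if_pos ⟨.refl w, hA.nz _ _ (hG.amb _ _ hw.1)⟩, map_list_sum, List.sum_eq_zero, add_zero]
      intro x hx
      simp only [List.map_map, List.mem_map, Function.comp] at hx
      obtain ⟨w', hw', rfl⟩ := hx
      rw [Sys.coef_ev, if_neg fun h' => h ⟨w', hw', h'.1⟩]
    have h2 : InArc b m' (e - w.length) w.length := by
      by_contra hn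
      have : W S b m' e ≤ LinearMap.ker (S.coef w) := Submodule.span_le.2 (by
        rintro _ ⟨v, hv, rfl⟩
        change S.coef w (S.ev v) = 0
        rw [Sys.coef_ev, if_neg]
        exact fun h' => hn (h'.1.length_eq ▸ hv.1))
      exact zero_ne_one ((LinearMap.mem_ker.1 (this hW)).symm.trans h1)
    rw [V_cons]
    refine mul_mem (mem_arc h2) (ih _ (by simp) l rfl hl ?_)
    rw [List.map_cons, List.sum_cons] at hW
    have h3 : S.ev w ∈ W S b m' e := Submodule.subset_span ⟨w, ⟨h2, hG.ne _ _ hw.1⟩, rfl⟩
    exact (add_mem_cancel_left h3).1 hW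

theorem arc_zero (hG : GoodOK S Amb Good lam) (hx : SRel S Good (N - 1) (xl S Good c)) (hN : 0 < N)
    {a : ZMod N} {g : St S Good c} (hg : g ∈ Arc S Good c a 0) : g = 1 :=
  arc_ind hx hN (Q := fun g => g = 1) rfl (fun p w _ hp hw _ => by
    have := List.length_pos_iff.2 (hG.ne _ _ hw)
    unfold InArc at hp
    omega) hg

theorem mem_of_theta (hA : AmbOK S Amb lam) (hG : GoodOK S Amb Good lam) (hc : 8 * lam ≤ c)
    (hN : c < N) {a b : ZMod N} {m' : ℕ} (hm' : m' < N) (m : ℕ) (hm : m < N) :
    ∀ g ∈ Arc S Good c a m, ∀ h ∈ Arc S Good c b m',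
      theta S Amb Good c g = theta S Amb Good c h → g ∈ Arc S Good c b m' := by
  have hx := (xl_spec hA hG hc hN).1
  induction m with
  | zero =>
    intro g hg _ _ _
    rw [arc_zero hG hx hm hg]
    exact one_mem _
  | succ m ih =>
    intro g hg h hh e
    obtain ⟨l, hl, g', hg', rfl⟩ := decomp hx hm hg
    have h1 := theta_one_mem hA hG hc hN (by omega) (a + (m + 1 : ℕ)) hg'
    have h2 : W S a m (a + (m + 1 : ℕ)) = ⊥ := Submodule.span_eq_bot.2 (by
      rintro _ ⟨w, ⟨hw, -⟩, rfl⟩
      have h3 : w.length ≤ m := by unfold InArc at hw; omega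
      rw [InArc, val_col a hm (by omega)] at hw
      omega)
    rw [h2, Submodule.mem_bot, sub_eq_zero] at h1
    have h3 := theta_one_mem hA hG hc hN hm' (a + (m + 1 : ℕ)) hh
    rw [← e, map_mul, Units.val_mul, Pi.mul_apply, Module.End.mul_apply, h1,
      theta_V hA hG hc hN hm hl, add_sub_cancel_left] at h3
    have h4 := V_mem hA hG hx hm _ l rfl hl h3
    exact mul_mem h4 (ih (by omega) g' hg' _ (mul_mem (inv_mem h4) hh)
      (by rw [map_mul, map_inv, ← e, map_mul, inv_mul_cancel_left]))

end Theta

theorem arc_sup (hA : AmbOK S Amb lam) (hG : GoodOK S Amb Good lam) (hc : 8 * lam ≤ c) (hN : c < N)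
    {a b : ZMod N} {m m' : ℕ} (hm : m < N) (hm' : m' < N) {g h : St S Good c}
    (hg : g ∈ Arc S Good c a m) (hh : h ∈ Arc S Good c b m')
    (e : theta S Amb Good c g = theta S Amb Good c h) : g = h := by
  have h1 := mul_mem (mem_of_theta hA hG hc hN hm' m hm g hg h hh e) (inv_mem hh)
  have h2 := mem_of_theta hA hG hc hN (b := b) (m' := 0) (by omega) m' hm' _ h1 1 (one_mem _)
    (by rw [map_mul, map_inv, e, mul_inv_cancel, map_one])
  exact mul_inv_eq_one.1 (arc_zero hG (xl_spec hA hG hc hN).1 (by omega) h2)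

end Crest.Agent.R176
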