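import Crest.Agent.R176.Cap
import Crest.Agent.R176.Sound
import Crest.Agent.R176.Phase

/-!
# Row 176, machine: the tower  (task R176-Tower)

`nil_all`: `card (Lt s) = card Sm * 2 ^ s * (s + 1) * 2 ^ s` (an equivalence with a product; keep `card Sm` opaque), so
`(1 + card (Lt s)) ^ 2 ≤ 2 ^ (5 * s)` for large `s`, and `6 * s ≤ 2 ^ s`.  Claim, by induction on `k`: for all large `s`
and `a ≤ s + k`, `Nil (Sg s) (2 ^ (a + 6 * s))` (`cap`, `Sys.Hier.nil (hier _)`, `Nil.mono`, `s + 1 ≤ 2 ^ s`).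
`long_words`: induction on `n` for all `s` simultaneously, with the extra property that no letter is `BadB`
(`val_enc`, `sound`, `val_not_badB`; start with a one letter word).
-/

set_option autoImplicit false

namespace Crest.Agent.R176

theorem tower_sq {t : ℕ} (ht : 6 ≤ t) : (t + 1) ^ 2 ≤ 2 ^ t := by
  induction t, ht using Nat.le_induction with
  | base => norm_num
  | succ t ht ih => rw [pow_succ 2 t]; nlinarith

theorem tower_card : ∃ s₁, ∀ s, s₁ ≤ s → 1 + Fintype.card (Lt s) ≤ 2 ^ (3 * s) := by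
  refine ⟨Fintype.card Sm + 6, fun s hs => ?_⟩
  have h1 := Fintype.card_le_of_injective (fun X : Lt s => (X.sm, X.a, X.h, X.d))
    fun ⟨_, _, _, _⟩ ⟨_, _, _, _⟩ h => by
      simp only [Prod.mk.injEq] at h
      obtain ⟨rfl, rfl, rfl, rfl⟩ := h
      rfl
  rw [Fintype.card_prod, Fintype.card_prod, Fintype.card_prod, Fintype.card_fin, Fintype.card_fin] at h1
  generalize Fintype.card Sm = C at hs h1
  have h2 := tower_sq (t := s) (by omega)
  have h3 : C * (s + 1) + 1 ≤ 2 ^ s := by nlinarith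
  have h4 := Nat.mul_pos (Nat.two_pow_pos s) (Nat.two_pow_pos s)
  rw [mul_comm 3, pow_mul]
  generalize 2 ^ s = x at *
  nlinarith [Nat.mul_le_mul_right (x * x) h3]

theorem nil_all : ∃ s, PL ≤ s ∧ ∀ ρ, (Sg s).Nil ρ := by
  obtain ⟨s₀, h₀⟩ := cap
  obtain ⟨s₁, h₁⟩ := tower_card
  have key : ∀ k s, PL + s₀ + s₁ + 6 ≤ s → (Sg s).Nil (2 ^ (7 * s + k)) := fun k => by
    induction k with
    | zero => exact fun s hs => h₀ s (by omega)
    | succ k ih =>
      intro s hs
      have h2 := Nat.lt_two_pow_self (n := s)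
      have h3 := tower_sq (t := s) (by omega)
      refine (hier (by omega)).nil _ ((ih (2 ^ s) (by omega)).mono ?_)
      refine (Nat.mul_le_mul_left _ (Nat.pow_le_pow_left (h₁ _ (by omega)) 2)).trans ?_
      rw [← pow_mul, ← pow_add]
      exact Nat.pow_le_pow_right two_pos (by nlinarith)
  refine ⟨PL + s₀ + s₁ + 6, by omega, fun ρ => (key ρ _ le_rfl).mono ?_⟩
  exact Nat.lt_two_pow_self.le.trans (Nat.pow_le_pow_right two_pos (Nat.le_add_left _ _))

theorem long_words {s : ℕ} (hs : PL ≤ s) (n : ℕ) : ∃ w : List (Lt s), n ≤ w.length ∧ ¬ (Sg s).IsZero w := by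
  have key : ∀ n s, PL ≤ s → ∃ w : List (Lt s), n + 1 ≤ w.length ∧ ¬ (Sg s).IsZero w ∧
      ∀ X ∈ w, ¬ BadB X := fun n => by
    induction n with
    | zero =>
      refine fun s _ => ⟨[⟨⟨⟨⟨⟨Lay 0, 0, true⟩, default, false, false⟩, false, false, false⟩, false, .ra⟩,
        ⟨0, Nat.two_pow_pos s⟩, 0, ⟨0, Nat.two_pow_pos s⟩⟩], le_rfl,
        Sys.not_isZero_of_length_le_one le_rfl, fun X hX => ?_⟩
      obtain rfl := List.mem_singleton.1 hX
      simp [BadB]
    | succ n ih =>
      intro s hs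
      obtain ⟨u, h1, h2, h3⟩ := ih (2 ^ s) (hs.trans Nat.lt_two_pow_self.le)
      refine ⟨_, ?_, sound hs (val_enc u) h3 h2, val_not_badB hs (val_enc u)⟩
      have h4 := sval_length (val_enc u).1
      have h5 := FL_ge s
      rw [List.length_map] at h4
      nlinarith
  obtain ⟨w, h1, h2, -⟩ := key n s hs
  exact ⟨w, by omega, h2⟩

end Crest.Agent.R176
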