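import Crest.Agent.R176.Theta

/-!
# Row 176, group half: transfer to a covering circle  (task R176-Tr)

`tr p w` is the product of the roots `(p', w)` over all lifts `p'` of `p`.  Roots over different lifts commute
(`ZMod.cast` is a ring homomorphism `ZMod.castHom`; composable upstairs implies composable downstairs, and
`0 < |w| < N`).  For `mul`: reindex the fibre of `p + |u|` by `p' ↦ p' + |u|` (a product of pairwise commuting elements
does not depend on the order: `List.Perm.prod_eq'` or `Finset.noncommProd`); if `a s, b s` commute with `a t, b t` for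
`s ≠ t` then `⁅∏ a, ∏ b⁆ = ∏ ⁅a t, b t⁆`; for nonempty `u, v` one has `⁅x' p' u, x' (p' + |u|) v⁆ = x' p' (u ++ v)` also
when one of them is not `Amb'` (both sides `1`).
`theta_trHom`: let `P e'` be the projector `S.lift fun w => if Amb' (e' - |w|) w then ev w else 0`.  Show by induction
on `g` (`closure_xg`; generators are involutions, or treat inverses by `closure_induction` with the pair of
statements) that for all `e'`, with `n = theta g (cast e') - 1`: `theta' (T g) e' = 1 + P e' * n` and
`P e' * n * (1 - P e') = 0`.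
-/

set_option autoImplicit false

namespace Crest.Agent.R176

open scoped commutatorElement

variable {α : Type}

structure Cover {N N' : ℕ} (Amb : ZMod N → List α → Prop) (Amb' : ZMod N' → List α → Prop) (lam : ℕ) :
    Prop where
  dvd : N ∣ N'
  down : ∀ p' w, Amb' p' w → Amb (ZMod.cast p') w
  ex : ∀ p w, lam ≤ w.length → Amb p w → ∃ p', ZMod.cast p' = p ∧ Amb' p' w
  uniq : ∀ p' q' w, lam ≤ w.length → Amb' p' w → Amb' q' w → (ZMod.cast p' : ZMod N) = ZMod.cast q' → p' = q'

def NonComp {N : ℕ} (r r' : ZMod N × List α) : Prop :=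
  r.1 + (r.2.length : ZMod N) ≠ r'.1 ∧ r'.1 + (r'.2.length : ZMod N) ≠ r.1

/-- a product of pairwise non-composable roots of length at most `c₀` -/
def Layer (S : Sys α) {N : ℕ} (Good : ZMod N → List α → Prop) (c c₀ : ℕ) (g : St S Good c) : Prop :=
  ∃ l : List (ZMod N × List α), (∀ r ∈ l, r.2.length ≤ c₀) ∧ l.Pairwise NonComp ∧
    g = (l.map fun r => xg S Good c r.1 r.2).prod

noncomputable def tr (S : Sys α) {N N' : ℕ} [NeZero N'] (Amb' : ZMod N' → List α → Prop) (c' : ℕ) (p : ZMod N)
    (w : List α) : St S (Thr Amb' 1) c' :=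
  ((Finset.univ.filter fun p' : ZMod N' => (ZMod.cast p' : ZMod N) = p).toList.map
    fun p' => xg S (Thr Amb' 1) c' p' w).prod

noncomputable def trHom (S : Sys α) {N N' : ℕ} [NeZero N'] (Amb : ZMod N → List α → Prop)
    (Amb' : ZMod N' → List α → Prop) (c c' : ℕ) : St S (Thr Amb 1) c →* St S (Thr Amb' 1) c' :=
  stLift S (Thr Amb 1) c (tr S Amb' c')

variable {S : Sys α} {N N' : ℕ} [NeZero N'] {Amb : ZMod N → List α → Prop} {Amb' : ZMod N' → List α → Prop}
  {lam c c' : ℕ}

section Lists

variable {ι G : Type} [Group G]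

theorem tr_list_commute {a b : ι → G} {l l' : List ι} (h : ∀ s ∈ l, ∀ t ∈ l', Commute (a s) (b t)) :
    Commute (l.map a).prod (l'.map b).prod := by
  refine Commute.list_prod_left _ _ fun x hx => Commute.list_prod_right _ _ fun y hy => ?_
  obtain ⟨s, hs, rfl⟩ := List.mem_map.1 hx
  obtain ⟨t, ht, rfl⟩ := List.mem_map.1 hy
  exact h s hs t ht

theorem tr_list_commute' {g : G} {b : ι → G} {l' : List ι} (h : ∀ t ∈ l', Commute g (b t)) :
    Commute g (l'.map b).prod := by
  refine Commute.list_prod_right _ _ fun y hy => ?_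
  obtain ⟨t, ht, rfl⟩ := List.mem_map.1 hy
  exact h t ht

theorem tr_list_sq {a : ι → G} {l : List ι} (h : ∀ s ∈ l, ∀ t ∈ l, Commute (a s) (a t))
    (h2 : ∀ s ∈ l, a s * a s = 1) : (l.map a).prod * (l.map a).prod = 1 := by
  induction l with
  | nil => simp
  | cons s l ih =>
    have h1 : Commute (a s) (l.map a).prod :=
      tr_list_commute' fun t ht => h s (by simp) t (by simp [ht])
    rw [List.map_cons, List.prod_cons, h1.symm.mul_mul_mul_comm, h2 s (by simp),
      ih (fun s hs t ht => h s (by simp [hs]) t (by simp [ht])) fun s hs => h2 s (by simp [hs]),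
      one_mul]

theorem tr_list_commutator {a b : ι → G} {l : List ι}
    (h : l.Pairwise fun s t => Commute (a s) (a t) ∧ Commute (a s) (b t) ∧ Commute (b s) (a t) ∧
      Commute (b s) (b t)) :
    ⁅(l.map a).prod, (l.map b).prod⁆ = (l.map fun t => ⁅a t, b t⁆).prod := by
  induction l with
  | nil => simp
  | cons s l ih =>
    obtain ⟨h0, h'⟩ := List.pairwise_cons.1 h
    have h1 : Commute (a s) (l.map a).prod := tr_list_commute' fun t ht => (h0 t ht).1
    have h2 : Commute (a s) (l.map b).prod := tr_list_commute' fun t ht => (h0 t ht).2.1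
    have h3 : Commute (b s) (l.map a).prod := tr_list_commute' fun t ht => (h0 t ht).2.2.1
    have h4 : Commute (b s) (l.map b).prod := tr_list_commute' fun t ht => (h0 t ht).2.2.2
    simp only [List.map_cons, List.prod_cons]
    rw [← ih h', commutatorElement_def, commutatorElement_def, commutatorElement_def, h1.mul_inv,
      h4.mul_inv, h3.symm.mul_mul_mul_comm, (h1.mul_right h2).inv_left.symm.mul_mul_mul_comm,
      ((h3.mul_right h4).mul_right h3.inv_right).inv_left.symm.mul_mul_mul_comm]

theorem tr_list_one_add {R : Type} [Ring R] {n : ι → R} {l : List ι}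
    (h : ∀ s ∈ l, ∀ t ∈ l, n s * n t = 0) :
    (l.map fun s => 1 + n s).prod = 1 + (l.map n).sum := by
  induction l with
  | nil => simp
  | cons s l ih =>
    have h1 : n s * (l.map n).sum = 0 := by
      rw [← List.sum_map_mul_left]
      refine List.sum_eq_zero fun x hx => ?_
      obtain ⟨t, ht, rfl⟩ := List.mem_map.1 hx
      exact h s (by simp) t (by simp [ht])
    rw [List.map_cons, List.prod_cons, ih fun s hs t ht => h s (by simp [hs]) t (by simp [ht]),
      List.map_cons, List.sum_cons, add_mul, one_mul, mul_add, mul_one, h1]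
    abel

end Lists

/-- the fibre of the covering -/
noncomputable def trFib (N' : ℕ) [NeZero N'] (p : ZMod N) : List (ZMod N') :=
  (Finset.univ.filter fun p' : ZMod N' => (ZMod.cast p' : ZMod N) = p).toList

theorem mem_trFib {p : ZMod N} {p' : ZMod N'} : p' ∈ trFib N' p ↔ (ZMod.cast p' : ZMod N) = p := by
  simp [trFib]

theorem nodup_trFib (p : ZMod N) : (trFib N' p).Nodup := Finset.nodup_toList _

theorem tr_eq (p : ZMod N) (w : List α) :
    tr S Amb' c' p w = ((trFib N' p).map fun p' => xg S (Thr Amb' 1) c' p' w).prod := rfl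

omit [NeZero N'] in
theorem tr_cast_add (h : N ∣ N') (p' : ZMod N') (n : ℕ) :
    (ZMod.cast (p' + (n : ZMod N')) : ZMod N) = ZMod.cast p' + n := by
  rw [← ZMod.castHom_apply (h := h), map_add, map_natCast, ZMod.castHom_apply]

omit [NeZero N'] in
theorem tr_cast_sub (h : N ∣ N') (p' : ZMod N') (n : ℕ) :
    (ZMod.cast (p' - (n : ZMod N')) : ZMod N) = ZMod.cast p' - n := by
  rw [← ZMod.castHom_apply (h := h), map_sub, map_natCast, ZMod.castHom_apply]

theorem tr_add_ne {p : ZMod N} {n : ℕ} (h0 : 0 < n) (hn : n < N) : p + n ≠ p := fun h => by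
  have := (ZMod.natCast_eq_zero_iff n N).1 (add_eq_left.1 h)
  exact absurd (Nat.le_of_dvd h0 this) (by omega)

omit [NeZero N'] in
theorem tr_ne_up (h : N ∣ N') {p' q' : ZMod N'} {n : ℕ}
    (hne : (ZMod.cast p' : ZMod N) + n ≠ ZMod.cast q') : p' + n ≠ q' := fun e =>
  hne (by rw [← tr_cast_add h, e])

omit [NeZero N'] in
theorem tr_fib_comm (h : N ∣ N') (hN : c < N) (hcc : c ≤ c') {p' q' : ZMod N'} {w : List α}
    (hw : w.length ≤ c) (e : (ZMod.cast p' : ZMod N) = ZMod.cast q') :
    Commute (xg S (Thr Amb' 1) c' p' w) (xg S (Thr Amb' 1) c' q' w) := by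
  rcases Nat.eq_zero_or_pos w.length with h0 | h0
  · rw [(xg_rel S _ c').triv p' w (by omega) fun hg => by have := hg.2; omega]
    exact Commute.one_left _
  · exact (xg_rel S _ c').comm _ _ _ _ (by omega) (by omega)
      (tr_ne_up h (by rw [e]; exact tr_add_ne h0 (by omega)))
      (tr_ne_up h (by rw [e]; exact tr_add_ne h0 (by omega)))

theorem tr_rel (hA' : AmbOK S Amb' lam) (hC : Cover Amb Amb' lam) (hN : c < N) (hcc : c ≤ c') :
    SRel S (Thr Amb 1) c (tr S Amb' c') := by
  have R := xg_rel S (Thr Amb' 1) c'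
  refine ⟨fun p w hw hg => ?_, fun p w w' hw e => ?_, fun p w hw => ?_, fun p u v hl hu hv => ?_,
    fun p u q v hu hv h1 h2 => ?_⟩
  · refine List.prod_eq_one fun x hx => ?_
    obtain ⟨p', hp', rfl⟩ := List.mem_map.1 hx
    exact R.triv p' w (by omega) fun h => hg ⟨mem_trFib.1 hp' ▸ hC.down _ _ h.1, h.2⟩
  · simp only [tr_eq, R.eqv _ w w' (by omega) e]
  · exact tr_list_sq (fun s hs t ht => tr_fib_comm hC.dvd hN hcc hw
      ((mem_trFib.1 hs).trans (mem_trFib.1 ht).symm)) fun s _ => R.sq s w (by omega)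
  · have hu1 := hu.2
    have hv1 := hv.2
    have hp : (trFib N' (p + (u.length : ZMod N))).Perm ((trFib N' p).map fun p' => p' + u.length) := by
      refine (List.perm_ext_iff_of_nodup (nodup_trFib _)
        ((nodup_trFib _).map (add_left_injective _))).2 fun q' => ?_
      rw [mem_trFib, List.mem_map]
      constructor
      · intro h
        exact ⟨q' - u.length, mem_trFib.2 (by rw [tr_cast_sub hC.dvd, h]; simp), by simp⟩
      · rintro ⟨p', hp', rfl⟩
        rw [tr_cast_add hC.dvd, mem_trFib.1 hp']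
    have e1 : tr S Amb' c' (p + (u.length : ZMod N)) v =
        ((trFib N' p).map fun p' => xg S (Thr Amb' 1) c' (p' + u.length) v).prod := by
      rw [tr_eq, (hp.map _).prod_eq' ?_, List.map_map]
      · rfl
      · rw [List.pairwise_map]
        exact List.pairwise_of_forall_mem_list fun s hs t ht => tr_fib_comm hC.dvd hN hcc (by omega)
          ((mem_trFib.1 hs).trans (mem_trFib.1 ht).symm)
    have cross : ∀ s ∈ trFib N' p, ∀ t ∈ trFib N' p, s ≠ t →
        Commute (xg S (Thr Amb' 1) c' s u) (xg S (Thr Amb' 1) c' (t + u.length) v) :=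
      fun s hs t ht hst => R.comm _ _ _ _ (by omega) (by omega) (fun e => hst (add_right_cancel e))
        (tr_ne_up hC.dvd (by
          rw [tr_cast_add hC.dvd, mem_trFib.1 hs, mem_trFib.1 ht, add_assoc, ← Nat.cast_add]
          exact tr_add_ne (by omega) (by omega)))
    rw [e1, tr_eq, tr_eq, tr_list_commutator]
    · refine congrArg List.prod (List.map_congr_left fun p' _ => ?_)
      by_cases h1 : Thr Amb' 1 p' u
      · by_cases h2 : Thr Amb' 1 (p' + u.length) v
        · exact R.mul p' u v (by omega) h1 h2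
        · rw [R.triv _ v (by omega) h2, commutatorElement_one_right,
            R.triv _ (u ++ v) (by simp; omega) fun h => h2 ⟨hA'.right _ _ _ h.1, hv1⟩]
      · rw [R.triv _ u (by omega) h1, commutatorElement_one_left,
          R.triv _ (u ++ v) (by simp; omega) fun h => h1 ⟨hA'.left _ _ _ h.1, hu1⟩]
    · refine (nodup_trFib p).imp_of_mem fun {s t} hs ht hst => ?_
      have e := (mem_trFib.1 hs).trans (mem_trFib.1 ht).symm
      exact ⟨tr_fib_comm hC.dvd hN hcc (by omega) e, cross s hs t ht hst,
        (cross t ht s hs (Ne.symm hst)).symm, tr_fib_comm hC.dvd hN hcc (by omega)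
          (by rw [tr_cast_add hC.dvd, tr_cast_add hC.dvd, e])⟩
  · exact tr_list_commute fun s hs t ht => R.comm _ _ _ _ (by omega) (by omega)
      (tr_ne_up hC.dvd (by rwa [mem_trFib.1 hs, mem_trFib.1 ht]))
      (tr_ne_up hC.dvd (by rwa [mem_trFib.1 hs, mem_trFib.1 ht]))

theorem trHom_xg (hA' : AmbOK S Amb' lam) (hC : Cover Amb Amb' lam) (hN : c < N) (hcc : c ≤ c')
    (p : ZMod N) {w : List α} (hw : w.length ≤ c) :
    trHom S Amb Amb' c c' (xg S (Thr Amb 1) c p w) = tr S Amb' c' p w :=
  (tr_rel hA' hC hN hcc).stLift_xg p hw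

theorem layer_trHom (hA' : AmbOK S Amb' lam) (hC : Cover Amb Amb' lam) (hN : c < N) (hcc : c ≤ c')
    {c₀ : ℕ} (h₀ : c₀ ≤ c) {g : St S (Thr Amb 1) c} (hg : Layer S (Thr Amb 1) c c₀ g) :
    Layer S (Thr Amb' 1) c' c₀ (trHom S Amb Amb' c c' g) := by
  obtain ⟨l, h1, h2, rfl⟩ := hg
  refine ⟨l.flatMap fun r => (trFib N' r.1).map fun p' => (p', r.2), fun r hr => ?_, ?_, ?_⟩
  · obtain ⟨r', hr', h⟩ := List.mem_flatMap.1 hr
    obtain ⟨p', -, rfl⟩ := List.mem_map.1 h
    exact h1 r' hr'
  · refine List.pairwise_flatMap.2 ⟨fun r hr => ?_, h2.imp fun {r r'} h x hx y hy => ?_⟩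
    · rw [List.pairwise_map]
      have key : ∀ s ∈ trFib N' r.1, ∀ t ∈ trFib N' r.1, s ≠ t → s + r.2.length ≠ t := by
        intro s hs t ht hst
        rcases Nat.eq_zero_or_pos r.2.length with h0 | h0
        · simpa [h0] using hst
        · refine tr_ne_up hC.dvd ?_
          rw [mem_trFib.1 hs, mem_trFib.1 ht]
          exact tr_add_ne h0 (by have := h1 r hr; omega)
      exact (nodup_trFib r.1).imp_of_mem fun {s t} hs ht hst =>
        ⟨key s hs t ht hst, key t ht s hs (Ne.symm hst)⟩
    · obtain ⟨s, hs, rfl⟩ := List.mem_map.1 hx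
      obtain ⟨t, ht, rfl⟩ := List.mem_map.1 hy
      exact ⟨tr_ne_up hC.dvd (by rw [mem_trFib.1 hs, mem_trFib.1 ht]; exact h.1),
        tr_ne_up hC.dvd (by rw [mem_trFib.1 hs, mem_trFib.1 ht]; exact h.2)⟩
  · clear h2
    induction l with
    | nil => simp
    | cons r l ih =>
      rw [List.map_cons, List.prod_cons, map_mul, ih fun r hr => h1 r (by simp [hr]),
        List.flatMap_cons, List.map_append, List.prod_append,
        trHom_xg hA' hC hN hcc _ ((h1 r (by simp)).trans h₀), tr_eq, List.map_map]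
      rfl

open Classical in
/-- the projector onto the paths that lift with end point `e'` -/
noncomputable def trP [Fintype α] (S : Sys α) (Amb' : ZMod N' → List α → Prop) (e' : ZMod N') :
    Module.End (ZMod 2) S.Alg :=
  S.lift fun w => if Amb' (e' - w.length) w then S.ev w else 0

omit [NeZero N'] in
open Classical in
theorem trP_ev [Fintype α] (hA' : AmbOK S Amb' lam) (e' : ZMod N') (w : List α) :
    trP S Amb' e' (S.ev w) = if Amb' (e' - w.length) w then S.ev w else 0 := by
  refine Sys.lift_ev (f := fun w => if Amb' (e' - w.length) w then S.ev w else 0)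
    (fun w w' h => ?_) (fun w h => by simp [Sys.ev_zero h]) w
  have : Amb' (e' - w.length) w ↔ Amb' (e' - w'.length) w' := by
    rw [h.length_eq]
    exact ⟨hA'.eqv _ _ _ h, hA'.eqv _ _ _ h.symm⟩
  simp only [this, Sys.ev_eq h]

theorem theta_trHom [Fintype α] (hA : AmbOK S Amb lam) (hA' : AmbOK S Amb' lam) (hC : Cover Amb Amb' lam)
    (hN : c < N) (hcc : c ≤ c') (hN' : c' < N') {g : St S (Thr Amb 1) c}
    (hg : theta S Amb (Thr Amb 1) c g = 1) : theta S Amb' (Thr Amb' 1) c' (trHom S Amb Amb' c c' g) = 1 := by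
  classical
  have hG := hA.thr le_rfl hA.lam_pos
  have hG' := hA'.thr le_rfl hA'.lam_pos
  have hNN : N ≤ N' := Nat.le_of_dvd (by omega) hC.dvd
  let Q : St S (Thr Amb 1) c → Prop := fun g => ∀ e' : ZMod N',
    (theta S Amb' (Thr Amb' 1) c' (trHom S Amb Amb' c c' g) : EE S N') e' =
      1 + trP S Amb' e' * ((theta S Amb (Thr Amb 1) c g : EE S N) (ZMod.cast e') - 1) ∧
    trP S Amb' e' * ((theta S Amb (Thr Amb 1) c g : EE S N) (ZMod.cast e') - 1) * trP S Amb' e' =
      trP S Amb' e' * ((theta S Amb (Thr Amb 1) c g : EE S N) (ZMod.cast e') - 1)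
  have gen : ∀ p w, w.length ≤ c → Thr Amb 1 p w → Q (xg S (Thr Amb 1) c p w) := by
    intro p w hw hg e'
    have h1 := hg.2
    have e1 : (theta S Amb' (Thr Amb' 1) c' (tr S Amb' c' p w) : EE S N') =
        1 + ((trFib N' p).map fun p' => nu S Amb' p' w).sum := by
      rw [tr_eq, map_list_prod, ← Units.coeHom_apply, map_list_prod, List.map_map, List.map_map,
        ← tr_list_one_add fun s hs t ht => ?_]
      · refine congrArg List.prod (List.map_congr_left fun p' _ => ?_)
        simp only [Function.comp_apply, Units.coeHom_apply]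
        rw [theta_xg hA' hG' hN' p' (by omega)]
        by_cases h : Thr Amb' 1 p' w
        · exact Th_val hA' hG' (by omega) h
        · rw [Th, if_neg h, nu_eq_zero hA' fun h' => h ⟨h', h1⟩, add_zero, Units.val_one]
      · rw [nu_mul_nu hA', if_neg (tr_ne_up hC.dvd ?_)]
        rw [mem_trFib.1 hs, mem_trFib.1 ht]
        exact tr_add_ne h1 (by omega)
    have e2 : ∀ v, trP S Amb' e' (nu S Amb p w (ZMod.cast e') (S.ev v)) =
        if (ZMod.cast (e' - ((w ++ v).length : ZMod N')) : ZMod N) = p ∧ Amb' (e' - (w ++ v).length) (w ++ v)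
        then S.ev (w ++ v) else 0 := fun v => by
      have b : (p + w.length + v.length = ZMod.cast e') ↔
          (ZMod.cast (e' - ((w ++ v).length : ZMod N')) : ZMod N) = p := by
        rw [tr_cast_sub hC.dvd, List.length_append, Nat.cast_add, sub_eq_iff_eq_add, add_assoc,
          eq_comm]
      rw [nu_ev hA, apply_ite (trP S Amb' e'), map_zero, trP_ev hA', ← ite_and]
      refine if_congr ⟨fun h => ⟨b.1 h.1.1, h.2⟩, fun h => ⟨⟨b.2 h.1, ?_⟩, h.2⟩⟩ rfl rfl
      exact h.1 ▸ hC.down _ _ h.2
    rw [trHom_xg hA' hC hN hcc p hw, e1, theta_xg hA hG hN p hw, Th_val hA hG (by omega) hg]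
    simp only [Pi.add_apply, Pi.one_apply, add_sub_cancel_left]
    constructor
    · congr 1
      refine Sys.lin_ext fun v => ?_
      rw [Module.End.mul_apply, e2, trFib, Finset.sum_map_toList, Finset.sum_apply,
        LinearMap.sum_apply]
      simp only [nu_ev hA']
      rw [Finset.sum_filter, Finset.sum_eq_single (e' - (w ++ v).length) (fun q' _ hq => ?_)
        (by simp), ← ite_and]
      · refine if_congr (and_congr_right fun _ => and_iff_right ?_) rfl rfl
        simp [add_assoc]
      · rw [if_neg (c := _ ∧ _), ite_self]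
        rintro ⟨h, -⟩
        exact hq (by rw [← h]; simp)
    · refine Sys.lin_ext fun v => ?_
      rw [Module.End.mul_apply, trP_ev hA']
      split_ifs with h
      · rfl
      · rw [map_zero, Module.End.mul_apply, e2, if_neg]
        rintro ⟨-, h'⟩
        have := hA'.right _ _ _ h'
        refine h ?_
        convert this using 1
        simp only [List.length_append, Nat.cast_add]
        ring
  have all : ∀ g, Q g := fun g => by
    have hg : g ∈ Subgroup.closure
        {g | ∃ p w, w.length ≤ c ∧ Thr Amb 1 p w ∧ g = xg S (Thr Amb 1) c p w} := by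
      rw [closure_xg]; trivial
    induction hg using Subgroup.closure_induction'' with
    | mem x hx =>
      obtain ⟨p, w, h1, h2, rfl⟩ := hx
      exact gen p w h1 h2
    | inv_mem x hx =>
      obtain ⟨p, w, h1, h2, rfl⟩ := hx
      rw [inv_eq_of_mul_eq_one_right ((xg_rel S _ c).sq p w h1)]
      exact gen p w h1 h2
    | one => intro e'; simp
    | mul x y _ _ hx hy =>
      intro e'
      obtain ⟨a1, a2⟩ := hx e'
      obtain ⟨b1, b2⟩ := hy e'
      simp only [map_mul, Units.val_mul, Pi.mul_apply, a1, b1]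
      set P := trP S Amb' e'
      set X := (theta S Amb (Thr Amb 1) c x : EE S N) (ZMod.cast e')
      set Y := (theta S Amb (Thr Amb 1) c y : EE S N) (ZMod.cast e')
      have k1 : P * (X - 1) * (P * (Y - 1)) = P * (X - 1) * (Y - 1) := by rw [← mul_assoc, a2]
      have k2 : P * (X * Y - 1) = P * (X - 1) + P * (Y - 1) + P * (X - 1) * (P * (Y - 1)) := by
        rw [k1]
        simp only [mul_sub, sub_mul, mul_one, mul_assoc]
        abel
      rw [k2]
      constructor
      · noncomm_ring
      · rw [add_mul, add_mul, a2, b2, mul_assoc _ _ P, b2]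
  refine Units.ext (funext fun e' => ?_)
  rw [(all g e').1, hg]
  simp

end Crest.Agent.R176
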